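import Vale.Agent.P024.Defs

/-! # P024 Aej (TASK; helper lemma names start with `aej_` or are private)
Valuations from rigid elements (Ware, Arason, Elman, Jacob).  PLAN.  `T` = nonzero squares, `-1 ∈ T`.  For `x ∉ T`, `x ≠ 0`: `T + x T ⊆ T ∪ x T` (never zero), so exactly one of `1 + x ∈ T`, `1 + x⁻¹ ∈ T`.
`S = {x ≠ 0, x ∉ T, 1 + x ∈ T}`.  (L1) `x, y ∈ S`, `x y ∉ T` gives `1 - x y ∈ T` (it equals `(1+x) - x (1+y)` and `(1+y) - y (1+x)`), so `-x y ∈ S`.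
(L2) Call `x` bad if `x, y ∈ S`, `1 - x y ∉ T` for some `y` (then `x y ∈ T` and `1 - x y ∈ x T` or `1 - x y = 0`; treat `1 - x y = 0` as impossible because then both `1 + x`, `1 + x⁻¹ ∈ T`).
Two bad elements `x` (with `y`), `z` (with `w`) have `x z ∈ T`: otherwise `1 - x y z w = (1 - x y) + x y (1 - z w) ∈ x T ∪ z T`, but `s = -x z`, `t = -y w ∈ S` give `1 - s t = (1+s) - s (1+t) ∈ T ∪ s T ∪ 0`.
Take `u` bad (or `u = 1` if there is none) and `ψ` from `big`; `H = {x ≠ 0, ψ x = 0} ⊇ T ∪ u T`.  `Om = {x ≠ 0, ψ x ≠ 0, 1 + x ∈ T}` satisfies (*) `1 - x y ∈ T` for `x, y ∈ Om`.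
Then: `-Om = Om` (`1 - x² ∈ T`).  (G) if `h ∈ H`, `x ∈ Om`, `x h ∉ Om` then `(x h)⁻¹ ∈ Om` and `1 - h⁻¹, 1 + h⁻¹ ∈ T`.  Hence `x (1+y), x / (1+y) ∈ Om` for `x, y ∈ Om`.
`1 - y z = (1+y) (1+p)` with `p = -y (1+z)/(1+y) ∈ Om`, so `x (1 - y z)/(1+x) ∈ Om` and `1 + x y z = (1+x) (1 - x (1 - y z)/(1+x)) ∈ T`: `x y z ∈ Om`.
`Op = {h ∈ H, h Om ⊆ Om}`, `O = Om ∪ Op ∪ 0` is closed under products; `x ∈ O` or `x⁻¹ ∈ O` (for `h ∈ H` failing both: `s = (h y)⁻¹, t = h / z ∈ Om`, `s t y = z⁻¹ ∈ Om`, impossible).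
`1 + O ⊆ O`: for `y ∈ Op`, if `1 + y ∉ H`, `1 + y ≠ 0` and not in `Om` then `r = (1+y)⁻¹ ∈ Om`, `1 - r = r y ∈ T ∩ Om`, impossible; if `1 + y ∈ H` then `1 + x (1+y) = (1+x)(1 + x y/(1+x)) ∈ T`.
Sums: `x + y = x (1 + y/x)`.  Units of `O` lie in `H`; nonunits `y ∈ Op` are products `x (y/x)` of two elements of `Om`, so `1 + y ∈ T`.  Take `π` with `ψ π ≠ 0`. -/

namespace Vale.Agent.P024

open NumberField IsDedekindDomain Filter
open scoped Pointwise Topology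

section aux

variable {K : Type*} [Field K]

/-- nonzero squares -/
def aej_T (x : K) : Prop := x ≠ 0 ∧ IsSquare x

theorem aej_T_one : aej_T (1 : K) := ⟨one_ne_zero, IsSquare.one⟩

theorem aej_T.mul {x y : K} (hx : aej_T x) (hy : aej_T y) : aej_T (x * y) :=
  ⟨mul_ne_zero hx.1 hy.1, hx.2.mul hy.2⟩

theorem aej_T.inv {x : K} (hx : aej_T x) : aej_T x⁻¹ := ⟨inv_ne_zero hx.1, hx.2.inv⟩

theorem aej_T.of_eq {x y : K} (hx : aej_T x) (h : y = x) : aej_T y := h ▸ hx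

theorem aej_T_sq {x : K} (hx : x ≠ 0) : aej_T (x * x) := ⟨mul_ne_zero hx hx, ⟨x, rfl⟩⟩

theorem aej_T.cancel {a b c : K} (ha : aej_T a) (hc : aej_T c) (h : c = a * b) : aej_T b := by
  refine (ha.inv.mul hc).of_eq ?_
  rw [h, ← mul_assoc, inv_mul_cancel₀ ha.1, one_mul]

theorem aej_T.neg (hi : IsSquare (-1 : K)) {x : K} (hx : aej_T x) : aej_T (-x) :=
  (aej_T.mul ⟨neg_ne_zero.2 one_ne_zero, hi⟩ hx).of_eq (by ring)

/-- two elements in the same class -/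
theorem aej_T.same {a b c : K} (h1 : aej_T (a * c)) (h2 : aej_T (b * c)) : aej_T (a * b) :=
  (aej_T_sq (right_ne_zero_of_mul h1.1)).cancel (h1.mul h2) (by ring)

theorem aej_rig (hi : IsSquare (-1 : K))
    (rig : ∀ a x y : K, ¬IsSquare a →
      IsSquare (x ^ 2 + a * y ^ 2) ∨ IsSquare (a * (x ^ 2 + a * y ^ 2)))
    {a s t : K} (ha0 : a ≠ 0) (ha : ¬aej_T a) (hs : aej_T s) (ht : aej_T t) :
    aej_T (s + a * t) ∨ aej_T (a * (s + a * t)) := by
  have h0 : s + a * t ≠ 0 := fun h =>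
    ha (ht.cancel (hs.neg hi) (by linear_combination -h))
  obtain ⟨x, rfl⟩ := hs.2
  obtain ⟨y, rfl⟩ := ht.2
  have := rig a x y fun h => ha ⟨ha0, h⟩
  rw [pow_two, pow_two] at this
  exact this.imp (fun h => ⟨h0, h⟩) fun h => ⟨mul_ne_zero ha0 h0, h⟩

/-- the set `S` -/
def aej_S (x : K) : Prop := x ≠ 0 ∧ ¬aej_T x ∧ aej_T (1 + x)

/-- the rigidity property in the form that is used -/
def aej_R (K : Type*) [Field K] : Prop :=
  ∀ a s t : K, a ≠ 0 → ¬aej_T a → aej_T s → aej_T t → aej_T (s + a * t) ∨ aej_T (a * (s + a * t))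

theorem aej_alt (hi : IsSquare (-1 : K)) (hR : aej_R K) {x y : K} (hx : aej_S x) (hy : aej_S y) :
    aej_T (1 - x * y) ∨ aej_T (x * (1 - x * y)) := by
  have := hR x (1 + x) (-(1 + y)) hx.1 hx.2.1 hx.2.2 (hy.2.2.neg hi)
  have e : 1 + x + x * -(1 + y) = 1 - x * y := by ring
  rwa [e] at this

theorem aej_L1 (hi : IsSquare (-1 : K)) (hR : aej_R K) {x y : K} (hx : aej_S x) (hy : aej_S y)
    (hxy : ¬aej_T (x * y)) : aej_T (1 - x * y) := by
  rcases aej_alt hi hR hx hy with h | h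
  · exact h
  rcases aej_alt hi hR hy hx with h' | h'
  · exact h'.of_eq (by ring)
  · exact absurd (h.same (h'.of_eq (by ring))) hxy

theorem aej_L1' (hi : IsSquare (-1 : K)) (hR : aej_R K) {x y : K} (hx : aej_S x) (hy : aej_S y)
    (hxy : ¬aej_T (x * y)) : aej_S (-(x * y)) :=
  ⟨neg_ne_zero.2 (mul_ne_zero hx.1 hy.1), fun h => hxy ((h.neg hi).of_eq (by ring)),
    (aej_L1 hi hR hx hy hxy).of_eq (by ring)⟩

/-- bad elements -/
def aej_bad (x : K) : Prop := aej_S x ∧ ∃ y, aej_S y ∧ ¬aej_T (1 - x * y)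

theorem aej_L2 (hi : IsSquare (-1 : K)) (hR : aej_R K) {x z : K} (hx : aej_bad x)
    (hz : aej_bad z) : aej_T (x * z) := by
  obtain ⟨hx, y, hy, hxy⟩ := hx
  obtain ⟨hz, w, hw, hzw⟩ := hz
  by_contra hxz
  have h1 : aej_T (x * y) := by by_contra h; exact hxy (aej_L1 hi hR hx hy h)
  have h2 : aej_T (z * w) := by by_contra h; exact hzw (aej_L1 hi hR hz hw h)
  have h3 : aej_T (x * (1 - x * y)) := (aej_alt hi hR hx hy).resolve_left hxy
  have h4 : aej_T (z * (1 - z * w)) := (aej_alt hi hR hz hw).resolve_left hzw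
  have hyw : ¬aej_T (y * w) := fun h => hxz (h.cancel (h1.mul h2) (by ring))
  have hs := aej_L1' hi hR hx hz hxz
  have ht := aej_L1' hi hR hy hw hyw
  have hx0 := hx.1
  have hz0 := hz.1
  -- `x (1 - x y z w) = x (1 - x y) + (x z) * t`
  have h5 : aej_T (x * y * (z * (1 - z * w)) * (z * z)⁻¹) := (h1.mul h4).mul (aej_T_sq hz0).inv
  have h6 := hR (x * z) _ _ (mul_ne_zero hx0 hz0) hxz h3 h5
  have e : x * (1 - x * y) + x * z * (x * y * (z * (1 - z * w)) * (z * z)⁻¹)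
      = x * (1 - x * y * z * w) := by field_simp; ring
  rw [e] at h6
  have h7 := aej_alt hi hR hs ht
  have e' : 1 - -(x * z) * -(y * w) = 1 - x * y * z * w := by ring
  rw [e'] at h7
  rcases h6 with h6 | h6 <;> rcases h7 with h7 | h7
  · exact hx.2.1 (h7.cancel h6 (by ring))
  · have := h6.same (h7.neg hi |>.of_eq (y := x * z * (1 - x * y * z * w)) (by ring))
    exact hz.2.1 ((aej_T_sq hx0).cancel this (by ring))
  · exact hz.2.1 (((aej_T_sq hx0).mul h7).cancel h6 (by ring))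
  · exact hx.2.1 ((h7.neg hi).cancel h6 (by ring))

/-- the data after the choice of the character -/
structure aej_D (K : Type*) [Field K] where
  ψ : K → ZMod 2
  hi : IsSquare (-1 : K)
  add : ∀ x y, x ≠ 0 → y ≠ 0 → ψ (x * y) = ψ x + ψ y
  alt : ∀ x, x ≠ 0 → ψ x ≠ 0 → aej_T (1 + x) ∨ aej_T (1 + x⁻¹)
  star : ∀ x y, x ≠ 0 → ψ x ≠ 0 → aej_T (1 + x) → y ≠ 0 → ψ y ≠ 0 → aej_T (1 + y) →
    aej_T (1 - x * y)

theorem aej_z2 (a : ZMod 2) : a + a = 0 := by revert a; decide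

theorem aej_z2' (a b : ZMod 2) (ha : a ≠ 0) (hb : b ≠ 0) : a + b = 0 := by revert a b; decide

namespace aej_D

variable (D : aej_D K)

theorem sq {x : K} (hx : aej_T x) : D.ψ x = 0 := by
  obtain ⟨h0, y, rfl⟩ := hx
  have hy := left_ne_zero_of_mul h0
  rw [D.add y y hy hy, aej_z2]

theorem inv {x : K} (hx : x ≠ 0) : D.ψ x⁻¹ = D.ψ x := by
  have h := D.add x x⁻¹ hx (inv_ne_zero hx)
  rw [mul_inv_cancel₀ hx, D.sq aej_T_one] at h
  have := aej_z2 (D.ψ x)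
  linear_combination -this - h

/-- the set `Om` -/
def Om (x : K) : Prop := x ≠ 0 ∧ D.ψ x ≠ 0 ∧ aej_T (1 + x)

/-- the subgroup `H` -/
def H (x : K) : Prop := x ≠ 0 ∧ D.ψ x = 0

variable {D}

theorem H_T {x : K} (hx : aej_T x) : D.H x := ⟨hx.1, D.sq hx⟩

theorem H.inv {x : K} (hx : D.H x) : D.H x⁻¹ := ⟨inv_ne_zero hx.1, by rw [D.inv hx.1, hx.2]⟩

theorem H.mul {x y : K} (hx : D.H x) (hy : D.H y) : D.H (x * y) :=
  ⟨mul_ne_zero hx.1 hy.1, by rw [D.add x y hx.1 hy.1, hx.2, hy.2, add_zero]⟩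

theorem Om.of_eq {x y : K} (hx : D.Om x) (h : y = x) : D.Om y := h ▸ hx

theorem Om.notT {x : K} (hx : D.Om x) : ¬aej_T x := fun h => hx.2.1 (D.sq h)

theorem Om.sub {x y : K} (hx : D.Om x) (hy : D.Om y) : aej_T (1 - x * y) :=
  D.star x y hx.1 hx.2.1 hx.2.2 hy.1 hy.2.1 hy.2.2

theorem Om_or {x : K} (h0 : x ≠ 0) (hx : D.ψ x ≠ 0) : D.Om x ∨ D.Om x⁻¹ :=
  (D.alt x h0 hx).imp (fun h => ⟨h0, hx, h⟩) fun h => ⟨inv_ne_zero h0, by rwa [D.inv h0], h⟩

theorem Om.not_inv {x : K} (hx : D.Om x) (hx' : D.Om x⁻¹) : False := by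
  have := (hx.sub hx').1
  rw [mul_inv_cancel₀ hx.1, sub_self] at this
  exact this rfl

theorem psi_mul {h x : K} (hh : D.H h) (hx : x ≠ 0) : D.ψ (h * x) = D.ψ x := by
  rw [D.add h x hh.1 hx, hh.2, zero_add]

theorem Om.neg {x : K} (hx : D.Om x) : D.Om (-x) := by
  refine ⟨neg_ne_zero.2 hx.1, ?_, hx.2.2.cancel (hx.sub hx) (by ring)⟩
  rw [← neg_one_mul, psi_mul (H_T (aej_T_one.neg D.hi)) hx.1]
  exact hx.2.1

theorem Om.add {x y : K} (hx : D.Om x) (hy : D.Om y) : aej_T (1 + x * y) :=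
  (hx.sub hy.neg).of_eq (by ring)

theorem Om.inv_of_not {h x : K} (hh : D.H h) (hx : D.Om x) (hn : ¬D.Om (h * x)) :
    D.Om (h * x)⁻¹ :=
  (Om_or (mul_ne_zero hh.1 hx.1) (by rw [psi_mul hh hx.1]; exact hx.2.1)).resolve_left hn

theorem Om.G {h x : K} (hh : D.H h) (hx : D.Om x) (hn : ¬D.Om (h * x)) : aej_T (1 - h⁻¹) := by
  refine (hx.sub (hx.inv_of_not hh hn)).of_eq ?_
  have := hx.1
  have := hh.1
  field_simp

theorem Om.mul_one_add {x y : K} (hx : D.Om x) (hy : D.Om y) : D.Om ((1 + y) * x) := by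
  by_contra hn
  have h := hx.G (H_T hy.2.2) hn
  have h0 := hy.2.2.1
  exact hy.notT ((hy.2.2.mul h).of_eq (by field_simp; ring))

theorem Om.div_one_add {x y : K} (hx : D.Om x) (hy : D.Om y) : D.Om ((1 + y)⁻¹ * x) := by
  by_contra hn
  have h := hx.G (H_T hy.2.2).inv hn
  exact hy.notT ((h.neg D.hi).of_eq (by rw [inv_inv]; ring))

theorem Om.mul3 {x y z : K} (hx : D.Om x) (hy : D.Om y) (hz : D.Om z) : D.Om (x * y * z) := by
  have hp := (hy.neg.mul_one_add hz).div_one_add hy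
  have hq := (((hx.mul_one_add hy).mul_one_add hp).div_one_add hx).neg
  have hH : D.H (x * y) :=
    ⟨mul_ne_zero hx.1 hy.1, by rw [D.add x y hx.1 hy.1, aej_z2' _ _ hx.2.1 hy.2.1]⟩
  refine ⟨mul_ne_zero hH.1 hz.1, by rw [psi_mul hH hz.1]; exact hz.2.1,
    (hx.2.2.mul hq.2.2).of_eq ?_⟩
  have h1 := hx.2.2.1
  have h2 := hy.2.2.1
  field_simp
  ring

variable (D) in
/-- the set `Op` -/
def Op (h : K) : Prop := D.H h ∧ ∀ x, D.Om x → D.Om (h * x)

variable (D) in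
/-- the valuation ring, as a predicate -/
def O (x : K) : Prop := x = 0 ∨ D.Om x ∨ D.Op x

theorem O.mul {x y : K} (hx : D.O x) (hy : D.O y) : D.O (x * y) := by
  rcases hx with rfl | hx | hx
  · exact Or.inl (zero_mul _)
  · rcases hy with rfl | hy | hy
    · exact Or.inl (mul_zero _)
    · exact Or.inr (Or.inr ⟨⟨mul_ne_zero hx.1 hy.1,
        by rw [D.add x y hx.1 hy.1, aej_z2' _ _ hx.2.1 hy.2.1]⟩, fun z hz => hx.mul3 hy hz⟩)
    · exact Or.inr (Or.inl ((hy.2 x hx).of_eq (mul_comm _ _)))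
  · rcases hy with rfl | hy | hy
    · exact Or.inl (mul_zero _)
    · exact Or.inr (Or.inl (hx.2 y hy))
    · exact Or.inr (Or.inr ⟨hx.1.mul hy.1, fun z hz =>
        (hx.2 _ (hy.2 z hz)).of_eq (mul_assoc _ _ _)⟩)

theorem O_or (x : K) : D.O x ∨ D.O x⁻¹ := by
  by_cases h0 : x = 0
  · exact Or.inl (Or.inl h0)
  by_cases hx : D.ψ x = 0
  swap
  · exact (Om_or h0 hx).imp (fun h => Or.inr (Or.inl h)) fun h => Or.inr (Or.inl h)
  have hH : D.H x := ⟨h0, hx⟩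
  by_contra hn
  rw [not_or] at hn
  have h1 : ∃ y, D.Om y ∧ ¬D.Om (x * y) := by
    by_contra h
    push Not at h
    exact hn.1 (Or.inr (Or.inr ⟨hH, h⟩))
  have h2 : ∃ z, D.Om z ∧ ¬D.Om (x⁻¹ * z) := by
    by_contra h
    push Not at h
    exact hn.2 (Or.inr (Or.inr ⟨hH.inv, h⟩))
  obtain ⟨y, hy, hy'⟩ := h1
  obtain ⟨z, hz, hz'⟩ := h2
  have := ((hy.inv_of_not hH hy').mul3 (hz.inv_of_not hH.inv hz') hy)
  refine hz.not_inv (this.of_eq ?_)
  have := hy.1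
  have := hz.1
  field_simp

theorem O_one : D.O 1 := Or.inr (Or.inr ⟨H_T aej_T_one, fun x hx => hx.of_eq (one_mul x)⟩)

theorem O_neg_one : D.O (-1) :=
  Or.inr (Or.inr ⟨H_T (aej_T_one.neg D.hi), fun x hx => hx.neg.of_eq (neg_one_mul x)⟩)

theorem O.one_add {y : K} (hy : D.O y) : D.O (1 + y) := by
  rcases hy with rfl | hy | hy
  · rw [add_zero]; exact O_one
  · exact Or.inr (Or.inr ⟨H_T hy.2.2, fun x hx => hx.mul_one_add hy⟩)
  by_cases h0 : 1 + y = 0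
  · exact Or.inl h0
  by_cases h1 : D.ψ (1 + y) = 0
  · refine Or.inr (Or.inr ⟨⟨h0, h1⟩, fun x hx => ⟨mul_ne_zero h0 hx.1,
      by rw [psi_mul ⟨h0, h1⟩ hx.1]; exact hx.2.1, ?_⟩⟩)
    refine (hx.2.2.mul ((hy.2 x hx).div_one_add hx).2.2).of_eq ?_
    have := hx.2.2.1
    field_simp
    ring
  rcases Om_or h0 h1 with h | h
  · exact Or.inr (Or.inl h)
  · refine absurd (h.neg.2.2.of_eq ?_) (hy.2 _ h).notT
    field_simp
    ring

theorem O.add {x y : K} (hx : D.O x) (hy : D.O y) : D.O (x + y) := by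
  by_cases hx0 : x = 0
  · rwa [hx0, zero_add]
  by_cases hy0 : y = 0
  · rwa [hy0, add_zero]
  rcases O_or (D := D) (y / x) with h | h
  · have e : x + y = x * (1 + y / x) := by field_simp
    rw [e]; exact hx.mul h.one_add
  · have e : x + y = y * (1 + (y / x)⁻¹) := by field_simp; ring
    rw [e]; exact hy.mul h.one_add

variable (D) in
/-- the valuation ring -/
def ring : ValuationSubring K where
  carrier := {x | D.O x}
  mul_mem' := O.mul
  one_mem' := O_one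
  add_mem' := O.add
  zero_mem' := Or.inl rfl
  neg_mem' := fun {x} hx => by
    rw [← neg_one_mul]; exact O_neg_one.mul hx
  mem_or_inv_mem' := O_or

theorem mem_ring {x : K} : x ∈ D.ring ↔ D.O x := Iff.rfl

theorem sqV : SqV D.ring := by
  intro y hy
  have hyO : D.O y := ValuationSubring.nonunits_subset hy
  rw [ValuationSubring.mem_nonunits_iff_or, mem_ring] at hy
  rcases hyO with rfl | h | h
  · simp
  · exact h.2.2.2
  have hn := hy.resolve_left h.1.1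
  have h2 : ∃ z, D.Om z ∧ ¬D.Om (y⁻¹ * z) := by
    by_contra h'
    push Not at h'
    exact hn (Or.inr (Or.inr ⟨h.1.inv, h'⟩))
  obtain ⟨z, hz, hz'⟩ := h2
  refine ((hz.add (hz.inv_of_not h.1.inv hz')).of_eq ?_).2
  have := hz.1
  have := h.1.1
  field_simp

theorem unit_H {u : K} (h0 : u ≠ 0) (hu : D.O u) (hu' : D.O u⁻¹) : D.H u := by
  rcases hu with hu | hu | hu
  · exact absurd hu h0
  · rcases hu' with hu' | hu' | hu'
    · exact absurd hu' (inv_ne_zero h0)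
    · exact (hu.not_inv hu').elim
    · simpa using hu'.1.inv
  · exact hu.1

end aej_D

end aux

theorem aej {K : Type*} [Field K] [CharZero K] (hi : IsSquare (-1 : K))
    (rig : ∀ a x y : K, ¬IsSquare a → IsSquare (x ^ 2 + a * y ^ 2) ∨ IsSquare (a * (x ^ 2 + a * y ^ 2)))
    (big : ∀ u : K, u ≠ 0 → ∃ ψ : K → ZMod 2, (∀ x y, x ≠ 0 → y ≠ 0 → ψ (x * y) = ψ x + ψ y) ∧
      ψ u = 0 ∧ ∃ y, y ≠ 0 ∧ ψ y ≠ 0) :
    ∃ A : ValuationSubring K, SqV A ∧
      ∃ π : K, π ≠ 0 ∧ ∀ u y : K, u ∈ A → u⁻¹ ∈ A → π ≠ u * y ^ 2 := by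
  have hR : aej_R K := fun a s t ha0 ha hs ht => aej_rig hi rig ha0 ha hs ht
  have hu : ∃ u : K, u ≠ 0 ∧ ∀ x, aej_bad x → aej_T (x * u) := by
    by_cases h : ∃ u : K, aej_bad u
    · obtain ⟨u, hu⟩ := h
      exact ⟨u, hu.1.1, fun x hx => aej_L2 hi hR hx hu⟩
    · exact ⟨1, one_ne_zero, fun x hx => absurd ⟨x, hx⟩ h⟩
  obtain ⟨u, hu0, hu⟩ := hu
  obtain ⟨ψ, hadd, hψu, π, hπ0, hπ⟩ := big u hu0
  have hsq : ∀ x : K, aej_T x → ψ x = 0 := by
    rintro x ⟨h0, y, rfl⟩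
    have hy := left_ne_zero_of_mul h0
    rw [hadd y y hy hy, aej_z2]
  let D : aej_D K :=
    { ψ := ψ
      hi := hi
      add := hadd
      alt := fun x h0 hx => by
        refine (hR x 1 1 h0 (fun h => hx (hsq x h)) aej_T_one aej_T_one).imp
          (fun h => h.of_eq (by ring)) fun h => (aej_T_sq h0).cancel h ?_
        field_simp
        ring
      star := fun x y hx0 hx hx1 hy0 hy hy1 => by
        by_contra hn
        have := hsq _ (hu x ⟨⟨hx0, fun h => hx (hsq x h), hx1⟩, y,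
          ⟨hy0, fun h => hy (hsq y h), hy1⟩, hn⟩)
        rw [hadd x u hx0 hu0, hψu, add_zero] at this
        exact hx this }
  refine ⟨D.ring, aej_D.sqV, π, hπ0, fun v y hv hv' e => hπ ?_⟩
  have hv0 : v ≠ 0 := left_ne_zero_of_mul (e ▸ hπ0)
  have hy0 : y ^ 2 ≠ 0 := right_ne_zero_of_mul (e ▸ hπ0)
  have h1 : ψ v = 0 := (aej_D.unit_H (D := D) hv0 hv hv').2
  rw [e, hadd v _ hv0 hy0, h1, hsq _ ⟨hy0, ⟨y, pow_two y⟩⟩, add_zero]

end Vale.Agent.P024
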