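import Vale.Agent.P024.Li

/-! # P024 AuxP (TASK; helper lemma names start with `auxP_` or are private)
The auxiliary polynomial.  PLAN.  Pigeonhole (`Fintype.exists_ne_map_eq_of_card_lt` or `Finset.exists_ne_map_eq_of_card_lt_of_maps_to`) for the map from coefficient vectors `(J → Fin (L+1)) → Fin (l^h)` to `(Fin n0 → Fin R) → Fin (l^(R d))`,
`q ↦ (z ↦ r (g q z))` with `r` from `exists_res` and `g q z = ∑ e, q e * ∏ k, (w e k) ^ z k`, `w e k = ∏ j, u k j ^ e j ≡ 1 mod l`.  The difference `p` has `g p z ≡ 0 mod l^R` for `z k < R`.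
Extension to all `z`, one coordinate at a time (induction on the finset of coordinates that are free): for a sequence `a n = ∑ e, c e * (w e) ^ n` with `c e ∈ LI`, `w e ≡ 1 mod l`,
`∑ i ≤ R, (-1)^(R-i) choose R i * a (n+i) = ∑ e, c e * w e ^ n * (w e - 1)^R ≡ 0 mod l^R` (`add_pow` or `sub_pow`), a monic recurrence of order `R`; strong induction on `n`. -/

namespace Vale.Agent.P024

open NumberField IsDedekindDomain Filter
open scoped Pointwise Topology

section

variable {M : Type*} [Field M] [CharZero M] {l : ℕ} [Fact l.Prime] {ι : Type*} [Fintype ι] {R : ℕ}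

theorem auxP_sum {κ : Type*} (s : Finset κ) {f : κ → M} (h : ∀ i ∈ s, Cg l R (f i) 0) :
    Cg l R (∑ i ∈ s, f i) 0 := by
  simpa only [Finset.sum_const_zero] using cg_sum s (g := fun _ => 0) h

theorem auxP_rec {c w : ι → M} (hc : ∀ e, c e ∈ LI M l) (hw : ∀ e, Cg l 1 (w e) 1)
    (h : ∀ n < R, Cg l R (∑ e, c e * w e ^ n) 0) (n : ℕ) : Cg l R (∑ e, c e * w e ^ n) 0 := by
  induction n using Nat.strong_induction_on with
  | _ n ih =>
    rcases lt_or_ge n R with hn | hn
    · exact h n hn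
    obtain ⟨k, rfl⟩ := Nat.exists_eq_add_of_le' hn
    have e1 : ∑ e, c e * w e ^ (k + R) = ∑ e, c e * w e ^ k * (w e - 1) ^ R -
        ∑ i ∈ Finset.range R, ((-1) ^ (i + R) * R.choose i) * ∑ e, c e * w e ^ (k + i) := by
      simp only [Finset.mul_sum]
      rw [Finset.sum_comm, ← Finset.sum_sub_distrib]
      refine Finset.sum_congr rfl fun e _ => ?_
      rw [sub_pow, Finset.sum_range_succ, mul_add, Finset.mul_sum, Even.neg_one_pow ⟨R, rfl⟩,
        Nat.choose_self, add_sub_right_comm, ← Finset.sum_sub_distrib,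
        Finset.sum_eq_zero fun i _ => by ring]
      simp [pow_add, mul_assoc]
    rw [e1, ← sub_zero (0 : M)]
    refine (auxP_sum _ fun e _ => ?_).sub (auxP_sum _ fun i hi => ?_)
    · obtain ⟨t, ht, e2⟩ := cg_iff.1 (hw e)
      refine cg_iff.2 ⟨c e * w e ^ k * t ^ R, mul_mem (mul_mem (hc e)
        (pow_mem ((hw e).mem (one_mem _)) _)) (pow_mem ht _), ?_⟩
      rw [show w e - 1 = l * t by rw [e2]; ring]
      ring
    · simpa only [mul_zero] using (ih (k + i) (Nat.add_lt_add_left (Finset.mem_range.1 hi) k)).mul_left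
        (mul_mem (pow_mem (neg_mem (one_mem (LI M l))) (i + R)) (natCast_mem _ (R.choose i)))

theorem auxP_ext {n0 : ℕ} {c : ι → M} {w : ι → Fin n0 → M} (hc : ∀ e, c e ∈ LI M l)
    (hw : ∀ e k, Cg l 1 (w e k) 1)
    (h : ∀ z : Fin n0 → ℕ, (∀ k, z k < R) → Cg l R (∑ e, c e * ∏ k, w e k ^ z k) 0)
    (s : Finset (Fin n0)) : ∀ z : Fin n0 → ℕ, (∀ k ∉ s, z k < R) →
      Cg l R (∑ e, c e * ∏ k, w e k ^ z k) 0 := by
  induction s using Finset.induction_on with
  | empty => exact fun z hz => h z fun k => hz k (Finset.notMem_empty k)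
  | insert k s _ ih =>
    intro z hz
    have e1 : ∀ n, ∑ e, c e * ∏ j, w e j ^ Function.update z k n j =
        ∑ e, (c e * ∏ j ∈ Finset.univ.erase k, w e j ^ z j) * w e k ^ n := fun n =>
      Finset.sum_congr rfl fun e _ => by
        rw [← Finset.prod_erase_mul _ _ (Finset.mem_univ k), Function.update_self, mul_assoc]
        congr 2
        exact Finset.prod_congr rfl fun j hj => by
          rw [Function.update_of_ne (Finset.ne_of_mem_erase hj)]
    rw [← Function.update_eq_self k z, e1]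
    refine auxP_rec (fun e => mul_mem (hc e) (prod_mem fun j _ =>
      pow_mem ((hw e j).mem (one_mem _)) _)) (fun e => hw e k) (fun n hn => ?_) _
    rw [← e1]
    refine ih _ fun j hj => ?_
    by_cases c : j = k
    · rwa [c, Function.update_self]
    · rw [Function.update_of_ne c]
      exact hz j fun h' => (Finset.mem_insert.1 h').elim c hj

end

theorem aux_poly {M : Type*} [Field M] [NumberField M] {l : ℕ} [Fact l.Prime] {J : Type*}
    [Fintype J] [DecidableEq J] {n0 L R h : ℕ} (u : Fin n0 → J → M) (hu : ∀ k j, Cg l 1 (u k j) 1)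
    (hc : R * Module.finrank ℚ M * R ^ n0 < h * (L + 1) ^ Fintype.card J) :
    ∃ p : (J → Fin (L + 1)) → ℤ, p ≠ 0 ∧ (∀ e, |p e| ≤ (l : ℤ) ^ h) ∧
      ∀ z : Fin n0 → ℕ, Cg l R (∑ e, (p e : M) * ∏ j, (∏ k, u k j ^ z k) ^ (e j : ℕ)) 0 := by
  obtain ⟨r, hr⟩ := exists_res M l R
  have hw : ∀ (e : J → Fin (L + 1)) k, Cg l 1 (∏ j, u k j ^ (e j : ℕ)) 1 := fun e k => by
    simpa only [one_pow, Finset.prod_const_one] using cg_prod Finset.univ
      (fun j _ => (hu k j).pow (one_mem _) (e j)) fun j _ => pow_mem (one_mem _) _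
  have hm : ∀ (q : (J → Fin (L + 1)) → Fin (l ^ h)) (z : Fin n0 → ℕ),
      ∑ e, ((q e : ℕ) : M) * ∏ k, (∏ j, u k j ^ (e j : ℕ)) ^ z k ∈ LI M l := fun q z =>
    sum_mem fun e _ => mul_mem (natCast_mem _ _)
      (prod_mem fun k _ => pow_mem ((hw e k).mem (one_mem _)) _)
  obtain ⟨q, q', hne, hq⟩ := Fintype.exists_ne_map_eq_of_card_lt
    (fun (q : (J → Fin (L + 1)) → Fin (l ^ h)) (z : Fin n0 → Fin R) =>
      r (∑ e, ((q e : ℕ) : M) * ∏ k, (∏ j, u k j ^ (e j : ℕ)) ^ (z k : ℕ))) (by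
      simp only [Fintype.card_fun, Fintype.card_fin, ← pow_mul]
      exact Nat.pow_lt_pow_right (Fact.out : l.Prime).one_lt hc)
  refine ⟨fun e => (q e : ℕ) - (q' e : ℕ), fun h0 => hne (funext fun e => Fin.ext ?_),
    fun e => ?_, fun z => ?_⟩
  · exact_mod_cast sub_eq_zero.1 (congrFun h0 e)
  · have h1 : ((q e : ℕ) : ℤ) < (l : ℤ) ^ h := by exact_mod_cast (q e).2
    have h2 : ((q' e : ℕ) : ℤ) < (l : ℤ) ^ h := by exact_mod_cast (q' e).2
    rw [abs_le]
    dsimp only
    constructor <;> omega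
  · have e1 : ∀ e : J → Fin (L + 1), ∏ j, (∏ k, u k j ^ z k) ^ (e j : ℕ) =
        ∏ k, (∏ j, u k j ^ (e j : ℕ)) ^ z k := fun e => by
      simp only [← Finset.prod_pow, ← pow_mul, mul_comm]
      exact Finset.prod_comm
    simp only [e1]
    refine auxP_ext (fun e => intCast_mem _ _) hw (fun z hz => ?_) Finset.univ z
      fun k hk => absurd (Finset.mem_univ k) hk
    have h1 := cg_zero_iff.1 (hr _ (hm q z) _ (hm q' z) (congrFun hq fun k => ⟨z k, hz k⟩))
    rw [← Finset.sum_sub_distrib] at h1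
    simpa only [Int.cast_sub, Int.cast_natCast, sub_mul] using h1

end Vale.Agent.P024
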