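import Vale.Agent.P024.BezA

/-! # P024 Bez (TASK; helper lemma names start with `bez_` or are private)
A weak Bezout inequality for finite zero sets, by Zariski's main theorem.  PLAN.  `A = MvPolynomial (Fin n) K`; reindex `f` by `Fin k`, take `F` from `lin_noether`, `R = adjoin K (range F)`
(isomorphic to a polynomial ring: `AlgebraicIndependent.aevalEquiv`, so an integrally closed domain), `A` is of finite type over `R`.  Assume `Z` nonempty.
For `z ∈ Z` let `m z = ker (eval z)`, `m0 = comap (m z)` (the ideal of `R` generated by the `F j`, the same for all `z`).  `m z` is open in its fibre: `f i` is a root of a monic polynomial over `R`, whose image mod `m0` is `T^e g(T)` with `g(0) ≠ 0`, `g ∈ K[T]`;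
a prime of the fibre not containing `∏ g_i(f i)` contains all `f i`; a prime containing all `f i` is one of the `m z` (Nullstellensatz `MvPolynomial.vanishingIdeal_zeroLocus_eq_radical`: the prime contains the finite intersection of the `m z`);
so the singleton is an intersection of finitely many basic open sets with the fibre.  `Algebra.QuasiFiniteAt.of_isOpen_singleton_fiber`, `Algebra.ZariskisMainProperty.of_finiteType`: `r z ∈ B = integralClosure R A`, `r z ∉ m z`, and every `a ∈ A` has `r^e a ∈ B`.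
So each `X i` is algebraic over `R`, and the evaluations `B → K` at different points of `Z` are different (if they agree on `B`, apply them to `r^e X i` and `r`).
Choose `b ∈ B` with pairwise different values on `Z` (a vector space over an infinite field is not a finite union of proper subspaces: `Subspace.top_mem_of_biUnion_eq_univ` or similar).
`minpoly R b` is monic, divides the `Q` of `deg_bound` (`minpoly.isIntegrallyClosed_dvd`), so has degree `≤ (n L)^n`; evaluating at `z` (all `F j` go to `0`) gives one monic polynomial over `K` vanishing at all `b(z)`. -/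

namespace Vale.Agent.P024

open NumberField IsDedekindDomain Filter
open scoped Pointwise Topology

theorem bez_sep {K : Type*} [Field K] {n : ℕ} {Z : Set (Fin n → K)} (hZ : Z.Finite)
    (z : Fin n → K) : ∃ h : MvPolynomial (Fin n) K, MvPolynomial.aeval z h ≠ 0 ∧
      ∀ w ∈ Z, w ≠ z → MvPolynomial.aeval w h = 0 := by
  classical
  have h1 : ∀ w : Fin n → K, ∃ h : MvPolynomial (Fin n) K, MvPolynomial.aeval z h ≠ 0 ∧
      (w ≠ z → MvPolynomial.aeval w h = 0) := by
    intro w
    by_cases hw : w = z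
    · exact ⟨1, by simp, fun h => absurd hw h⟩
    obtain ⟨j, hj⟩ := Function.ne_iff.1 hw
    exact ⟨MvPolynomial.X j - MvPolynomial.C (w j), by simpa [sub_eq_zero] using hj.symm,
      fun _ => by simp⟩
  choose h h1 h2 using h1
  refine ⟨∏ w ∈ hZ.toFinset, h w, ?_, fun w hw hwz => ?_⟩
  · rw [map_prod]
    exact Finset.prod_ne_zero_iff.2 fun w _ => h1 w
  · rw [map_prod]
    exact Finset.prod_eq_zero (hZ.mem_toFinset.2 hw) (h2 w hwz)

/-- the Zariski main property at an isolated zero -/
theorem bez_zmt {K : Type*} [Field K] [IsAlgClosed K] {ι : Type*} [Finite ι] {n : ℕ}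
    (f : ι → MvPolynomial (Fin n) K) (R : Subalgebra K (MvPolynomial (Fin n) K))
    (hf : ∀ i, IsIntegral R (f i))
    (hZ : {x : Fin n → K | ∀ i, MvPolynomial.aeval x (f i) = 0}.Finite)
    (z : Fin n → K) (hz : ∀ i, MvPolynomial.aeval z (f i) = 0) :
    ∃ r : MvPolynomial (Fin n) K, MvPolynomial.aeval z r ≠ 0 ∧ IsIntegral R r ∧
      ∀ x, ∃ m, IsIntegral R (r ^ m * x) := by
  classical
  have := Fintype.ofFinite ι
  have : Algebra.FiniteType R (MvPolynomial (Fin n) K) :=
    Algebra.FiniteType.of_restrictScalars_finiteType K R _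
  let q : PrimeSpectrum (MvPolynomial (Fin n) K) := MvPolynomial.pointToPoint (k := K) z
  have hq : ∀ a, a ∈ q.asIdeal ↔ MvPolynomial.aeval z a = 0 := fun a =>
    MvPolynomial.mem_vanishingIdeal_singleton_iff z a
  let ε : R →+* K := ((MvPolynomial.aeval z : MvPolynomial (Fin n) K →ₐ[K] K) :
    MvPolynomial (Fin n) K →+* K).comp (algebraMap R _)
  have hg : ∀ i, ∃ g : MvPolynomial (Fin n) K, MvPolynomial.aeval z g ≠ 0 ∧
      ∀ P : PrimeSpectrum (MvPolynomial (Fin n) K),
        P.comap (algebraMap R _) = q.comap (algebraMap R _) → g ∉ P.asIdeal → f i ∈ P.asIdeal := by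
    intro i
    obtain ⟨p, hp, hp0⟩ := hf i
    obtain ⟨g, hg, hg0⟩ := Polynomial.exists_eq_pow_rootMultiplicity_mul_and_not_dvd (p.map ε)
      (hp.map ε).ne_zero 0
    refine ⟨Polynomial.aeval (f i) g, ?_, fun P hP hgP => ?_⟩
    · rw [← Polynomial.aeval_algHom_apply, hz i, Polynomial.coe_aeval_eq_eval]
      exact fun h => hg0 (Polynomial.dvd_iff_isRoot.2 h)
    have h1 : (Ideal.Quotient.mk P.asIdeal).comp (algebraMap R (MvPolynomial (Fin n) K)) =
        ((Ideal.Quotient.mk P.asIdeal).comp (algebraMap K (MvPolynomial (Fin n) K))).comp ε := by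
      ext r
      simp only [RingHom.comp_apply]
      rw [Ideal.Quotient.eq]
      have h2 : r - algebraMap K R (ε r) ∈ (q.comap (algebraMap R _)).asIdeal := by
        rw [PrimeSpectrum.comap_asIdeal, Ideal.mem_comap, hq, map_sub, map_sub,
          ← IsScalarTower.algebraMap_apply, AlgHom.commutes]
        exact sub_self _
      rw [← hP, PrimeSpectrum.comap_asIdeal, Ideal.mem_comap, map_sub,
        ← IsScalarTower.algebraMap_apply] at h2
      exact h2
    have h3 : Polynomial.aeval (f i) (p.map ε) ∈ P.asIdeal := by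
      rw [← Ideal.Quotient.eq_zero_iff_mem, Polynomial.aeval_def, Polynomial.hom_eval₂,
        Polynomial.eval₂_map, ← h1, ← Polynomial.hom_eval₂, hp0, map_zero]
    rw [hg, map_mul, map_pow, map_sub, Polynomial.aeval_X, map_zero, map_zero, sub_zero] at h3
    exact P.2.mem_of_pow_mem _ ((P.2.mem_or_mem h3).resolve_right hgP)
  choose g hg1 hg2 using hg
  obtain ⟨h, hh1, hh2⟩ := bez_sep hZ z
  have hs : h * ∏ i, g i ∉ q.asIdeal := by
    rw [hq, map_mul, map_prod]
    exact mul_ne_zero hh1 (Finset.prod_ne_zero_iff.2 fun i _ => hg1 i)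
  have key : ∀ P : PrimeSpectrum (MvPolynomial (Fin n) K),
      P.comap (algebraMap R _) = q.comap (algebraMap R _) → h * ∏ i, g i ∉ P.asIdeal → P = q := by
    intro P hP hsP
    have h1 : ∀ i, f i ∈ P.asIdeal := fun i => hg2 i P hP fun hi =>
      hsP (P.asIdeal.mul_mem_left _ (P.asIdeal.mem_of_dvd
        (Finset.dvd_prod_of_mem g (Finset.mem_univ i)) hi))
    have h2 : h ∉ P.asIdeal := fun hi => hsP (P.asIdeal.mul_mem_right _ hi)
    have hmax : q.asIdeal.IsMaximal :=
      inferInstanceAs (MvPolynomial.vanishingIdeal K {z}).IsMaximal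
    refine PrimeSpectrum.ext (hmax.eq_of_le P.2.ne_top fun a ha => ?_).symm
    refine (P.2.mem_or_mem (x := a) (y := h) ?_).resolve_right h2
    have := P.2
    rw [← MvPolynomial.IsPrime.vanishingIdeal_zeroLocus (K := K) P.asIdeal]
    intro w hw
    rw [map_mul]
    by_cases hwz : w = z
    · rw [hwz, (hq a).1 ha, zero_mul]
    · rw [hh2 w (fun i => hw _ (h1 i)) hwz, mul_zero]
  have hqf : Algebra.QuasiFiniteAt R q.asIdeal := by
    refine Algebra.QuasiFiniteAt.of_isOpen_singleton_fiber q ?_
    rw [isOpen_induced_iff]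
    refine ⟨PrimeSpectrum.basicOpen (h * ∏ i, g i), (PrimeSpectrum.basicOpen _).isOpen, ?_⟩
    ext P
    constructor
    · intro hP
      exact Subtype.ext (key P.1 P.2 hP)
    · rintro rfl
      exact hs
  have := q.2
  obtain ⟨r, hr, hr'⟩ := Algebra.zariskisMainProperty_iff.1
    (Algebra.ZariskisMainProperty.of_finiteType (R := R) q.asIdeal)
  exact ⟨r, fun h0 => hr ((hq r).2 h0), hr'⟩

theorem bezout {K : Type*} [Field K] [IsAlgClosed K] {ι : Type*} [Finite ι] {n L : ℕ}
    (f : ι → MvPolynomial (Fin n) K) (hL : ∀ i, (f i).totalDegree ≤ L)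
    (hZ : {x : Fin n → K | ∀ i, MvPolynomial.eval x (f i) = 0}.Finite) :
    {x : Fin n → K | ∀ i, MvPolynomial.eval x (f i) = 0}.ncard ≤ (n * L) ^ n := by
  classical
  change {x : Fin n → K | ∀ i, MvPolynomial.aeval x (f i) = 0}.Finite at hZ
  change {x : Fin n → K | ∀ i, MvPolynomial.aeval x (f i) = 0}.ncard ≤ _
  set Z := {x : Fin n → K | ∀ i, MvPolynomial.aeval x (f i) = 0} with hZdef
  rcases Z.eq_empty_or_nonempty with h0 | ⟨z0, hz0⟩
  · rw [h0, Set.ncard_empty]; exact Nat.zero_le _
  obtain ⟨k, ⟨e⟩⟩ := Finite.exists_equiv_fin ι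
  obtain ⟨c, F, hF1, hF2, hF3⟩ := lin_noether (K := K) k (f ∘ e.symm)
  set R := Algebra.adjoin K (Set.range F) with hR
  have hf : ∀ i, IsIntegral R (f i) := fun i => by simpa using hF3 (e i)
  have hFL : ∀ j, (F j).totalDegree ≤ L := fun j => by
    rw [← MvPolynomial.mem_restrictTotalDegree]
    refine Submodule.span_le.2 ?_ (hF1 j)
    rintro _ ⟨i, rfl⟩
    exact (MvPolynomial.mem_restrictTotalDegree _ _ _).2 (hL _)
  have hF0 : ∀ z ∈ Z, ∀ j, MvPolynomial.aeval z (F j) = 0 := fun z hz j => by
    have : F j ∈ LinearMap.ker (MvPolynomial.aeval z :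
        MvPolynomial (Fin n) K →ₐ[K] K).toLinearMap := by
      refine Submodule.span_le.2 ?_ (hF1 j)
      rintro _ ⟨i, rfl⟩
      exact hz _
    exact this
  have hz := fun z (hz : z ∈ Z) => bez_zmt f R hf hZ z hz
  have halg : ∀ i, IsAlgebraic R (MvPolynomial.X i : MvPolynomial (Fin n) K) := by
    intro i
    obtain ⟨r, hr0, hr, hr'⟩ := hz z0 hz0
    obtain ⟨m, hm⟩ := hr' (MvPolynomial.X i)
    have h0 : r ≠ 0 := fun h => hr0 (by rw [h, map_zero])
    exact IsAlgebraic.of_mul (mem_nonZeroDivisors_of_ne_zero (pow_ne_zero m h0))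
      (hr.pow m).isAlgebraic hm.isAlgebraic
  have hb : ∀ z : Z, ∃ b : MvPolynomial (Fin n) K, IsIntegral R b ∧ MvPolynomial.aeval z.1 b = 1 ∧
      ∀ w : Z, w ≠ z → MvPolynomial.aeval w.1 b = 0 := by
    intro z
    obtain ⟨r, hr0, hr, hr'⟩ := hz z.1 z.2
    obtain ⟨h, h1, h2⟩ := bez_sep hZ z.1
    obtain ⟨m, hm⟩ := hr' h
    have h3 : MvPolynomial.aeval z.1 (r ^ m * h) ≠ 0 := by
      rw [map_mul, map_pow]; exact mul_ne_zero (pow_ne_zero _ hr0) h1
    refine ⟨algebraMap K _ (MvPolynomial.aeval z.1 (r ^ m * h))⁻¹ * (r ^ m * h), ?_, ?_, ?_⟩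
    · rw [IsScalarTower.algebraMap_apply K R]
      exact isIntegral_algebraMap.mul hm
    · rw [map_mul, AlgHom.commutes]
      exact inv_mul_cancel₀ h3
    · intro w hw
      rw [map_mul, map_mul (MvPolynomial.aeval w.1) _ h, h2 w.1 w.2 fun h => hw (Subtype.ext h),
        mul_zero, mul_zero]
  choose b hb1 hb2 hb3 using hb
  have := hZ.fintype
  obtain ⟨ψ, hψ⟩ := Countable.exists_injective_nat Z
  let φ : Z → K := fun z => Infinite.natEmbedding K (ψ z)
  have hφ : Function.Injective φ := (Infinite.natEmbedding K).injective.comp hψ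
  let B : MvPolynomial (Fin n) K := ∑ z : Z, algebraMap K _ (φ z) * b z
  have hB : IsIntegral R B := IsIntegral.sum _ fun z _ => by
    rw [IsScalarTower.algebraMap_apply K R]
    exact isIntegral_algebraMap.mul (hb1 z)
  have hBz : ∀ z : Z, MvPolynomial.aeval z.1 B = φ z := fun z => by
    rw [map_sum, Finset.sum_eq_single z]
    · rw [map_mul, hb2, mul_one, AlgHom.commutes]; rfl
    · intro w _ hw
      rw [map_mul, hb3 w z hw.symm, mul_zero]
    · simp
  obtain ⟨Q, hQ0, hQ1, hQ2⟩ := deg_bound F hF2 hFL halg B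
  have : IsIntegrallyClosed R := IsIntegrallyClosed.of_equiv hF2.aevalEquiv.toRingEquiv
  have hdeg : (minpoly R B).natDegree ≤ (n * L) ^ n :=
    (Polynomial.natDegree_le_of_dvd (minpoly.isIntegrallyClosed_dvd hB hQ2) hQ0).trans hQ1
  let ε : (Fin n → K) → (R →ₐ[K] K) := fun z => (MvPolynomial.aeval z).comp R.val
  have hε : ∀ z ∈ Z, ε z = ε z0 := fun z hz => by
    refine AlgHom.ext fun r => ?_
    obtain ⟨p, rfl⟩ := hF2.aevalEquiv.surjective r
    have h1 : ∀ z ∈ Z, ε z (hF2.aevalEquiv p) = MvPolynomial.aeval (fun _ => (0 : K)) p := by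
      intro z hz
      have h2 : R.val (hF2.aevalEquiv p) = MvPolynomial.aeval F p :=
        hF2.algebraMap_aevalEquiv p
      simp only [ε, AlgHom.comp_apply]
      rw [h2, MvPolynomial.comp_aeval_apply, funext (hF0 z hz)]
    rw [h1 z hz, h1 z0 hz0]
  let p : Polynomial K := (minpoly R B).map (ε z0 : R →+* K)
  have hp0 : p ≠ 0 := ((minpoly.monic hB).map _).ne_zero
  have hroot : ∀ z : Z, p.IsRoot (φ z) := fun z => by
    have h1 := congrArg ((MvPolynomial.aeval z.1 : MvPolynomial (Fin n) K →ₐ[K] K) :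
      MvPolynomial (Fin n) K →+* K) (minpoly.aeval R B)
    rw [map_zero, Polynomial.aeval_def, Polynomial.hom_eval₂] at h1
    rw [Polynomial.IsRoot.def, Polynomial.eval_map, ← hε z.1 z.2, ← hBz z]
    exact h1
  calc Z.ncard = (Finset.univ.image φ).card := by
        rw [Finset.card_image_of_injective _ hφ, Finset.card_univ, ← Nat.card_eq_fintype_card]
        rfl
    _ ≤ p.natDegree := Polynomial.card_le_degree_of_subset_roots fun x hx => by
        obtain ⟨z, _, rfl⟩ := Finset.mem_image.1 hx
        exact (Polynomial.mem_roots hp0).2 (hroot z)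
    _ ≤ _ := Polynomial.natDegree_map_le.trans hdeg

end Vale.Agent.P024
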