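import Vale.Agent.P024.Defs

/-! # P024 BezA (TASK; helper lemma names start with `bezA_` or are private)
Linear Noether normalisation, and the degree bound.  PLAN.
`lin_noether`: induction on `k`.  If `f` is algebraically independent take `F = f`.  Otherwise there is `Q ≠ 0` with `aeval f Q = 0`; let `Qd` be its top homogeneous component, of degree `d`, and choose
`c : Fin k → K` with `Qd (c, 1) ≠ 0` (a nonzero homogeneous polynomial over an infinite field: `MvPolynomial.funext`, scale a point with nonzero last coordinate; multiply by the last variable first).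
Put `g i = f i - c i • f last`.  Then `Q (g i + c i T, T)` has degree `d` in `T` with leading coefficient the constant `Qd (c, 1)`, so `f last` is integral over `adjoin K (range g)`;
apply the induction hypothesis to `g` and use transitivity of integrality.
`deg_bound`: `c = n`: `c ≤ n` and `n ≤ c` by transcendence degree (`AlgebraicIndependent.cardinalMk_le_trdeg`, `MvPolynomial.trdeg_of_isDomain`, or `IsTranscendenceBasis` cardinality); only `n ≤ c` and the count are needed:
if there is no relation of degree `≤ N = (n L)^n`, the `(N+1) (t+1)^n` products `b^j ∏ F^a` (`a ≤ t` on `n` of the `F`, in fact `c ≤ n` also follows from the count) are `K`-linearly independent and lie in the span of the monomials with all exponents `≤ n L t + N deg b`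
(`MvPolynomial.restrictDegree`, dimension at most `(n L t + N deg b + 1)^n`); false for large `t`. -/

namespace Vale.Agent.P024

open NumberField IsDedekindDomain Filter
open scoped Pointwise Topology

theorem bezA_prod {R σ : Type*} [CommRing R] (u : σ → Polynomial R) (hu : ∀ i, (u i).natDegree ≤ 1)
    (a : σ → ℕ) (s : Finset σ) :
    (∏ i ∈ s, u i ^ a i).natDegree ≤ ∑ i ∈ s, a i ∧
      (∏ i ∈ s, u i ^ a i).coeff (∑ i ∈ s, a i) = ∏ i ∈ s, (u i).coeff 1 ^ a i := by
  classical
  induction s using Finset.induction_on with
  | empty => simp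
  | insert i s hi ih =>
    rw [Finset.prod_insert hi, Finset.sum_insert hi, Finset.prod_insert hi]
    have h1 : (u i ^ a i).natDegree ≤ a i :=
      Polynomial.natDegree_pow_le.trans (by simpa using Nat.mul_le_mul_left (a i) (hu i))
    refine ⟨Polynomial.natDegree_mul_le.trans (add_le_add h1 ih.1), ?_⟩
    rw [Polynomial.coeff_mul_add_eq_of_natDegree_le h1 ih.1, ih.2]
    have := Polynomial.coeff_pow_of_natDegree_le (m := a i) (hu i)
    rw [mul_one] at this
    rw [this]

theorem bezA_top {K R σ : Type*} [CommRing K] [CommRing R] [Algebra K R] (u : σ → Polynomial R)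
    (hu : ∀ i, (u i).natDegree ≤ 1) (Q : MvPolynomial σ K) :
    (MvPolynomial.aeval u Q).natDegree ≤ Q.totalDegree ∧
      (MvPolynomial.aeval u Q).coeff Q.totalDegree =
        MvPolynomial.aeval (fun i => (u i).coeff 1)
          (MvPolynomial.homogeneousComponent Q.totalDegree Q) := by
  classical
  have e : MvPolynomial.aeval u Q = ∑ a ∈ Q.support,
      Polynomial.C (algebraMap K R (Q.coeff a)) * ∏ i ∈ a.support, u i ^ a i := by
    rw [MvPolynomial.aeval_def, MvPolynomial.eval₂_eq]
    rfl
  have hd : ∀ a ∈ Q.support, ∑ i ∈ a.support, a i ≤ Q.totalDegree := fun a ha =>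
    MvPolynomial.le_totalDegree ha
  rw [e]
  constructor
  · refine Polynomial.natDegree_sum_le_of_forall_le _ _ fun a ha => ?_
    exact (Polynomial.natDegree_C_mul_le _ _).trans ((bezA_prod u hu a _).1.trans (hd a ha))
  · rw [Polynomial.finset_sum_coeff, MvPolynomial.homogeneousComponent_apply, map_sum,
      Finset.sum_filter]
    refine Finset.sum_congr rfl fun a ha => ?_
    rw [Polynomial.coeff_C_mul]
    have hdeg : a.degree = ∑ i ∈ a.support, a i := rfl
    split_ifs with h
    · rw [← h, hdeg, (bezA_prod u hu a _).2, MvPolynomial.aeval_monomial]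
      rfl
    · rw [Polynomial.coeff_eq_zero_of_natDegree_lt, mul_zero]
      exact (bezA_prod u hu a _).1.trans_lt (lt_of_le_of_ne (hd a ha) (hdeg ▸ h))

theorem bezA_top_ne {K σ : Type*} [CommRing K] {Q : MvPolynomial σ K} (hQ : Q ≠ 0) :
    MvPolynomial.homogeneousComponent Q.totalDegree Q ≠ 0 := by
  obtain ⟨a, ha, h⟩ := Finset.exists_mem_eq_sup Q.support (MvPolynomial.support_nonempty.2 hQ)
    (fun s : σ →₀ ℕ => s.sum fun _ e => e)
  intro h0
  have := MvPolynomial.coeff_homogeneousComponent Q.totalDegree Q a
  rw [h0, if_pos (show a.degree = Q.totalDegree from h.symm), MvPolynomial.coeff_zero] at this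
  exact MvPolynomial.mem_support_iff.1 ha this.symm

theorem lin_noether {K A : Type*} [Field K] [Infinite K] [CommRing A] [IsDomain A] [Algebra K A]
    (k : ℕ) (f : Fin k → A) :
    ∃ (c : ℕ) (F : Fin c → A), (∀ j, F j ∈ Submodule.span K (Set.range f)) ∧
      AlgebraicIndependent K F ∧ ∀ i, IsIntegral (Algebra.adjoin K (Set.range F)) (f i) := by
  have self : ∀ (k : ℕ) (f : Fin k → A), AlgebraicIndependent K f →
      ∃ (c : ℕ) (F : Fin c → A), (∀ j, F j ∈ Submodule.span K (Set.range f)) ∧
      AlgebraicIndependent K F ∧ ∀ i, IsIntegral (Algebra.adjoin K (Set.range F)) (f i) :=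
    fun k f h => ⟨k, f, fun j => Submodule.subset_span ⟨j, rfl⟩, h, fun i =>
      isIntegral_algebraMap (x := (⟨f i, Algebra.subset_adjoin ⟨i, rfl⟩⟩ :
        Algebra.adjoin K (Set.range f)))⟩
  induction k with
  | zero => exact self 0 f (algebraicIndependent_empty_type_iff.2 (algebraMap K A).injective)
  | succ m ih =>
    by_cases h : AlgebraicIndependent K f
    · exact self _ f h
    rw [algebraicIndependent_iff] at h
    push Not at h
    obtain ⟨Q, hQ, hQ0⟩ := h
    have h1 : MvPolynomial.X 0 * MvPolynomial.homogeneousComponent Q.totalDegree Q ≠ 0 :=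
      mul_ne_zero (MvPolynomial.X_ne_zero 0) (bezA_top_ne hQ0)
    obtain ⟨x, hx⟩ : ∃ x : Fin (m + 1) → K, MvPolynomial.eval x
        (MvPolynomial.X 0 * MvPolynomial.homogeneousComponent Q.totalDegree Q) ≠ 0 := by
      by_contra hn
      push Not at hn
      exact h1 (MvPolynomial.funext fun x => by rw [hn x, map_zero])
    rw [map_mul, MvPolynomial.eval_X] at hx
    have hx0 := left_ne_zero_of_mul hx
    have hx1 := right_ne_zero_of_mul hx
    set t : A := (x 0)⁻¹ • f 0 with ht
    set g : Fin m → A := fun i => f i.succ - x i.succ • t with hg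
    obtain ⟨c, F, hF1, hF2, hF3⟩ := ih g
    have hspan : Submodule.span K (Set.range g) ≤ Submodule.span K (Set.range f) := by
      rw [Submodule.span_le]
      rintro _ ⟨i, rfl⟩
      exact sub_mem (Submodule.subset_span ⟨_, rfl⟩)
        (Submodule.smul_mem _ _ (Submodule.smul_mem _ _ (Submodule.subset_span ⟨_, rfl⟩)))
    refine ⟨c, F, fun j => hspan (hF1 j), hF2, ?_⟩
    set R := Algebra.adjoin K (Set.range F)
    let B := integralClosure R A
    let w : Fin (m + 1) → B := Fin.cons 0 fun i => ⟨g i, hF3 i⟩
    have hw : ∀ i, (w i : A) + x i • t = f i := by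
      intro i
      refine Fin.cases ?_ (fun i => ?_) i
      · simp [w, ht, smul_smul, hx0]
      · simp [w, hg]
    let u : Fin (m + 1) → Polynomial B := fun i =>
      Polynomial.C (algebraMap K B (x i)) * Polynomial.X + Polynomial.C (w i)
    have hu : ∀ i, (u i).natDegree ≤ 1 := fun i => Polynomial.natDegree_linear_le
    have hu1 : ∀ i, (u i).coeff 1 = algebraMap K B (x i) := fun i => by
      simp [u, Polynomial.coeff_C]
    obtain ⟨hd1, hd2⟩ := bezA_top u hu Q
    have hd3 : (MvPolynomial.aeval u Q).coeff Q.totalDegree = algebraMap K B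
        (MvPolynomial.eval x (MvPolynomial.homogeneousComponent Q.totalDegree Q)) := by
      rw [hd2]
      simp only [hu1]
      exact MvPolynomial.aeval_algebraMap_apply B x _
    have hroot : Polynomial.aeval t (MvPolynomial.aeval u Q) = 0 := by
      have := MvPolynomial.comp_aeval_apply
        ((Polynomial.aeval t : Polynomial B →ₐ[B] A).restrictScalars K) (f := u) Q
      rw [AlgHom.coe_restrictScalars'] at this
      rw [this, ← hQ]
      congr 2
      funext i
      rw [← hw i]
      simp only [u, map_add, map_mul, Polynomial.aeval_C, Polynomial.aeval_X]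
      rw [← IsScalarTower.algebraMap_apply, ← Algebra.smul_def, add_comm]
      rfl
    have hint : IsIntegral B t := by
      refine ⟨Polynomial.C (algebraMap K B (MvPolynomial.eval x
        (MvPolynomial.homogeneousComponent Q.totalDegree Q))⁻¹) * MvPolynomial.aeval u Q, ?_, ?_⟩
      · refine Polynomial.monic_of_natDegree_le_of_coeff_eq_one Q.totalDegree
          ((Polynomial.natDegree_C_mul_le _ _).trans hd1) ?_
        rw [Polynomial.coeff_C_mul, hd3, ← map_mul, inv_mul_cancel₀ hx1, map_one]
      · rw [← Polynomial.aeval_def, map_mul, hroot, mul_zero]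
    have hint' : IsIntegral R t := isIntegral_trans t hint
    intro i
    rw [← hw i, Algebra.smul_def, IsScalarTower.algebraMap_apply K R A]
    exact (w i).2.add (isIntegral_algebraMap.mul hint')

theorem bezA_count {n M E N : ℕ} (h : ∀ t : ℕ, N * (t + 1) ^ n ≤ (M * t + E) ^ n) : N ≤ M ^ n := by
  have h1 : Tendsto (fun t : ℕ => ((M : ℝ) + ((E : ℝ) - M) * (1 / ((t : ℝ) + 1))) ^ n) atTop
      (𝓝 (((M : ℝ) + ((E : ℝ) - M) * 0) ^ n)) :=
    (tendsto_const_nhds.add
      (tendsto_const_nhds.mul tendsto_one_div_add_atTop_nhds_zero_nat)).pow n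
  rw [mul_zero, add_zero] at h1
  have h2 : (N : ℝ) ≤ (M : ℝ) ^ n := by
    refine ge_of_tendsto' h1 fun t => ?_
    have ht : (0 : ℝ) < (t : ℝ) + 1 := by positivity
    have e : (M : ℝ) + ((E : ℝ) - M) * (1 / ((t : ℝ) + 1)) = (M * t + E) / ((t : ℝ) + 1) := by
      field_simp; ring
    rw [e, div_pow, le_div_iff₀ (pow_pos ht n)]
    exact_mod_cast h t
  exact_mod_cast h2

theorem bezA_card {K ι : Type*} [Field K] [Fintype ι] {n D : ℕ} (v : ι → MvPolynomial (Fin n) K)
    (hv : LinearIndependent K v) (hD : ∀ i, (v i).totalDegree ≤ D) :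
    Fintype.card ι ≤ (D + 1) ^ n := by
  classical
  let w : (Fin n → Fin (D + 1)) → MvPolynomial (Fin n) K := fun a =>
    MvPolynomial.monomial (Finsupp.equivFunOnFinite.symm fun i => (a i : ℕ)) 1
  have h := linearIndependent_le_span_aux' v hv (Set.range w) (by
    rintro _ ⟨i, rfl⟩
    rw [(v i).as_sum]
    refine Submodule.sum_mem _ fun a ha => ?_
    have hle : ∀ j, a j < D + 1 := fun j =>
      Nat.lt_succ_of_le ((MvPolynomial.monomial_le_degreeOf j ha).trans
        ((MvPolynomial.degreeOf_le_totalDegree _ j).trans (hD i)))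
    have e : MvPolynomial.monomial a ((v i).coeff a) = (v i).coeff a • w fun j => ⟨a j, hle j⟩ := by
      simp only [w, MvPolynomial.smul_monomial, smul_eq_mul, mul_one]
      congr 1
      ext j
      simp
    rw [e]
    exact Submodule.smul_mem _ _ (Submodule.subset_span ⟨_, rfl⟩))
  refine h.trans ((Fintype.card_range_le w).trans ?_)
  simp

theorem deg_bound {K : Type*} [Field K] {n c L : ℕ} (F : Fin c → MvPolynomial (Fin n) K)
    (hF : AlgebraicIndependent K F) (hL : ∀ j, (F j).totalDegree ≤ L)
    (halg : ∀ i, IsAlgebraic (Algebra.adjoin K (Set.range F)) (MvPolynomial.X i : MvPolynomial (Fin n) K))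
    (b : MvPolynomial (Fin n) K) :
    ∃ Q : Polynomial (Algebra.adjoin K (Set.range F)), Q ≠ 0 ∧ Q.natDegree ≤ (n * L) ^ n ∧
      Polynomial.aeval b Q = 0 := by
  classical
  have halg' : Algebra.IsAlgebraic (Algebra.adjoin K (Set.range F)) (MvPolynomial (Fin n) K) := by
    refine ⟨fun p => ?_⟩
    induction p using MvPolynomial.induction_on with
    | C a =>
      rw [← MvPolynomial.algebraMap_eq,
        IsScalarTower.algebraMap_apply K (Algebra.adjoin K (Set.range F))]
      exact isAlgebraic_algebraMap _
    | add p q hp hq => exact hp.add hq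
    | mul_X p i hp => exact hp.mul (halg i)
  have hc : c = n := by
    have := (hF.isTranscendenceBasis_iff_isAlgebraic.2 halg').cardinalMk_eq
      (IsTranscendenceBasis.mvPolynomial (Fin n) K)
    simpa using this
  subst hc
  by_contra hn
  have hle : (c * L) ^ c + 1 ≤ (c * L) ^ c := by
    refine bezA_count (E := (c * L) ^ c * b.totalDegree + 1) fun t => ?_
    let v : Fin ((c * L) ^ c + 1) × (Fin c → Fin (t + 1)) → MvPolynomial (Fin c) K := fun p =>
      (∏ i, F i ^ (p.2 i : ℕ)) * b ^ (p.1 : ℕ)
    have hv : LinearIndependent K v := by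
      rw [Fintype.linearIndependent_iff]
      intro g hg
      by_contra hg0
      push Not at hg0
      obtain ⟨p0, hp0⟩ := hg0
      let Q0 : Polynomial (MvPolynomial (Fin c) K) := ∑ p, Polynomial.monomial (p.1 : ℕ)
        (MvPolynomial.monomial (Finsupp.equivFunOnFinite.symm fun i => (p.2 i : ℕ)) (g p))
      have hQ0 : Q0 ≠ 0 := by
        intro h0
        have : MvPolynomial.coeff (Finsupp.equivFunOnFinite.symm fun i => (p0.2 i : ℕ))
            (Q0.coeff p0.1) = g p0 := by
          simp only [Q0, Polynomial.finset_sum_coeff, MvPolynomial.coeff_sum]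
          rw [Finset.sum_eq_single p0]
          · simp
          · intro p _ hp
            rw [Polynomial.coeff_monomial]
            split_ifs with h1
            · rw [MvPolynomial.coeff_monomial, if_neg]
              intro h2
              refine hp (Prod.ext (Fin.ext h1) (funext fun i => Fin.ext ?_))
              exact congrFun (Finsupp.equivFunOnFinite.symm.injective h2) i
            · rfl
          · simp
        rw [h0] at this
        exact hp0 (by simpa using this.symm)
      refine hn ⟨Q0.map (hF.aevalEquiv : MvPolynomial (Fin c) K →+* _), ?_, ?_, ?_⟩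
      · exact (Polynomial.map_ne_zero_iff hF.aevalEquiv.injective).2 hQ0
      · refine Polynomial.natDegree_map_le.trans
          (Polynomial.natDegree_sum_le_of_forall_le _ _ fun p _ => ?_)
        exact (Polynomial.natDegree_monomial_le _).trans (Nat.le_of_lt_succ p.1.2)
      · rw [← hg]
        simp only [Q0, Polynomial.map_sum, map_sum, Polynomial.map_monomial,
          Polynomial.aeval_monomial]
        refine Finset.sum_congr rfl fun p _ => ?_
        rw [RingHom.coe_coe, AlgebraicIndependent.algebraMap_aevalEquiv,
          MvPolynomial.aeval_monomial, Finsupp.prod_fintype _ _ (fun _ => pow_zero _),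
          Algebra.smul_def, mul_assoc]
        simp [v]
    have := bezA_card (D := c * L * t + (c * L) ^ c * b.totalDegree) v hv fun p => by
      refine (MvPolynomial.totalDegree_mul _ _).trans (add_le_add ?_ ?_)
      · refine (MvPolynomial.totalDegree_finset_prod _ _).trans ?_
        have : ∀ i ∈ (Finset.univ : Finset (Fin c)), (F i ^ (p.2 i : ℕ)).totalDegree ≤ L * t :=
          fun i _ => (MvPolynomial.totalDegree_pow _ _).trans
            ((Nat.mul_le_mul (Nat.le_of_lt_succ (p.2 i).2) (hL i)).trans_eq (mul_comm _ _))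
        refine (Finset.sum_le_card_nsmul _ _ _ this).trans_eq ?_
        simp [mul_assoc]
      · exact (MvPolynomial.totalDegree_pow _ _).trans
          (Nat.mul_le_mul_right _ (Nat.le_of_lt_succ p.1.2))
    simpa [add_assoc] using this
  omega

end Vale.Agent.P024
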