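import Vale.Agent.P024.Defs

/-! # P024 Uq (TASK; helper lemma names start with `uq_` or are private)
Valuation rings of fields that are algebraic over `ℚ`.  PLAN.
`exists_ov`: if no prime is a nonunit then every nonzero integer is a unit, `ℚ ⊆ A`, and `A` is integrally closed in `K` (`ValuationSubring` is an `IsIntegrallyClosed` domain with fraction field `K`), so `A = ⊤`.
`arch`: first `exists N, val (z ^ N) ≤ val p`: otherwise the terms `c_i z^i` of the minimal polynomial have pairwise different nonzero values (`val c_i` is an integral power of `val p`), so their sum is not zero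
(`Valuation.map_add_of_distinct_val` by induction, or pick the largest term and `Valuation.map_sum_lt`).  Second `exists a, p ^ a * y ∈ A` (a nonzero integer multiple of `y` is integral).
`eq_of_le`: if `y ∈ B`, `y ∉ A` then `z = y⁻¹` is a nonunit of `A`, and every `w = (w z^n) y^n` lies in `B`.
`sq_all`: neither ring contains the other; `a ∈ A \ B`, `b ∈ B \ A`, `z = a / b` is a nonunit of `A` and `z⁻¹` a nonunit of `B`; for even large `n`, `1 + y z^n` is a square and equals `y z^n (1 + y⁻¹ z⁻¹^n)`.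
`not_ov_two`: multiply `π` by a power of 4 (integer exponent, `arch`) so that `val 4 < val π ≤ 1`; `val π ≠ 1` by `hπ`; `1 + π = y²`, `w = y - 1`, `π = w (w + 2)`, `w` is a nonunit;
if `val w > val 2` then `π = w² (1 + 2/w)` contradicts `hπ`, else `val π ≤ val 4`.
`finite_ov`: `x` and `x⁻¹` have nonzero integer multiples `d x`, `d' x⁻¹` that are integral; `p ∤ d d'` forces `val x = 1`.
`DD_val`: if `val (g x) < val x` then `g x / x` is a nonunit, apply powers of `g` (`DD_nonunits`); the orbit of `x` is finite (`g ^ n x = x` for some `n > 0`: roots of the minimal polynomial). -/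

namespace Vale.Agent.P024

open NumberField IsDedekindDomain Filter
open scoped Pointwise Topology

variable {K : Type*} [Field K] [CharZero K] [Algebra.IsAlgebraic ℚ K]

omit [CharZero K] [Algebra.IsAlgebraic ℚ K] in
theorem mem_of_isIntegral (A : ValuationSubring K) {x : K} (h : IsIntegral ℤ x) : x ∈ A := by
  obtain ⟨y, rfl⟩ := (IsIntegrallyClosed.isIntegral_iff (R := A)).1 h.tower_top
  exact y.2

omit [Algebra.IsAlgebraic ℚ K] in
theorem Ov.ne_top {A : ValuationSubring K} {p : ℕ} (h : Ov A p) (hp : p ≠ 0) : A ≠ ⊤ := by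
  rintro rfl
  rcases (ValuationSubring.mem_nonunits_iff_or _).1 h with h | h
  · exact hp (Nat.cast_eq_zero.1 h)
  · exact h trivial

omit [CharZero K] [Algebra.IsAlgebraic ℚ K] in
theorem uq_mul {A : ValuationSubring K} {x y : K} (hx : x ∈ A) (hy : y ∈ A.nonunits) :
    x * y ∈ A.nonunits := by
  rw [ValuationSubring.mem_nonunits_iff] at hy ⊢
  rw [map_mul]
  exact (mul_le_of_le_one_left' ((A.valuation_le_one_iff x).2 hx)).trans_lt hy

omit [CharZero K] [Algebra.IsAlgebraic ℚ K] in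
theorem uq_one (A : ValuationSubring K) : (1 : K) ∉ A.nonunits := by
  rw [ValuationSubring.mem_nonunits_iff, map_one]
  exact lt_irrefl _

omit [CharZero K] [Algebra.IsAlgebraic ℚ K] in
theorem uq_val_one {A : ValuationSubring K} {x : K} :
    A.valuation x = 1 ↔ x ∈ A ∧ x ∉ A.nonunits := by
  rw [ValuationSubring.mem_nonunits_iff, ← A.valuation_le_one_iff, not_lt]
  exact le_antisymm_iff

theorem uq_mult (x : K) : ∃ d : ℕ, d ≠ 0 ∧ IsIntegral ℤ ((d : K) * x) := by
  obtain ⟨d, hd, h⟩ := ((IsFractionRing.isAlgebraic_iff ℤ ℚ K).2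
    (Algebra.IsAlgebraic.isAlgebraic x)).exists_integral_multiple
  refine ⟨d.natAbs, Int.natAbs_ne_zero.2 hd, ?_⟩
  rw [zsmul_eq_mul] at h
  rcases Int.natAbs_eq d with e | e
  · rwa [e, Int.cast_natCast] at h
  · rw [e, Int.cast_neg, Int.cast_natCast, neg_mul] at h
    simpa using h.neg

omit [CharZero K] [Algebra.IsAlgebraic ℚ K] in
theorem Ov.intCast_iff {A : ValuationSubring K} {p : ℕ} (h : Ov A p) (hp : p.Prime) (a : ℤ) :
    (a : K) ∈ A.nonunits ↔ (p : ℤ) ∣ a := by
  constructor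
  · intro ha
    by_contra hd
    obtain ⟨u, w, e⟩ := (Nat.prime_iff_prime_int.1 hp).irreducible.coprime_iff_not_dvd.2 hd
    have e' : (u : K) * p + w * a = 1 := by exact_mod_cast congrArg (Int.cast : ℤ → K) e
    exact uq_one A (e' ▸ add_mem (uq_mul (intCast_mem A u) h) (uq_mul (intCast_mem A w) ha))
  · rintro ⟨b, rfl⟩
    rw [Int.cast_mul, Int.cast_natCast, mul_comm]
    exact uq_mul (intCast_mem A b) h

omit [CharZero K] [Algebra.IsAlgebraic ℚ K] in
theorem Ov.natCast_iff {A : ValuationSubring K} {p : ℕ} (h : Ov A p) (hp : p.Prime) (a : ℕ) :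
    (a : K) ∈ A.nonunits ↔ p ∣ a := by
  rw [← Int.natCast_dvd_natCast, ← h.intCast_iff hp, Int.cast_natCast]

omit [CharZero K] [Algebra.IsAlgebraic ℚ K] in
theorem Ov.unique {A : ValuationSubring K} {p q : ℕ} (h : Ov A p) (h' : Ov A q) (hp : p.Prime)
    (hq : q.Prime) : p = q :=   (Nat.prime_dvd_prime_iff_eq hp hq).1 ((h.natCast_iff hp q).1 h')

theorem exists_ov {A : ValuationSubring K} (h : A ≠ ⊤) : ∃ p : ℕ, p.Prime ∧ Ov A p := by
  by_contra hne
  have h1 : ∀ n : ℕ, n ≠ 0 → A.valuation n = 1 := by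
    intro n
    induction n using Nat.recOnMul with
    | zero => exact fun h => absurd rfl h
    | one => exact fun _ => by rw [Nat.cast_one, map_one]
    | prime p hp => exact fun _ => uq_val_one.2 ⟨natCast_mem A p, fun h => hne ⟨p, hp, h⟩⟩
    | mul a b ha hb =>
      intro h
      rw [Nat.cast_mul, map_mul, ha (left_ne_zero_of_mul h), hb (right_ne_zero_of_mul h), mul_one]
  refine h (eq_top_iff.2 fun x _ => ?_)
  obtain ⟨d, hd, hx⟩ := uq_mult x
  have h2 := (A.valuation_le_one_iff _).2 (mem_of_isIntegral A hx)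
  rw [map_mul, h1 d hd, one_mul] at h2
  exact (A.valuation_le_one_iff _).1 h2

theorem uq_pow_le_prime {A : ValuationSubring K} {z : K} (hz : A.valuation z < 1) {p : ℕ}
    (hp : p.Prime) (h : Ov A p) : ∃ N : ℕ, A.valuation z ^ N ≤ A.valuation p := by
  classical
  by_contra hne
  have hlt : ∀ N : ℕ, A.valuation p < A.valuation z ^ N := fun N => not_le.1 fun h => hne ⟨N, h⟩
  obtain ⟨f0, hf0, e0⟩ := (IsFractionRing.isAlgebraic_iff ℤ ℚ K).2
    (Algebra.IsAlgebraic.isAlgebraic z)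
  have e := Polynomial.aeval_primPart_eq_zero hf0 e0
  have hprim := f0.isPrimitive_primPart
  generalize f0.primPart = f at e hprim
  have hex : ∃ i, ¬(p : ℤ) ∣ f.coeff i := by
    by_contra hall
    exact (Nat.prime_iff_prime_int.1 hp).not_isUnit (hprim _ ((Polynomial.C_dvd_iff_dvd_coeff _ _).2
      fun i => by_contra fun hi => hall ⟨i, hi⟩))
  have hi := Nat.find_spec hex
  have hmin := fun j => Nat.find_min hex (m := j)
  generalize Nat.find hex = i at hi hmin
  have hz0 : 0 < A.valuation z := by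
    have := hlt 1
    rw [pow_one] at this
    exact zero_le.trans_lt this
  have hmem : i ∈ f.support := Polynomial.mem_support_iff.2 fun h => hi (h ▸ dvd_zero _)
  rw [Polynomial.aeval_def, Polynomial.eval₂_eq_sum, Polynomial.sum_def,
    ← Finset.add_sum_erase _ _ hmem] at e
  have h1 : A.valuation (∑ j ∈ f.support.erase i, algebraMap ℤ K (f.coeff j) * z ^ j) <
      A.valuation z ^ i := by
    refine Valuation.map_sum_lt _ (pow_pos hz0 i).ne' fun j hj => ?_
    rw [map_mul, map_pow, eq_intCast]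
    rcases lt_or_gt_of_ne (Finset.ne_of_mem_erase hj) with hj | hj
    · obtain ⟨b, hb⟩ := not_not.1 (hmin j hj)
      rw [hb, Int.cast_mul, Int.cast_natCast, map_mul, mul_assoc]
      exact (mul_le_of_le_one_right' (mul_le_one' ((A.valuation_le_one_iff _).2 (intCast_mem A b))
        (pow_le_one' hz.le j))).trans_lt (hlt i)
    · exact (mul_le_of_le_one_left' ((A.valuation_le_one_iff _).2 (intCast_mem A _))).trans_lt
        (pow_lt_pow_right_of_lt_one₀ hz0 hz hj)
  rw [← neg_eq_of_add_eq_zero_right e, Valuation.map_neg, map_mul, map_pow, eq_intCast,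
    uq_val_one.2 ⟨intCast_mem A _, fun h' => hi ((h.intCast_iff hp _).1 h')⟩, one_mul] at h1
  exact lt_irrefl _ h1

theorem uq_pow_le {A : ValuationSubring K} {z : K} (hz : A.valuation z < 1) (n : ℕ) :
    n ≠ 0 → ∃ N : ℕ, A.valuation z ^ N ≤ A.valuation n := by
  induction n using Nat.recOnMul with
  | zero => exact fun h => absurd rfl h
  | one => exact fun _ => ⟨0, by rw [Nat.cast_one, map_one, pow_zero]⟩
  | prime p hp =>
    intro _
    by_cases h : Ov A p
    · exact uq_pow_le_prime hz hp h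
    · exact ⟨0, by rw [uq_val_one.2 ⟨natCast_mem A p, h⟩, pow_zero]⟩
  | mul a b ha hb =>
    intro h
    obtain ⟨M, hM⟩ := ha (left_ne_zero_of_mul h)
    obtain ⟨N, hN⟩ := hb (right_ne_zero_of_mul h)
    exact ⟨M + N, by rw [Nat.cast_mul, map_mul, pow_add]; exact mul_le_mul' hM hN⟩

theorem arch {A : ValuationSubring K} {z : K} (hz : z ∈ A.nonunits) (y : K) :
    ∃ N : ℕ, ∀ n, N ≤ n → y * z ^ n ∈ A.nonunits := by
  obtain ⟨d, hd, hy⟩ := uq_mult y
  have h1 := (A.valuation_le_one_iff _).2 (mem_of_isIntegral A hy)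
  have hz' := (ValuationSubring.mem_nonunits_iff A).1 hz
  obtain ⟨N, hN⟩ := uq_pow_le hz' d hd
  refine ⟨N + 1, fun n hn => (ValuationSubring.mem_nonunits_iff A).2 ?_⟩
  rw [map_mul] at h1
  calc A.valuation (y * z ^ n) = A.valuation y * A.valuation z ^ n := by rw [map_mul, map_pow]
    _ ≤ A.valuation y * A.valuation z ^ (N + 1) :=
      mul_le_mul_right (pow_le_pow_right_of_le_one' hz'.le hn) _
    _ ≤ A.valuation y * (A.valuation d * A.valuation z) := by
      rw [pow_succ]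
      exact mul_le_mul_right (mul_le_mul_left hN _) _
    _ = A.valuation d * A.valuation y * A.valuation z := by rw [← mul_assoc, mul_comm (A.valuation y)]
    _ ≤ A.valuation z := mul_le_of_le_one_left' h1
    _ < 1 := hz'

theorem val_eq_of_le {A B : ValuationSubring K} (h : A ≤ B) (hB : B ≠ ⊤) : A = B := by
  refine le_antisymm h fun y hy => by_contra fun hA => hB (eq_top_iff.2 fun w _ => ?_)
  obtain ⟨N, hN⟩ := arch ((A.inv_mem_nonunits_iff).2 (Or.inr hA)) w
  have h0 : y ≠ 0 := fun e => hA (e ▸ A.zero_mem)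
  have h1 := mul_mem (h (A.nonunits_subset (hN N le_rfl))) (pow_mem hy N)
  rwa [mul_assoc, ← mul_pow, inv_mul_cancel₀ h0, one_pow, mul_one] at h1

theorem sq_all {A B : ValuationSubring K} (h : A ≠ B) (hA : A ≠ ⊤) (hB : B ≠ ⊤) (sA : SqV A)
    (sB : SqV B) (y : K) : IsSquare y := by
  by_cases hy : y = 0
  · exact hy ▸ IsSquare.zero
  obtain ⟨a, ha, ha'⟩ := SetLike.not_le_iff_exists.1 fun e => h (val_eq_of_le e hB)
  obtain ⟨b, hb, hb'⟩ := SetLike.not_le_iff_exists.1 fun e => h (val_eq_of_le e hA).symm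
  have a0 : a ≠ 0 := fun e => ha' (e ▸ B.zero_mem)
  have b0 : b ≠ 0 := fun e => hb' (e ▸ A.zero_mem)
  obtain ⟨N, hN⟩ := arch (uq_mul ha ((A.inv_mem_nonunits_iff).2 (Or.inr hb'))) y
  obtain ⟨M, hM⟩ := arch (uq_mul hb ((B.inv_mem_nonunits_iff).2 (Or.inr ha'))) y⁻¹
  have h1 := hN (2 * (N + M)) (by omega)
  have h2 := hM (2 * (N + M)) (by omega)
  rw [pow_mul'] at h1 h2
  have e : (b * a⁻¹) ^ (N + M) = ((a * b⁻¹) ^ (N + M))⁻¹ := by
    rw [← inv_pow, mul_inv, inv_inv, mul_comm]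
  have c0 : (a * b⁻¹) ^ (N + M) ≠ 0 := pow_ne_zero _ (mul_ne_zero a0 (inv_ne_zero b0))
  rw [e] at h2
  generalize (a * b⁻¹) ^ (N + M) = c at h1 h2 c0
  obtain ⟨s, hs⟩ := sA _ h1
  obtain ⟨t, ht⟩ := sB _ h2
  have t0 : t ≠ 0 := by
    rintro rfl
    rw [mul_zero] at ht
    exact uq_one B (eq_neg_of_add_eq_zero_left ht ▸ neg_mem h2)
  refine ⟨s / (t * c), ?_⟩
  have e2 : y * c ^ 2 * (t * t) = s * s := by
    rw [← hs, ← ht]
    field_simp
    ring
  rw [div_mul_div_comm, ← e2]
  field_simp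

omit [Algebra.IsAlgebraic ℚ K] in
theorem uq_two {A : ValuationSubring K} (sA : SqV A) {π : K} (h1 : π ∈ A) (h2 : π / 4 ∉ A)
    (hπ : ∀ u y : K, u ∈ A → u⁻¹ ∈ A → π ≠ u * y ^ 2) : False := by
  obtain ⟨y, hy⟩ := sA π ((A.mem_nonunits_iff_or).2 (Or.inr fun h => hπ π 1 h1 h (by ring)))
  have e : π = y * y - 1 := by rw [← hy]; ring
  by_cases h3 : (y - 1) / 2 ∈ A
  · refine h2 ?_
    rw [show π / 4 = (y - 1) / 2 * ((y - 1) / 2 + 1) by rw [e]; ring]
    exact mul_mem h3 (add_mem h3 (one_mem A))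
  · have h4 := (A.mem_nonunits_iff).1 ((A.inv_mem_nonunits_iff).2 (Or.inr h3))
    have h5 := A.valuation.map_one_add_of_lt h4
    have h0 : y - 1 ≠ 0 := fun h => h3 (by rw [h, zero_div]; exact A.zero_mem)
    refine hπ (1 + ((y - 1) / 2)⁻¹) (y - 1) ((A.valuation_le_one_iff _).1 h5.le)
      ((A.valuation_le_one_iff _).1 (by rw [map_inv₀, h5, inv_one])) ?_
    rw [e]
    field_simp
    ring

theorem not_ov_two {A : ValuationSubring K} (sA : SqV A) {π : K} (h0 : π ≠ 0)
    (hπ : ∀ u y : K, u ∈ A → u⁻¹ ∈ A → π ≠ u * y ^ 2) : ¬Ov A 2 := by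
  classical
  intro h2
  have h4 : (2 : K) ^ 2 ∈ A.nonunits := by
    rw [sq]
    exact mul_mem h2 h2
  obtain ⟨N, hN⟩ := arch h4 π⁻¹
  have h5 : π / (2 ^ 2) ^ N ∉ A := fun h => uq_one A (by
    have := uq_mul h (hN N le_rfl)
    rwa [show π / (2 ^ 2) ^ N * (π⁻¹ * (2 ^ 2) ^ N) = 1 by field_simp] at this)
  have hex : ∃ n : ℕ, π / (2 ^ 2) ^ N * (2 ^ 2) ^ n ∈ A :=
    (arch h4 _).imp fun n hn => A.nonunits_subset (hn n le_rfl)
  have h6 := Nat.find_spec hex
  have h7 := fun j => Nat.find_min hex (m := j)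
  generalize Nat.find hex = n at h6 h7
  cases n with
  | zero => exact h5 (by simpa using h6)
  | succ k =>
    refine uq_two sA h6 ?_ fun u y hu hu' e => hπ u (y * 2 ^ N / 2 ^ (k + 1)) hu hu' ?_
    · rw [show π / (2 ^ 2) ^ N * (2 ^ 2) ^ (k + 1) / 4 = π / (2 ^ 2) ^ N * (2 ^ 2) ^ k by
        field_simp
        ring]
      exact h7 k k.lt_succ_self
    · rw [div_pow, mul_pow, ← mul_div_assoc, ← mul_assoc, ← e, ← pow_mul, ← pow_mul, ← pow_mul,
        ← pow_mul, mul_comm N, mul_comm (k + 1)]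
      field_simp

theorem finite_ov {x : K} (hx : x ≠ 0) :
    {p : ℕ | p.Prime ∧ ∃ A : ValuationSubring K, Ov A p ∧ A.valuation x ≠ 1}.Finite := by
  obtain ⟨d, hd, h1⟩ := uq_mult x
  obtain ⟨d', hd', h2⟩ := uq_mult x⁻¹
  refine (Set.finite_le_nat (d * d')).subset ?_
  rintro p ⟨hp, A, hA, h⟩
  refine Nat.le_of_dvd (Nat.pos_of_ne_zero (mul_ne_zero hd hd')) (by_contra fun hn => h ?_)
  have h3 := (A.valuation_le_one_iff _).2 (mem_of_isIntegral A h1)
  have h4 := (A.valuation_le_one_iff _).2 (mem_of_isIntegral A h2)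
  rw [map_mul, uq_val_one.2 ⟨natCast_mem A _, fun h => hn
    (((hA.natCast_iff hp _).1 h).mul_right _)⟩, one_mul] at h3
  rw [map_mul, uq_val_one.2 ⟨natCast_mem A _, fun h => hn
    (((hA.natCast_iff hp _).1 h).mul_left _)⟩, one_mul, map_inv₀] at h4
  exact le_antisymm h3 ((inv_le_one₀ (zero_lt_iff.2 ((map_ne_zero _).2 hx))).1 h4)

/-- a root of unity of order prime to `p` that is `≡ 1` equals `1` -/
theorem eq_one_of_pow_eq_one {A : ValuationSubring K} {p n : ℕ} (h : Ov A p) (hp : p.Prime)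
    (hn : ¬p ∣ n) {z : K} (hz : z ^ n = 1) (h1 : z - 1 ∈ A.nonunits) : z = 1 := by
  by_contra hne
  have hzA : z ∈ A := by
    have := add_mem (A.nonunits_subset h1) (one_mem A)
    rwa [sub_add_cancel] at this
  have h2 : ∑ i ∈ Finset.range n, z ^ i = 0 := by
    have := geom_sum_mul z n
    rw [hz, sub_self] at this
    exact (mul_eq_zero.1 this).resolve_right (sub_ne_zero.2 hne)
  have h3 : ∑ i ∈ Finset.range n, (z ^ i - 1) ∈ A.nonunits := sum_mem fun i _ => by
    rw [← geom_sum_mul]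
    exact uq_mul (sum_mem fun j _ => pow_mem hzA j) h1
  rw [Finset.sum_sub_distrib, h2, zero_sub, Finset.sum_const, Finset.card_range, nsmul_one] at h3
  exact hn ((h.natCast_iff hp n).1 (neg_mem_iff.1 h3))

variable {F : Type*} [Field F] [Algebra F K]

omit [CharZero K] [Algebra.IsAlgebraic ℚ K] in
theorem mem_smul_iff {A : ValuationSubring K} (g : Gal(K/F)) {x : K} : g x ∈ g • A ↔ x ∈ A :=   ValuationSubring.smul_mem_pointwise_smul_iff (g := g)

omit [CharZero K] [Algebra.IsAlgebraic ℚ K] in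
theorem nonunits_smul_iff {A : ValuationSubring K} (g : Gal(K/F)) {x : K} :
    g x ∈ (g • A).nonunits ↔ x ∈ A.nonunits := by
  rw [ValuationSubring.mem_nonunits_iff_or, ValuationSubring.mem_nonunits_iff_or, ← map_inv₀,
    mem_smul_iff, map_eq_zero]

omit [CharZero K] [Algebra.IsAlgebraic ℚ K] in
theorem Ov.smul {A : ValuationSubring K} {p : ℕ} (h : Ov A p) (g : Gal(K/F)) : Ov (g • A) p := by
  have := (nonunits_smul_iff g).2 h
  rwa [map_natCast] at this

omit [CharZero K] [Algebra.IsAlgebraic ℚ K] in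
theorem val_smul_eq_one {A : ValuationSubring K} (g : Gal(K/F)) {x : K} :
    (g • A).valuation (g x) = 1 ↔ A.valuation x = 1 := by
  rw [uq_val_one, uq_val_one, mem_smul_iff, nonunits_smul_iff]

omit [CharZero K] [Algebra.IsAlgebraic ℚ K] in
theorem DD_conj {A : ValuationSubring K} (g : Gal(K/F)) {h : Gal(K/F)} :
    g * h * g⁻¹ ∈ DD F (g • A) ↔ h ∈ DD F A := by
  rw [mem_DD, mem_DD, mul_smul, mul_smul, inv_smul_smul, smul_left_cancel_iff]

omit [CharZero K] [Algebra.IsAlgebraic ℚ K] in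
theorem uq_conj (g h : Gal(K/F)) (x : K) : (g * h * g⁻¹) (g x) = g (h x) := by
  rw [← AlgEquiv.mul_apply, inv_mul_cancel_right, AlgEquiv.mul_apply]

omit [CharZero K] [Algebra.IsAlgebraic ℚ K] in
theorem II_conj {A : ValuationSubring K} (g : Gal(K/F)) {h : Gal(K/F)} :
    g * h * g⁻¹ ∈ II F (g • A) ↔ h ∈ II F A := by
  rw [mem_II, mem_II, DD_conj]
  refine and_congr_right fun _ => ⟨fun H x hx => ?_, fun H x hx => ?_⟩
  · have := H (g x) ((mem_smul_iff g).2 hx)
    rwa [uq_conj, ← map_sub, nonunits_smul_iff] at this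
  · obtain ⟨x, rfl⟩ := g.surjective x
    rw [uq_conj, ← map_sub, nonunits_smul_iff]
    exact H x ((mem_smul_iff g).1 hx)

omit [CharZero K] [Algebra.IsAlgebraic ℚ K] in
theorem II_normal {A : ValuationSubring K} {g h : Gal(K/F)} (hg : g ∈ DD F A) (hh : h ∈ II F A) :
    g * h * g⁻¹ ∈ II F A := by
  have := (II_conj g).2 hh
  rwa [mem_DD.1 hg] at this

omit [CharZero K] [Algebra.IsAlgebraic ℚ K] in
theorem IsFrob.conj {A : ValuationSubring K} {N : ℕ} {h : Gal(K/F)} (hh : IsFrob A N h)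
    (g : Gal(K/F)) : IsFrob (g • A) N (g * h * g⁻¹) := by
  refine ⟨(DD_conj g).2 hh.1, fun x hx => ?_⟩
  obtain ⟨x, rfl⟩ := g.surjective x
  rw [uq_conj, ← map_pow, ← map_sub, nonunits_smul_iff]
  exact hh.2 x ((mem_smul_iff g).1 hx)

theorem uq_not_lt {A : ValuationSubring K} {g : Gal(K/F)} (hg : g ∈ DD F A) (x : K) :
    ¬A.valuation (g x) < A.valuation x := by
  intro h
  have hx : x ≠ 0 := by
    rintro rfl
    rw [map_zero] at h
    exact lt_irrefl _ h
  have hp : ∀ y : K, y ≠ 0 → 0 < A.valuation y := fun y hy => zero_lt_iff.2 ((map_ne_zero _).2 hy)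
  have h1 : g x / x ∈ A.nonunits := by
    rw [ValuationSubring.mem_nonunits_iff, map_div₀, div_lt_one₀ (hp x hx)]
    exact h
  have h2 : StrictAnti fun k : ℕ => A.valuation ((g ^ k) x) := strictAnti_nat_of_succ_lt fun k => by
    have h3 := (DD_nonunits (pow_mem hg k)).2 h1
    rwa [ValuationSubring.mem_nonunits_iff, map_div₀, map_div₀,
      div_lt_one₀ (hp _ ((map_ne_zero _).2 hx)), ← AlgEquiv.mul_apply, ← pow_succ] at h3
  obtain ⟨f, hf, e⟩ := Algebra.IsAlgebraic.isAlgebraic (R := ℚ) x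
  refine Set.infinite_of_injective_forall_mem (f := fun k : ℕ => (g ^ k) x)
    (fun a b hab => h2.injective (congrArg A.valuation hab)) (fun k => ?_) (f.rootSet_finite K)
  refine Polynomial.mem_rootSet.2 ⟨hf, ?_⟩
  have := Polynomial.aeval_algHom_apply (g ^ k).toRingEquiv.toRingHom.toRatAlgHom x f
  rw [e, map_zero] at this
  exact this

theorem DD_val {A : ValuationSubring K} {g : Gal(K/F)} (hg : g ∈ DD F A) (x : K) :
    A.valuation (g x) = A.valuation x := by
  refine le_antisymm (not_lt.1 fun h => uq_not_lt (inv_mem hg) (g x) ?_) (not_lt.1 (uq_not_lt hg x))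
  rwa [← AlgEquiv.mul_apply, inv_mul_cancel, AlgEquiv.one_apply]

omit [CharZero K] [Algebra.IsAlgebraic ℚ K] in
theorem uq_root (A : ValuationSubring K) {n : ℕ} (hn : n ≠ 0) {z : K} (hz : z ^ n = 1) :
    A.valuation z = 1 :=
  (pow_eq_one_iff_of_nonneg zero_le hn).1 (by rw [← map_pow, hz, map_one])

/-- inertia fixes the roots of unity of order prime to `p` -/
theorem II_root {A : ValuationSubring K} {p n : ℕ} (h : Ov A p) (hp : p.Prime) (hn : ¬p ∣ n)
    {g : Gal(K/F)} (hg : g ∈ II F A) {z : K} (hz : z ^ n = 1) : g z = z := by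
  have h0 := uq_root A (fun e : n = 0 => hn (e ▸ dvd_zero p)) hz
  have z0 : z ≠ 0 := fun e => zero_ne_one (by rwa [e, map_zero] at h0)
  refine (div_eq_one_iff_eq z0).1 (eq_one_of_pow_eq_one h hp hn ?_ ?_)
  · rw [div_pow, ← map_pow, hz, map_one, div_one]
  · rw [div_sub_one z0, ValuationSubring.mem_nonunits_iff, map_div₀, h0, div_one]
    exact (A.mem_nonunits_iff).1 (hg.2 z (uq_val_one.1 h0).1)

/-- inertia fixes the `n`-th roots of a fixed unit -/
theorem II_root_unit {A : ValuationSubring K} {p n : ℕ} (h : Ov A p) (hp : p.Prime) (hn : ¬p ∣ n)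
    {g : Gal(K/F)} (hg : g ∈ II F A) {y : K} (hy : A.valuation y = 1) (hf : g (y ^ n) = y ^ n) :
    g y = y := by
  have y0 : y ≠ 0 := fun e => zero_ne_one (by rwa [e, map_zero] at hy)
  refine (div_eq_one_iff_eq y0).1 (eq_one_of_pow_eq_one h hp hn ?_ ?_)
  · rw [div_pow, ← map_pow, hf, div_self (pow_ne_zero _ y0)]
  · rw [div_sub_one y0, ValuationSubring.mem_nonunits_iff, map_div₀, hy, div_one]
    exact (A.mem_nonunits_iff).1 (hg.2 y (uq_val_one.1 hy).1)

theorem IsFrob.root {A : ValuationSubring K} {p n N : ℕ} (h : Ov A p) (hp : p.Prime) (hn : ¬p ∣ n)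
    {g : Gal(K/F)} (hg : IsFrob A N g) {z : K} (hz : z ^ n = 1) : g z = z ^ N := by
  have h0 := uq_root A (fun e : n = 0 => hn (e ▸ dvd_zero p)) hz
  have z0 : z ^ N ≠ 0 := pow_ne_zero _ fun e => zero_ne_one (by rwa [e, map_zero] at h0)
  refine (div_eq_one_iff_eq z0).1 (eq_one_of_pow_eq_one h hp hn ?_ ?_)
  · rw [div_pow, ← map_pow, ← pow_mul, mul_comm, pow_mul, hz, map_one, one_pow, div_one]
  · rw [div_sub_one z0, ValuationSubring.mem_nonunits_iff, map_div₀, map_pow, h0, one_pow, div_one]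
    exact (A.mem_nonunits_iff).1 (hg.2 z (uq_val_one.1 h0).1)

end Vale.Agent.P024
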