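import Vale.Agent.P024.Syl
import Vale.Agent.P024.Uq

/-! # P024 Ch (TASK; helper lemma names start with `ch_` or are private)
Calculus for characters `IsCh`, homomorphisms `OH`, and the quadratic characters `sg`.  PLAN.  Openness of kernels: a subgroup that contains an open subgroup is open (`Subgroup.isOpen_mono`, or build `Subgroup`s by hand); `IsCh.of_le` packages this.
`OH.img` of a closed subgroup is compact.  `OH.isOpen_img`: the image of `U` is closed of finite index in the image of `V` (which is open); use `Subgroup.isOpen_of_isClosed_of_finiteIndex` after showing that the image of `V` has finite index and the relative index is finite.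
`eq_one_of_fixI`: reduce to an involution `g`; if `g x ≠ x`, `z = x - g x`, `g z = -z`, `w² = z`, `(g w / w)² = -1`, so `g (g w) = -w`. -/

namespace Vale.Agent.P024

open NumberField IsDedekindDomain Filter
open scoped Pointwise Topology

set_option linter.unusedSectionVars false

section grp

variable {G : Type*} [Group G] [TopologicalSpace G] [IsTopologicalGroup G] {Q : Type*} [AddCommGroup Q]
  {U : OpenSubgroup G} {c c' : G → Q}

theorem IsCh.of_le (add : ∀ g ∈ U, ∀ h ∈ U, c (g * h) = c g + c h) (W : OpenSubgroup G)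
    (hW : ∀ g ∈ U, g ∈ W → c g = 0) : IsCh U c := by
  have h1 : c 1 = 0 := hW 1 U.one_mem W.one_mem
  have hi : ∀ g ∈ U, c g⁻¹ = -c g := fun g hg => by
    have := add g hg g⁻¹ (U.inv_mem hg)
    rw [mul_inv_cancel, h1] at this
    exact (neg_eq_of_add_eq_zero_right this.symm).symm
  let K : Subgroup G :=
    { carrier := {g | g ∈ U ∧ c g = 0}
      one_mem' := ⟨U.one_mem, h1⟩
      mul_mem' := fun {a b} ha hb =>
        ⟨U.mul_mem ha.1 hb.1, by rw [add a ha.1 b hb.1, ha.2, hb.2, add_zero]⟩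
      inv_mem' := fun {a} ha => ⟨U.inv_mem ha.1, by rw [hi a ha.1, ha.2, neg_zero]⟩ }
  exact ⟨add, Subgroup.isOpen_mono (H₁ := (U ⊓ W).toSubgroup) (H₂ := K)
    (fun g hg => ⟨hg.1, hW g hg.1 hg.2⟩) (U ⊓ W).isOpen⟩

theorem IsCh.mono (h : IsCh U c) {U' : OpenSubgroup G} (hU : U' ≤ U) : IsCh U' c := by
  exact IsCh.of_le (fun g hg k hk => h.add g (hU hg) k (hU hk)) h.ker fun g _ hg => hg.2

theorem IsCh.congr (h : IsCh U c) (e : ∀ g ∈ U, c' g = c g) : IsCh U c' := by
  refine IsCh.of_le (fun g hg k hk => ?_) h.ker fun g hg hk => (e g hg).trans hk.2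
  rw [e _ (U.mul_mem hg hk), e g hg, e k hk, h.add g hg k hk]

theorem IsCh.add' (h : IsCh U c) (h' : IsCh U c') : IsCh U fun g => c g + c' g := by
  refine IsCh.of_le (fun g hg k hk => ?_) (h.ker ⊓ h'.ker) fun g _ hk => ?_
  · rw [h.add g hg k hk, h'.add g hg k hk]; abel
  · rw [hk.1.2, hk.2.2, add_zero]

theorem IsCh.sub' (h : IsCh U c) (h' : IsCh U c') : IsCh U fun g => c g - c' g := by
  refine IsCh.of_le (fun g hg k hk => ?_) (h.ker ⊓ h'.ker) fun g _ hk => ?_
  · rw [h.add g hg k hk, h'.add g hg k hk]; abel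
  · rw [hk.1.2, hk.2.2, sub_zero]

theorem IsCh.comp (h : IsCh U c) {Q' : Type*} [AddCommGroup Q'] (φ : Q →+ Q') :
    IsCh U fun g => φ (c g) := by
  refine IsCh.of_le (fun g hg k hk => ?_) h.ker fun g _ hk => ?_
  · rw [h.add g hg k hk, map_add]
  · rw [hk.2, map_zero]

theorem isCh_sum {ι : Type*} (s : Finset ι) {c : ι → G → Q} (h : ∀ i ∈ s, IsCh U (c i)) :
    IsCh U fun g => ∑ i ∈ s, c i g := by
  classical
  induction s using Finset.induction_on with
  | empty => exact IsCh.of_le (fun _ _ _ _ => by simp) U fun _ _ _ => by simp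
  | insert a s ha ih =>
    exact ((h a (Finset.mem_insert_self a s)).add'
      (ih fun i hi => h i (Finset.mem_insert_of_mem hi))).congr fun g _ => Finset.sum_insert ha

theorem isCh_pi {ι : Type*} [Finite ι] {Q : ι → Type*} [∀ i, AddCommGroup (Q i)]
    {c : ∀ i, G → Q i} (h : ∀ i, IsCh U (c i)) : IsCh U fun g i => c i g := by
  refine ⟨fun g hg k hk => funext fun i => (h i).add g hg k hk, ?_⟩
  have : {g | g ∈ U ∧ (fun i => c i g) = 0} = (U : Set G) ∩ ⋂ i, {g | g ∈ U ∧ c i g = 0} := by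
    ext g
    simp only [Set.mem_ofPred_eq, Set.mem_inter_iff, Set.mem_iInter, SetLike.mem_coe, funext_iff,
      Pi.zero_apply]
    exact ⟨fun a => ⟨a.1, fun i => ⟨a.1, a.2 i⟩⟩, fun a => ⟨a.1, fun i => (a.2 i).2⟩⟩
  rw [this]
  exact U.isOpen.inter (isOpen_iInter_of_finite fun i => (h i).opn)

theorem IsCh.pow (h : IsCh U c) {g : G} (hg : g ∈ U) (n : ℕ) : c (g ^ n) = n • c g := by
  induction n with
  | zero => rw [pow_zero, h.one, zero_smul]
  | succ n ih => rw [pow_succ, h.add _ (pow_mem hg n) g hg, ih, succ_nsmul]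

theorem IsCh.conj (h : IsCh U c) {g u : G} (hg : g ∈ U) (hu : u ∈ U) : c (g * u * g⁻¹) = c u := by
  rw [h.add _ (U.mul_mem hg hu) _ (U.inv_mem hg), h.add g hg u hu, h.inv hg]
  abel

theorem IsCh.eq_of_inv_mul (h : IsCh U c) {g u : G} (hg : g ∈ U) (hu : u ∈ U)
    (e : c (g⁻¹ * u) = 0) : c u = c g := by
  rw [h.add _ (U.inv_mem hg) u hu, h.inv hg, neg_add_eq_zero] at e
  exact e.symm

theorem IsCh.ker_le (h : IsCh U c) : h.ker ≤ U := by
  exact fun g hg => hg.1

theorem IsCh.normIn (h : IsCh U c) : NormIn h.ker U := by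
  exact fun g hg n hn =>
    ⟨U.mul_mem (U.mul_mem hg hn.1) (U.inv_mem hg), (h.conj hg hn.1).trans hn.2⟩

theorem IsCh.relIndex_ker (h : IsCh U c) (hs : ∀ y, ∃ g ∈ U, c g = y) :
    h.ker.toSubgroup.relIndex U.toSubgroup = Nat.card Q := by
  let φ : U.toSubgroup →* Multiplicative Q :=
    { toFun := fun g => Multiplicative.ofAdd (c g)
      map_one' := by simp [h.one]
      map_mul' := fun a b => by
        rw [← ofAdd_add, ← h.add a a.2 b b.2]; rfl }
  have hk : h.ker.toSubgroup.subgroupOf U.toSubgroup = φ.ker := by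
    ext g
    rw [Subgroup.mem_subgroupOf, MonoidHom.mem_ker]
    exact ⟨fun a => congrArg Multiplicative.ofAdd a.2, fun a => ⟨g.2, Multiplicative.ofAdd.injective a⟩⟩
  have hr : φ.range = ⊤ := MonoidHom.range_eq_top.2 fun y => by
    obtain ⟨g, hg, e⟩ := hs y.toAdd
    exact ⟨⟨g, hg⟩, congrArg Multiplicative.ofAdd e⟩
  rw [Subgroup.relIndex, hk, Subgroup.index_ker, hr, Subgroup.card_top]
  rfl

/-- conjugating a character by an element that normalises `U` -/
theorem IsCh.conj_ch (h : IsCh U c) {s : G} (hs : ∀ u ∈ U, s * u * s⁻¹ ∈ U) :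
    IsCh U fun g => c (s * g * s⁻¹) := by
  refine ⟨fun g hg k hk => ?_, ?_⟩
  · rw [← h.add _ (hs g hg) _ (hs k hk)]
    congr 1
    group
  · have : {g | g ∈ U ∧ c (s * g * s⁻¹) = 0} =
        (U : Set G) ∩ (fun g => s * g * s⁻¹) ⁻¹' {g | g ∈ U ∧ c g = 0} := by
      ext g
      exact ⟨fun a => ⟨a.1, hs g a.1, a.2⟩, fun a => ⟨a.1, a.2.2⟩⟩
    rw [this]
    exact U.isOpen.inter (h.opn.preimage (by fun_prop))

variable {G' : Type*} [Group G'] [TopologicalSpace G'] [IsTopologicalGroup G']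

theorem IsCh.pre (α : OH G G') {T : OpenSubgroup G'} {c : G' → Q} (h : IsCh T c) :
    IsCh (α.pre T) fun g => c (α.f g) := by
  refine IsCh.of_le (fun g hg k hk => ?_) (α.pre h.ker) fun g _ hk => hk.2.2
  rw [α.mul g hg.1 k hk.1, h.add _ hg.2 _ hk.2]

theorem OH.pow (α : OH G G') {g : G} (hg : g ∈ α.V) (n : ℕ) : α.f (g ^ n) = α.f g ^ n := by
  induction n with
  | zero => rw [pow_zero, pow_zero, α.one]
  | succ n ih => rw [pow_succ, α.mul _ (pow_mem hg n) g hg, ih, pow_succ]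

theorem OH.conj (α : OH G G') {g h : G} (hg : g ∈ α.V) (hh : h ∈ α.V) :
    α.f (g * h * g⁻¹) = α.f g * α.f h * (α.f g)⁻¹ := by
  rw [α.mul _ (α.V.mul_mem hg hh) _ (α.V.inv_mem hg), α.mul g hg h hh, α.inv hg]

theorem OH.Onto.pre_eq {α : OH G G'} {T : OpenSubgroup G'} (h : α.Onto T) : α.pre T = α.V := by
  ext g
  exact ⟨fun a => a.1, fun a => ⟨a, h.1 g a⟩⟩

/-- the image of a subgroup of `V` -/
def OH.img (α : OH G G') (S : Subgroup G) : Subgroup G' where
  carrier := {t | ∃ g ∈ S, g ∈ α.V ∧ α.f g = t}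
  one_mem' := ⟨1, S.one_mem, α.V.one_mem, α.one⟩
  mul_mem' := by
    rintro _ _ ⟨a, ha, ha', rfl⟩ ⟨b, hb, hb', rfl⟩
    exact ⟨a * b, S.mul_mem ha hb, α.V.mul_mem ha' hb', α.mul a ha' b hb'⟩
  inv_mem' := by
    rintro _ ⟨a, ha, ha', rfl⟩
    exact ⟨a⁻¹, S.inv_mem ha, α.V.inv_mem ha', α.inv ha'⟩

theorem OH.mem_img (α : OH G G') {S : Subgroup G} {t : G'} :
    t ∈ α.img S ↔ ∃ g ∈ S, g ∈ α.V ∧ α.f g = t := Iff.rfl

instance finiteIndex_open [CompactSpace G] (U : OpenSubgroup G) : U.toSubgroup.FiniteIndex :=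
  U.toSubgroup.finiteIndex_of_finite_quotient

/-- the normal core of an open subgroup of a compact group -/
def core [CompactSpace G] (U : OpenSubgroup G) : OpenNormalSubgroup G where
  toSubgroup := U.toSubgroup.normalCore
  isOpen' := Subgroup.isOpen_of_isClosed_of_finiteIndex _ (U.toSubgroup.normalCore_isClosed U.isClosed)
  isNormal' := Subgroup.normalCore_normal _

theorem mem_core [CompactSpace G] {g : G} : g ∈ core U ↔ ∀ s, s * g * s⁻¹ ∈ U := Iff.rfl

theorem core_le [CompactSpace G] {g : G} (h : g ∈ core U) : g ∈ U := by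
  simpa using mem_core.1 h 1

variable [CompactSpace G] [T2Space G] [TotallyDisconnectedSpace G] [CompactSpace G'] [T2Space G']
  [TotallyDisconnectedSpace G']

theorem IsCh.zero_of_pro2 (h : IsCh U c) (h2 : ∀ y : Q, ∃ k : ℕ, 2 ^ k • y = 0) {S : Subgroup G}
    (hS : IsClosed (S : Set G)) (hU : ∀ g ∈ S, g ∈ U) (hz : ∀ g ∈ S, Pro2 g → c g = 0) :
    ∀ g ∈ S, c g = 0 := by
  refine fun g hg => (mem_of_pro2 hS (N := h.ker.toSubgroup) ⟨h.ker, fun _ _ a => a⟩
    (fun a ha n _ hn => h.normIn a (hU a ha) n hn) (fun a ha => ?_)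
    (fun a ha hp => ⟨hU a ha, hz a ha hp⟩) g hg).2
  obtain ⟨k, hk⟩ := h2 (c a)
  exact ⟨k, pow_mem (hU a ha) _, (h.pow (hU a ha) _).trans hk⟩

theorem OH.pro2 (α : OH G G') {g : G} (hg : g ∈ α.V) (h : Pro2 g) : Pro2 (α.f g) := by
  intro W
  obtain ⟨k, hk⟩ := h.mem_open (α.pre W.toOpenSubgroup)
  exact ⟨k, by rw [← α.pow hg]; exact (hk k le_rfl).2⟩

theorem OH.isClosed_img (α : OH G G') {S : Subgroup G} (hS : IsClosed (S : Set G)) :
    IsClosed (α.img S : Set G') := by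
  have : (α.img S : Set G') = α.f '' ((S : Set G) ∩ α.V) := by
    ext t
    exact ⟨fun ⟨g, a, b, e⟩ => ⟨g, ⟨a, b⟩, e⟩, fun ⟨g, a, e⟩ => ⟨g, a.1, a.2, e⟩⟩
  rw [this]
  exact ((hS.inter α.V.isClosed).isCompact.image_of_continuousOn
    (α.cont.mono Set.inter_subset_right)).isClosed

theorem OH.isOpen_img (α : OH G G') (U : OpenSubgroup G) : IsOpen (α.img U.toSubgroup : Set G') := by
  let φ : α.V.toSubgroup →* G' :=
    { toFun := fun g => α.f g
      map_one' := α.one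
      map_mul' := fun a b => α.mul a a.2 b b.2 }
  have e : ∀ S : Subgroup G, α.img S = (S.subgroupOf α.V.toSubgroup).map φ := fun S => by
    ext t
    exact ⟨fun ⟨g, a, b, e⟩ => ⟨⟨g, b⟩, a, e⟩, fun ⟨g, a, e⟩ => ⟨g, a, g.2, e⟩⟩
  have h1 : IsOpen (φ.range : Set G') := by
    convert α.opn using 1
    ext t
    exact ⟨fun ⟨g, e⟩ => ⟨g, g.2, e⟩, fun ⟨g, a, e⟩ => ⟨⟨g, a⟩, e⟩⟩
  have h2 : φ.range.FiniteIndex := finiteIndex_open ⟨φ.range, h1⟩
  have h3 : (α.img U.toSubgroup).FiniteIndex := by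
    rw [e]
    refine ⟨?_⟩
    rw [Subgroup.index_map]
    refine mul_ne_zero (fun h0 => ?_) h2.1
    have := Subgroup.index_dvd_of_le
      (le_sup_left : U.toSubgroup.subgroupOf α.V.toSubgroup ≤ _ ⊔ φ.ker)
    rw [h0, zero_dvd_iff] at this
    exact Subgroup.FiniteIndex.index_ne_zero this
  exact Subgroup.isOpen_of_isClosed_of_finiteIndex _ (α.isClosed_img U.isClosed)

/-- the image of an open subgroup -/
def OH.imgO (α : OH G G') (U : OpenSubgroup G) : OpenSubgroup G' :=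
  ⟨α.img U.toSubgroup, α.isOpen_img U⟩

theorem OH.mem_imgO (α : OH G G') {U : OpenSubgroup G} {t : G'} :
    t ∈ α.imgO U ↔ ∃ g ∈ U, g ∈ α.V ∧ α.f g = t := Iff.rfl

end grp

theorem rc_Qb : RC Qb := by
  exact ⟨fun n x hn => IsAlgClosed.exists_pow_nat_eq x hn, fun n hn =>
    haveI : NeZero n := ⟨hn.ne'⟩
    HasEnoughRootsOfUnity.exists_primitiveRoot Qb n⟩

variable {F E : Type*} [Field F] [NumberField F] [Field E] [CharZero E] [Algebra F E] [IsGalois F E]

omit [CharZero E] in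
theorem alg_rat (F E : Type*) [Field F] [NumberField F] [Field E] [CharZero E] [Algebra F E]
    [IsGalois F E] : Algebra.IsAlgebraic ℚ E := by
  have : IsScalarTower ℚ F E := IsScalarTower.of_algebraMap_eq' (Subsingleton.elim _ _)
  exact Algebra.IsAlgebraic.trans ℚ F E

theorem exists_fix_finset (s : Finset E) :
    ∃ W : OpenNormalSubgroup Gal(E/F), ∀ g ∈ W, ∀ x ∈ s, g x = x := by
  classical
  induction s using Finset.induction_on with
  | empty => exact ⟨core ⊤, fun _ _ _ h => by simp at h⟩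
  | insert a s _ ih =>
    obtain ⟨W, hW⟩ := ih
    refine ⟨core (W.toOpenSubgroup ⊓ stab a), fun g hg x hx => ?_⟩
    have := core_le hg
    rcases Finset.mem_insert.1 hx with rfl | hx
    exacts [this.2, hW g this.1 x hx]

/-- an open normal subgroup that fixes the `n`-th roots of unity -/
theorem exists_fix_roots (n : ℕ) (hn : 0 < n) :
    ∃ W : OpenNormalSubgroup Gal(E/F), ∀ g ∈ W, ∀ z : E, z ^ n = 1 → g z = z := by
  classical
  obtain ⟨W, hW⟩ := exists_fix_finset (F := F) (Polynomial.nthRootsFinset n (1 : E))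
  exact ⟨W, fun g hg z hz => hW g hg z ((Polynomial.mem_nthRootsFinset hn 1).2 hz)⟩

theorem mem_of_fix {U : OpenSubgroup Gal(E/F)} {g : Gal(E/F)} (h : ∀ x ∈ Fx U, g x = x) : g ∈ U := by
  have : g ∈ (Fx U).fixingSubgroup := (IntermediateField.mem_fixingSubgroup_iff _ _).2 h
  rwa [fixing_Fx] at this

theorem Fx_stable {U : OpenSubgroup Gal(E/F)} {g : Gal(E/F)} (h : ∀ u ∈ U, g⁻¹ * u * g ∈ U) {x : E}
    (hx : x ∈ Fx U) : g x ∈ Fx U := by
  refine mem_Fx.2 fun u hu => ?_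
  have := congrArg g (mem_Fx.1 hx _ (h u hu))
  rwa [← AlgEquiv.mul_apply, ← mul_assoc, ← mul_assoc, mul_inv_cancel, one_mul] at this

theorem rt_sq (hE : RC E) (x : E) : rt x ^ 2 = x := by
  have h := hE.root 2 x two_pos
  unfold rt
  rw [dif_pos h]
  exact h.choose_spec

theorem sg_eq_zero_iff {g : Gal(E/F)} {x y : E} (h : y ^ 2 = x) : sg g x = 0 ↔ g y = y := by
  have h0 : ∃ y : E, y ^ 2 = x := ⟨y, h⟩
  have h1 : rt x ^ 2 = y ^ 2 := by
    unfold rt
    rw [dif_pos h0, h]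
    exact h0.choose_spec
  unfold sg
  rcases sq_eq_sq_iff_eq_or_eq_neg.1 h1 with e | e
  · rw [e]; simp
  · rw [e]; simp

theorem ch_pm {g : Gal(E/F)} {x y : E} (h : y ^ 2 = x) (hg : g x = x) : g y = y ∨ g y = -y :=
  sq_eq_sq_iff_eq_or_eq_neg.1 (by rw [← map_pow, h, hg])

theorem ch_z2 {a b : ZMod 2} (h : a = 0 ↔ b = 0) : a = b := by
  revert a b; decide

theorem ch_z2' {a b : ZMod 2} : a + b = 0 ↔ (a = 0 ↔ b = 0) := by
  revert a b; decide

theorem sg_ne_zero_iff {g : Gal(E/F)} {x y : E} (h : y ^ 2 = x) (hx : x ≠ 0) (hg : g x = x) :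
    sg g x ≠ 0 ↔ g y = -y := by
  have h0 : y ≠ 0 := fun e => hx (by rw [← h, e]; simp)
  rw [Ne, sg_eq_zero_iff h]
  refine ⟨fun a => (ch_pm h hg).resolve_left a, fun a b => h0 ?_⟩
  exact self_eq_neg.1 (b.symm.trans a)

theorem sg_mul_left (hE : RC E) {g h : Gal(E/F)} {x : E} (hg : g x = x) (hh : h x = x) :
    sg (g * h) x = sg g x + sg h x := by
  have e := rt_sq hE x
  refine ch_z2 ?_
  rw [ch_z2', sg_eq_zero_iff e, sg_eq_zero_iff e, sg_eq_zero_iff e, AlgEquiv.mul_apply]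
  by_cases h0 : rt x = 0
  · simp [h0]
  have n0 : ¬ -rt x = rt x := fun a => h0 (self_eq_neg.1 a.symm)
  rcases ch_pm e hg with a | a <;> rcases ch_pm e hh with b | b <;> simp [a, b, n0]

theorem sg_mul_right (hE : RC E) {g : Gal(E/F)} {x y : E} (hx : x ≠ 0) (hy : y ≠ 0) (gx : g x = x)
    (gy : g y = y) : sg g (x * y) = sg g x + sg g y := by
  have e := rt_sq hE x
  have e' := rt_sq hE y
  have e2 : (rt x * rt y) ^ 2 = x * y := by rw [mul_pow, e, e']
  refine ch_z2 ?_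
  rw [ch_z2', sg_eq_zero_iff e, sg_eq_zero_iff e', sg_eq_zero_iff e2, map_mul]
  have x0 : rt x ≠ 0 := fun a => hx (by rw [← e, a]; simp)
  have y0 : rt y ≠ 0 := fun a => hy (by rw [← e', a]; simp)
  have n0 : ∀ z : E, z ≠ 0 → ¬ -z = z := fun z h0 a => h0 (self_eq_neg.1 a.symm)
  rcases ch_pm e gx with a | a <;> rcases ch_pm e' gy with b | b <;>
    simp [a, b, n0 _ x0, n0 _ y0, n0 _ (mul_ne_zero x0 y0)]

theorem sg_inv_right (hE : RC E) {g : Gal(E/F)} {x : E} : sg g x⁻¹ = sg g x := by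
  have e := rt_sq hE x
  refine ch_z2 ?_
  rw [sg_eq_zero_iff e, sg_eq_zero_iff (y := (rt x)⁻¹) (by rw [inv_pow, e]), map_inv₀, inv_inj]

theorem sg_conj (hE : RC E) (g h : Gal(E/F)) (x : E) : sg (g * h * g⁻¹) (g x) = sg h x := by
  have e := rt_sq hE x
  refine ch_z2 ?_
  rw [sg_eq_zero_iff e, sg_eq_zero_iff (y := g (rt x)) (by rw [← map_pow, e]), uq_conj]
  exact g.injective.eq_iff

theorem isCh_sg (hE : RC E) {U : OpenSubgroup Gal(E/F)} {x : E} (hx : ∀ g ∈ U, g x = x) :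
    IsCh U fun g => sg g x := by
  exact IsCh.of_le (fun g hg k hk => sg_mul_left hE (hx g hg) (hx k hk)) (stab (rt x))
    fun g _ hg => (sg_eq_zero_iff (rt_sq hE x)).2 hg

/-- if the quadratic character of `x` vanishes on `U` then `x` is a square in the fixed field -/
theorem isSquare_iff_sg (hE : RC E) {U : OpenSubgroup Gal(E/F)} (x : Fx U) :
    IsSquare x ↔ ∀ g ∈ U, sg g (x : E) = 0 := by
  constructor
  · rintro ⟨y, rfl⟩ g hg
    exact (sg_eq_zero_iff (y := (y : E)) (by rw [sq]; rfl)).2 (mem_Fx.1 y.2 g hg)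
  · intro h
    refine ⟨⟨rt (x : E), mem_Fx.2 fun g hg => (sg_eq_zero_iff (rt_sq hE _)).1 (h g hg)⟩,
      Subtype.ext ?_⟩
    exact (rt_sq hE _).symm.trans (sq _)

theorem ch_pow {g : Gal(E/F)} (hg : FixI g) (n : ℕ) : FixI (g ^ n) := by
  intro i hi
  induction n with
  | zero => rfl
  | succ n ih => rw [pow_succ, AlgEquiv.mul_apply, hg i hi, ih]

theorem ch_inv (hE : RC E) {g : Gal(E/F)} (h : FixI g) (hk : g * g = 1) : g = 1 := by
  have gg : ∀ x, g (g x) = x := fun x => by rw [← AlgEquiv.mul_apply, hk]; rfl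
  ext x
  by_contra hx
  have z0 : x - g x ≠ 0 := fun a => hx (sub_eq_zero.1 a).symm
  obtain ⟨w, hw⟩ := hE.root 2 (x - g x) two_pos
  have w0 : w ≠ 0 := fun a => z0 (by rw [← hw, a]; simp)
  have h1 : g w ^ 2 = -(x - g x) := by rw [← map_pow, hw, map_sub, gg]; ring
  have h2 : (g w / w) ^ 2 = -1 := by rw [div_pow, h1, hw, neg_div, div_self z0]
  have h3 := h _ h2
  have g0 : g w ≠ 0 := by simpa using w0
  rw [map_div₀, gg, div_eq_div_iff g0 w0, ← sq, ← sq, h1, hw] at h3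
  exact z0 (self_eq_neg.1 h3)

theorem eq_one_of_fixI (hE : RC E) {g : Gal(E/F)} (h : FixI g) {k : ℕ} (hk : g ^ 2 ^ k = 1) :
    g = 1 := by
  induction k generalizing g with
  | zero => simpa using hk
  | succ k ih =>
    refine ch_inv hE h ?_
    rw [← sq]
    refine ih (ch_pow h 2) ?_
    rw [← pow_mul, ← pow_succ', hk]

theorem FixI.mul {g h : Gal(E/F)} (hg : FixI g) (hh : FixI h) : FixI (g * h) := by
  intro i hi
  rw [AlgEquiv.mul_apply, hh i hi, hg i hi]

theorem FixI.pow {g : Gal(E/F)} (hg : FixI g) (n : ℕ) : FixI (g ^ n) := by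
  exact ch_pow hg n

end Vale.Agent.P024
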