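import Vale.Agent.P024.Defs

/-! # P024 CovB
Two general lemmas.  `neumann_pair`: since `ι` is finite, every `g` lies in some
`Z i = {g | ∀ x, β i x g = 0}`; by the lemma of B. H. Neumann some `Z i` has finite index, and `Y`
is the common kernel of `β i · g` for coset representatives `g`.
`lim_emb`: limit along an ultrafilter on `Finset E`; the values lie in finite root sets. -/

namespace Vale.Agent.P024

open NumberField IsDedekindDomain Filter
open scoped Pointwise Topology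

set_option linter.unusedSectionVars false

theorem neumann_pair {X G ι : Type*} [Group X] [Group G] [Finite ι] (β : ι → X → G → ZMod 2)
    (hx : ∀ i x y g, β i (x * y) g = β i x g + β i y g)
    (hg : ∀ i x g g', β i x (g * g') = β i x g + β i x g')
    (h : ∀ (X0 : Finset X) (g : G), ∃ i, ∀ x ∈ X0, β i x g = 0) :
    ∃ (i : ι) (Y : Subgroup X), Y.FiniteIndex ∧ ∀ x ∈ Y, ∀ g, β i x g = 0 := by
  classical
  have := Fintype.ofFinite ι
  have h1 : ∀ i x, β i x 1 = 0 := fun i x => by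
    have := hg i x 1 1
    rw [mul_one] at this
    exact left_eq_add.1 this
  let Z : ι → Subgroup G := fun i =>
    { carrier := {g | ∀ x, β i x g = 0}
      one_mem' := h1 i
      mul_mem' := fun {a b} ha hb x => by rw [hg, ha x, hb x, add_zero]
      inv_mem' := fun {a} ha x => by
        have := hg i x a a⁻¹
        rw [mul_inv_cancel, h1, ha x, zero_add] at this
        exact this.symm }
  have hcov : ⋃ i ∈ (Finset.univ : Finset ι), (fun _ => (1 : G)) i • (Z i : Set G) = Set.univ := by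
    refine Set.eq_univ_of_forall fun g => ?_
    by_contra hn
    have h2 : ∀ i, ∃ x, β i x g ≠ 0 := fun i => by
      by_contra hc
      refine hn (Set.mem_iUnion₂.2 ⟨i, Finset.mem_univ i, ?_⟩)
      rw [one_smul]
      exact fun x => not_not.1 fun hx => hc ⟨x, hx⟩
    choose x hx' using h2
    obtain ⟨i, hi⟩ := h (Finset.univ.image x) g
    exact hx' i (hi _ (Finset.mem_image_of_mem x (Finset.mem_univ i)))
  obtain ⟨i, -, hi⟩ := Subgroup.exists_finiteIndex_of_leftCoset_cover hcov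
  let φ : G → X →* Multiplicative (ZMod 2) := fun g =>
    MonoidHom.mk' (fun x => Multiplicative.ofAdd (β i x g)) fun x y => by rw [hx, ofAdd_add]
  refine ⟨i, ⨅ q : G ⧸ Z i, (φ q.out).ker, Subgroup.finiteIndex_iInf fun q => inferInstance,
    fun x hxY g => ?_⟩
  obtain ⟨z, hz⟩ := QuotientGroup.mk_out_eq_mul (Z i) g
  have h3 : β i x (QuotientGroup.mk g : G ⧸ Z i).out = 0 := Subgroup.mem_iInf.1 hxY _
  rwa [hz, hg, z.2 x, add_zero] at h3

theorem lim_emb {E K Γ : Type*} [Field E] [Field K] [CharZero E] [CharZero K] [Algebra.IsAlgebraic ℚ E]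
    (a : Γ → E → E) (b : Γ → K → K)
    (h : ∀ s : Finset E, ∃ (L : Subfield E) (τ : L →+* K), (∀ x ∈ s, x ∈ L) ∧
      ∀ (γ : Γ) (x y : L), (y : E) = a γ x → τ y = b γ (τ x)) :
    ∃ j : E →+* K, ∀ γ x, j (a γ x) = b γ (j x) := by
  classical
  choose L τ hL hτ using h
  let 𝒰 : Ultrafilter (Finset E) := Ultrafilter.of atTop
  have hev : ∀ x : E, ∀ᶠ s in (𝒰 : Filter (Finset E)), x ∈ L s := fun x =>
    ((eventually_ge_atTop ({x} : Finset E)).mono fun s hs =>
      hL s x (hs (Finset.mem_singleton_self x))).filter_mono (Ultrafilter.of_le _)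
  have hex : ∀ x : E, ∃ v : K, ∀ᶠ s in (𝒰 : Filter (Finset E)), ∃ hx : x ∈ L s,
      τ s ⟨x, hx⟩ = v := fun x => by
    have hi : IsIntegral ℚ x := (Algebra.IsAlgebraic.isAlgebraic x).isIntegral
    have h1 : ∀ᶠ s in (𝒰 : Filter (Finset E)), ∃ v ∈ (minpoly ℚ x).rootSet K, ∃ hx : x ∈ L s,
        τ s ⟨x, hx⟩ = v := (hev x).mono fun s hx => by
      refine ⟨_, Polynomial.mem_rootSet.2 ⟨minpoly.ne_zero hi, ?_⟩, hx, rfl⟩
      have e1 := Polynomial.aeval_algHom_apply (L s).subtype.toRatAlgHom ⟨x, hx⟩ (minpoly ℚ x)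
      have e2 : Polynomial.aeval (⟨x, hx⟩ : L s) (minpoly ℚ x) = 0 :=
        Subtype.ext (e1.symm.trans (minpoly.aeval ℚ x))
      have e3 := Polynomial.aeval_algHom_apply (τ s).toRatAlgHom ⟨x, hx⟩ (minpoly ℚ x)
      rw [e2, map_zero] at e3
      exact e3
    obtain ⟨v, -, hv⟩ := (Ultrafilter.eventually_exists_mem_iff (Polynomial.rootSet_finite _ _)).1 h1
    exact ⟨v, hv⟩
  choose j hj using hex
  refine ⟨⟨⟨⟨j, ?_⟩, fun x y => ?_⟩, ?_, fun x y => ?_⟩, fun γ x => ?_⟩
  · obtain ⟨s, _, e⟩ := (hj 1).exists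
    exact e.symm.trans (map_one (τ s))
  · obtain ⟨s, ⟨_, e1⟩, ⟨h2, e2⟩, h3, e3⟩ := ((hj (x * y)).and ((hj x).and (hj y))).exists
    change j (x * y) = j x * j y
    rw [← e1, ← e2, ← e3]
    exact map_mul (τ s) ⟨x, h2⟩ ⟨y, h3⟩
  · obtain ⟨s, _, e⟩ := (hj 0).exists
    exact e.symm.trans (map_zero (τ s))
  · obtain ⟨s, ⟨_, e1⟩, ⟨h2, e2⟩, h3, e3⟩ := ((hj (x + y)).and ((hj x).and (hj y))).exists
    change j (x + y) = j x + j y
    rw [← e1, ← e2, ← e3]
    exact map_add (τ s) ⟨x, h2⟩ ⟨y, h3⟩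
  · obtain ⟨s, ⟨_, e1⟩, h2, e2⟩ := ((hj (a γ x)).and (hj x)).exists
    change j (a γ x) = b γ (j x)
    rw [← e1, ← e2]
    exact hτ s γ _ _ rfl

end Vale.Agent.P024
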