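import Vale.Agent.P024.PrB

/-! # P024 Tow
Finite layers.  PLAN.  `finrank_Fx`: `IntermediateField.finrank_eq_fixingSubgroup_index` and `fixing_Fx`.  `tow_spec`: for `g ∈ U` the map `resE g` is an algebra endomorphism of `Fx N` over `Fx U`, bijective by finite dimension (`AlgEquiv.ofBijective`, `AlgHom.bijective`);
`res` is a homomorphism on `U` with kernel `N` (`mem_of_fix`), so `relIndex ≤ card Gal ≤ finrank (Fx U) (Fx N) = relIndex` (tower law with `finrank_Fx`); `IsGalois.of_card_aut_eq_finrank`.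
`tow_stab`: `σ = res g` fixes `𝔓`; then `g • A` and `A` both lie over `𝔓` (`Lies.smul`), so `n • g • A = A` for some `n ∈ N` (`trans_U`), and `res (n g) = σ`. -/

namespace Vale.Agent.P024

open NumberField IsDedekindDomain Filter
open scoped Pointwise Topology

set_option linter.unusedSectionVars false

variable {F E : Type*} [Field F] [NumberField F] [Field E] [CharZero E] [Algebra F E] [IsGalois F E]

theorem finrank_Fx (U : OpenSubgroup Gal(E/F)) : Module.finrank F (Fx U) = U.toSubgroup.index := by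
  rw [IntermediateField.finrank_eq_fixingSubgroup_index, fixing_Fx]

theorem finrank_Fx_rat (U : OpenSubgroup G1) : Module.finrank ℚ (Fx U) = U.toSubgroup.index := by
  exact finrank_Fx U

/-- the embedding `Fx U → Fx U'` induced by `g` -/
noncomputable def resE (g : Gal(E/F)) (U U' : OpenSubgroup Gal(E/F)) (h : ∀ u ∈ U', g⁻¹ * u * g ∈ U) :
    Fx U →+* Fx U' :=
  ((g : E →+* E).comp (inc U)).codRestrict (Fx U').toSubfield fun x => mem_Fx.2 fun u hu => by
    have := mem_Fx.1 x.2 _ (h u hu)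
    simp only [AlgEquiv.mul_apply] at this
    have h2 := congrArg g this
    rw [← AlgEquiv.mul_apply, mul_inv_cancel, AlgEquiv.one_apply] at h2
    exact h2

omit [NumberField F] [CharZero E] [IsGalois F E] in
theorem coe_resE (g : Gal(E/F)) (U U' : OpenSubgroup Gal(E/F)) (h : ∀ u ∈ U', g⁻¹ * u * g ∈ U)
    (x : Fx U) : (resE g U U' h x : E) = g x := rfl

/-- the inclusion of fixed fields -/
noncomputable def incl {U N : OpenSubgroup Gal(E/F)} (h : N ≤ U) : Fx U →+* Fx N :=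
  resE 1 U N fun u hu => by simpa using h hu

omit [NumberField F] [CharZero E] [IsGalois F E] in
theorem coe_incl {U N : OpenSubgroup Gal(E/F)} (h : N ≤ U) (x : Fx U) : (incl h x : E) = x := rfl

theorem tow_spec {U N : OpenSubgroup Gal(E/F)} (h : N ≤ U) (hn : NormIn N U) :
    letI := (incl h).toAlgebra
    IsGalois (Fx U) (Fx N) ∧ Nat.card Gal(Fx N/Fx U) = N.toSubgroup.relIndex U.toSubgroup ∧
      ∃ res : Gal(E/F) → Gal(Fx N/Fx U), (∀ g ∈ U, ∀ x, (res g x : E) = g x) ∧
        (∀ σ, ∃ g ∈ U, res g = σ) ∧ (∀ g ∈ U, ∀ g' ∈ U, res (g * g') = res g * res g') ∧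
        (∀ g ∈ U, res g = 1 ↔ g ∈ N) ∧
        ∀ (A : ValuationSubring E) (P : HeightOneSpectrum (𝓞 (Fx N))), Lies A (inc N) P →
          ∀ σ : Gal(Fx N/Fx U), σ • P.asIdeal = P.asIdeal ↔ ∃ g ∈ U, g ∈ DD F A ∧ res g = σ := by
  let := (incl h).toAlgebra
  have : IsScalarTower F (Fx U) (Fx N) := IsScalarTower.of_algebraMap_eq fun _ => rfl
  have : FiniteDimensional (Fx U) (Fx N) := Module.Finite.of_restrictScalars_finite F _ _
  have : Module.Free (Fx U) (Fx N) := Module.Free.of_divisionRing _ _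
  have hex : ∀ g ∈ U, ∃ σ : Gal(Fx N/Fx U), ∀ x, (σ x : E) = g x := fun g hg =>
    let φ : Fx N →ₐ[Fx U] Fx N :=
      ⟨resE g N N fun u hu => by simpa using hn g⁻¹ (U.inv_mem hg) u hu,
        fun x => Subtype.ext (mem_Fx.1 x.2 g hg)⟩
    ⟨AlgEquiv.ofBijective φ φ.bijective, fun _ => rfl⟩
  choose! res hres using hex
  have hmul : ∀ g ∈ U, ∀ g' ∈ U, res (g * g') = res g * res g' := fun g hg g' hg' =>
    AlgEquiv.ext fun x => Subtype.ext (by
      rw [hres _ (U.mul_mem hg hg'), AlgEquiv.mul_apply, AlgEquiv.mul_apply, hres g hg, hres g' hg'])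
  have hone : ∀ g ∈ U, res g = 1 ↔ g ∈ N := fun g hg =>
    ⟨fun e => mem_of_fix fun x hx => by rw [← hres g hg ⟨x, hx⟩, e]; rfl,
      fun e => AlgEquiv.ext fun x => Subtype.ext ((hres g hg x).trans (mem_Fx.1 x.2 g e))⟩
  let r : U.toSubgroup →* Gal(Fx N/Fx U) := MonoidHom.mk' (fun g => res g) fun a b =>
    hmul a a.2 b b.2
  have h1 : Nat.card r.range = N.toSubgroup.relIndex U.toSubgroup := by
    rw [← Subgroup.index_ker, Subgroup.relIndex]
    congr 1
    exact Subgroup.ext fun g => hone g g.2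
  have h2 : Module.finrank (Fx U) (Fx N) = N.toSubgroup.relIndex U.toSubgroup := by
    refine Nat.eq_of_mul_eq_mul_left (Module.finrank_pos (R := F) (M := Fx U)) ?_
    rw [Module.finrank_mul_finrank, finrank_Fx, finrank_Fx, mul_comm,
      Subgroup.relIndex_mul_index h]
  have h3 : Nat.card Gal(Fx N/Fx U) ≤ Nat.card r.range := by
    rw [h1, ← h2, Nat.card_eq_fintype_card]
    exact AlgEquiv.card_le
  have h4 := Subgroup.eq_top_of_le_card _ h3
  have h5 : Nat.card Gal(Fx N/Fx U) = N.toSubgroup.relIndex U.toSubgroup := by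
    rw [← h1, h4, Subgroup.card_top]
  have hsurj : ∀ σ, ∃ g ∈ U, res g = σ := fun σ => by
    obtain ⟨g, hg⟩ := MonoidHom.range_eq_top.1 h4 σ
    exact ⟨g, g.2, hg⟩
  refine ⟨IsGalois.of_card_aut_eq_finrank _ _ (h5.trans h2.symm), h5, res, hres, hsurj, hmul, hone,
    fun A P hP σ => ?_⟩
  have key : ∀ g ∈ U, ∀ x : 𝓞 (Fx N),
      x ∈ res g • P.asIdeal ↔ inc N (x : Fx N) ∈ (g • A).nonunits := fun g hg x => by
    rw [Ideal.mem_pointwise_smul_iff_inv_smul_mem, hP, ← nonunits_smul_iff g]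
    refine Eq.to_iff (congrArg (· ∈ (g • A).nonunits) ((hres g hg _).symm.trans ?_))
    exact congrArg Subtype.val ((res g).apply_symm_apply (x : Fx N))
  constructor
  · intro e
    obtain ⟨g, hg, rfl⟩ := hsurj σ
    obtain ⟨n, hN, e'⟩ := trans_U (A := g • A) (fun x => by rw [← key g hg, e]) hP
    refine ⟨n * g, U.mul_mem (h hN) hg, by rw [mem_DD, mul_smul, e'], ?_⟩
    rw [hmul n (h hN) g hg, (hone n (h hN)).2 hN, one_mul]
  · rintro ⟨g, hg, hD, rfl⟩
    ext x
    rw [key g hg, mem_DD.1 hD, hP]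

theorem isTotallyComplex_Fx {U : OpenSubgroup Gal(E/F)} {z : E} {n : ℕ} (hz : IsPrimitiveRoot z n)
    (hn : 2 < n) (hU : ∀ g ∈ U, g z = z) : IsTotallyComplex (Fx U) := by
  exact nrRealPlaces_eq_zero_iff.1 (InfinitePlace.IsPrimitiveRoot.nrRealPlaces_eq_zero_of_two_lt hn
    (IsPrimitiveRoot.of_map_of_injective (f := inc U) (ζ := ⟨z, mem_Fx.2 hU⟩) hz (inc U).injective))

theorem two_le_places {U : OpenSubgroup Gal(E/F)} {z : E} (hz : IsPrimitiveRoot z 8)
    (hU : ∀ g ∈ U, g z = z) : 2 ≤ Fintype.card (InfinitePlace (Fx U)) := by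
  have hz' := IsPrimitiveRoot.of_map_of_injective (f := inc U) (ζ := ⟨z, mem_Fx.2 hU⟩) hz
    (inc U).injective
  have h1 := hz'.lcm_totient_le_finrank (K := ℚ) hz'
    (Polynomial.cyclotomic.irreducible_rat (by norm_num))
  have h2 := InfinitePlace.IsPrimitiveRoot.nrRealPlaces_eq_zero_of_two_lt (by norm_num) hz'
  have h3 := InfinitePlace.card_add_two_mul_card_eq_rank (Fx U)
  rw [show (Nat.lcm 8 8).totient = 4 by decide] at h1
  rw [InfinitePlace.card_eq_nrRealPlaces_add_nrComplexPlaces]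
  omega

/-- all embeddings of a number field are fixed by an open normal subgroup -/
theorem exists_fix_emb (M : Type*) [Field M] [NumberField M] :
    ∃ W : OpenNormalSubgroup G1, ∀ g ∈ W, ∀ (τ : M →+* Qb) x, g (τ x) = τ x := by
  classical
  obtain ⟨pb⟩ : Nonempty (PowerBasis ℚ M) := ⟨Field.powerBasisOfFiniteOfSeparable ℚ M⟩
  obtain ⟨W, hW⟩ := exists_fix_finset (F := ℚ)
    (Finset.univ.image fun τ : M →+* Qb => τ pb.gen)
  refine ⟨W, fun g hg τ x => ?_⟩
  exact DFunLike.congr_fun (pb.algHom_ext (f := (g : Qb →ₐ[ℚ] Qb).comp τ.toRatAlgHom)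
    (g := τ.toRatAlgHom) (hW g hg _ (Finset.mem_image_of_mem _ (Finset.mem_univ τ)))) x

end Vale.Agent.P024
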