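import Vale.Agent.P024.KumH
import Vale.Agent.P024.Tow

/-! # P024 Cyc (TASK; helper lemma names start with `cyc_` or are private)
Cyclotomic characters.  PLAN.  With a primitive root `z` of order `t`, `g z` is a `t`-th root of unity, hence `z^i` (`IsPrimitiveRoot.eq_pow_of_pow_eq_one`), and every `t`-th root of unity is a power of `z`.
`cyc_big`: let `Z` be the image of `U` in the cyclic group `(ZMod (l^j))ˣ` (`ZMod.isCyclic_units_of_prime_pow`), `U' = U ⊓ cycK`; `z ∈ Fx U'`, so `φ (l^j) = deg minpoly ℚ z ≤ finrank ℚ (Fx U') = finrank ℚ F * index U * card Z` (`finrank_Fx`, `IsPrimitiveRoot.totient_le_degree_minpoly` or `cyclotomic_eq_minpoly_rat`);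
`card Z ∣ (l-1) l^(j-1)`; so for large `j` the power `l^k` divides `card Z`, the order of a generator.
`exists_lam`: a cyclic group of order divisible by `n` has an onto homomorphism to `ZMod n` (discrete logarithm, `ZMod.castHom`, `zmodCyclicMulEquiv`); its reduction mod `q` kills exactly the `q`-th powers. -/

namespace Vale.Agent.P024

open NumberField IsDedekindDomain Filter
open scoped Pointwise Topology

set_option linter.unusedSectionVars false

variable {F E : Type*} [Field F] [NumberField F] [Field E] [CharZero E] [Algebra F E] [IsGalois F E]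

/-- the cyclotomic character modulo `t` -/
noncomputable def cyc (t : ℕ) (g : Gal(E/F)) : ZMod t :=
  open Classical in
  if h : ∃ c : ZMod t, ∀ z : E, z ^ t = 1 → g z = z ^ c.val then h.choose else 0

variable {t : ℕ} [NeZero t] {g h : Gal(E/F)}

theorem cyc_spec (hE : RC E) (g : Gal(E/F)) {z : E} (hz : z ^ t = 1) : g z = z ^ (cyc t g).val := by
  have h : ∃ c : ZMod t, ∀ z : E, z ^ t = 1 → g z = z ^ c.val := by
    obtain ⟨ζ, hζ⟩ := hE.prim t (NeZero.pos t)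
    obtain ⟨i, -, hi⟩ := hζ.eq_pow_of_pow_eq_one
      (show (g ζ) ^ t = 1 by rw [← map_pow, hζ.pow_eq_one, map_one])
    refine ⟨i, fun z hz => ?_⟩
    obtain ⟨j, -, hj⟩ := hζ.eq_pow_of_pow_eq_one hz
    rw [pow_val_natCast hz, ← hj, map_pow, ← hi, ← pow_mul, ← pow_mul, mul_comm]
  rw [cyc, dif_pos h]
  exact h.choose_spec z hz

theorem cyc_eq (hE : RC E) {c : ℕ} (h : ∀ z : E, z ^ t = 1 → g z = z ^ c) : cyc t g = c := by
  obtain ⟨ζ, hζ⟩ := hE.prim t (NeZero.pos t)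
  refine pow_val_inj hζ ?_
  rw [← cyc_spec hE g hζ.pow_eq_one, pow_val_natCast hζ.pow_eq_one, h ζ hζ.pow_eq_one]

theorem cyc_mul (hE : RC E) (g h : Gal(E/F)) : cyc t (g * h) = cyc t g * cyc t h := by
  rw [← ZMod.natCast_zmod_val (cyc t g * cyc t h)]
  refine cyc_eq hE fun z hz => ?_
  rw [AlgEquiv.mul_apply, cyc_spec hE h hz, map_pow, cyc_spec hE g hz, pow_val_mul hz]

theorem cyc_one (hE : RC E) : cyc t (1 : Gal(E/F)) = 1 := by
  rw [← Nat.cast_one]
  exact cyc_eq hE fun z _ => by rw [pow_one, AlgEquiv.one_apply]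

/-- the cyclotomic character as a homomorphism -/
noncomputable def cyc_hom (hE : RC E) (t : ℕ) [NeZero t] : Gal(E/F) →* ZMod t where
  toFun := cyc t
  map_one' := cyc_one hE
  map_mul' := cyc_mul hE

theorem cyc_pow (hE : RC E) (g : Gal(E/F)) (n : ℕ) : cyc t (g ^ n) = cyc t g ^ n :=
  map_pow (cyc_hom hE t) g n

theorem isUnit_cyc (hE : RC E) (g : Gal(E/F)) : IsUnit (cyc t g) :=
  (Group.isUnit g).map (cyc_hom hE t)

theorem cyc_conj (hE : RC E) (g h : Gal(E/F)) : cyc t (g * h * g⁻¹) = cyc t h := by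
  rw [cyc_mul hE, cyc_mul hE, mul_right_comm, ← cyc_mul hE, mul_inv_cancel, cyc_one hE, one_mul]

theorem cyc_eq_one_iff (hE : RC E) : cyc t g = 1 ↔ ∀ z : E, z ^ t = 1 → g z = z := by
  refine ⟨fun h z hz => ?_, fun h => ?_⟩
  · rw [cyc_spec hE g hz, h, ← Nat.cast_one, pow_val_natCast hz, pow_one]
  · rw [← Nat.cast_one]
    exact cyc_eq hE fun z hz => by rw [pow_one, h z hz]

theorem exists_cycK (hE : RC E) (t : ℕ) [NeZero t] :
    ∃ W : OpenNormalSubgroup Gal(E/F), ∀ g, g ∈ W ↔ cyc t g = 1 := by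
  obtain ⟨W, hW⟩ := exists_fix_roots (F := F) (E := E) t (NeZero.pos t)
  exact ⟨⟨⟨(cyc_hom hE t).ker, Subgroup.isOpen_mono (H₁ := W.toSubgroup)
    (fun g hg => (cyc_eq_one_iff hE).2 (hW g hg)) W.isOpen⟩, inferInstance⟩, fun g => Iff.rfl⟩

theorem cyc_cast (hE : RC E) {t' : ℕ} [NeZero t'] (ht : t ∣ t') (g : Gal(E/F)) :
    ZMod.castHom ht (ZMod t) (cyc t' g) = cyc t g := by
  rw [ZMod.castHom_apply, ← ZMod.natCast_val]
  refine (cyc_eq hE fun z hz => cyc_spec hE g ?_).symm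
  obtain ⟨c, rfl⟩ := ht
  rw [pow_mul, hz, one_pow]

theorem cyc_frob (hE : RC E) {A : ValuationSubring E} {p N : ℕ} (hp : p.Prime) (hA : Ov A p)
    (ht : ¬p ∣ t) (h : IsFrob A N g) : cyc t g = N := by
  have := alg_rat F E
  exact cyc_eq hE fun z hz => h.root hA hp ht hz

theorem cyc_II (hE : RC E) {A : ValuationSubring E} {p : ℕ} (hp : p.Prime) (hA : Ov A p)
    (ht : ¬p ∣ t) (h : g ∈ II F A) : cyc t g = 1 := by
  have := alg_rat F E
  exact (cyc_eq_one_iff hE).2 fun z hz => II_root hA hp ht h hz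

theorem isCh_cyc (hE : RC E) (U : OpenSubgroup Gal(E/F)) {Q : Type*} [AddCommGroup Q]
    (lam : ZMod t → Q) (h : ∀ x y, IsUnit x → IsUnit y → lam (x * y) = lam x + lam y) :
    IsCh U fun g => lam (cyc t g) := by
  obtain ⟨W, hW⟩ := exists_cycK (F := F) hE t
  refine IsCh.of_le (fun g _ g' _ => ?_) W.toOpenSubgroup fun g _ hg => ?_
  · rw [cyc_mul hE, h _ _ (isUnit_cyc hE g) (isUnit_cyc hE g')]
  · have h1 := h 1 1 isUnit_one isUnit_one
    rw [mul_one] at h1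
    rw [(hW g).1 hg]
    exact left_eq_add.1 h1

theorem cyc_totient_le (hE : RC E) (U : OpenSubgroup Gal(E/F)) (t : ℕ) [NeZero t] :
    t.totient ≤ Module.finrank ℚ F * U.toSubgroup.index *
      Nat.card (U.toSubgroup.map (cyc_hom (F := F) hE t).toHomUnits) := by
  obtain ⟨W, hW⟩ := exists_cycK (F := F) hE t
  obtain ⟨ζ, hζ⟩ := hE.prim t (NeZero.pos t)
  have hm : ζ ∈ Fx (U ⊓ W.toOpenSubgroup) := mem_Fx.2 fun g hg =>
    (cyc_eq_one_iff hE).1 ((hW g).1 hg.2) ζ hζ.pow_eq_one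
  have hζ' : IsPrimitiveRoot (⟨ζ, hm⟩ : Fx (U ⊓ W.toOpenSubgroup)) t :=
    IsPrimitiveRoot.coe_submonoidClass_iff.1 hζ
  have h1 := minpoly.natDegree_le (A := ℚ) (⟨ζ, hm⟩ : Fx (U ⊓ W.toOpenSubgroup))
  rw [← Polynomial.cyclotomic_eq_minpoly_rat hζ' (NeZero.pos t), Polynomial.natDegree_cyclotomic,
    ← Module.finrank_mul_finrank ℚ F, finrank_Fx] at h1
  have e : (U ⊓ W.toOpenSubgroup).toSubgroup =
      U.toSubgroup ⊓ (cyc_hom (F := F) hE t).toHomUnits.ker := by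
    ext g
    exact and_congr_right fun _ => (hW g).trans (Units.val_eq_one (α := ZMod t)
      (a := (cyc_hom (F := F) hE t).toHomUnits g))
  rw [e, ← Subgroup.relIndex_mul_index (inf_le_left (a := U.toSubgroup)),
    Subgroup.inf_relIndex_left, Subgroup.relIndex_ker] at h1
  exact h1.trans (le_of_eq (by ring))

theorem cyc_big (hE : RC E) (U : OpenSubgroup Gal(E/F)) {l : ℕ} (hl : l.Prime) (h2 : l ≠ 2) (k j0 : ℕ) :
    ∃ j, j0 ≤ j ∧ ∃ g ∈ U, l ^ k ∣ orderOf (cyc (l ^ j) g) := by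
  obtain ⟨N, hN⟩ : ∃ N, N = Module.finrank ℚ F * U.toSubgroup.index := ⟨_, rfl⟩
  have : NeZero (l ^ (j0 + k + N + 1)) := ⟨pow_ne_zero _ hl.ne_zero⟩
  have := ZMod.isCyclic_units_of_prime_pow l hl h2 (j0 + k + N + 1)
  have h1 := cyc_totient_le hE U (l ^ (j0 + k + N + 1))
  have h3 := Subgroup.card_subgroup_dvd_card
    (U.toSubgroup.map (cyc_hom (F := F) hE (l ^ (j0 + k + N + 1))).toHomUnits)
  obtain ⟨x, hx⟩ := IsCyclic.exists_ofOrder_eq_natCard
    (α := U.toSubgroup.map (cyc_hom (F := F) hE (l ^ (j0 + k + N + 1))).toHomUnits)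
  obtain ⟨g, hg, e⟩ := x.2
  refine ⟨j0 + k + N + 1, by omega, g, hg, ?_⟩
  rw [← Subgroup.orderOf_coe, ← e, ← orderOf_units] at hx
  have hx' : orderOf (cyc (l ^ (j0 + k + N + 1)) g) = _ := hx
  rw [Nat.card_eq_fintype_card (α := (ZMod _)ˣ), ZMod.card_units_eq_totient] at h3
  rw [← hx', ← hN] at h1
  rw [← hx'] at h3
  generalize orderOf (cyc (l ^ (j0 + k + N + 1)) g) = c at h1 h3 ⊢
  rw [Nat.totient_prime_pow_succ hl] at h1 h3
  have hl1 : 0 < l - 1 := Nat.sub_pos_of_lt hl.one_lt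
  have hc : c ≠ 0 := by
    rintro rfl
    exact (mul_pos (pow_pos hl.pos _) hl1).ne' (zero_dvd_iff.1 h3)
  obtain ⟨a, m, hm, rfl⟩ := Nat.exists_eq_pow_mul_and_not_dvd hc l hl.ne_one
  by_contra hk
  have ha : a ≤ k := by
    by_contra ha
    exact hk ((pow_dvd_pow l (not_le.1 ha).le).mul_right m)
  have hm' : m ≤ l - 1 := Nat.le_of_dvd hl1
    ((((Nat.Prime.coprime_iff_not_dvd hl).2 hm).symm.pow_right _).dvd_of_dvd_mul_left
      ((Dvd.intro_left _ rfl).trans h3))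
  have h4 : l ^ a * m ≤ l ^ k * (l - 1) := Nat.mul_le_mul (Nat.pow_le_pow_right hl.pos ha) hm'
  have h5 : l ^ k * (l - 1) * l ^ N ≤ l ^ (j0 + k + N) * (l - 1) := by
    rw [mul_right_comm, ← pow_add]
    exact Nat.mul_le_mul_right _ (Nat.pow_le_pow_right hl.pos (by omega))
  have h6 := h5.trans (h1.trans (Nat.mul_le_mul_left N h4))
  rw [mul_comm N] at h6
  exact (Nat.lt_pow_self hl.one_lt).not_ge
    (Nat.le_of_mul_le_mul_left h6 (mul_pos (pow_pos hl.pos _) hl1))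

theorem cyc_lam {t q k : ℕ} [NeZero t] [IsCyclic (ZMod t)ˣ] (hq : q.Prime) (hk : 0 < k)
    (h : q ^ k ∣ t.totient) :
    ∃ lam : ZMod t → ZMod (q ^ k), (∀ x y, IsUnit x → IsUnit y → lam (x * y) = lam x + lam y) ∧
      ∀ x, IsUnit x → (ZMod.castHom (dvd_pow_self q hk.ne') (ZMod q) (lam x) = 0 ↔ ∃ y, y ^ q = x) := by
  obtain ⟨γ, hγ⟩ := IsCyclic.exists_monoid_generator (α := (ZMod t)ˣ)
  rw [← ZMod.card_units_eq_totient, ← Nat.card_eq_fintype_card,
    ← orderOf_eq_card_of_forall_mem_powers hγ, ← orderOf_units] at h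
  have h1 : ∀ x : ZMod t, ∃ n : ℕ, IsUnit x → (γ : ZMod t) ^ n = x := fun x => by
    by_cases hx : IsUnit x
    · obtain ⟨n, hn⟩ := hγ hx.unit
      exact ⟨n, fun _ => by simpa using congrArg Units.val hn⟩
    · exact ⟨0, fun h => absurd h hx⟩
  choose lg hlg using h1
  have h2 : ∀ a b : ℕ, (γ : ZMod t) ^ a = (γ : ZMod t) ^ b → a ≡ b [MOD q ^ k] := fun a b e => by
    rw [orderOf_units] at h
    exact (pow_eq_pow_iff_modEq.1 (Units.ext (by simpa using e) : γ ^ a = γ ^ b)).of_dvd h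
  refine ⟨fun x => lg x, fun x y hx hy => ?_, fun x hx => ?_⟩
  · rw [← Nat.cast_add, ZMod.natCast_eq_natCast_iff]
    refine h2 _ _ ?_
    rw [pow_add, hlg x hx, hlg y hy, hlg _ (hx.mul hy)]
  · rw [map_natCast, ZMod.natCast_eq_zero_iff]
    constructor
    · rintro ⟨m, hm⟩
      exact ⟨(γ : ZMod t) ^ m, by rw [← pow_mul, mul_comm, ← hm, hlg x hx]⟩
    · rintro ⟨y, rfl⟩
      have hy : IsUnit y := (isUnit_pow_iff hq.ne_zero).1 hx
      have h3 := (h2 (lg y * q) (lg (y ^ q)) (by rw [pow_mul, hlg y hy, hlg _ hx])).of_dvd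
        (dvd_pow_self q hk.ne')
      exact (h3.dvd_iff dvd_rfl).1 (Dvd.intro_left _ rfl)

/-- discrete logarithm modulo a prime `t` -/
theorem exists_lam_prime {t q k : ℕ} (ht : t.Prime) (hq : q.Prime) (hk : 0 < k) (h : q ^ k ∣ t - 1) :
    ∃ lam : ZMod t → ZMod (q ^ k), (∀ x y, IsUnit x → IsUnit y → lam (x * y) = lam x + lam y) ∧
      ∀ x, IsUnit x → (ZMod.castHom (dvd_pow_self q hk.ne') (ZMod q) (lam x) = 0 ↔ ∃ y, y ^ q = x) := by
  have : NeZero t := ⟨ht.ne_zero⟩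
  have := ZMod.isCyclic_units_prime ht
  exact cyc_lam hq hk (by rwa [Nat.totient_prime ht])

/-- discrete logarithm modulo `q ^ (k+1)` -/
theorem exists_lam_pow {q k : ℕ} (hq : q.Prime) (h2 : q ≠ 2) (hk : 0 < k) :
    ∃ lam : ZMod (q ^ (k + 1)) → ZMod (q ^ k),
      (∀ x y, IsUnit x → IsUnit y → lam (x * y) = lam x + lam y) ∧
      ∀ x, IsUnit x → (ZMod.castHom (dvd_pow_self q hk.ne') (ZMod q) (lam x) = 0 ↔ ∃ y, y ^ q = x) := by
  have : NeZero (q ^ (k + 1)) := ⟨pow_ne_zero _ hq.ne_zero⟩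
  have := ZMod.isCyclic_units_of_prime_pow q hq h2 (k + 1)
  exact cyc_lam hq hk (by rw [Nat.totient_prime_pow_succ hq]; exact Dvd.intro _ rfl)

end Vale.Agent.P024
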