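import Mathlib

/-! # P024 (Uchida's conjecture): shared definitions.  See `notes/P024.md`.  FIXED FILE. -/

namespace Vale.Agent.P024

open NumberField IsDedekindDomain Filter
open scoped Pointwise Topology

/-- the algebraic closure of `ℚ` -/
def Qb : Type := AlgebraicClosure ℚ

noncomputable instance : Field Qb := inferInstanceAs (Field (AlgebraicClosure ℚ))
instance : CharZero Qb := inferInstanceAs (CharZero (AlgebraicClosure ℚ))
instance : IsAlgClosed Qb := inferInstanceAs (IsAlgClosed (AlgebraicClosure ℚ))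
instance : Algebra.IsAlgebraic ℚ Qb := AlgebraicClosure.isAlgebraic ℚ
instance : IsAlgClosure ℚ Qb := ⟨inferInstance, inferInstance⟩
instance : IsGalois ℚ Qb := {}

/-- the absolute Galois group of `ℚ` -/
abbrev G1 : Type := Gal(Qb/ℚ)

/-- all roots and all roots of unity exist -/
structure RC (E : Type*) [Field E] : Prop where
  root : ∀ (n : ℕ) (x : E), 0 < n → ∃ y : E, y ^ n = x
  prim : ∀ n : ℕ, 0 < n → ∃ z : E, IsPrimitiveRoot z n

/-! ## profinite groups -/

section grp

variable {G : Type*} [Group G] [TopologicalSpace G]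

/-- `g` generates a pro-2 group -/
def Pro2 (g : G) : Prop := ∀ W : OpenNormalSubgroup G, ∃ k : ℕ, g ^ 2 ^ k ∈ W

/-- `J` is a pro-2 Sylow subgroup of `S` -/
structure Syl2 (S J : Subgroup G) : Prop where
  le : J ≤ S
  closed : IsClosed (J : Set G)
  pro : ∀ g ∈ J, Pro2 g
  odd : ∀ W : OpenNormalSubgroup G, Odd ((J ⊔ W.toSubgroup).relIndex (S ⊔ W.toSubgroup))

/-- `c` is a continuous additive character of the open subgroup `U` (values outside `U` are junk) -/
structure IsCh {Q : Type*} [AddCommGroup Q] (U : OpenSubgroup G) (c : G → Q) : Prop where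
  add : ∀ g ∈ U, ∀ h ∈ U, c (g * h) = c g + c h
  opn : IsOpen {g | g ∈ U ∧ c g = 0}

theorem IsCh.one {Q : Type*} [AddCommGroup Q] {U : OpenSubgroup G} {c : G → Q} (h : IsCh U c) :
    c 1 = 0 := by
  have := h.add 1 U.one_mem 1 U.one_mem
  rw [mul_one] at this
  exact left_eq_add.1 this

theorem IsCh.inv {Q : Type*} [AddCommGroup Q] {U : OpenSubgroup G} {c : G → Q} (h : IsCh U c)
    {g : G} (hg : g ∈ U) : c g⁻¹ = -c g := by
  have := h.add g hg g⁻¹ (U.inv_mem hg)
  rw [mul_inv_cancel, h.one] at this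
  exact (neg_eq_of_add_eq_zero_right this.symm).symm

/-- the kernel of a character -/
def IsCh.ker {Q : Type*} [AddCommGroup Q] {U : OpenSubgroup G} {c : G → Q} (h : IsCh U c) :
    OpenSubgroup G where
  carrier := {g | g ∈ U ∧ c g = 0}
  one_mem' := ⟨U.one_mem, h.one⟩
  mul_mem' := fun {a b} ha hb => ⟨U.mul_mem ha.1 hb.1, by rw [h.add a ha.1 b hb.1, ha.2, hb.2, add_zero]⟩
  inv_mem' := fun {a} ha => ⟨U.inv_mem ha.1, by rw [h.inv ha.1, ha.2, neg_zero]⟩
  isOpen' := h.opn

theorem IsCh.mem_ker {Q : Type*} [AddCommGroup Q] {U : OpenSubgroup G} {c : G → Q} (h : IsCh U c)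
    {g : G} : g ∈ h.ker ↔ g ∈ U ∧ c g = 0 := Iff.rfl

/-- `N` is normalised by `U` -/
def NormIn (N U : OpenSubgroup G) : Prop := ∀ g ∈ U, ∀ n ∈ N, g * n * g⁻¹ ∈ N

/-- a continuous homomorphism with open image from an open subgroup `V` of `G` to `G'`, written as
a function on `G` (values outside `V` are junk) -/
structure OH (G G' : Type*) [Group G] [TopologicalSpace G] [Group G'] [TopologicalSpace G'] where
  V : OpenSubgroup G
  f : G → G'
  mul : ∀ g ∈ V, ∀ h ∈ V, f (g * h) = f g * f h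
  cont : ContinuousOn f V
  opn : IsOpen (f '' (V : Set G))

variable {G' : Type*} [Group G'] [TopologicalSpace G']

theorem OH.one (α : OH G G') : α.f 1 = 1 := by
  have := α.mul 1 α.V.one_mem 1 α.V.one_mem
  rw [mul_one] at this
  exact left_eq_mul.1 this

theorem OH.inv (α : OH G G') {g : G} (hg : g ∈ α.V) : α.f g⁻¹ = (α.f g)⁻¹ := by
  have := α.mul g hg g⁻¹ (α.V.inv_mem hg)
  rw [mul_inv_cancel, α.one] at this
  exact (inv_eq_of_mul_eq_one_right this.symm).symm

/-- the preimage of an open subgroup -/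
def OH.pre (α : OH G G') (T : OpenSubgroup G') : OpenSubgroup G where
  carrier := {g | g ∈ α.V ∧ α.f g ∈ T}
  one_mem' := ⟨α.V.one_mem, by rw [α.one]; exact T.one_mem⟩
  mul_mem' := fun {a b} ha hb =>
    ⟨α.V.mul_mem ha.1 hb.1, by rw [α.mul a ha.1 b hb.1]; exact T.mul_mem ha.2 hb.2⟩
  inv_mem' := fun {a} ha => ⟨α.V.inv_mem ha.1, by rw [α.inv ha.1]; exact T.inv_mem ha.2⟩
  isOpen' := α.cont.isOpen_inter_preimage α.V.isOpen T.isOpen

theorem OH.mem_pre (α : OH G G') {T : OpenSubgroup G'} {g : G} :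
    g ∈ α.pre T ↔ g ∈ α.V ∧ α.f g ∈ T := Iff.rfl

/-- `α` maps `V` onto the open subgroup `T` -/
def OH.Onto (α : OH G G') (T : OpenSubgroup G') : Prop :=
  (∀ g ∈ α.V, α.f g ∈ T) ∧ ∀ t ∈ T, ∃ g ∈ α.V, α.f g = t

end grp

/-! ## Herbrand quotients -/

section herb

variable {X : Type*} [AddCommGroup X]

/-- the norm `1 + σ + ... + σ ^ (n-1)` -/
def nrmE (σ : AddMonoid.End X) (n : ℕ) : AddMonoid.End X := ∑ i ∈ Finset.range n, σ ^ i

/-- the order of the Tate group in degree `0` of the subgroup `B` (zero if infinite) -/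
noncomputable def h0 (σ : AddMonoid.End X) (n : ℕ) (B : AddSubgroup X) : ℕ :=
  (B.map (nrmE σ n)).relIndex (B ⊓ (σ - 1 : AddMonoid.End X).ker)

/-- the order of the Tate group in degree `-1` of the subgroup `B` (zero if infinite) -/
noncomputable def h1 (σ : AddMonoid.End X) (n : ℕ) (B : AddSubgroup X) : ℕ :=
  (B.map (σ - 1 : AddMonoid.End X)).relIndex (B ⊓ (nrmE σ n).ker)

end herb

/-! ## primes of algebraic extensions of `ℚ` -/

section val

variable {E : Type*} [Field E]

/-- the valuation ring `A` lies over the rational prime `p` -/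
def Ov (A : ValuationSubring E) (p : ℕ) : Prop := (p : E) ∈ A.nonunits

/-- a chosen square root -/
noncomputable def rt (x : E) : E :=
  open Classical in if h : ∃ y : E, y ^ 2 = x then h.choose else 0

/-- elements that are integral at all primes above `l` -/
def LI (E : Type*) [Field E] (l : ℕ) : Subring E where
  carrier := {x | ∃ s : ℕ, s.Coprime l ∧ IsIntegral ℤ ((s : E) * x)}
  one_mem' := ⟨1, Nat.coprime_one_left l, by simpa using isIntegral_one⟩
  zero_mem' := ⟨1, Nat.coprime_one_left l, by simpa using isIntegral_zero⟩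
  mul_mem' := by
    rintro a b ⟨s, hs, ha⟩ ⟨t, ht, hb⟩
    refine ⟨s * t, Nat.Coprime.mul_left hs ht, ?_⟩
    have : ((s * t : ℕ) : E) * (a * b) = (s * a) * (t * b) := by push_cast; ring
    rw [this]; exact ha.mul hb
  add_mem' := by
    rintro a b ⟨s, hs, ha⟩ ⟨t, ht, hb⟩
    refine ⟨s * t, Nat.Coprime.mul_left hs ht, ?_⟩
    have : ((s * t : ℕ) : E) * (a + b) = (t : E) * (s * a) + (s : E) * (t * b) := by push_cast; ring
    rw [this]
    exact ((isIntegral_natCast t).mul ha).add ((isIntegral_natCast s).mul hb)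
  neg_mem' := by
    rintro a ⟨s, hs, ha⟩
    exact ⟨s, hs, by rw [mul_neg]; exact ha.neg⟩

/-- `x ≡ y mod l ^ m` at all primes above `l` -/
def Cg (l m : ℕ) (x y : E) : Prop := (x - y) / (l : E) ^ m ∈ LI E l

/-- the multiplicative group of elements `≡ 1 mod l ^ m` -/
def VV (E : Type*) [Field E] [CharZero E] (l m : ℕ) [Fact l.Prime] : Subgroup Eˣ where
  carrier := {x | Cg l m (x : E) 1 ∧ Cg l m ((x⁻¹ : Eˣ) : E) 1}
  one_mem' := by simp [Cg]
  inv_mem' := fun {a} ha => ⟨ha.2, by rw [inv_inv]; exact ha.1⟩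
  mul_mem' := by
    have h : ∀ a b : E, Cg l m a 1 → Cg l m b 1 → Cg l m (a * b) 1 := fun a b ha hb => by
      have h0 : (l : E) ^ m ≠ 0 := pow_ne_zero _ (Nat.cast_ne_zero.2 (Fact.out : l.Prime).ne_zero)
      have : (a * b - 1) / (l : E) ^ m = (l : E) ^ m * ((a - 1) / (l : E) ^ m) * ((b - 1) / (l : E) ^ m)
          + (a - 1) / (l : E) ^ m + (b - 1) / (l : E) ^ m := by field_simp; ring
      unfold Cg
      rw [this]
      exact add_mem (add_mem (mul_mem (mul_mem (pow_mem (natCast_mem _ l) m) ha) hb) ha) hb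
    rintro a b ⟨ha, ha'⟩ ⟨hb, hb'⟩
    refine ⟨by simpa using h _ _ ha hb, ?_⟩
    rw [mul_inv, Units.val_mul]
    exact h _ _ ha' hb'

/-- every principal unit of `A` is a square -/
def SqV (A : ValuationSubring E) : Prop := ∀ x ∈ A.nonunits, IsSquare (1 + x)

/-- the global units, as a subgroup of `Eˣ` -/
def UU (E : Type*) [Field E] : Subgroup Eˣ where
  carrier := {x | IsIntegral ℤ (x : E) ∧ IsIntegral ℤ ((x⁻¹ : Eˣ) : E)}
  one_mem' := by simpa using isIntegral_one
  inv_mem' := fun {a} ha => ⟨ha.2, by rw [inv_inv]; exact ha.1⟩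
  mul_mem' := by
    rintro a b ⟨ha, ha'⟩ ⟨hb, hb'⟩
    refine ⟨by simpa using ha.mul hb, ?_⟩
    rw [mul_inv, Units.val_mul]
    exact ha'.mul hb'

/-- a ring endomorphism acting on the additive version of the multiplicative group -/
def sig (σ : E →+* E) : AddMonoid.End (Additive Eˣ) :=
  MonoidHom.toAdditive (Units.map (σ : E →* E))

variable {M : Type*} [Field M] [NumberField M]

/-- the valuation ring `A` of `E` induces the prime `P` of `M` through the embedding `τ` -/
def Lies (A : ValuationSubring E) (τ : M →+* E) (P : HeightOneSpectrum (𝓞 M)) : Prop :=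
  ∀ x : 𝓞 M, x ∈ P.asIdeal ↔ τ (x : M) ∈ A.nonunits

/-- the additive valuation (junk value `0` at `0`) -/
noncomputable def ordP (P : HeightOneSpectrum (𝓞 M)) (x : M) : ℤ :=
  -WithZero.log (P.valuation M x)

/-- the norm of a prime -/
noncomputable abbrev nrm (P : HeightOneSpectrum (𝓞 M)) : ℕ := Ideal.absNorm P.asIdeal

/-- `S` has density `δ` in the strong logarithmic sense -/
def Dens (S : Set (HeightOneSpectrum (𝓞 M))) (δ : ℝ) : Prop :=
  ∃ C : ℝ, ∀ᶠ s : ℝ in 𝓝[>] 1,
    |NumberField.Set.primeIdealZetaSum S s - δ * Real.log (1 / (s - 1))| ≤ C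

/-- primes not above `l` -/
abbrev Pr (M : Type*) [Field M] [NumberField M] (l : ℕ) : Type _ :=
  {P : HeightOneSpectrum (𝓞 M) // (l : 𝓞 M) ∉ P.asIdeal}

/-- divisors prime to `l` -/
abbrev Dv (M : Type*) [Field M] [NumberField M] (l : ℕ) : Type _ := Pr M l →₀ ℤ

theorem ordP_finite (x : M) : {P : HeightOneSpectrum (𝓞 M) | ordP P x ≠ 0}.Finite := by
  by_cases hx : x = 0
  · subst hx; simp [ordP]
  have h1 := HeightOneSpectrum.Support.finite (𝓞 M) x
  have h2 := HeightOneSpectrum.Support.finite (𝓞 M) x⁻¹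
  refine (h1.union h2).subset fun P hP => ?_
  simp only [HeightOneSpectrum.Support, Set.mem_union, Set.mem_ofPred_eq, map_inv₀]
  have h0 : P.valuation M x ≠ 0 := by simpa using hx
  rcases lt_trichotomy (P.valuation M x) 1 with h | h | h
  · exact Or.inr ((one_lt_inv₀ (zero_lt_iff.2 h0)).2 h)
  · exact absurd (by simp [ordP, h]) hP
  · exact Or.inl h

/-- the divisor of `x` away from `l` -/
noncomputable def dv (l : ℕ) (x : M) : Dv M l :=
  Finsupp.ofSupportFinite (fun P => ordP P.1 x)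
    ((ordP_finite x).preimage Subtype.val_injective.injOn)

theorem dv_apply (l : ℕ) (x : M) (P : Pr M l) : dv l x P = ordP P.1 x := rfl

/-- the principal divisors of elements `≡ 1 mod l ^ m` -/
noncomputable def Pm (M : Type*) [Field M] [NumberField M] (l m : ℕ) : AddSubgroup (Dv M l) :=
  AddSubgroup.closure {D | ∃ x : M, Cg l m x 1 ∧ D = dv l x}

end val

section gal

variable {F E : Type*} [Field F] [Field E] [Algebra F E]

/-- the decomposition group -/
def DD (F : Type*) [Field F] [Algebra F E] (A : ValuationSubring E) : Subgroup Gal(E/F) :=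
  MulAction.stabilizer Gal(E/F) A

theorem mem_DD {A : ValuationSubring E} {g : Gal(E/F)} : g ∈ DD F A ↔ g • A = A := Iff.rfl

theorem DD_mem {A : ValuationSubring E} {g : Gal(E/F)} (h : g ∈ DD F A) {x : E} :
    g x ∈ A ↔ x ∈ A := by
  conv_lhs => rw [← mem_DD.1 h]
  exact ValuationSubring.smul_mem_pointwise_smul_iff (g := g)

theorem DD_nonunits {A : ValuationSubring E} {g : Gal(E/F)} (h : g ∈ DD F A) {x : E} :
    g x ∈ A.nonunits ↔ x ∈ A.nonunits := by
  rw [ValuationSubring.mem_nonunits_iff_or, ValuationSubring.mem_nonunits_iff_or, ← map_inv₀,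
    DD_mem h, map_eq_zero]

/-- the inertia group -/
def II (F : Type*) [Field F] [Algebra F E] (A : ValuationSubring E) : Subgroup Gal(E/F) where
  carrier := {g | g ∈ DD F A ∧ ∀ x ∈ A, g x - x ∈ A.nonunits}
  one_mem' := ⟨(DD F A).one_mem, fun x _ => by simp⟩
  mul_mem' := by
    rintro a b ⟨ha, ha'⟩ ⟨hb, hb'⟩
    refine ⟨(DD F A).mul_mem ha hb, fun x hx => ?_⟩
    have : (a * b) x - x = (a (b x) - b x) + (b x - x) := by simp
    rw [this]
    exact add_mem (ha' _ ((DD_mem hb).2 hx)) (hb' x hx)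
  inv_mem' := by
    rintro a ⟨ha, ha'⟩
    refine ⟨(DD F A).inv_mem ha, fun x hx => ?_⟩
    have h1 := ha' (a⁻¹ x) ((DD_mem ((DD F A).inv_mem ha)).2 hx)
    have : a (a⁻¹ x) = x := by rw [← AlgEquiv.mul_apply, mul_inv_cancel]; rfl
    rw [this] at h1
    simpa using neg_mem h1

theorem mem_II {A : ValuationSubring E} {g : Gal(E/F)} :
    g ∈ II F A ↔ g ∈ DD F A ∧ ∀ x ∈ A, g x - x ∈ A.nonunits := Iff.rfl

/-- `g` acts on the residue field of `A` as `x ↦ x ^ N` -/
def IsFrob (A : ValuationSubring E) (N : ℕ) (g : Gal(E/F)) : Prop :=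
  g ∈ DD F A ∧ ∀ x ∈ A, g x - x ^ N ∈ A.nonunits

/-- `g` is a Frobenius element of the decomposition group of `A` in `U` -/
structure FrobU (U : OpenSubgroup Gal(E/F)) (A : ValuationSubring E) (N : ℕ) (g : Gal(E/F)) :
    Prop where
  mem : g ∈ U
  frob : IsFrob A N g
  pw : ∃ p f : ℕ, p.Prime ∧ Ov A p ∧ 0 < f ∧ N = p ^ f
  fix : ∀ h ∈ U, h ∈ DD F A → ∀ x ∈ A, x ^ N - x ∈ A.nonunits → h x - x ∈ A.nonunits

/-- the quadratic Kummer character: `0` if `g` fixes the chosen square root of `x` -/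
noncomputable def sg (g : Gal(E/F)) (x : E) : ZMod 2 :=
  open Classical in if g (rt x) = rt x then 0 else 1

/-- `g` fixes the square roots of `-1` -/
def FixI (g : Gal(E/F)) : Prop := ∀ i : E, i ^ 2 = -1 → g i = i

/-- the fixed field of an open subgroup -/
abbrev Fx (U : OpenSubgroup Gal(E/F)) : IntermediateField F E :=
  IntermediateField.fixedField U.toSubgroup

theorem mem_Fx {U : OpenSubgroup Gal(E/F)} {x : E} : x ∈ Fx U ↔ ∀ g ∈ U, g x = x :=
  IntermediateField.mem_fixedField_iff _ _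

/-- the inclusion of the fixed field -/
abbrev inc (U : OpenSubgroup Gal(E/F)) : Fx U →+* E := algebraMap (Fx U) E

theorem fixing_Fx [IsGalois F E] (U : OpenSubgroup Gal(E/F)) :
    (Fx U).fixingSubgroup = U.toSubgroup :=
  InfiniteGalois.fixingSubgroup_fixedField ⟨U.toSubgroup, U.isClosed⟩

instance [IsGalois F E] (U : OpenSubgroup Gal(E/F)) : FiniteDimensional F (Fx U) :=
  (InfiniteGalois.isOpen_iff_finite _).1 (by rw [fixing_Fx]; exact U.isOpen)

instance [NumberField F] [IsGalois F E] (U : OpenSubgroup Gal(E/F)) : NumberField (Fx U) :=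
  NumberField.of_module_finite F _

/-- the stabiliser of an element -/
def stab [IsGalois F E] (y : E) : OpenSubgroup Gal(E/F) where
  toSubgroup := MulAction.stabilizer Gal(E/F) y
  isOpen' := stabilizer_isOpen_of_isIntegral y

theorem mem_stab [IsGalois F E] {y : E} {g : Gal(E/F)} : g ∈ (stab y : OpenSubgroup Gal(E/F)) ↔ g y = y :=
  Iff.rfl

/-- `c` is unramified outside `l` -/
def Unr {Q : Type*} [AddCommGroup Q] (l : ℕ) (U : OpenSubgroup Gal(E/F)) (c : Gal(E/F) → Q) : Prop :=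
  ∀ (A : ValuationSubring E) (p : ℕ), p.Prime → p ≠ l → Ov A p → ∀ g ∈ U, g ∈ II F A → c g = 0

/-- the primes of the fixed field of `U` that split completely in the fixed field of `N` -/
def Spl [NumberField F] [IsGalois F E] (U N : OpenSubgroup Gal(E/F)) :
    Set (HeightOneSpectrum (𝓞 (Fx U))) :=
  {P | ∀ A : ValuationSubring E, Lies A (inc U) P → ∀ g ∈ U, g ∈ DD F A → g ∈ N}

/-- `H` is a class group for `N ≤ U` -/
structure CG [NumberField F] [IsGalois F E] (l : ℕ) (U N : OpenSubgroup Gal(E/F))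
    (H : AddSubgroup (Dv (Fx U) l)) : Prop where
  ray : ∃ m, 0 < m ∧ Pm (Fx U) l m ≤ H
  spl : ∀ P : Pr (Fx U) l, P.1 ∈ Spl U N → Finsupp.single P 1 ∈ H
  idx : H.index = N.toSubgroup.relIndex U.toSubgroup

/-- the units of the fixed field of `T`, as a subgroup of the units of `E` -/
def FxU (T : OpenSubgroup Gal(E/F)) : Subgroup Eˣ where
  carrier := {x | ∀ g ∈ T, g (x : E) = x}
  one_mem' := fun g _ => by simp
  mul_mem' := fun {a b} ha hb g hg => by simp [ha g hg, hb g hg]
  inv_mem' := fun {a} ha g hg => by simp [ha g hg]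

/-- the pair `(A, B)` of primes corresponds under `α` -/
structure Good (α : OH G1 Gal(E/F)) (A : ValuationSubring Qb) (B : ValuationSubring E) : Prop where
  ovA : ∃ p : ℕ, p.Prime ∧ p ≠ 2 ∧ Ov A p
  ovB : ∃ q : ℕ, q.Prime ∧ q ≠ 2 ∧ Ov B q
  ex : ∃ τ ∈ α.V, τ ∈ II ℚ A ∧ Pro2 τ ∧ ¬IsOfFinOrder (α.f τ) ∧ α.f τ ∈ DD F B

end gal

end Vale.Agent.P024
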