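import Vale.Agent.P024.DepA

/-! # P024 Dep (TASK; helper lemma names start with `dep_` or are private)
The closure of `Γ` has small rank.  PLAN.  `w`, `z i := z (γ i)` from `exists_gen_Vm`.  `Γh = span ℤ_[l] (range z)` in `Fin D' → ℤ_[l]`, free of rank `n0` with basis `y` (`Submodule.basisOfPid` or `Module.Free.chooseBasis`, `Module.finBasis`).
Second claim: `z i = ∑ c_t y_t`; `u t = ∏ w j ^ appr (y t j) R`, exponents `appr (c t) R`; two natural exponent vectors that agree mod `l^R` give elements congruent mod `l^(R+1)`.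
First claim: there are `e`, and `D' - n0` vectors `v_j` with `l^e • ⊤ ≤ Γh ⊔ span v` (extend `y` to a maximal independent family, the quotient is a finitely generated torsion module; or Smith normal form `Submodule.smithNormalForm`).
For `k` and `Y`: `Ψ : (Fin D' → ℤ_[l]) →+ Additive (Vm ⧸ Y)`, `ζ ↦ ∏ w j ^ appr (ζ j) k` is additive because `l^k`-th powers lie in `Y`; it is onto and kills `z i` (replace `k` by `max k m` in `appr`), and `Ψ (c • ζ) = appr c k • Ψ ζ`, so it kills `Γh`.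
`Q = Vm ⧸ Y` has exponent dividing `l^k` and `D'` generators; `l^e Q` is generated by `D' - n0` elements, so `card Q ≤ l^(k (D' - n0)) * l^(e D')`.  With `l^(k a) ≤ hh * card Q` for all `k`, `a ≤ D' - n0`. -/

namespace Vale.Agent.P024

open NumberField IsDedekindDomain Filter
open scoped Pointwise Topology

/-- `l`-adic exponents in a quotient of exponent `l ^ k` -/
theorem dep_psi {V : Type*} [CommGroup V] {l : ℕ} [Fact l.Prime] (Y : Subgroup V) {k : ℕ}
    (h : ∀ x, x ^ l ^ k ∈ Y) {D : ℕ} (w : Fin D → V) :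
    ∃ Ψ : (Fin D → ℤ_[l]) →+ Additive (V ⧸ Y),
      (∀ ζ k', k ≤ k' → Ψ ζ = Additive.ofMul ((∏ j, w j ^ (ζ j).appr k' : V) : V ⧸ Y)) ∧
      ∀ (c : ℤ_[l]) ζ, Ψ (c • ζ) = c.appr k • Ψ ζ := by
  have h0 : ∀ q : Additive (V ⧸ Y), l ^ k • q = 0 := fun q => by
    obtain ⟨x, hx⟩ := QuotientGroup.mk_surjective q.toMul
    rw [← ofMul_toMul q, ← hx, ← ofMul_pow, ← QuotientGroup.mk_pow,
      (QuotientGroup.eq_one_iff _).2 (h x), ofMul_one]
  let _ := AddCommGroup.zmodModule h0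
  let _ := Module.compHom (Additive (V ⧸ Y)) (PadicInt.toZModPow (p := l) k)
  have key : ∀ (c : ℤ_[l]) k' (q : Additive (V ⧸ Y)), k ≤ k' → c • q = c.appr k' • q :=
    fun c k' q hk => by
      obtain ⟨d, hd⟩ := Ideal.mem_span_singleton'.1 (PadicInt.appr_spec k' c)
      obtain ⟨j, rfl⟩ := Nat.exists_eq_add_of_le hk
      rw [← Nat.cast_smul_eq_nsmul ℤ_[l], ← sub_eq_zero, ← sub_smul, ← hd, pow_add,
        mul_left_comm, ← Nat.cast_pow, mul_smul, Nat.cast_smul_eq_nsmul, h0]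
  refine ⟨(Fintype.linearCombination ℤ_[l] fun j => Additive.ofMul (w j : V ⧸ Y)).toAddMonoidHom,
    fun ζ k' hk => ?_, fun c ζ => ?_⟩
  · rw [LinearMap.toAddMonoidHom_coe, Fintype.linearCombination_apply, QuotientGroup.mk_prod,
      ofMul_prod]
    exact Finset.sum_congr rfl fun j _ => by rw [key _ _ _ hk, QuotientGroup.mk_pow, ofMul_pow]
  · rw [LinearMap.toAddMonoidHom_coe, map_smul, key _ _ _ le_rfl]

/-- a complement up to finite index -/
theorem dep_compl {l : ℕ} [Fact l.Prime] {D : ℕ} (N : Submodule ℤ_[l] (Fin D → ℤ_[l])) :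
    ∃ (n r e : ℕ) (y : Fin n → Fin D → ℤ_[l]) (v : Fin r → Fin D → ℤ_[l]), n + r = D ∧
      (∀ x ∈ N, ∃ c : Fin n → ℤ_[l], x = ∑ t, c t • y t) ∧
      ∀ x, ∃ c : Fin r → ℤ_[l], (l : ℤ_[l]) ^ e • x - ∑ t, c t • v t ∈ N := by
  classical
  obtain ⟨n, bM, bN, f, a, snf⟩ := N.smithNormalForm (Pi.basisFun ℤ_[l] (Fin D))
  have ha : ∏ i, a i ≠ 0 := Finset.prod_ne_zero_iff.2 fun i _ h0 =>
    bN.ne_zero i (Subtype.ext (by rw [snf, h0, zero_smul]; rfl))
  let J := {j : Fin D // j ∉ Set.range f}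
  let σ := (Fintype.equivFin J).symm
  refine ⟨n, Fintype.card J, (∏ i, a i).valuation, fun t => bN t, fun t => bM (σ t), ?_,
    fun x hx => ⟨bN.repr ⟨x, hx⟩, ?_⟩, fun x => ?_⟩
  · have h1 : Fintype.card (Set.range f) = n := by
      rw [Set.card_range_of_injective f.injective, Fintype.card_fin]
    have h2 : n ≤ D := by simpa using Fintype.card_le_of_embedding f
    rw [Fintype.card_subtype_compl, Fintype.card_fin]
    change n + (D - Fintype.card (Set.range f)) = D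
    omega
  · exact (congrArg Subtype.val (bN.sum_repr ⟨x, hx⟩).symm).trans (Submodule.coe_sum ..)
  · have hx : (l : ℤ_[l]) ^ (∏ i, a i).valuation • x ∈
        N ⊔ Submodule.span ℤ_[l] (Set.range fun t => bM (σ t)) := by
      rw [← bM.sum_repr x, Finset.smul_sum]
      refine Submodule.sum_mem _ fun j _ => ?_
      rw [smul_comm]
      refine Submodule.smul_mem _ _ ?_
      by_cases hj : j ∈ Set.range f
      · obtain ⟨i, rfl⟩ := hj
        have h1 : a i ∣ (l : ℤ_[l]) ^ (∏ i, a i).valuation := by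
          refine (Finset.dvd_prod_of_mem a (Finset.mem_univ i)).trans ?_
          conv_lhs => rw [PadicInt.unitCoeff_spec ha]
          exact Units.mul_left_dvd.2 dvd_rfl
        obtain ⟨d, hd⟩ := h1
        rw [hd, mul_comm, mul_smul, ← snf]
        exact Submodule.mem_sup_left (N.smul_mem _ (bN i).2)
      · refine Submodule.mem_sup_right (Submodule.smul_mem _ _
          (Submodule.subset_span ⟨σ.symm ⟨j, hj⟩, ?_⟩))
        simp
    obtain ⟨p, hp, q, hq, e⟩ := Submodule.mem_sup.1 hx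
    obtain ⟨c, rfl⟩ := (Submodule.mem_span_range_iff_exists_fun _).1 hq
    exact ⟨c, by rw [← e, add_sub_cancel_right]; exact hp⟩

theorem dep_card {l : ℕ} [Fact l.Prime] {D r e k : ℕ} {V : Type*} [CommGroup V] (Y : Subgroup V)
    (Ψ : (Fin D → ℤ_[l]) →+ Additive (V ⧸ Y)) (hs : Function.Surjective Ψ)
    (hc : ∀ (c : ℤ_[l]) ζ, Ψ (c • ζ) = c.appr k • Ψ ζ) {I : Type*} (z : I → Fin D → ℤ_[l])
    (hz : ∀ i, Ψ (z i) = 0) (v : Fin r → Fin D → ℤ_[l])
    (hv : ∀ x, ∃ c : Fin r → ℤ_[l],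
      (l : ℤ_[l]) ^ e • x - ∑ t, c t • v t ∈ Submodule.span ℤ_[l] (Set.range z)) :
    Y.index ≤ l ^ (k * r) * l ^ (e * D) := by
  have hN : ∀ x ∈ Submodule.span ℤ_[l] (Set.range z), Ψ x = 0 := fun x hx => by
    induction hx using Submodule.span_induction with
    | mem x hx =>
      obtain ⟨i, rfl⟩ := hx
      exact hz i
    | zero => exact map_zero _
    | add x y _ _ hx hy => rw [map_add, hx, hy, add_zero]
    | smul c x _ hx => rw [hc, hx, smul_zero]
  have := Nat.card_le_card_of_surjective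
    (fun p : (Fin r → Fin (l ^ k)) × (Fin D → Fin (l ^ e)) =>
      ∑ t, (p.1 t).val • Ψ (v t) + Ψ fun j => ((p.2 j).val : ℤ_[l])) fun q => ?_
  · refine le_trans this (le_of_eq ?_)
    simp [pow_mul]
  obtain ⟨ζ, rfl⟩ := hs q
  choose d hd using fun j => Ideal.mem_span_singleton'.1 (PadicInt.appr_spec e (ζ j))
  obtain ⟨c, h⟩ := hv d
  refine ⟨⟨fun t => ⟨_, (c t).appr_lt k⟩, fun j => ⟨_, (ζ j).appr_lt e⟩⟩, ?_⟩
  have h1 := hN _ h
  rw [map_sub, map_sum, sub_eq_zero] at h1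
  simp only [← hc, ← h1, ← map_add]
  congr 1
  funext j
  rw [Pi.add_apply, Pi.smul_apply, smul_eq_mul, mul_comm, hd, sub_add_cancel]

theorem dep {K : Type*} [Field K] [NumberField K] {l : ℕ} [Fact l.Prime] (hl : l ≠ 2)
    (ι : K →+* K) (hι : ∀ x, ι (ι x) = x) (hne : ∃ x, ι x ≠ x) {D' : ℕ}
    (hD : Module.finrank ℚ K = 2 * D') {I : Type*} [Finite I] (γ : I → Kˣ)
    (hγ : ∀ i, γ i ∈ Vm l ι) {a hh : ℕ}
    (H : ∀ k : ℕ, ∃ (Y : Subgroup Kˣ) (m : ℕ), (∀ x ∈ Vm l ι, x ∈ VV K l m → x ∈ Y) ∧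
      (∀ x ∈ Vm l ι, x ^ l ^ k ∈ Y) ∧ (∀ i, γ i ∈ Y) ∧ l ^ (k * a) ≤ hh * Y.relIndex (Vm l ι)) :
    ∃ n0 : ℕ, n0 + a ≤ D' ∧ ∀ R : ℕ, ∃ u : Fin n0 → K, (∀ t, Cg l 1 (u t) 1) ∧
      ∀ i, ∃ z : Fin n0 → ℕ, Cg l R (γ i : K) (∏ t, u t ^ z t) := by
  obtain ⟨w, hw, hz⟩ := exists_gen_Vm hl ι hι hne hD
  choose z hz using fun x : Vm l ι => hz x x.2
  have hz' : ∀ (Y : Subgroup Kˣ) (k : ℕ), (∀ x ∈ Vm l ι, x ∈ VV K l (k + 1) → x ∈ Y) →
      ∀ x : Vm l ι, ((∏ j, (⟨w j, hw j⟩ : Vm l ι) ^ (z x j).appr k : Vm l ι) :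
        Vm l ι ⧸ Y.subgroupOf (Vm l ι)) = x := fun Y k hY x => by
    rw [eq_comm, QuotientGroup.eq_iff_div_mem, Subgroup.mem_subgroupOf]
    refine hY _ (Subtype.property _) ?_
    simpa using hz x k
  obtain ⟨n, r, e, y, v, hn, hy, hv⟩ :=
    dep_compl (Submodule.span ℤ_[l] (Set.range fun i => z ⟨γ i, hγ i⟩))
  refine ⟨n, ?_, fun R => ?_⟩
  · by_contra hlt
    obtain ⟨Y, m, h1, h2, h3, h4⟩ := H (hh * l ^ (e * D'))
    set k := hh * l ^ (e * D') with hk
    obtain ⟨Ψ, k1, k2⟩ := dep_psi (Y.subgroupOf (Vm l ι)) (k := k) (fun x => h2 x x.2)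
      fun j => ⟨w j, hw j⟩
    have k3 : ∀ x : Vm l ι, Ψ (z x) = Additive.ofMul (x : Vm l ι ⧸ Y.subgroupOf (Vm l ι)) :=
      fun x => by
        rw [k1 _ (k + m) (Nat.le_add_right _ _), hz' Y _ fun x hx h =>
          h1 x hx ⟨h.1.mono (by omega), h.2.mono (by omega)⟩]
    have k4 := dep_card (Y.subgroupOf (Vm l ι)) Ψ (fun q => by
      obtain ⟨x, hx⟩ := QuotientGroup.mk_surjective q.toMul
      exact ⟨z x, by rw [k3, hx, ofMul_toMul]⟩) k2 _ (fun i => (k3 _).trans (congrArg Additive.ofMul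
        ((QuotientGroup.eq_one_iff (⟨γ i, hγ i⟩ : Vm l ι)).2 (h3 i)))) v hv
    have hl1 := (Fact.out : l.Prime).one_lt
    have k5 : l ^ (k * r) * l ^ k ≤ l ^ (k * r) * k := by
      rw [← pow_add, ← Nat.mul_succ]
      refine ((Nat.pow_le_pow_right hl1.le (Nat.mul_le_mul_left k (by omega))).trans h4).trans
        ((Nat.mul_le_mul_left hh k4).trans_eq ?_)
      rw [mul_left_comm]
    exact (Nat.lt_pow_self hl1).not_ge (Nat.le_of_mul_le_mul_left k5 (by positivity))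
  · obtain ⟨Ψ, k1, k2⟩ := dep_psi ((VV K l (R + 1)).subgroupOf (Vm l ι)) (k := R)
      (fun x => (mem_VV R.succ_pos).2 (by
        simpa [add_comm] using x.2.1.1.pow_l_pow one_pos R)) fun j => ⟨w j, hw j⟩
    let u : Fin n → Vm l ι := fun t => ∏ j, (⟨w j, hw j⟩ : Vm l ι) ^ (y t j).appr R
    refine ⟨fun t => ((u t : Kˣ) : K), fun t => (u t).2.1.1, fun i => ?_⟩
    obtain ⟨c, hc⟩ := hy (z ⟨γ i, hγ i⟩) (Submodule.subset_span ⟨i, rfl⟩)
    refine ⟨fun t => (c t).appr R, ?_⟩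
    have k3 := k1 (z ⟨γ i, hγ i⟩) R le_rfl
    rw [hz' _ _ fun _ _ h => h, hc, map_sum] at k3
    simp only [k2, k1 _ R le_rfl, ← ofMul_pow, ← ofMul_prod, ← QuotientGroup.mk_pow,
      ← QuotientGroup.mk_prod] at k3
    have k4 := (QuotientGroup.eq_iff_div_mem.1 (Additive.ofMul.injective k3.symm)).1
    set g : Vm l ι := ∏ t, u t ^ (c t).appr R with hg
    have k5 := (k4.mono R.le_succ).mul_left (g.2.1.1.mem (one_mem _))
    have e1 : ((g : Kˣ) : K) = ∏ t, ((u t : Kˣ) : K) ^ (c t).appr R := by simp [hg]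
    rw [mul_one, ← Units.val_mul, Subgroup.subtype_apply, ← Subgroup.coe_mul, mul_div_cancel,
      e1] at k5
    exact k5

end Vale.Agent.P024
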