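import Vale.Agent.P024.Li

/-! # P024 DepA (TASK; helper lemma names start with `depA_` or are private)
Generators of the minus part of the principal units.  PLAN.  `Rm = {x : 𝓞 K | ι x = -x}` is a free `ℤ`-module of rank `D'` (a submodule of `𝓞 K`; multiplication by a nonzero element `x0 - ι x0` exchanges the plus and minus parts of `K`, which have the same dimension and are complementary; only `rank ≤ D'` is needed, pad with zeros).
So there are `b : Fin D' → 𝓞 K` in `Rm` generating it.  `w j = (1 + l b j) / (1 - l b j) ∈ Vm`, `w j ≡ 1 + 2 l b j mod l²`, and `(w j)^(l^(k-1)) ≡ 1 + 2 l^k b j mod l^(k+1)` (if `x ≡ 1 + l^k y mod l^(k+1)`, `k ≥ 1`, `l` odd, then `x^l ≡ 1 + l^(k+1) y mod l^(k+2)`).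
Step: `x ∈ Vm`, `x = 1 + l^k y`, `y ≡ y0 ∈ 𝓞 K mod l`; `x ι x = 1` gives `y + ι y ≡ 0 mod l`, so `2 y ≡ y0 - ι y0 = ∑ a_j b_j`; with natural `c_j ≡ a_j / 4 mod l`, `x ≡ ∏ (w j)^(c_j l^(k-1)) mod l^(k+1)`.
Iterate: naturals `z k j` with `z (k+1) j ≡ z k j mod l^k` and `x ≡ ∏ w^(z k j) mod l^(k+1)`; the limit is `PadicInt.ofIntSeq` / `PadicInt.lift`, or build `ζ j : ℤ_[l]` as the limit of a Cauchy sequence; `PadicInt.appr_spec`; `w^(l^k) ≡ 1 mod l^(k+1)` (`Cg.pow_l_pow`). -/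

namespace Vale.Agent.P024

open NumberField IsDedekindDomain Filter
open scoped Pointwise Topology

/-- the minus part of the principal units -/
def Vm {K : Type*} [Field K] [CharZero K] (l : ℕ) [Fact l.Prime] (ι : K →+* K) : Subgroup Kˣ where
  carrier := {x | x ∈ VV K l 1 ∧ (x : K) * ι x = 1}
  one_mem' := ⟨one_mem _, by simp⟩
  mul_mem' := fun {a b} ha hb => ⟨mul_mem ha.1 hb.1, by
    have := congrArg₂ (· * ·) ha.2 hb.2
    simp only [mul_one] at this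
    rw [Units.val_mul, map_mul, ← this]; ring⟩
  inv_mem' := fun {a} ha => ⟨inv_mem ha.1, by
    rw [Units.val_inv_eq_inv_val, map_inv₀, ← mul_inv, ha.2, inv_one]⟩

section

variable {E : Type*} [Field E] [CharZero E] {l : ℕ} [Fact l.Prime] {k : ℕ} {x x' y y' : E}

theorem depA_mul (h : Cg l (k + 2) x (1 + (l : E) ^ (k + 1) * y))
    (h' : Cg l (k + 2) x' (1 + (l : E) ^ (k + 1) * y')) (hy : y ∈ LI E l) (hy' : y' ∈ LI E l) :
    Cg l (k + 2) (x * x') (1 + (l : E) ^ (k + 1) * (y + y')) := by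
  have hl : ∀ n : ℕ, (l : E) ^ n ∈ LI E l := fun n => pow_mem (natCast_mem _ l) n
  refine (h.mul h' (add_mem (one_mem _) (mul_mem (hl _) hy))
    (add_mem (one_mem _) (mul_mem (hl _) hy'))).trans
    (cg_iff.2 ⟨(l : E) ^ k * y * y', mul_mem (mul_mem (hl _) hy) hy', ?_⟩)
  ring

theorem depA_pow (h : Cg l (k + 2) x (1 + (l : E) ^ (k + 1) * y)) (hy : y ∈ LI E l) (c : ℕ) :
    Cg l (k + 2) (x ^ c) (1 + (l : E) ^ (k + 1) * (c * y)) := by
  induction c with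
  | zero => simpa using cg_refl (l := l) (m := k + 2) (1 : E)
  | succ c ih =>
    have e := depA_mul ih h (mul_mem (natCast_mem _ c) hy) hy
    rwa [← pow_succ, ← add_one_mul, ← Nat.cast_succ] at e

theorem depA_prod {ι : Type*} (s : Finset ι) {f g : ι → E}
    (h : ∀ i, Cg l (k + 2) (f i) (1 + (l : E) ^ (k + 1) * g i)) (hg : ∀ i, g i ∈ LI E l) :
    Cg l (k + 2) (∏ i ∈ s, f i) (1 + (l : E) ^ (k + 1) * ∑ i ∈ s, g i) := by
  classical
  induction s using Finset.induction_on with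
  | empty => simpa using cg_refl (l := l) (m := k + 2) (1 : E)
  | insert i s hi ih =>
    rw [Finset.prod_insert hi, Finset.sum_insert hi]
    exact depA_mul (h i) ih (hg i) (sum_mem fun j _ => hg j)

theorem depA_powl (hl : l ≠ 2) (h : Cg l (k + 2) x (1 + (l : E) ^ (k + 1) * y))
    (hy : y ∈ LI E l) : Cg l (k + 3) (x ^ l) (1 + (l : E) ^ (k + 2) * y) := by
  obtain ⟨t, ht, e⟩ := cg_iff.1 h
  obtain ⟨t', ht', e'⟩ := cg_iff.1 (cg_sum (Finset.range l) fun i _ => depA_pow h hy i)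
  obtain ⟨n, hn⟩ := (Fact.out : l.Prime).odd_of_ne_two hl
  have h1 : ∑ i ∈ Finset.range l, i = l * n := by
    have := Finset.sum_range_id_mul_two l
    have h2 : l - 1 = n * 2 := by omega
    rw [h2, ← mul_assoc] at this
    omega
  have h2 : ∑ i ∈ Finset.range l, (1 + (l : E) ^ (k + 1) * (i * y)) =
      l + (l : E) ^ (k + 1) * (l * n * y) := by
    rw [Finset.sum_add_distrib, ← Finset.mul_sum, ← Finset.sum_mul, ← Nat.cast_sum, h1]
    simp
  have h3 := geom_sum_mul x l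
  rw [e', h2] at h3
  have hl' : (l : E) ∈ LI E l := natCast_mem _ l
  refine cg_iff.2 ⟨t + (l : E) ^ k * (n * y + t') * (y + l * t), add_mem ht (mul_mem (mul_mem
    (pow_mem hl' k) (add_mem (mul_mem (natCast_mem _ n) hy) ht')) (add_mem hy (mul_mem hl' ht))), ?_⟩
  have h4 : x - 1 = (l : E) ^ (k + 1) * y + (l : E) ^ (k + 2) * t := by rw [e]; ring
  rw [h4] at h3
  linear_combination -h3

theorem depA_powlk (hl : l ≠ 2) (h : Cg l (0 + 2) x (1 + (l : E) ^ (0 + 1) * y))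
    (hy : y ∈ LI E l) (k : ℕ) : Cg l (k + 2) (x ^ l ^ k) (1 + (l : E) ^ (k + 1) * y) := by
  induction k with
  | zero => rwa [pow_zero, pow_one x]
  | succ k ih =>
    rw [pow_succ l, pow_mul]
    exact depA_powl hl ih hy

theorem depA_half (hl : l ≠ 2) : (2 : E)⁻¹ ∈ LI E l := by
  simpa using inv_natCast_mem_LI (E := E) (l := l) (s := 2)
    ((Nat.coprime_primes Nat.prime_two Fact.out).2 hl.symm)

theorem depA_w (hl : l ≠ 2) (ι : E →+* E) (hy : y ∈ LI E l) (h : ι y = -y) :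
    ∃ w ∈ Vm l ι, Cg l (0 + 2) (w : E) (1 + (l : E) ^ (0 + 1) * y) := by
  have hu := depA_half (E := E) hl
  have hp : Cg l 1 (1 + l * (2⁻¹ * y)) 1 := cg_iff.2 ⟨_, mul_mem hu hy, by rw [pow_one]⟩
  have hq : Cg l 1 (1 - l * (2⁻¹ * y)) 1 := cg_iff.2 ⟨_, neg_mem (mul_mem hu hy), by ring⟩
  have hp0 := hp.ne_zero one_pos
  have hq0 := hq.ne_zero one_pos
  refine ⟨Units.mk0 _ (mul_ne_zero hp0 (inv_ne_zero hq0)), ⟨(mem_VV one_pos).2 ?_, ?_⟩, ?_⟩
  · simpa using hp.mul (hq.inv one_pos) (one_mem _) (one_mem _)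
  · simp only [Units.val_mk0, map_mul, map_inv₀, map_add, map_sub, map_one, map_natCast,
      map_ofNat, h, mul_neg, sub_neg_eq_add, ← sub_eq_add_neg]
    rw [mul_mul_mul_comm, ← mul_inv, mul_comm (1 - _), mul_inv_cancel₀ (mul_ne_zero hp0 hq0)]
  · refine cg_iff.2 ⟨2⁻¹ * y ^ 2 * (1 - l * (2⁻¹ * y))⁻¹,
      mul_mem (mul_mem hu (pow_mem hy 2)) (inv_mem_LI hq one_pos), ?_⟩
    have e := mul_inv_cancel₀ hq0
    rw [Units.val_mk0]
    linear_combination (1 + l * y) * e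

end

theorem depA_rank {K : Type*} [Field K] [NumberField K] (ι : K →+* K) (hι : ∀ x, ι (ι x) = x)
    (hne : ∃ x, ι x ≠ x) {n : ℕ} {v : Fin n → K} (h1 : LinearIndependent ℚ v)
    (h2 : ∀ j, ι (v j) = -v j) : n + n ≤ Module.finrank ℚ K := by
  obtain ⟨x, hx⟩ := hne
  have h3 : LinearIndependent ℚ (LinearMap.mulLeft ℚ (ι x - x) ∘ v) :=
    h1.map' _ (LinearMap.ker_eq_bot.2 (mul_right_injective₀ (sub_ne_zero.2 hx)))
  let T : K →ₗ[ℚ] K := ι.toRatAlgHom.toLinearMap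
  have h4 : Disjoint (LinearMap.ker (T + LinearMap.id)) (LinearMap.ker (T - LinearMap.id)) := by
    refine Submodule.disjoint_def.2 fun z hz hz' => ?_
    have e1 : ι z + z = 0 := hz
    have e2 : ι z - z = 0 := hz'
    linear_combination (1 / 2) * e1 - (1 / 2) * e2
  have h5 := (h1.sum_type h3 (h4.mono (Submodule.span_le.2 ?_)
    (Submodule.span_le.2 ?_))).fintype_card_le_finrank
  · rwa [Fintype.card_sum, Fintype.card_fin] at h5
  · rintro _ ⟨j, rfl⟩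
    exact add_eq_zero_iff_eq_neg.2 (h2 j)
  · rintro _ ⟨j, rfl⟩
    change ι ((ι x - x) * v j) - (ι x - x) * v j = 0
    rw [map_mul, map_sub, hι, h2]
    ring

theorem depA_basis {K : Type*} [Field K] [NumberField K] (ι : K →+* K) :
    ∃ (n : ℕ) (v : Fin n → K), LinearIndependent ℤ v ∧
      (∀ j, IsIntegral ℤ (v j) ∧ ι (v j) = -v j) ∧
      ∀ y, IsIntegral ℤ y → ι y = -y → ∃ a : Fin n → ℤ, y = ∑ j, a j * v j := by
  let f : 𝓞 K →ₗ[ℤ] K := (algebraMap (𝓞 K) K).toIntAlgHom.toLinearMap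
  let N : Submodule ℤ (𝓞 K) := LinearMap.ker (ι.toIntAlgHom.toLinearMap ∘ₗ f + f)
  have hN : ∀ y : 𝓞 K, y ∈ N ↔ ι y = -y := fun y =>
    LinearMap.mem_ker.trans (add_eq_zero_iff_eq_neg (a := ι y) (b := y))
  obtain ⟨n, ⟨B⟩⟩ := Submodule.nonempty_basis_of_pid (RingOfIntegers.basis K) N
  refine ⟨n, (f ∘ₗ N.subtype) ∘ B, B.linearIndependent.map' _ (LinearMap.ker_eq_bot.2
    (RingOfIntegers.coe_injective.comp Subtype.val_injective)),
    fun j => ⟨(B j : 𝓞 K).2, (hN _).1 (B j).2⟩, fun y hy hy' => ?_⟩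
  have e := congrArg (f ∘ₗ N.subtype) (B.sum_repr ⟨⟨y, hy⟩, (hN _).2 hy'⟩)
  rw [map_sum] at e
  refine ⟨B.repr ⟨⟨y, hy⟩, (hN _).2 hy'⟩, e.symm.trans (Finset.sum_congr rfl fun j _ => ?_)⟩
  rw [map_zsmul, zsmul_eq_mul]
  rfl

theorem depA_gen {K : Type*} [Field K] [NumberField K] (ι : K →+* K) (hι : ∀ x, ι (ι x) = x)
    (hne : ∃ x, ι x ≠ x) {D' : ℕ} (hD : Module.finrank ℚ K = 2 * D') :
    ∃ b : Fin D' → K, (∀ j, IsIntegral ℤ (b j) ∧ ι (b j) = -b j) ∧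
      ∀ y, IsIntegral ℤ y → ι y = -y → ∃ a : Fin D' → ℤ, y = ∑ j, a j * b j := by
  obtain ⟨n, v, h1, h2, h3⟩ := depA_basis ι
  have h5 := depA_rank ι hι hne ((LinearIndependent.iff_fractionRing ℤ ℚ).1 h1) fun j => (h2 j).2
  obtain ⟨m, rfl⟩ := Nat.exists_eq_add_of_le (show n ≤ D' by omega)
  refine ⟨Fin.append v 0, fun j => ?_, fun y hy hy' => ?_⟩
  · refine Fin.addCases (fun j => ?_) (fun j => ?_) j
    · rw [Fin.append_left]
      exact h2 j
    · rw [Fin.append_right]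
      exact ⟨isIntegral_zero, by simp⟩
  · obtain ⟨a, ha⟩ := h3 y hy hy'
    refine ⟨Fin.append a 0, ?_⟩
    rw [Fin.sum_univ_add]
    simpa only [Fin.append_left, Fin.append_right, Pi.zero_apply, mul_zero,
      Finset.sum_const_zero, add_zero] using ha

theorem depA_step {K : Type*} [Field K] [NumberField K] {l : ℕ} [Fact l.Prime] (hl : l ≠ 2)
    {ι : K →+* K} (hι : ∀ x, ι (ι x) = x) {D' : ℕ} {b : Fin D' → K} (hb : ∀ j, b j ∈ LI K l)
    (hg : ∀ y, IsIntegral ℤ y → ι y = -y → ∃ a : Fin D' → ℤ, y = ∑ j, a j * b j)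
    {w : Fin D' → Kˣ} (hw : ∀ j, w j ∈ Vm l ι)
    (hw' : ∀ j, Cg l (0 + 2) (w j : K) (1 + (l : K) ^ (0 + 1) * b j)) {x : Kˣ} (hx : x ∈ Vm l ι)
    {k : ℕ} (hk : x ∈ VV K l (k + 1)) :
    ∃ c : Fin D' → ℕ, x / ∏ j, w j ^ (l ^ k * c j) ∈ VV K l (k + 2) := by
  have hu := depA_half (E := K) hl
  have hl' : (l : K) ∈ LI K l := natCast_mem _ l
  have hl0 : (l : K) ≠ 0 := Nat.cast_ne_zero.2 (Fact.out : l.Prime).ne_zero
  have hl1 : (l : ℤ) ≠ 0 := Nat.cast_ne_zero.2 (Fact.out : l.Prime).ne_zero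
  obtain ⟨y, hy, e⟩ := cg_iff.1 hk.1
  obtain ⟨y0, h0⟩ := exists_int_cg 1 (mul_mem hu hy)
  have h1 : y + ι y + (l : K) ^ (k + 1) * y * ι y = 0 := by
    have e1 := hx.2
    rw [e, map_add, map_one, map_mul, map_pow, map_natCast] at e1
    refine mul_left_cancel₀ (pow_ne_zero (k + 1) hl0) ?_
    linear_combination e1
  have h2 : Cg l 1 y (2⁻¹ * y - ι (2⁻¹ * y)) := by
    refine cg_iff.2 ⟨-(2⁻¹ * (l : K) ^ k * y * ι y), neg_mem (mul_mem (mul_mem
      (mul_mem hu (pow_mem hl' k)) hy) ((map_mem_LI ι).2 hy)), ?_⟩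
    rw [map_mul, map_inv₀, map_ofNat]
    linear_combination (1 / 2) * h1
  obtain ⟨a, ha⟩ := hg (y0 - ι y0) (y0.2.sub (map_isIntegral_int ι y0.2))
    (by rw [map_sub, hι, neg_sub])
  have h3 := h2.trans (h0.sub ((cg_map ι).2 h0))
  rw [ha] at h3
  have h4 : ∀ j, Cg l 1 (a j * b j) (((a j % l).toNat : K) * b j) := fun j => by
    refine cg_iff.2 ⟨(a j / l : ℤ) * b j, mul_mem (intCast_mem _ _) (hb j), ?_⟩
    have e1 : ((a j % l).toNat : K) = ((a j % l : ℤ) : K) := by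
      rw [← Int.cast_natCast, Int.toNat_of_nonneg (Int.emod_nonneg _ hl1)]
    have e2 : (a j : K) = ((a j % l : ℤ) : K) + l * ((a j / l : ℤ) : K) := by
      exact_mod_cast congrArg (Int.cast (R := K)) (Int.emod_add_mul_ediv (a j) l).symm
    rw [e1]
    linear_combination b j * e2
  obtain ⟨t, ht, e'⟩ := cg_iff.1 (h3.trans (cg_sum _ fun j _ => h4 j))
  refine ⟨fun j => (a j % l).toNat, (mem_VV (by omega)).2 ?_⟩
  have h5 := depA_prod Finset.univ (fun j => depA_pow (depA_powlk hl (hw' j) (hb j) k) (hb j)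
    (a j % l).toNat) fun j => mul_mem (natCast_mem _ _) (hb j)
  have h6 : Cg l (k + 2) (x : K) (1 + (l : K) ^ (k + 1) * ∑ j, ((a j % l).toNat : K) * b j) :=
    cg_iff.2 ⟨t, ht, by rw [e, e']; ring⟩
  have h7 : ∏ j, w j ^ (l ^ k * (a j % l).toNat) ∈ Vm l ι :=
    prod_mem fun j _ => pow_mem (hw j) _
  have h8 := (h6.trans h5.symm).mul_left (h7.1.2.mem (one_mem _))
  simp only [← pow_mul, ← Units.val_pow_eq_pow_val, ← Units.coe_prod, Units.inv_mul] at h8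
  rwa [← Units.val_mul, mul_comm, ← div_eq_mul_inv] at h8

theorem exists_gen_Vm {K : Type*} [Field K] [NumberField K] {l : ℕ} [Fact l.Prime] (hl : l ≠ 2)
    (ι : K →+* K) (hι : ∀ x, ι (ι x) = x) (hne : ∃ x, ι x ≠ x) {D' : ℕ}
    (hD : Module.finrank ℚ K = 2 * D') :
    ∃ w : Fin D' → Kˣ, (∀ j, w j ∈ Vm l ι) ∧ ∀ x ∈ Vm l ι, ∃ z : Fin D' → ℤ_[l],
      ∀ k : ℕ, x / ∏ j, w j ^ (z j).appr k ∈ VV K l (k + 1) := by
  obtain ⟨b, hb, hg⟩ := depA_gen ι hι hne hD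
  have hb' : ∀ j, b j ∈ LI K l := fun j => mem_LI_of_isIntegral (hb j).1
  choose w hw hw' using fun j => depA_w hl ι (hb' j) (hb j).2
  refine ⟨w, hw, fun x hx => ?_⟩
  have h1 : ∀ (k : ℕ) (z : Fin D' → ℕ), ∃ c : Fin D' → ℕ, x / ∏ j, w j ^ z j ∈ VV K l (k + 1) →
      x / ∏ j, w j ^ (z j + l ^ k * c j) ∈ VV K l (k + 2) := fun k z => by
    by_cases h : x / ∏ j, w j ^ z j ∈ VV K l (k + 1)
    · obtain ⟨c, hc⟩ := depA_step hl hι hb' hg hw hw'
        (div_mem hx (prod_mem fun j _ => pow_mem (hw j) _)) h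
      refine ⟨c, fun _ => ?_⟩
      simpa only [pow_add, Finset.prod_mul_distrib, div_div] using hc
    · exact ⟨0, fun h' => absurd h' h⟩
  choose c hc using h1
  obtain ⟨s, hs0, hs⟩ : ∃ s : ℕ → Fin D' → ℕ, s 0 = 0 ∧
      ∀ k, s (k + 1) = fun j => s k j + l ^ k * c k (s k) j :=
    ⟨fun k => Nat.rec 0 (fun k z j => z j + l ^ k * c k z j) k, rfl, fun _ => rfl⟩
  have h2 : ∀ k, x / ∏ j, w j ^ s k j ∈ VV K l (k + 1) := fun k => by
    induction k with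
    | zero => simpa [hs0] using hx.1
    | succ k ih =>
      rw [hs]
      exact hc k _ ih
  have h3 : ∀ (j : Fin D') (k : ℕ), (l : ℤ) ^ k ∣ (s (k + 1) j : ℤ) - (s k j : ℤ) := fun j k =>
    ⟨c k (s k) j, by
      rw [hs]
      push_cast
      ring⟩
  choose z h4 using fun j => (⟨_, PadicInt.toZModPow_ofIntSeq_of_pow_dvd_sub
    (fun k => (s k j : ℤ)) l (h3 j)⟩ : ∃ z : ℤ_[l], ∀ k, z.toZModPow k = (s k j : ℤ))
  refine ⟨z, fun k => ?_⟩
  have h5 : ∀ j, w j ^ s k j / w j ^ (z j).appr k ∈ VV K l (k + 1) := fun j => by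
    have e : ((((z j).appr k : ℕ) : ℤ) : ZMod (l ^ k)) = ((s k j : ℤ) : ZMod (l ^ k)) := by
      rw [Int.cast_natCast]
      exact h4 j k
    obtain ⟨q, hq⟩ := (ZMod.intCast_eq_intCast_iff_dvd_sub _ _ _).1 e
    rw [← zpow_natCast, ← zpow_natCast, div_eq_mul_inv, ← zpow_sub, hq, zpow_mul, zpow_natCast]
    refine zpow_mem ((mem_VV k.succ_pos).2 ?_) q
    rw [Units.val_pow_eq_pow_val, Nat.succ_eq_add_one, add_comm]
    exact (hw j).1.1.pow_l_pow one_pos k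
  have h6 := mul_mem (h2 k) (prod_mem (t := Finset.univ) fun j _ => h5 j)
  rwa [Finset.prod_div_distrib, div_mul_div_cancel] at h6

end Vale.Agent.P024
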