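import Vale.Agent.P024.Defs

/-! # P024 Mink (TASK; helper lemma names start with `mink_` or are private)
Minkowski units.  PLAN.  `K` totally complex, so every infinite place of `M` is unramified over `K` and has trivial stabiliser (`NumberField.InfinitePlace.isUnramified_iff_stabilizer_eq_bot`, `isUnramified_iff`: the comap is complex).
`exists_mink`: choose a representative `w0` in each orbit and a unit `u w0` from `NumberField.Units.dirichletUnitTheorem.exists_unit`; `w = g • w0` for a unique `g`; `e w = g (u w0)`; `(g • w) (g x) = w x` (`InfinitePlace.smul_apply`, `smul_eq_comap`).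
`mink_indep`: the real matrix `log (w' (e w))`, `w, w' ∈ S`, has negative off-diagonal entries and positive sums over `w' ∈ S` (all places of `M` are complex, product formula `InfinitePlace.prod_eq_abs_norm`, `sum_mult_mul_log`; some place is missing), `Matrix.det_ne_zero_of_sum_col_pos`.
`uu_rank`: a subgroup of `UU M` containing `card - 1` independent elements has finite index (transport to `Additive (𝓞 M)ˣ`, `NumberField.Units.finrank_eq` / `finrank_modTorsion`, rank `= card - 1`), and `card` elements are always dependent. -/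

namespace Vale.Agent.P024

open NumberField IsDedekindDomain Filter
open scoped Pointwise Topology

variable {K M : Type*} [Field K] [NumberField K] [Field M] [NumberField M] [Algebra K M]

theorem mem_UU {x : Mˣ} : x ∈ UU M ↔ ∃ u : (𝓞 M)ˣ, ((u : 𝓞 M) : M) = x := by
  constructor
  · rintro ⟨h1, h2⟩
    refine ⟨⟨⟨x, h1⟩, ⟨(x⁻¹ : Mˣ), h2⟩, ?_, ?_⟩, rfl⟩
    · ext
      exact x.mul_inv
    · ext
      exact x.inv_mul
  · rintro ⟨u, hu⟩
    refine ⟨hu ▸ (u : 𝓞 M).isIntegral_coe, ?_⟩
    have h : ((x⁻¹ : Mˣ) : M) = ((u⁻¹ : (𝓞 M)ˣ) : 𝓞 M) := by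
      rw [Units.val_inv_eq_inv_val, ← hu]
      refine inv_eq_of_mul_eq_one_right ?_
      rw [RingOfIntegers.coe_eq_algebraMap, RingOfIntegers.coe_eq_algebraMap, ← map_mul,
        Units.mul_inv, map_one]
    rw [h]
    exact ((u⁻¹ : (𝓞 M)ˣ) : 𝓞 M).isIntegral_coe

/-- the inclusion of the units of the ring of integers -/
noncomputable def minkInc (M : Type*) [Field M] : (𝓞 M)ˣ →* Mˣ :=
  Units.map (algebraMap (𝓞 M) M : 𝓞 M →* M)

omit [NumberField M] in
theorem mink_inc_coe (u : (𝓞 M)ˣ) : ((minkInc M u : Mˣ) : M) = (u : M) := rfl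

theorem mink_range : (minkInc M).range = UU M := by
  ext x
  rw [mem_UU, MonoidHom.mem_range]
  exact exists_congr fun u => Units.ext_iff

theorem uu_fg : (UU M).FG := by
  rw [← mink_range, ← Group.fg_iff_subgroup_fg]
  have : Group.FG (𝓞 M)ˣ := Group.fg_iff_monoid_fg.2 inferInstance
  infer_instance

theorem place_free [IsGalois K M] [IsTotallyComplex K] (w : InfinitePlace M) {g : Gal(M/K)}
    (h : g • w = w) : g = 1 := by
  have h1 : InfinitePlace.IsUnramified K w :=
    InfinitePlace.isUnramified_iff.2 (Or.inr (IsTotallyComplex.isComplex _))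
  have h2 : g ∈ MulAction.stabilizer Gal(M/K) w := h
  rwa [InfinitePlace.isUnramified_iff_stabilizer_eq_bot.1 h1, Subgroup.mem_bot] at h2

omit [NumberField K] [NumberField M] in
theorem mink_comap (g : Gal(M/K)) (w : InfinitePlace M) :
    (g • w).comap (algebraMap K M) = w.comap (algebraMap K M) := by
  rw [InfinitePlace.comap_smul]
  congr 1
  ext x
  exact g.symm.commutes x

omit [NumberField K] [NumberField M] in
theorem mink_map_mem (g : Gal(M/K)) {x : Mˣ} (hx : x ∈ UU M) :
    Units.map (g : M →* M) x ∈ UU M :=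
  ⟨map_isIntegral_int g hx.1, by
    rw [← map_inv]
    exact map_isIntegral_int g hx.2⟩

theorem exists_mink (K M : Type*) [Field K] [NumberField K] [Field M] [NumberField M] [Algebra K M]
    [IsGalois K M] [IsTotallyComplex K] :
    ∃ e : InfinitePlace M → Mˣ, (∀ w, e w ∈ UU M) ∧
      (∀ (g : Gal(M/K)) w, (e (g • w) : M) = g (e w)) ∧ ∀ w w' : InfinitePlace M, w' ≠ w → w' (e w : M) < 1 := by
  choose r hr using (InfinitePlace.comap_surjective (k := K) (K := M))
  choose u hu using fun v : InfinitePlace K => Units.dirichletUnitTheorem.exists_unit M (r v)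
  have hex : ∀ w : InfinitePlace M, ∃ g : Gal(M/K), g • r (w.comap (algebraMap K M)) = w :=
    fun w => InfinitePlace.exists_smul_eq_of_comap_eq (hr _)
  choose γ hγ using hex
  refine ⟨fun w => Units.map (γ w : M →* M) (minkInc M (u (w.comap (algebraMap K M)))),
    fun w => mink_map_mem _ (mink_range (M := M) ▸ ⟨_, rfl⟩), fun g w => ?_, fun w w' hw => ?_⟩
  · have h1 : γ (g • w) = g * γ w := by
      have h2 := hγ (g • w)
      rw [mink_comap] at h2
      have h3 : ((g * γ w)⁻¹ * γ (g • w)) • r (w.comap (algebraMap K M)) =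
          r (w.comap (algebraMap K M)) := by
        rw [mul_smul, h2, inv_smul_eq_iff, mul_smul, hγ]
      exact (inv_mul_eq_one.1 (place_free _ h3)).symm
    simp only [h1, mink_comap]
    rfl
  · have h1 : (γ w)⁻¹ • w' ≠ r (w.comap (algebraMap K M)) := fun h => by
      rw [inv_smul_eq_iff, hγ] at h
      exact hw h
    exact (Real.log_neg_iff (Units.pos_at_place _ _)).1 (hu _ _ h1)

theorem mink_half {ι : Type*} [Fintype ι] (A : ι → ι → ℝ) (hneg : ∀ w w', w' ≠ w → A w w' < 0)
    (hsum : ∀ w, ∑ w', A w w' = 0) (w0 : ι) (c : ι → ℝ) (h0 : c w0 = 0)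
    (hc : ∀ w', w' ≠ w0 → ∑ w, c w * A w w' = 0) (w1 : ι) : c w1 ≤ 0 := by
  classical
  by_contra h1
  rw [not_le] at h1
  have hP : ∀ w, 0 < c w → 0 < ∑ w' with 0 < c w', A w w' := fun w hw => by
    have h2 := Finset.sum_filter_add_sum_filter_not Finset.univ (fun w' => 0 < c w') (A w)
    have h3 : ∑ w' with ¬ 0 < c w', A w w' < ∑ w' with ¬ 0 < c w', (0 : ℝ) := by
      refine Finset.sum_lt_sum_of_nonempty ⟨w0, by simp [h0]⟩ fun w' hw' => hneg _ _ ?_
      rintro rfl
      exact (Finset.mem_filter.1 hw').2 hw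
    rw [Finset.sum_const_zero] at h3
    rw [hsum] at h2
    linarith
  have hN : ∀ w, ¬ 0 < c w → ∑ w' with 0 < c w', A w w' ≤ 0 := fun w hw =>
    Finset.sum_nonpos fun w' hw' => (hneg _ _ (by
      rintro rfl
      exact hw (Finset.mem_filter.1 hw').2)).le
  have h2 : ∑ w, c w * ∑ w' with 0 < c w', A w w' = 0 := by
    simp only [Finset.mul_sum]
    rw [Finset.sum_comm]
    refine Finset.sum_eq_zero fun w' hw' => hc w' ?_
    rintro rfl
    exact (Finset.mem_filter.1 hw').2.ne' h0
  refine absurd h2 (Finset.sum_pos' (fun w _ => ?_) ⟨w1, Finset.mem_univ _,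
    mul_pos h1 (hP _ h1)⟩).ne'
  by_cases hw : 0 < c w
  · exact (mul_pos hw (hP w hw)).le
  · exact mul_nonneg_of_nonpos_of_nonpos (not_lt.1 hw) (hN w hw)

theorem mink_matrix {ι : Type*} [Fintype ι] (A : ι → ι → ℝ) (hneg : ∀ w w', w' ≠ w → A w w' < 0)
    (hsum : ∀ w, ∑ w', A w w' = 0) (w0 : ι) (c : ι → ℝ) (h0 : c w0 = 0)
    (hc : ∀ w', w' ≠ w0 → ∑ w, c w * A w w' = 0) (w1 : ι) : c w1 = 0 := by
  refine le_antisymm (mink_half A hneg hsum w0 c h0 hc w1) ?_
  have := mink_half A hneg hsum w0 (fun w => -c w) (by rw [h0, neg_zero]) (fun w' hw' => by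
    simp only [neg_mul, Finset.sum_neg_distrib, hc w' hw', neg_zero]) w1
  exact neg_nonpos.1 this

theorem mink_real {u : InfinitePlace M → (𝓞 M)ˣ}
    (h : ∀ w w' : InfinitePlace M, w' ≠ w → w' (u w : M) < 1) (w0 : InfinitePlace M)
    (c : InfinitePlace M → ℝ) (h0 : c w0 = 0)
    (hc : ∀ w' : InfinitePlace M, w' ≠ w0 →
      ∑ w, c w * (w'.mult * Real.log (w' (u w : M))) = 0) (w1 : InfinitePlace M) : c w1 = 0 :=
  mink_matrix (fun w w' => w'.mult * Real.log (w' (u w : M)))
    (fun w w' hw => mul_neg_of_pos_of_neg (Nat.cast_pos.2 InfinitePlace.mult_pos)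
      (Real.log_neg (Units.pos_at_place _ _) (h w w' hw)))
    (fun w => Units.sum_mult_mul_log (u w)) w0 c h0 hc w1

theorem mink_lift {e : InfinitePlace M → Mˣ} (he : ∀ w, e w ∈ UU M) :
    ∃ u : InfinitePlace M → (𝓞 M)ˣ, e = fun w => minkInc M (u w) := by
  rw [← mink_range] at he
  choose u hu using he
  exact ⟨u, funext fun w => (hu w).symm⟩

theorem mink_indep [IsTotallyComplex M] {e : InfinitePlace M → Mˣ} (he : ∀ w, e w ∈ UU M)
    (h : ∀ w w' : InfinitePlace M, w' ≠ w → w' (e w : M) < 1) {w0 : InfinitePlace M} (a : InfinitePlace M → ℤ)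
    (h0 : a w0 = 0) (ha : IsOfFinOrder (∏ w, e w ^ a w)) : a = 0 := by
  obtain ⟨u, rfl⟩ := mink_lift he
  funext w1
  have key := mink_real (u := u) h w0 (fun w => (a w : ℝ)) (by rw [h0, Int.cast_zero])
    (fun w' _ => ?_) w1
  · exact_mod_cast key
  obtain ⟨n, hn, hp⟩ := isOfFinOrder_iff_pow_eq_one.1 ha
  have h1 : w' ((∏ w, minkInc M (u w) ^ a w : Mˣ) : M) = 1 := by
    have h2 : w' ((∏ w, minkInc M (u w) ^ a w : Mˣ) : M) ^ n = 1 := by
      rw [← map_pow, ← Units.val_pow_eq_pow_val, hp, Units.val_one, map_one]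
    exact (pow_eq_one_iff_of_nonneg (apply_nonneg _ _) hn.ne').1 h2
  have h2 := congrArg Real.log h1
  rw [Real.log_one, Units.coe_prod, map_prod, Real.log_prod fun w _ =>
    (InfinitePlace.pos_iff.2 (Units.ne_zero _)).ne'] at h2
  simp only [Units.val_zpow_eq_zpow_val, map_zpow₀, Real.log_zpow, mink_inc_coe] at h2
  simp only [mul_left_comm _ (w'.mult : ℝ), ← Finset.mul_sum, h2, mul_zero]

theorem mink_dep {e : InfinitePlace M → Mˣ} (he : ∀ w, e w ∈ UU M) :
    ∃ a : InfinitePlace M → ℤ, a ≠ 0 ∧ ∏ w, e w ^ a w = 1 := by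
  obtain ⟨u, rfl⟩ := mink_lift he
  have h1 : ¬ LinearIndependent ℤ fun w => Additive.ofMul (u w) := fun h => by
    have h2 := h.fintype_card_le_finrank
    rw [Units.finrank_eq, Units.rank] at h2
    have h3 : 0 < Fintype.card (InfinitePlace M) := Fintype.card_pos
    omega
  obtain ⟨a, ha, w, hw⟩ := Fintype.not_linearIndependent_iff.1 h1
  refine ⟨a, fun h => hw (congrFun h w), ?_⟩
  have h2 : ∏ w, u w ^ a w = 1 := by
    apply Additive.ofMul.injective
    rw [ofMul_prod]
    exact ha
  simp only [← map_zpow, ← map_prod, h2, map_one]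

theorem mink_index [IsTotallyComplex M] {e : InfinitePlace M → Mˣ} (he : ∀ w, e w ∈ UU M)
    (h : ∀ w w' : InfinitePlace M, w' ≠ w → w' (e w : M) < 1) :
    (Subgroup.closure (Set.range e)).relIndex (UU M) ≠ 0 := by
  classical
  obtain ⟨u, rfl⟩ := mink_lift he
  have h1 : LinearIndependent ℝ fun w : {w : InfinitePlace M // w ≠ Units.dirichletUnitTheorem.w₀} =>
      Units.logEmbedding M (Additive.ofMul (u w)) := by
    rw [Fintype.linearIndependent_iff]
    intro c hc w1
    have key := mink_real (u := u) h Units.dirichletUnitTheorem.w₀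
      (fun w => if hw : w ≠ Units.dirichletUnitTheorem.w₀ then c ⟨w, hw⟩ else 0) (by simp)
      (fun w' hw' => ?_) w1
    · rwa [dif_pos w1.2] at key
    have h2 := congrFun hc ⟨w', hw'⟩
    rw [Finset.sum_apply] at h2
    rw [Fintype.sum_eq_add_sum_subtype_ne _ Units.dirichletUnitTheorem.w₀, dif_neg (by simp),
      zero_mul, zero_add]
    refine Eq.trans (Finset.sum_congr rfl fun w _ => ?_) h2
    rw [dif_pos w.2]
    rfl
  have h2 : Units.IsMaxRank fun i => u (Units.equivFinRank M i) :=
    (linearIndependent_equiv (Units.equivFinRank M)).2 h1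
  have h3 := Units.isMaxRank_iff_closure_finiteIndex.1 h2
  rw [← mink_range, ← Subgroup.index_comap]
  have h4 : Subgroup.closure (Set.range fun i => u (Units.equivFinRank M i)) ≤
      (Subgroup.closure (Set.range fun w => minkInc M (u w))).comap (minkInc M) := by
    rw [Subgroup.closure_le]
    rintro _ ⟨i, rfl⟩
    exact Subgroup.subset_closure ⟨_, rfl⟩
  exact (Subgroup.finiteIndex_of_le h4).index_ne_zero

theorem mink_zpow_sum {G ι : Type*} [CommGroup G] (x : G) (s : Finset ι) (a : ι → ℤ) :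
    x ^ (∑ i ∈ s, a i) = ∏ i ∈ s, x ^ a i := by
  classical
  induction s using Finset.induction_on with
  | empty => simp
  | insert i s hi ih => rw [Finset.sum_insert hi, Finset.prod_insert hi, zpow_add, ih]

/-- a unit with independent conjugates -/
theorem exists_free_unit [IsGalois K M] [IsTotallyComplex K]
    (h2 : 2 ≤ Fintype.card (InfinitePlace K)) :
    ∃ e ∈ UU M, ∀ a : Gal(M/K) → ℤ,
      IsOfFinOrder (∏ g : Gal(M/K), Units.map (g : M →* M) e ^ a g) → a = 0 := by
  classical
  have : IsTotallyComplex M := isTotallyComplex_of_algebra K M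
  obtain ⟨e, he, hg, hlt⟩ := exists_mink K M
  obtain ⟨v0, v1, hv⟩ := Fintype.exists_pair_of_one_lt_card (show 1 < _ from h2)
  obtain ⟨w0, hw0⟩ := InfinitePlace.comap_surjective (K := M) v0
  obtain ⟨w1, hw1⟩ := InfinitePlace.comap_surjective (K := M) v1
  refine ⟨e w1, he w1, fun a ha => ?_⟩
  have h3 : ∏ w, e w ^ (∑ g : Gal(M/K) with g • w1 = w, a g) =
      ∏ g : Gal(M/K), Units.map (g : M →* M) (e w1) ^ a g := by
    rw [← Finset.prod_fiberwise Finset.univ fun g : Gal(M/K) => g • w1]
    refine Finset.prod_congr rfl fun w _ => ?_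
    rw [mink_zpow_sum]
    refine Finset.prod_congr rfl fun g hg' => ?_
    rw [← (Finset.mem_filter.1 hg').2]
    congr 1
    exact Units.ext (hg g w1)
  have h4 := mink_indep he hlt (w0 := w0) (fun w => ∑ g : Gal(M/K) with g • w1 = w, a g)
    (Finset.sum_eq_zero fun g hg' => by
      refine absurd ?_ hv
      have h5 := mink_comap g w1
      rw [(Finset.mem_filter.1 hg').2] at h5
      exact hw0.symm.trans (h5.trans hw1)) (h3 ▸ ha)
  funext g
  have h5 := congrFun h4 (g • w1)
  rw [Finset.sum_eq_single g] at h5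
  · exact h5
  · intro g' hg' hne
    refine absurd ?_ hne
    have h6 : (g⁻¹ * g') • w1 = w1 := by
      rw [mul_smul, (Finset.mem_filter.1 hg').2, inv_smul_smul]
    exact (inv_mul_eq_one.1 (place_free _ h6)).symm
  · intro h6
    exact absurd (by simp) h6

end Vale.Agent.P024
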