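import Vale.Agent.P024.PrA
import Vale.Agent.P024.Mink

/-! # P024 Dv (TASK; helper lemma names start with `dv_` or are private)
Divisors prime to `l` and ray classes.  PLAN.  `dvI` uses `FractionalIdeal.count`; relate it to `ordP` (`HeightOneSpectrum.intValuation_def`, `FractionalIdeal.count_coe`, or compare both on `P^n ∣ I`).
`Pm_index`: `Pm ≤ P0 := {dv x | x ∈ LI, x⁻¹ ∈ LI}`; `P0 ⧸ Pm` is a quotient of the units of `LI` modulo `VV`, finite by `exists_res`; `Dv ⧸ P0` is finite: `Dv` maps to the class group (`Finsupp.liftAddHom`, `P ↦ ClassGroup.mk0 P`) with kernel in `P0`.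
`exists_ideal_approx`: first `D = dvI I - dvI I'` with ideals prime to `l`; modulo `Pm`, `-dvI I' ≡ (k-1) • dvI I'` with `k` the index; so `D ≡ dvI I`.  Then find `x ∈ M` with `Cg l m x 1`, `ordP P x = -count P I` for `P ∣ M0`, `P ∤ l`, and `ordP P x ≥ -count P I` for all `P`:
take `0 ≠ a ∈ I` with `a 𝓞 = I J`, `J` prime to `M0 l` (`IsDedekindDomain.exists_sup_span_eq` or CRT), and use `-dvI J ≡ (k-1) • dvI J`, `dv (a^t) ∈ Pm` in the form: `dvI I + dvI J = dv a`; multiply `a` by an integer `b` prime to `M0` with `a b ≡ 1 mod l^m` (CRT): `dvI I = dv (a b) - dvI (J (b))`. -/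

namespace Vale.Agent.P024

open NumberField IsDedekindDomain Filter
open scoped Pointwise Topology

set_option linter.unusedSectionVars false

variable {M : Type*} [Field M] [NumberField M] {l : ℕ} [Fact l.Prime] {x y : M} {m : ℕ}

theorem dv_mul (hx : x ≠ 0) (hy : y ≠ 0) : dv l (x * y) = dv l x + dv l y := by
  ext P
  exact ordP_mul P.1 hx hy

theorem dv_one : dv l (1 : M) = 0 := by
  ext P
  exact ordP_one P.1

theorem dv_inv (x : M) : dv l x⁻¹ = -dv l x := by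
  ext P
  exact ordP_inv P.1 x

theorem dv_pow (x : M) (n : ℕ) : dv l (x ^ n) = n • dv l x := by
  ext P
  exact ordP_pow P.1 x n

/-- the divisor map as a homomorphism -/
noncomputable def dvH (M : Type*) [Field M] [NumberField M] (l : ℕ) [Fact l.Prime] :
    Additive Mˣ →+ Dv M l :=
  AddMonoidHom.mk' (fun x => dv l (x.toMul : M)) fun a b => dv_mul a.toMul.ne_zero b.toMul.ne_zero

theorem dvH_apply (x : Additive Mˣ) : dvH M l x = dv l (x.toMul : M) := rfl

theorem mem_Pm (hm : 0 < m) {D : Dv M l} : D ∈ Pm M l m ↔ ∃ x : M, Cg l m x 1 ∧ D = dv l x := by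
  refine ⟨fun h => ?_, fun h => AddSubgroup.subset_closure h⟩
  induction h using AddSubgroup.closure_induction with
  | mem D h => exact h
  | zero => exact ⟨1, cg_refl 1, dv_one.symm⟩
  | add a b _ _ ha hb =>
    obtain ⟨x, hx, rfl⟩ := ha
    obtain ⟨y, hy, rfl⟩ := hb
    exact ⟨x * y, by simpa using hx.mul hy (one_mem _) (one_mem _),
      (dv_mul (hx.ne_zero hm) (hy.ne_zero hm)).symm⟩
  | neg a _ ha =>
    obtain ⟨x, hx, rfl⟩ := ha
    exact ⟨x⁻¹, hx.inv hm, (dv_inv x).symm⟩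

theorem Pm_anti {m' : ℕ} (h : m ≤ m') : Pm M l m' ≤ Pm M l m := by
  exact AddSubgroup.closure_mono fun D ⟨x, hx, hD⟩ => ⟨x, hx.mono h, hD⟩

theorem dv_relIndex {G α : Type*} [AddGroup G] [Finite α] {H K : AddSubgroup G} (r : K → α)
    (h : ∀ a b : K, r a = r b → -(a : G) + b ∈ H) : H.relIndex K ≠ 0 := by
  have : Finite (K ⧸ H.addSubgroupOf K) := Finite.of_injective (fun q => r q.out) fun a b e => by
    rw [← a.out_eq', ← b.out_eq']
    exact QuotientAddGroup.eq.2 (h _ _ e)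
  exact AddSubgroup.index_ne_zero_of_finite

theorem dv_mem_VV0 {u : Mˣ} : u ∈ VV M l 0 ↔ (u : M) ∈ LI M l ∧ (u : M)⁻¹ ∈ LI M l := by
  have h : ∀ x : M, Cg l 0 x 1 ↔ x ∈ LI M l := fun x =>
    ⟨fun h => h.mem (one_mem _), fun h => by simpa [Cg] using sub_mem h (one_mem _)⟩
  rw [← h, ← h, ← Units.val_inv_eq_inv_val]
  rfl

theorem dv_VV_index (M : Type*) [Field M] [NumberField M] (l m : ℕ) [Fact l.Prime] :
    (VV M l m).relIndex (VV M l 0) ≠ 0 := by
  obtain ⟨r, hr⟩ := exists_res M l m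
  rw [← Subgroup.relIndex_toAddSubgroup]
  refine dv_relIndex (fun a => r (a.1.toMul : M)) fun a b e => ?_
  obtain ⟨a1, a2⟩ := (dv_mem_VV0 (u := a.1.toMul)).1 a.2
  obtain ⟨b1, b2⟩ := (dv_mem_VV0 (u := b.1.toMul)).1 b.2
  have h := hr _ a1 _ b1 e
  have h1 := h.symm.mul_left a2
  have h2 := h.mul_left b2
  rw [inv_mul_cancel₀ (Units.ne_zero _)] at h1 h2
  exact ⟨by simpa using h1, by simpa [mul_comm] using h2⟩

theorem dv_count_int (P : HeightOneSpectrum (𝓞 M)) (a : 𝓞 M) :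
    FractionalIdeal.count M P ((Ideal.span {a} : Ideal (𝓞 M)) :
      FractionalIdeal (nonZeroDivisors (𝓞 M)) M) = ordP P (a : M) := by
  classical
  rcases eq_or_ne a 0 with rfl | ha
  · simp [FractionalIdeal.count_zero, ordP_zero]
  · have h : P.valuation M (a : M) = P.intValuation a := P.valuation_of_algebraMap a
    rw [FractionalIdeal.count_coe M P (by simpa using ha), ordP, h, P.intValuation_if_neg ha,
      WithZero.log_exp, neg_neg]

theorem dv_count (P : HeightOneSpectrum (𝓞 M)) (hx : x ≠ 0) :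
    FractionalIdeal.count M P (FractionalIdeal.spanSingleton (nonZeroDivisors (𝓞 M)) x) =
      ordP P x := by
  obtain ⟨a, b, hb, rfl⟩ := IsFractionRing.div_surjective (A := 𝓞 M) x
  obtain ⟨ha0, hb0⟩ := div_ne_zero_iff.1 hx
  have h1 := dv_count_int P a
  have h2 := dv_count_int P b
  rw [FractionalIdeal.coeIdeal_span_singleton] at h1 h2
  rw [ordP_div P ha0 hb0, ← FractionalIdeal.spanSingleton_div_spanSingleton,
    div_eq_mul_inv, FractionalIdeal.count_mul M P (FractionalIdeal.spanSingleton_ne_zero_iff.2 ha0)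
      (inv_ne_zero (FractionalIdeal.spanSingleton_ne_zero_iff.2 hb0)),
    FractionalIdeal.count_inv, h1, h2, sub_eq_add_neg]

theorem dv_class (M : Type*) [Field M] [NumberField M] (l : ℕ) [Fact l.Prime] :
    ((VV M l 0).toAddSubgroup.map (dvH M l)).index ≠ 0 := by
  have h : ∀ D : Dv M l, ∃ I : (FractionalIdeal (nonZeroDivisors (𝓞 M)) M)ˣ,
      (∀ P : Pr M l, FractionalIdeal.count M P.1 I.1 = D P) ∧
        ∀ P : HeightOneSpectrum (𝓞 M), (l : 𝓞 M) ∈ P.asIdeal →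
          FractionalIdeal.count M P I.1 = 0 := fun D => by
    refine ⟨Units.mk0 ((D.mapDomain Subtype.val).prod fun P n => (P.asIdeal : _) ^ n)
      (Finset.prod_ne_zero_iff.2 fun P _ => zpow_ne_zero _
        (FractionalIdeal.coeIdeal_ne_zero.2 P.ne_bot)), fun P => ?_, fun P hP => ?_⟩
    · exact (FractionalIdeal.count_finsuppProd M P.1 _).trans
        (Finsupp.mapDomain_apply Subtype.val_injective D P)
    · exact (FractionalIdeal.count_finsuppProd M P _).trans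
        (Finsupp.mapDomain_of_notMem_range D P (by rintro ⟨Q, rfl⟩; exact Q.2 hP))
  choose I h1 h2 using h
  rw [← AddSubgroup.relIndex_top_right]
  refine dv_relIndex (fun a => ClassGroup.mk M (I a.1)) fun a b e => ?_
  have h3 : ClassGroup.mk M ((I a.1)⁻¹ * I b.1) = 1 := by rw [map_mul, map_inv, e, inv_mul_cancel]
  obtain ⟨x, hx⟩ := (FractionalIdeal.isPrincipal_iff _).1 (ClassGroup.mk_eq_one_iff.1 h3)
  have hx0 : x ≠ 0 := by
    rintro rfl
    exact Units.ne_zero _ (hx.trans FractionalIdeal.spanSingleton_zero)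
  have h4 : ∀ P, ordP P x = -FractionalIdeal.count M P (I a.1).1 +
      FractionalIdeal.count M P (I b.1).1 := fun P => by
    rw [← dv_count P hx0, ← hx, Units.val_mul, FractionalIdeal.count_mul M P (Units.ne_zero _)
      (Units.ne_zero _), Units.val_inv_eq_inv_val, FractionalIdeal.count_inv]
  refine ⟨Additive.ofMul (Units.mk0 x hx0), dv_mem_VV0.2 ⟨mem_LI_iff_ordP.2 fun P hP => ?_,
    mem_LI_iff_ordP.2 fun P hP => ?_⟩, Finsupp.ext fun P => ?_⟩
  · change 0 ≤ ordP P x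
    simp [h4, h2 _ P hP]
  · change 0 ≤ ordP P x⁻¹
    simp [ordP_inv, h4, h2 _ P hP]
  · exact (h4 P.1).trans (by rw [h1, h1]; rfl)

theorem Pm_index (M : Type*) [Field M] [NumberField M] (l m : ℕ) [Fact l.Prime] :
    (Pm M l m).index ≠ 0 := by
  have h2 := dv_class M l
  rw [← AddSubgroup.relIndex_top_right] at h2 ⊢
  refine AddSubgroup.relIndex_ne_zero_trans (fun h => dv_VV_index M l m ?_) h2
  rw [← AddSubgroup.relIndex_comap] at h
  rw [← Subgroup.relIndex_toAddSubgroup]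
  refine AddSubgroup.relIndex_eq_zero_of_le_left (fun u hu => ?_) h
  have h3 : dv l (u.toMul : M) ∈ Pm M l m :=
    AddSubgroup.subset_closure ⟨_, (show u.toMul ∈ VV M l m from hu).1, rfl⟩
  exact h3

theorem exists_gen (P : Pr M l) :
    ∃ (h : ℕ) (π : M), 0 < h ∧ Cg l 1 π 1 ∧ dv l π = h • Finsupp.single P 1 := by
  obtain ⟨π, h1, h2⟩ := (mem_Pm one_pos).1 ((Pm M l 1).nsmul_index_mem (Finsupp.single P 1))
  exact ⟨_, π, Nat.pos_of_ne_zero (Pm_index M l 1), h1, h2.symm⟩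

theorem mem_UU_of_dv {u : Mˣ} (h : u ∈ VV M l 1) (h0 : dv l (u : M) = 0) : u ∈ UU M := by
  have H : ∀ x : M, Cg l 1 x 1 → dv l x = 0 → IsIntegral ℤ x := fun x h1 h2 =>
    isIntegral_of_ordP fun P => by
      by_cases hP : (l : 𝓞 M) ∈ P.asIdeal
      · exact mem_LI_iff_ordP.1 (h1.mem (one_mem _)) P hP
      · have h3 : dv l x ⟨P, hP⟩ = 0 := by rw [h2]; rfl
        exact h3.ge
  exact ⟨H _ h.1 h0, H _ h.2 (by rw [Units.val_inv_eq_inv_val, dv_inv, h0, neg_zero])⟩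

theorem dv_of_mem_UU {u : Mˣ} (h : u ∈ UU M) : dv l (u : M) = 0 := by
  ext P
  have h1 : 0 ≤ ordP P.1 (u : M) := ordP_nonneg P.1 ⟨_, h.1⟩
  have h2 : 0 ≤ ordP P.1 ((u⁻¹ : Mˣ) : M) := ordP_nonneg P.1 ⟨_, h.2⟩
  rw [Units.val_inv_eq_inv_val, ordP_inv] at h2
  exact le_antisymm (neg_nonneg.1 h2) h1

theorem VV_relIndex_UU (M : Type*) [Field M] [NumberField M] (l m : ℕ) [Fact l.Prime] :
    (VV M l m).relIndex (UU M) ≠ 0 := by
  refine fun h => dv_VV_index M l m (Subgroup.relIndex_eq_zero_of_le_right (fun u hu => ?_) h)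
  exact dv_mem_VV0.2 ⟨mem_LI_of_isIntegral hu.1,
    Units.val_inv_eq_inv_val u ▸ mem_LI_of_isIntegral hu.2⟩

theorem dv_mem_of_support {H : AddSubgroup (Dv M l)}
    (h : ∀ P : Pr M l, ordP P.1 x ≠ 0 → Finsupp.single P 1 ∈ H) : dv l x ∈ H := by
  rw [← Finsupp.sum_single (dv l x)]
  refine sum_mem fun P hP => ?_
  rw [← Finsupp.smul_single_one]
  exact zsmul_mem (h P (Finsupp.mem_support_iff.1 hP)) _

theorem dvI_finite (I : Ideal (𝓞 M)) :
    (Function.support fun P : Pr M l => FractionalIdeal.count M P.1 (I : FractionalIdeal (nonZeroDivisors (𝓞 M)) M)).Finite := by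
  exact (FractionalIdeal.finite_factors (I : FractionalIdeal (nonZeroDivisors (𝓞 M)) M)).preimage
    Subtype.val_injective.injOn

/-- the divisor of an ideal -/
noncomputable def dvI (l : ℕ) [Fact l.Prime] (I : Ideal (𝓞 M)) : Dv M l :=
  Finsupp.ofSupportFinite _ (dvI_finite (l := l) I)

theorem dvI_mul {I J : Ideal (𝓞 M)} (hI : I ≠ ⊥) (hJ : J ≠ ⊥) :
    dvI l (I * J) = dvI l I + dvI l J := by
  ext P
  change FractionalIdeal.count M P.1 _ = FractionalIdeal.count M P.1 _ + FractionalIdeal.count M P.1 _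
  rw [FractionalIdeal.coeIdeal_mul, FractionalIdeal.count_mul M P.1
    (FractionalIdeal.coeIdeal_ne_zero.2 hI) (FractionalIdeal.coeIdeal_ne_zero.2 hJ)]

theorem dvI_top : dvI l (⊤ : Ideal (𝓞 M)) = 0 := by
  ext P
  change FractionalIdeal.count M P.1 _ = 0
  rw [FractionalIdeal.coeIdeal_top, FractionalIdeal.count_one]

theorem dvI_prime (P : Pr M l) : dvI l P.1.asIdeal = Finsupp.single P 1 := by
  ext Q
  change FractionalIdeal.count M Q.1 _ = _
  rcases eq_or_ne P Q with rfl | h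
  · rw [FractionalIdeal.count_self, Finsupp.single_eq_same]
  · rw [FractionalIdeal.count_maximal_coprime M Q.1 (Subtype.val_injective.ne h),
      Finsupp.single_eq_of_ne' h]

theorem dvI_span (a : 𝓞 M) : dvI l (Ideal.span {a}) = dv l (a : M) := by
  ext P
  exact dv_count_int P.1 a

theorem dv_cop {P : HeightOneSpectrum (𝓞 M)} {a : 𝓞 M} (h : a ∉ P.asIdeal) :
    IsCoprime P.asIdeal (Ideal.span {a}) := by
  obtain ⟨y, i, hi, e⟩ := P.isMaximal.exists_inv h
  exact Ideal.isCoprime_iff_exists.2 ⟨i, hi, y * a,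
    Ideal.mul_mem_left _ _ (Ideal.mem_span_singleton_self a), by rw [add_comm, e]⟩

theorem dv_crt {M0 : ℕ} (h0 : M0 ≠ 0) (P : Pr M l) (m : ℕ) : ∃ (a : 𝓞 M) (J : Ideal (𝓞 M)),
    Cg l m (a : M) 1 ∧ Ideal.span {a} = P.1.asIdeal * J ∧
      IsCoprime J (Ideal.span {(M0 : 𝓞 M)}) := by
  classical
  obtain ⟨π, hπ0, hπ⟩ := exists_unif P.1
  have hc : IsCoprime (P.1.asIdeal ^ 2) (Ideal.span {(l : 𝓞 M) ^ m} *
      ∏ Q ∈ (finite_over (M := M) h0).toFinset.erase P.1, Q.asIdeal) :=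
    ((dv_cop fun h => P.2 (P.1.isPrime.mem_of_pow_mem m h)).mul_right
      (IsCoprime.prod_right fun Q hQ => Ideal.isCoprime_iff_sup_eq.2
        (P.1.isMaximal.coprime_of_ne Q.isMaximal fun h =>
          (Finset.mem_erase.1 hQ).1 (HeightOneSpectrum.ext h.symm)))).pow_left
  obtain ⟨u, hu, v, hv, e⟩ := Ideal.isCoprime_iff_exists.1 hc
  have e1 : π * v + u - 1 = (π - 1) * v := by linear_combination e
  have e2 : π = π * v + u - (1 - π) * u := by linear_combination (-π) * e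
  have h1 : π ∈ P.1.asIdeal := (ordP_pos_iff P.1 hπ0).1 (by rw [hπ]; exact one_pos)
  have h2 : π ∉ P.1.asIdeal ^ 2 := fun h => by
    have := (le_ordP_iff P.1 hπ0 2).2 h
    rw [hπ] at this
    exact absurd this (by norm_num)
  obtain ⟨J, hJ⟩ : P.1.asIdeal ∣ Ideal.span {π * v + u} := Ideal.dvd_span_singleton.2
    (add_mem (Ideal.mul_mem_right _ _ h1) (Ideal.pow_le_self two_ne_zero hu))
  have ha : π * v + u ∈ P.1.asIdeal * J := by rw [← hJ]; exact Ideal.mem_span_singleton_self _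
  refine ⟨_, J, ?_, hJ, Ideal.isCoprime_iff_sup_eq.2 (by_contra fun h => ?_)⟩
  · have := (cg_int_iff (l := l) m (π * v + u) 1).2
      (by rw [e1]; exact Ideal.mul_mem_left _ _ (Ideal.mul_le_left hv))
    exact this
  obtain ⟨Q, hQ, hle⟩ := Ideal.exists_le_maximal _ h
  have hM : (M0 : 𝓞 M) ∈ Q := hle (Ideal.mem_sup_right (Ideal.mem_span_singleton_self _))
  have hJQ : J ≤ Q := le_sup_left.trans hle
  by_cases hP : Q = P.1.asIdeal
  · have h3 := Ideal.mul_mono_right (hJQ.trans_eq hP) ha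
    rw [← sq] at h3
    have h4 := sub_mem h3 (Ideal.mul_mem_left _ (1 - π) hu)
    exact h2 (by rwa [← e2] at h4)
  · have hQ0 : Q ≠ ⊥ := by
      rintro rfl
      exact Nat.cast_ne_zero.2 h0 (Ideal.mem_bot.1 hM)
    have h5 : (⟨Q, hQ.isPrime, hQ0⟩ : HeightOneSpectrum (𝓞 M)) ∈
        (finite_over (M := M) h0).toFinset.erase P.1 :=
      Finset.mem_erase.2 ⟨fun h => hP (congrArg HeightOneSpectrum.asIdeal h),
        (Set.Finite.mem_toFinset _).2 hM⟩
    have h3 : v ∈ Q := Ideal.le_of_dvd (Finset.dvd_prod_of_mem HeightOneSpectrum.asIdeal h5)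
      (Ideal.mul_le_right hv)
    refine hQ.ne_top ((Ideal.eq_top_iff_one Q).2 ?_)
    have h4 := sub_mem (hJQ (Ideal.mul_le_right ha)) (Q.mul_mem_left (π - 1) h3)
    rwa [← e1, sub_sub_cancel] at h4

theorem exists_ideal_approx (hm : 0 < m) {M0 : ℕ} (h0 : M0 ≠ 0) (hl : l ∣ M0) (D : Dv M l) :
    ∃ I : Ideal (𝓞 M), IsCoprime I (Ideal.span {(M0 : 𝓞 M)}) ∧ D - dvI l I ∈ Pm M l m := by
  have hne : ∀ I : Ideal (𝓞 M), IsCoprime I (Ideal.span {(M0 : 𝓞 M)}) → I ≠ ⊥ := fun I hI h => by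
    obtain ⟨P, hP⟩ := exists_over M (Fact.out : l.Prime)
    obtain ⟨c, rfl⟩ := hl
    rw [h, Ideal.isCoprime_iff_sup_eq, bot_sup_eq] at hI
    refine P.isPrime.ne_top (top_le_iff.1 (hI ▸ (Ideal.span_singleton_le_iff_mem _).2 ?_))
    rw [Nat.cast_mul]
    exact Ideal.mul_mem_right _ _ hP
  let T : AddSubmonoid (Dv M l) :=
    { carrier := {D | ∃ I : Ideal (𝓞 M), IsCoprime I (Ideal.span {(M0 : 𝓞 M)}) ∧
        D - dvI l I ∈ Pm M l m}
      zero_mem' := ⟨⊤, by simp [Ideal.isCoprime_iff_sup_eq], by simp [dvI_top]⟩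
      add_mem' := by
        rintro a b ⟨I, hI, ha⟩ ⟨J, hJ, hb⟩
        refine ⟨I * J, hI.mul_left hJ, ?_⟩
        rw [dvI_mul (hne I hI) (hne J hJ), ← sub_add_sub_comm]
        exact add_mem ha hb }
  have hneg : ∀ D ∈ T, -D ∈ T := fun D hD => by
    obtain ⟨k, hk⟩ := Nat.exists_eq_succ_of_ne_zero (Pm_index M l m)
    obtain ⟨I, hI, h⟩ := T.nsmul_mem hD k
    refine ⟨I, hI, ?_⟩
    have := sub_mem h ((Pm M l m).nsmul_index_mem D)
    rwa [hk, succ_nsmul, show k • D - dvI l I - (k • D + D) = -D - dvI l I by abel] at this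
  let T' : AddSubgroup (Dv M l) := { T with neg_mem' := fun {D} => hneg D }
  change D ∈ T'
  rw [← Finsupp.sum_single D]
  refine sum_mem fun P _ => ?_
  rw [← Finsupp.smul_single_one]
  refine zsmul_mem (neg_mem_iff.1 ?_) _
  obtain ⟨a, J, h1, h2, h3⟩ := dv_crt h0 P m
  refine ⟨J, h3, ?_⟩
  rw [← neg_add', ← dvI_prime, ← dvI_mul P.1.ne_bot (hne J h3), ← h2, dvI_span]
  exact neg_mem ((mem_Pm hm).2 ⟨_, h1, rfl⟩)

variable {M' : Type*} [Field M'] [NumberField M']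

theorem prMap_aux (σ : M ≃+* M') (P : HeightOneSpectrum (𝓞 M)) :
    (l : 𝓞 M) ∉ P.asIdeal ↔
      (l : 𝓞 M') ∉ (HeightOneSpectrum.equivOfRingEquiv (RingOfIntegers.mapRingEquiv σ) P).asIdeal := by
  refine not_congr ?_
  change _ ↔ (RingOfIntegers.mapRingEquiv σ).symm (l : 𝓞 M') ∈ P.asIdeal
  rw [map_natCast]

/-- transport of primes -/
noncomputable def prMap (l : ℕ) [Fact l.Prime] (σ : M ≃+* M') : Pr M l ≃ Pr M' l :=
  (HeightOneSpectrum.equivOfRingEquiv (RingOfIntegers.mapRingEquiv σ)).subtypeEquiv (prMap_aux σ)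

/-- transport of divisors -/
noncomputable def dvMap (l : ℕ) [Fact l.Prime] (σ : M ≃+* M') : Dv M l ≃+ Dv M' l :=
  Finsupp.domCongr (prMap l σ)

theorem mem_prMap (σ : M ≃+* M') (P : Pr M l) (a : 𝓞 M) :
    RingOfIntegers.mapRingEquiv σ a ∈ (prMap l σ P).1.asIdeal ↔ a ∈ P.1.asIdeal := by
  change (RingOfIntegers.mapRingEquiv σ).symm _ ∈ P.1.asIdeal ↔ _
  rw [RingEquiv.symm_apply_apply]

theorem dv_prMap_eq (σ : M ≃+* M') (P : Pr M l) :
    (prMap l σ P).1.asIdeal = P.1.asIdeal.map (RingOfIntegers.mapRingEquiv σ : 𝓞 M →+* 𝓞 M') :=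
  (Ideal.map_comap_of_equiv _).symm

theorem dv_ord_int (σ : M ≃+* M') (P : Pr M l) {a : 𝓞 M} (ha : a ≠ 0) :
    ordP (prMap l σ P).1 (σ a) = ordP P.1 (a : M) := by
  have h : ∀ n : ℕ, (n : ℤ) ≤ ordP (prMap l σ P).1 (σ a) ↔ (n : ℤ) ≤ ordP P.1 (a : M) :=
    fun n => by
      rw [le_ordP_iff P.1 ha, ← RingOfIntegers.mapRingEquiv_apply,
        le_ordP_iff _ ((map_ne_zero_iff _ (RingEquiv.injective _)).2 ha), dv_prMap_eq,
        ← Ideal.map_pow]
      exact Ideal.apply_mem_of_equiv_iff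
  obtain ⟨i, hi⟩ := Int.eq_ofNat_of_zero_le (ordP_nonneg P.1 a)
  obtain ⟨j, hj⟩ := Int.eq_ofNat_of_zero_le
    (ordP_nonneg (prMap l σ P).1 (RingOfIntegers.mapRingEquiv σ a))
  rw [RingOfIntegers.mapRingEquiv_apply] at hj
  exact le_antisymm (hj.trans_le ((h j).1 hj.ge)) (hi.trans_le ((h i).2 hi.ge))

theorem ordP_prMap (σ : M ≃+* M') (P : Pr M l) (x : M) : ordP (prMap l σ P).1 (σ x) = ordP P.1 x := by
  rcases eq_or_ne x 0 with rfl | hx
  · rw [map_zero, ordP_zero, ordP_zero]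
  obtain ⟨a, b, hb, rfl⟩ := IsFractionRing.div_surjective (A := 𝓞 M) x
  obtain ⟨ha0, hb0⟩ := div_ne_zero_iff.1 hx
  rw [map_div₀, ordP_div _ ha0 hb0, ordP_div _ ((map_ne_zero σ).2 ha0) ((map_ne_zero σ).2 hb0)]
  exact congrArg₂ (· - ·) (dv_ord_int σ P fun h => ha0 (by rw [h, map_zero]))
    (dv_ord_int σ P fun h => hb0 (by rw [h, map_zero]))

theorem nrm_prMap (σ : M ≃+* M') (P : Pr M l) : nrm (prMap l σ P).1 = nrm P.1 := by
  exact (Nat.card_congr (Ideal.quotientEquiv _ _ _ (dv_prMap_eq σ P)).toEquiv).symm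

theorem dvMap_apply (σ : M ≃+* M') (D : Dv M l) (P : Pr M l) : dvMap l σ D (prMap l σ P) = D P := by
  simp [dvMap]

theorem dvMap_single (σ : M ≃+* M') (P : Pr M l) (n : ℤ) :
    dvMap l σ (Finsupp.single P n) = Finsupp.single (prMap l σ P) n := by
  simp [dvMap]

theorem dvMap_dv (σ : M ≃+* M') (x : M) : dvMap l σ (dv l x) = dv l (σ x) := by
  ext Q
  obtain ⟨P, rfl⟩ := (prMap l σ).surjective Q
  rw [dvMap_apply, dv_apply, dv_apply, ordP_prMap]

theorem lies_prMap {E : Type*} [Field E] (σ : M ≃+* M') (P : Pr M l) {A : ValuationSubring E}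
    {τ : M' →+* E} : Lies A τ (prMap l σ P).1 ↔ Lies A (τ.comp σ.toRingHom) P.1 := by
  refine ⟨fun h a => (mem_prMap σ P a).symm.trans (h _), fun h b => ?_⟩
  obtain ⟨a, rfl⟩ := (RingOfIntegers.mapRingEquiv σ).surjective b
  exact (mem_prMap σ P a).trans (h a)

end Vale.Agent.P024
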