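import Vale.Agent.P024.PrC
import Vale.Agent.P024.Cyc

/-! # P024 EtaR (TASK; helper lemma names start with `etaR_` or are private)
Wild ramification of the cyclotomic field.  PLAN.  Suppose every `τ ∈ T ⊓ II B` has `cyc (q^(k+1)) τ = y^q`.  Then `x = cyc (q^2) τ` (`cyc_cast`) is a `q`-th power of a unit of `ZMod (q^2)`, so `x^(q-1) = 1` (`ZMod.pow_totient`).
Let `z` be a primitive `q²`-th root of unity, `H = {h : (ZMod (q^2))ˣ | h^(q-1) = 1}` (`0 < card H ≤ q - 1`: the unit group is cyclic, `IsCyclic.card_pow_eq_one_le`), `y' = ∏ h ∈ H, (z^h.val - 1)`; `τ` permutes the factors, so fixes `y'`; `val_lemma` gives `x0 ∈ Fx T` with the valuation of `y'`.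
All `z^h - 1` (`h` a unit) have the same valuation `v0` (`IsPrimitiveRoot.associated_sub_one_pow_sub_one_of_coprime` in the valuation ring, or geometric sums), and `∏ (1 - μ) = q` over the primitive roots (`IsPrimitiveRoot.prod_one_sub...`, `Polynomial.eval_one_cyclotomic_prime_pow`), so `v0^(q (q-1)) = v q`.
Hence `x0^(q (q-1))` and `q^(card H)` have the same valuation; `Lies.val_eq_iff`: `q (q-1) ordP x0 = card H * ordP q` with `0 < ordP q ≤ finrank < q` (`ordP_natCast_le`): `q` divides a product of two positive numbers below `q`. -/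

namespace Vale.Agent.P024

open NumberField IsDedekindDomain Filter
open scoped Pointwise Topology

set_option linter.unusedSectionVars false

variable {F E : Type*} [Field F] [NumberField F] [Field E] [CharZero E] [Algebra F E] [IsGalois F E]

theorem etaR_le (B : ValuationSubring E) {n : ℕ} (hn : 0 < n) {z : E} (hz : z ^ n = 1) (j : ℕ) :
    B.valuation (z ^ j - 1) ≤ B.valuation (z - 1) := by
  have h1 : B.valuation z = 1 :=
    (pow_eq_one_iff_of_nonneg zero_le hn.ne').1 (by rw [← map_pow, hz, map_one])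
  rw [← geom_sum_mul, map_mul]
  refine mul_le_of_le_one_left' (Valuation.map_sum_le _ fun i _ => ?_)
  rw [map_pow, h1, one_pow]

theorem etaR_eq (B : ValuationSubring E) {n : ℕ} (hn : 0 < n) {z w : E} (hz : IsPrimitiveRoot z n)
    (hw : IsPrimitiveRoot w n) : B.valuation (w - 1) = B.valuation (z - 1) := by
  have : NeZero n := ⟨hn.ne'⟩
  obtain ⟨i, -, hi⟩ := hz.eq_pow_of_pow_eq_one hw.pow_eq_one
  obtain ⟨j, -, hj⟩ := hw.eq_pow_of_pow_eq_one hz.pow_eq_one
  exact le_antisymm (hi ▸ etaR_le B hn hz.pow_eq_one i) (hj ▸ etaR_le B hn hw.pow_eq_one j)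

theorem etaR_val (B : ValuationSubring E) {q : ℕ} (hq : q.Prime) {z : E}
    (hz : IsPrimitiveRoot z (q ^ (1 + 1))) :
    B.valuation (z - 1) ^ (q * (q - 1)) = B.valuation (q : E) := by
  have := Fact.mk hq
  have hn : 0 < q ^ (1 + 1) := pow_pos hq.pos _
  rw [← Polynomial.eval_one_cyclotomic_prime_pow (R := E) 1,
    Polynomial.cyclotomic_eq_prod_X_sub_primitiveRoots hz, Polynomial.eval_prod, map_prod,
    Finset.prod_congr rfl (g := fun _ => B.valuation (z - 1)), Finset.prod_const,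
    hz.card_primitiveRoots, Nat.totient_prime_pow_succ hq, pow_one]
  intro w hw
  rw [Polynomial.eval_sub, Polynomial.eval_X, Polynomial.eval_C, Valuation.map_sub_swap]
  exact etaR_eq B hn hz ((mem_primitiveRoots hn).1 hw)

theorem exists_II_cyc (hE : RC E) {T : OpenSubgroup Gal(E/F)} {q : ℕ} (hq : q.Prime) (h2 : q ≠ 2)
    (hb : Module.finrank ℚ (Fx T) < q) {B : ValuationSubring E} (hB : Ov B q) {k : ℕ} (hk : 0 < k) :
    ∃ τ ∈ T, τ ∈ II F B ∧ ¬∃ y : ZMod (q ^ (k + 1)), y ^ q = cyc (q ^ (k + 1)) τ := by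
  classical
  by_contra! hc
  have hn : 0 < q ^ (1 + 1) := pow_pos hq.pos _
  have : NeZero (q ^ (1 + 1)) := ⟨hn.ne'⟩
  have : NeZero (q ^ (k + 1)) := ⟨pow_ne_zero _ hq.ne_zero⟩
  have := ZMod.isCyclic_units_of_prime_pow q hq h2 (1 + 1)
  have hq1 : 0 < q - 1 := Nat.sub_pos_of_lt hq.one_lt
  obtain ⟨z, hz⟩ := hE.prim _ hn
  let H : Finset (ZMod (q ^ (1 + 1)))ˣ := {a | a ^ (q - 1) = 1}
  have hH : H.card ≤ q - 1 := IsCyclic.card_pow_eq_one_le hq1
  have hH0 : 0 < H.card := Finset.card_pos.2 ⟨1, by simp [H]⟩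
  have hp : ∀ a : (ZMod (q ^ (1 + 1)))ˣ,
      IsPrimitiveRoot (z ^ (a : ZMod (q ^ (1 + 1))).val) (q ^ (1 + 1)) := fun a =>
    hz.pow_of_coprime _ (ZMod.val_coe_unit_coprime a)
  have hy0 : ∏ a ∈ H, (z ^ (a : ZMod (q ^ (1 + 1))).val - 1) ≠ 0 :=
    Finset.prod_ne_zero_iff.2 fun a _ =>
      sub_ne_zero.2 ((hp a).ne_one (Nat.one_lt_pow (by omega) hq.one_lt))
  obtain ⟨x, hx0, hx⟩ := val_lemma (U := T) hq hB hy0 fun g hg hgI => by
    obtain ⟨y, hy⟩ := hc g hg hgI
    have h1 := cyc_cast hE (pow_dvd_pow q (show 1 + 1 ≤ k + 1 by omega)) g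
    rw [← hy, map_pow] at h1
    have h3 := isUnit_cyc (t := q ^ (1 + 1)) hE g
    rw [← h1, isUnit_pow_iff hq.ne_zero] at h3
    obtain ⟨u, hu⟩ := h3
    have h4 : (u ^ q) ^ (q - 1) = 1 := by
      have h5 := ZMod.pow_totient u
      rwa [Nat.totient_prime_pow_succ hq, pow_one, pow_mul] at h5
    rw [map_prod]
    refine Finset.prod_equiv (Equiv.mulLeft (u ^ q)) (fun a => ?_) fun a _ => ?_
    · simp only [H, Finset.mem_filter, Finset.mem_univ, true_and, Equiv.coe_mulLeft, mul_pow, h4,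
        one_mul]
    · rw [map_sub, map_one, map_pow, cyc_spec hE g hz.pow_eq_one, ← pow_val_mul hz.pow_eq_one,
        ← h1, ← hu, Equiv.coe_mulLeft, Units.val_mul, Units.val_pow_eq_pow_val]
  obtain ⟨P, hP⟩ := exists_lies hB hq (inc T)
  have hq0 : (q : Fx T) ≠ 0 := Nat.cast_ne_zero.2 hq.ne_zero
  have h3 : B.valuation (inc T (x ^ (q * (q - 1)))) = B.valuation (inc T ((q : Fx T) ^ H.card)) := by
    rw [map_pow, map_pow, map_pow, map_pow, map_natCast, ← etaR_val B hq hz, ← pow_mul,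
      mul_comm _ H.card, pow_mul _ H.card]
    congr 1
    refine hx.trans ?_
    rw [map_prod, Finset.prod_congr rfl fun a _ => etaR_eq B hn hz (hp a), Finset.prod_const]
  rw [hP.val_eq_iff (pow_ne_zero _ hx0) (pow_ne_zero _ hq0), ordP_pow, ordP_pow] at h3
  have h4 : 0 < ordP P (q : Fx T) := (hP.nonunits_iff hq0).1 (by rw [map_natCast]; exact hB)
  have h5 := ordP_natCast_le hq P
  obtain ⟨e, he⟩ := Int.eq_ofNat_of_zero_le h4.le
  rw [he] at h3 h4 h5
  have h6 : q ∣ H.card * e := by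
    rw [← Int.natCast_dvd_natCast, Nat.cast_mul, ← h3, Nat.cast_mul, mul_assoc]
    exact dvd_mul_right _ _
  rcases (Nat.Prime.dvd_mul hq).1 h6 with h7 | h7
  · have := Nat.le_of_dvd hH0 h7
    omega
  · have := Nat.le_of_dvd (by omega) h7
    omega

end Vale.Agent.P024
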