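import Vale.Agent.P024.PrB

/-! # P024 PrC (TASK; helper lemma names start with `prC_` or are private)
Value groups and ramification.  PLAN.  `val_lemma`: `N' = U ⊓ stab y`, `M1 = Fx N'`, `𝔓` with `Lies A (inc N') 𝔓`.  For `z ∈ M1` put `x = ∑ h (y z)` over representatives `h` of `U ⧸ N'` (well defined, fixed by `U`).
Choose representatives in `DD` where possible.  Different cosets `h N'`, `h' N'` with `h, h' ∈ DD` induce different maps from the residue field of `𝔓` to the residue field of `A` (`surj_res` for `N'` and `h⁻¹ h'`, and `U ⊓ II ≤ N'`),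
so by Dedekind (`linearIndependent_monoidHom`) there is `z0 ∈ 𝓞 M1` with `∑ (h y / y) h z0` a unit of `A` (`h y / y` is a unit by `DD_val`).  For the other cosets `h⁻¹ • A` induces a prime `≠ 𝔓` of `M1` (`trans_U`); choose `z ≡ z0 mod 𝔓` highly divisible by these primes (`IsDedekindDomain.exists_forall_sub_mem_ideal`), so that `h (y z) / y` is a nonunit (`arch` or `le_ordP_iff`).
An alternative is finite Hilbert theory from Mathlib (`Ideal.card_inertia_eq_ramificationIdxIn`).  `finite_ram`: `core U` is the common stabiliser of a finite `G`-stable set `s` of algebraic integers (conjugates of an integral primitive element, or of a spanning set); for `p` outside the finite sets `finite_ov (y - y')`, `g y ≡ y` forces `g y = y`. -/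

namespace Vale.Agent.P024

open NumberField IsDedekindDomain Filter
open scoped Pointwise Topology

set_option linter.unusedSectionVars false

variable {F E : Type*} [Field F] [NumberField F] [Field E] [CharZero E] [Algebra F E] [IsGalois F E]

variable {U : OpenSubgroup Gal(E/F)} {A : ValuationSubring E} {p : ℕ}

theorem prC_sum {M : Type*} [Field M] [NumberField M] [Algebra.IsAlgebraic ℚ E] {ι : Type*}
    (S : Finset ι) (σ : ι → (M →+* E)) (hp : p.Prime) (hA : Ov A p)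
    (P : HeightOneSpectrum (𝓞 M)) (c : ι → E) (h1 : ∃ i ∈ S, Lies A (σ i) P)
    (h2 : ∀ i ∈ S, Lies A (σ i) P → A.valuation (c i) = 1)
    (h3 : ∀ i ∈ S, ∀ j ∈ S, Lies A (σ i) P → Lies A (σ j) P →
      (∀ a : 𝓞 M, σ i a - σ j a ∈ A.nonunits) → i = j) :
    ∃ z : M, A.valuation (∑ i ∈ S, c i * σ i z) = 1 := by
  classical
  let φ : ι → (𝓞 M →+* A) := fun i => ((σ i).comp (algebraMap (𝓞 M) M)).codRestrict A
    fun a => mem_of_isIntegral A (a.isIntegral_coe.map_of_comp_eq (RingHom.id ℤ) (σ i)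
      (RingHom.ext_int _ _))
  have hφ : ∀ i a, (φ i a : E) = σ i a := fun _ _ => rfl
  let T := S.filter fun i => Lies A (σ i) P
  let χ : T → (𝓞 M →* IsLocalRing.ResidueField A) := fun i =>
    ((IsLocalRing.residue A).comp (φ i)).toMonoidHom
  have hχ : ∀ i a, χ i a = IsLocalRing.residue A (φ i a) := fun _ _ => rfl
  have hr : ∀ a : A, IsLocalRing.residue A a = 0 ↔ (a : E) ∈ A.nonunits := fun a => by
    rw [IsLocalRing.residue_eq_zero_iff, ValuationSubring.coe_mem_nonunits_iff]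
  have hT : ∀ i : T, i.1 ∈ S ∧ Lies A (σ i) P := fun i => Finset.mem_filter.1 i.2
  have hinj : Function.Injective χ := fun i j e => Subtype.ext
    (h3 i (hT i).1 j (hT j).1 (hT i).2 (hT j).2 fun a => by
      have := DFunLike.congr_fun e a
      rw [hχ, hχ, ← sub_eq_zero, ← map_sub, hr] at this
      exact this)
  have hli := Fintype.linearIndependent_iff.1 ((linearIndependent_monoidHom _ _).comp χ hinj)
  let u : T → A := fun i => ⟨c i, (uq_val_one.1 (h2 i (hT i).1 (hT i).2)).1⟩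
  obtain ⟨z0, hz0⟩ : ∃ z0, ∑ i : T, IsLocalRing.residue A (u i) * χ i z0 ≠ 0 := by
    by_contra! hc
    obtain ⟨i, hi, hi'⟩ := h1
    have := hli (fun i => IsLocalRing.residue A (u i)) (funext fun a => by
      simpa using hc a) ⟨i, Finset.mem_filter.2 ⟨hi, hi'⟩⟩
    exact (uq_val_one.1 (h2 i hi hi')).2 ((hr _).1 this)
  choose Q hQ using fun i => exists_lies hA hp (σ i)
  obtain ⟨w, hw⟩ := IsDedekindDomain.exists_forall_sub_mem_ideal (s := insert P (S.image Q))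
    (fun q : HeightOneSpectrum (𝓞 M) => q.asIdeal) (fun _ => 1) (fun q _ => q.prime)
    (fun q _ q' _ hq e => hq (HeightOneSpectrum.ext e)) fun q => if q.1 = P then 1 else 0
  have hw1 : w - 1 ∈ P.asIdeal := by simpa using hw P (Finset.mem_insert_self _ _)
  have hw2 : ∀ i ∈ S, ¬Lies A (σ i) P → σ i w ∈ A.nonunits := fun i hi hn => by
    have := hw (Q i) (Finset.mem_insert_of_mem (Finset.mem_image_of_mem _ hi))
    rw [if_neg fun e : Q i = P => hn (e ▸ hQ i), sub_zero, pow_one] at this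
    exact (hQ i w).1 this
  choose! N hN using fun i (hi : i ∈ S.filter fun i => ¬Lies A (σ i) P) =>
    arch (hw2 i (Finset.mem_filter.1 hi).1 (Finset.mem_filter.1 hi).2) (c i * σ i z0)
  obtain ⟨n, hn⟩ := ((S.filter fun i => ¬Lies A (σ i) P).finite_toSet.image N).bddAbove
  refine ⟨((z0 * w ^ n : 𝓞 M) : M), ?_⟩
  have hB : ∑ i ∈ S.filter (fun i => ¬Lies A (σ i) P), c i * σ i ((z0 * w ^ n : 𝓞 M) : M) ∈
      A.nonunits := sum_mem fun i hi => by
    have := hN i hi n (hn ⟨i, hi, rfl⟩)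
    simpa [mul_assoc] using this
  have e : ∑ i ∈ T, c i * σ i ((z0 * w ^ n : 𝓞 M) : M) =
      ((∑ i : T, u i * φ i (z0 * w ^ n) : A) : E) := by
    rw [← Finset.sum_coe_sort]
    push_cast
    rfl
  have hR : ((∑ i : T, u i * φ i (z0 * w ^ n) : A) : E) ∉ A.nonunits := by
    rw [← hr, map_sum]
    convert hz0 using 3 with i
    have h4 : χ i w = 1 := by
      rw [hχ, ← sub_eq_zero, ← map_one (IsLocalRing.residue A), ← map_one (φ i), ← map_sub,
        ← map_sub, hr]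
      exact ((hT i).2 _).1 hw1
    rw [map_mul, ← hχ, map_mul, map_pow, h4, one_pow, mul_one]
  rw [← Finset.sum_filter_add_sum_filter_not S fun i => Lies A (σ i) P, e, uq_val_one]
  exact ⟨add_mem (Subtype.property _) (A.nonunits_subset hB), fun h => hR (by
    simpa using sub_mem h hB)⟩

theorem val_lemma (hp : p.Prime) (hA : Ov A p) {y : E} (hy : y ≠ 0)
    (h : ∀ g ∈ U, g ∈ II F A → g y = y) :
    ∃ x : Fx U, x ≠ 0 ∧ A.valuation (x : E) = A.valuation y := by
  classical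
  have := alg_rat F E
  let N : OpenSubgroup Gal(E/F) := U ⊓ stab y
  have hN : ∀ g, g ∈ N ↔ g ∈ U ∧ g y = y := fun g => Iff.rfl
  obtain ⟨P, hP⟩ := exists_lies hA hp (inc N)
  let y' : Fx N := ⟨y, mem_Fx.2 fun g hg => ((hN g).1 hg).2⟩
  let r : Gal(E/F) → (Fx N →ₐ[F] E) := fun g => (g : E →ₐ[F] E).comp (Fx N).val
  have hr : ∀ g x, r g x = g x := fun _ _ => rfl
  let S : Finset (Fx N →ₐ[F] E) := Finset.univ.filter fun σ => ∃ g ∈ U, σ = r g
  have hS : ∀ σ, σ ∈ S ↔ ∃ g ∈ U, σ = r g := fun σ => by simp [S]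
  have hD : ∀ σ ∈ S, Lies A (σ : Fx N →+* E) P → ∃ g ∈ U, g ∈ DD F A ∧ σ = r g := by
    intro σ hσ hL
    obtain ⟨g, hg, rfl⟩ := (hS σ).1 hσ
    obtain ⟨n, hn, e⟩ := trans_U hP (hL.smul g⁻¹ (τ' := inc N) fun x => (g.symm_apply_apply x).symm)
    refine ⟨g * n, U.mul_mem hg ((hN n).1 hn).1, ?_, AlgHom.ext fun x => ?_⟩
    · rw [mem_DD, mul_smul, e, smul_inv_smul]
    · rw [hr, hr, AlgEquiv.mul_apply, mem_Fx.1 x.2 n hn]
  obtain ⟨z, hz⟩ := prC_sum S (fun σ => (σ : Fx N →+* E)) hp hA P (fun σ => σ y' / y)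
    ⟨r 1, (hS _).2 ⟨1, U.one_mem, rfl⟩, hP⟩
    (fun σ hσ hL => by
      obtain ⟨g, -, hg, rfl⟩ := hD σ hσ hL
      rw [map_div₀, hr, DD_val hg, div_self ((map_ne_zero _).2 hy)])
    fun σ hσ σ' hσ' hL hL' e => by
      obtain ⟨g, hg, hg', rfl⟩ := hD σ hσ hL
      obtain ⟨k, hk, hk', rfl⟩ := hD σ' hσ' hL'
      have h1 := (DD F A).mul_mem ((DD F A).inv_mem hk') hg'
      obtain ⟨u, hu, -, hu'⟩ := surj_res (U := N) hp hA h1 fun x hx hxA => by
        obtain ⟨a, ha⟩ := hP.exists_int (x := ⟨x, hx⟩) hxA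
        have h2 : (k⁻¹ * g) ((a : Fx N) : E) - ((a : Fx N) : E) ∈ A.nonunits := by
          rw [← DD_nonunits hk', map_sub, ← AlgEquiv.mul_apply, mul_inv_cancel_left]
          exact e a
        have h3 := (DD_nonunits h1).2 ha
        rw [map_sub] at h3
        convert sub_mem (add_mem h3 h2) ha using 1
        change (k⁻¹ * g) x - x = (k⁻¹ * g) x - (k⁻¹ * g) ((a : Fx N) : E) +
          ((k⁻¹ * g) ((a : Fx N) : E) - ((a : Fx N) : E)) - (x - ((a : Fx N) : E))
        ring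
      have h4 : u⁻¹ * (k⁻¹ * g) ∈ U :=
        U.mul_mem (U.inv_mem ((hN u).1 hu).1) (U.mul_mem (U.inv_mem hk) hg)
      have h5 := N.mul_mem hu ((hN _).2 ⟨h4, h _ h4 hu'⟩)
      rw [mul_inv_cancel_left] at h5
      refine AlgHom.ext fun x => ?_
      rw [hr, hr, ← mul_inv_cancel_left k g, AlgEquiv.mul_apply, mem_Fx.1 x.2 _ h5]
  have e : ∑ σ ∈ S, σ y' / y * (σ : Fx N →+* E) z = (∑ σ ∈ S, σ (y' * z)) / y := by
    rw [Finset.sum_div]
    exact Finset.sum_congr rfl fun σ _ => by rw [map_mul, div_mul_eq_mul_div]; rfl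
  rw [e, map_div₀, div_eq_one_iff_eq ((map_ne_zero _).2 hy)] at hz
  refine ⟨⟨∑ σ ∈ S, σ (y' * z), mem_Fx.2 fun g hg => ?_⟩, fun h0 => hy ?_, hz⟩
  · rw [map_sum]
    have hm : ∀ g ∈ U, ∀ σ ∈ S, (g : E →ₐ[F] E).comp σ ∈ S := fun g hg σ hσ => by
      obtain ⟨k, hk, rfl⟩ := (hS σ).1 hσ
      exact (hS _).2 ⟨g * k, U.mul_mem hg hk, rfl⟩
    exact Finset.sum_bij' (fun σ _ => (g : E →ₐ[F] E).comp σ)
      (fun σ _ => ((g⁻¹ : Gal(E/F)) : E →ₐ[F] E).comp σ) (hm g hg) (hm _ (U.inv_mem hg))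
      (fun σ _ => AlgHom.ext fun x => g.symm_apply_apply _)
      (fun σ _ => AlgHom.ext fun x => g.apply_symm_apply _) fun σ _ => rfl
  · rw [show ∑ σ ∈ S, σ (y' * z) = 0 from congrArg Subtype.val h0, map_zero] at hz
    exact (map_eq_zero _).1 hz.symm

theorem dvd_ordP_of_II {P : HeightOneSpectrum (𝓞 (Fx U))} (hP : Lies A (inc U) P) {x : Fx U}
    (hx : x ≠ 0) {y : E} {n : ℕ} (hy : y ^ n = x) (h : ∀ g ∈ U, g ∈ II F A → g y = y) :
    (n : ℤ) ∣ ordP P x := by
  rcases Nat.eq_zero_or_pos n with rfl | hn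
  · have : x = 1 := Subtype.ext (by rw [← hy, pow_zero]; rfl)
    rw [this, ordP_one]
    exact dvd_zero _
  obtain ⟨p, hp, hA, -⟩ := hP.exists_ov
  have hy0 : y ≠ 0 := fun e => hx (Subtype.ext (by rw [← hy, e, zero_pow hn.ne']; rfl))
  obtain ⟨t, ht, e⟩ := val_lemma hp hA hy0 h
  refine ⟨ordP P t, ?_⟩
  rw [← ordP_pow, ← hP.val_eq_iff hx (pow_ne_zero _ ht), map_pow, map_pow]
  change A.valuation (x : E) = A.valuation (t : E) ^ n
  rw [e, ← hy, map_pow]

theorem II_fix_root {M : Type*} [Field M] [NumberField M] {τ : M →+* E}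
    {P : HeightOneSpectrum (𝓞 M)} (hP : Lies A τ P) (hp : p.Prime) (hA : Ov A p) {n : ℕ}
    (hn : ¬p ∣ n) {x : M} {y : E} (hy : y ^ n = τ x) (hd : (n : ℤ) ∣ ordP P x) {g : Gal(E/F)}
    (hg : g ∈ II F A) (hf : ∀ x, g (τ x) = τ x) : g y = y := by
  have := alg_rat F E
  have hn0 : n ≠ 0 := fun e => hn (e ▸ dvd_zero p)
  by_cases hx : x = 0
  · rw [hx, map_zero, pow_eq_zero_iff hn0] at hy
    rw [hy, map_zero]
  obtain ⟨π, hπ, hπ1⟩ := exists_unif P
  obtain ⟨k, hk⟩ := hd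
  have h0 : (π : M) ≠ 0 := by exact_mod_cast hπ
  have h1 : (π : M) ^ k ≠ 0 := zpow_ne_zero _ h0
  have e : (y / τ ((π : M) ^ k)) ^ n = τ (x / ((π : M) ^ k) ^ n) := by
    rw [div_pow, hy, map_div₀, map_pow]
  have h2 : A.valuation (τ (x / ((π : M) ^ k) ^ n)) = 1 := by
    rw [hP.val_eq_one (div_ne_zero hx (pow_ne_zero _ h1)), ordP_div _ hx (pow_ne_zero _ h1),
      ordP_pow, ordP_zpow, hπ1, hk, mul_one, sub_self]
  rw [← e, map_pow, pow_eq_one_iff_left hn0] at h2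
  have h3 := II_root_unit hA hp hn hg h2 (by rw [e, hf])
  rwa [map_div₀, hf, div_left_inj' ((map_ne_zero τ).2 h1)] at h3

theorem sg_II_even (hE : RC E) {M : Type*} [Field M] [NumberField M] {τ : M →+* E}
    {P : HeightOneSpectrum (𝓞 M)} (hP : Lies A τ P) (hp : p.Prime) (h2 : p ≠ 2) (hA : Ov A p)
    {x : M} (hd : Even (ordP P x)) {g : Gal(E/F)} (hg : g ∈ II F A) (hf : ∀ x, g (τ x) = τ x) :
    sg g (τ x) = 0 := by
  exact (sg_eq_zero_iff (rt_sq hE _)).2 (II_fix_root hP hp hA (n := 2)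
    (fun h => h2 ((Nat.prime_dvd_prime_iff_eq hp Nat.prime_two).1 h)) (rt_sq hE _)
    (by exact_mod_cast hd.two_dvd) hg hf)

theorem finite_ram (U : OpenSubgroup Gal(E/F)) :
    {p : ℕ | p.Prime ∧ ∃ A : ValuationSubring E, Ov A p ∧ ∃ g ∈ II F A, g ∉ U}.Finite := by
  have := alg_rat F E
  let b := Module.finBasis F (Fx U)
  have hb : ∀ i, ((b i : Fx U) : E) ≠ 0 := fun i e => b.ne_zero i (Subtype.ext e)
  refine (Set.finite_iUnion fun i => (finite_ov (hb i)).union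
    (((Polynomial.rootSet_finite (minpoly F ((b i : Fx U) : E)) E).subset
      (t := {c | c ∈ (minpoly F ((b i : Fx U) : E)).rootSet E ∧ c - (b i : Fx U) ≠ 0})
      fun c hc => hc.1).biUnion' fun c hc => finite_ov hc.2)).subset ?_
  rintro p ⟨hp, A, hA, g, hg, hU⟩
  by_contra hc
  refine hU (mem_of_fix fun x hx => ?_)
  have key : (g.toLinearMap ∘ₗ (Fx U).val.toLinearMap) = (Fx U).val.toLinearMap :=
    b.ext fun i => by
      by_contra h1
      refine hc (Set.mem_iUnion.2 ⟨i, ?_⟩)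
      by_cases h2 : A.valuation ((b i : Fx U) : E) = 1
      · refine Or.inr (Set.mem_iUnion₂.2 ⟨g (b i : Fx U), ⟨?_, sub_ne_zero.2 h1⟩, hp, A, hA,
          fun h3 => (uq_val_one.1 h3).2 (hg.2 _ (uq_val_one.1 h2).1)⟩)
        rw [Polynomial.mem_rootSet]
        refine ⟨minpoly.ne_zero (Algebra.IsIntegral.isIntegral _), ?_⟩
        rw [Polynomial.aeval_algHom_apply, minpoly.aeval, map_zero]
      · exact Or.inl ⟨hp, A, hA, h2⟩
  exact LinearMap.congr_fun key ⟨x, hx⟩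

/-- if the inertia group of `A` in `U` lies in `N` then a uniformiser of the small field stays one -/
theorem ordP_eq_of_unram {N : OpenSubgroup Gal(E/F)} (hI : ∀ g ∈ U, g ∈ II F A → g ∈ N)
    {P : HeightOneSpectrum (𝓞 (Fx U))} {P' : HeightOneSpectrum (𝓞 (Fx N))} (h : Lies A (inc U) P)
    (h' : Lies A (inc N) P') {x : Fx U} {x' : Fx N} (hle : N ≤ U) (e : (x' : E) = x) :
    ordP P' x' = ordP P x := by
  have hle' : Fx U ≤ Fx N := fun z hz => mem_Fx.2 fun g hg => mem_Fx.1 hz g (hle hg)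
  let ι : Fx U →+* Fx N := (IntermediateField.inclusion hle').toRingHom
  have hι : ∀ z, inc N (ι z) = inc U z := fun _ => rfl
  obtain rfl : x' = ι x := Subtype.ext e
  obtain ⟨p, hp, hA, -⟩ := h.exists_ov
  obtain ⟨π, hπ, hπ1⟩ := exists_unif P
  obtain ⟨π', hπ', hπ1'⟩ := exists_unif P'
  have h0 : (π : Fx U) ≠ 0 := by exact_mod_cast hπ
  have h0' : (π' : Fx N) ≠ 0 := by exact_mod_cast hπ'
  have key : ∀ z : Fx U, z ≠ 0 → ordP P' (ι z) = ordP P z * ordP P' (ι π) := fun z hz => by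
    rw [← ordP_zpow, ← map_zpow₀, ← h'.val_eq_iff ((map_ne_zero ι).2 hz)
      ((map_ne_zero ι).2 (zpow_ne_zero _ h0)), hι, hι, h.val_eq_iff hz (zpow_ne_zero _ h0),
      ordP_zpow, hπ1, mul_one]
  obtain ⟨t, ht, e1⟩ := val_lemma (U := U) hp hA (y := ((π' : Fx N) : E))
    (fun e => h0' (Subtype.ext e)) fun g hg hg' => mem_Fx.1 (π' : Fx N).2 g (hI g hg hg')
  have h1 : ordP P' (ι t) = ordP P' (π' : Fx N) :=
    (h'.val_eq_iff ((map_ne_zero ι).2 ht) h0').1 e1
  have h2 : 0 < ordP P' (ι π) := by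
    rw [← h'.nonunits_iff ((map_ne_zero ι).2 h0), hι, h.nonunits_iff h0, hπ1]
    exact one_pos
  rw [key t ht, hπ1'] at h1
  by_cases hx : x = 0
  · rw [hx, map_zero, ordP_zero, ordP_zero]
  · rw [key x hx, Int.eq_one_of_mul_eq_one_left h2.le h1, mul_one]

/-- an inertia element of `ℚ` that moves the square root of `p` -/
theorem exists_II_sqrt {A : ValuationSubring Qb} (hp : p.Prime) (hA : Ov A p) {n : ℕ} (hn : 1 < n)
    {y : Qb} (hy : y ^ n = p) : ∃ g ∈ II ℚ A, g y ≠ y := by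
  by_contra! hc
  obtain ⟨P, hP⟩ := exists_lies hA hp (inc (⊤ : OpenSubgroup G1))
  have h0 : (p : Fx (⊤ : OpenSubgroup G1)) ≠ 0 := Nat.cast_ne_zero.2 hp.ne_zero
  have h1 := dvd_ordP_of_II hP h0 (y := y) (n := n) (by rw [hy]; rfl) fun g _ hg => hc g hg
  have h2 := ordP_natCast_le hp P
  have h3 : Module.finrank ℚ (Fx (⊤ : OpenSubgroup G1)) = 1 :=
    IntermediateField.finrank_eq_one_iff.2 InfiniteGalois.fixedField_bot
  have h4 : 0 < ordP P (p : Fx (⊤ : OpenSubgroup G1)) :=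
    (hP.nonunits_iff h0).1 (by rw [map_natCast]; exact hA)
  rw [h3] at h2
  have := Int.le_of_dvd h4 h1
  omega

end Vale.Agent.P024
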