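import Vale.Agent.P024.PrA
import Vale.Agent.P024.Mink

/-! # P024 Selm
Finiteness of Selmer groups, and index lemmas for valuations. -/

namespace Vale.Agent.P024

open NumberField IsDedekindDomain Filter
open scoped Pointwise Topology nonZeroDivisors

set_option linter.unusedSectionVars false

variable {M : Type*} [Field M] [NumberField M]

theorem selm_mult (R : HeightOneSpectrum (𝓞 M)) {a : 𝓞 M} (ha : a ≠ 0) :
    ordP R (a : M) = multiplicity R.asIdeal (Ideal.span {a}) := by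
  rw [ordP, show R.valuation M (a : M) = R.intValuation a from R.valuation_of_algebraMap a,
    R.intValuation_eq_exp_neg_multiplicity ha, WithZero.log_exp, neg_neg]

/-- the ideal class of a prime -/
noncomputable def selmCl (P : HeightOneSpectrum (𝓞 M)) : ClassGroup (𝓞 M) :=
  ClassGroup.mk0 ⟨P.asIdeal, mem_nonZeroDivisors_of_ne_zero P.ne_bot⟩

open Classical in
theorem selm_same {P Q : HeightOneSpectrum (𝓞 M)} (h : selmCl P = selmCl Q) :
    ∃ x : Mˣ, ∀ R, ordP R (x : M) = (if R = P then 1 else 0) - if R = Q then 1 else 0 := by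
  obtain ⟨a, b, ha, hb, e⟩ := ClassGroup.mk0_eq_mk0_iff.1 h
  have key : ∀ (R P : HeightOneSpectrum (𝓞 M)) {a : 𝓞 M}, a ≠ 0 →
      (multiplicity R.asIdeal (Ideal.span {a} * P.asIdeal) : ℤ) =
        ordP R (a : M) + if R = P then 1 else 0 := fun R P a ha => by
    rw [multiplicity_mul R.prime (FiniteMultiplicity.of_prime_left R.prime
      (mul_ne_zero (mt Ideal.span_singleton_eq_bot.1 ha) P.ne_bot)), selm_mult R ha, Nat.cast_add]
    congr 1
    split_ifs with h
    · rw [h, multiplicity_self, Nat.cast_one]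
    · rw [multiplicity_eq_zero.2 fun hd => h (HeightOneSpectrum.ext
        (P.isMaximal.eq_of_le R.isPrime.ne_top (Ideal.le_of_dvd hd)).symm), Nat.cast_zero]
  have ha' : (a : M) ≠ 0 := RingOfIntegers.coe_ne_zero_iff.2 ha
  have hb' : (b : M) ≠ 0 := RingOfIntegers.coe_ne_zero_iff.2 hb
  refine ⟨Units.mk0 _ (div_ne_zero hb' ha'), fun R => ?_⟩
  have h1 := key R P ha
  rw [show Ideal.span {a} * P.asIdeal = Ideal.span {b} * Q.asIdeal from e, key R Q hb] at h1
  rw [Units.val_mk0, ordP_div R hb' ha']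
  linarith

/-- the `S`-units -/
def selmU (S : Set (HeightOneSpectrum (𝓞 M))) : Subgroup Mˣ where
  carrier := {x | ∀ P ∉ S, ordP P (x : M) = 0}
  one_mem' := fun P _ => ordP_one P
  mul_mem' := fun {a b} ha hb P hP => by
    rw [Units.val_mul, ordP_mul P a.ne_zero b.ne_zero, ha P hP, hb P hP, add_zero]
  inv_mem' := fun {a} ha P hP => by rw [Units.val_inv_eq_inv_val, ordP_inv, ha P hP, neg_zero]

theorem selm_fg {S : Set (HeightOneSpectrum (𝓞 M))} (hS : S.Finite) : (selmU S).FG := by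
  classical
  have := hS.to_subtype
  let L : Additive Mˣ →+ (S → ℤ) := AddMonoidHom.mk' (fun x P => ordP P.1 (x.toMul : M))
    fun x y => funext fun P => ordP_mul P.1 x.toMul.ne_zero y.toMul.ne_zero
  rw [Subgroup.fg_iff_add_fg, ← AddSubgroup.toIntSubmodule_toAddSubgroup (selmU S).toAddSubgroup,
    ← Submodule.fg_iff_addSubgroup_fg]
  refine Submodule.fg_of_fg_map_of_fg_inf_ker L.toIntLinearMap (IsNoetherian.noetherian _) ?_
  have h := (Subgroup.fg_iff_add_fg _).1 (uu_fg (M := M))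
  rw [← AddSubgroup.toIntSubmodule_toAddSubgroup (UU M).toAddSubgroup,
    ← Submodule.fg_iff_addSubgroup_fg] at h
  refine (congrArg Submodule.FG (Submodule.ext fun x => ⟨?_, ?_⟩)).mp h
  · intro hx
    have h3 : ∀ P, ordP P (x.toMul : M) = 0 := fun P => by
      have h4 : 0 ≤ ordP P (x.toMul : M) := ordP_nonneg P ⟨_, hx.1⟩
      have h5 : 0 ≤ ordP P ((x.toMul⁻¹ : Mˣ) : M) := ordP_nonneg P ⟨_, hx.2⟩
      rw [Units.val_inv_eq_inv_val, ordP_inv] at h5
      omega
    exact ⟨fun P _ => h3 P, funext fun P => h3 P.1⟩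
  · rintro ⟨h1, h2⟩
    have h3 : ∀ P, ordP P (x.toMul : M) = 0 := fun P =>
      if hP : P ∈ S then congrFun h2 ⟨P, hP⟩ else h1 P hP
    exact ⟨isIntegral_of_ordP fun P => (h3 P).ge, isIntegral_of_ordP fun P => by
      rw [Units.val_inv_eq_inv_val, ordP_inv, h3 P, neg_zero]⟩

theorem selmer (m : ℕ) (hm : 0 < m) (S : Set (HeightOneSpectrum (𝓞 M))) (hS : S.Finite) :
    ∃ T : Finset Mˣ, ∀ x : Mˣ, (∀ P ∉ S, (m : ℤ) ∣ ordP P (x : M)) → ∃ t ∈ T, ∃ y : Mˣ, x = t * y ^ m := by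
  classical
  choose r hr using fun c : Set.range (selmCl (M := M)) => c.2
  choose z hz using fun P : HeightOneSpectrum (𝓞 M) => selm_same (hr ⟨_, P, rfl⟩).symm
  have hS' : (S ∪ Set.range r).Finite := hS.union (Set.finite_range r)
  have : Group.FG (selmU (S ∪ Set.range r)) := (Group.fg_iff_subgroup_fg _).2 (selm_fg hS')
  have := Subgroup.finiteIndex_range_powMonoidHom_of_fg (selmU (S ∪ Set.range r)) hm.ne'
  refine ⟨(Set.finite_range fun q : selmU (S ∪ Set.range r) ⧸ (powMonoidHom m).range =>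
    (q.out : Mˣ)).toFinset, fun x hx => ?_⟩
  set y : Mˣ := ∏ P ∈ (ordP_finite (x : M)).toFinset, z P ^ (ordP P (x : M) / m) with hy
  have hu : x / y ^ m ∈ selmU (S ∪ Set.range r) := fun R hR => by
    have h1 : ordP R (y : M) = ordP R (x : M) / m := by
      rw [hy, Units.coe_prod, ordP_prod R _ fun P _ => Units.ne_zero _]
      simp only [Units.val_zpow_eq_zpow_val, ordP_zpow, hz,
        if_neg fun h : R = r _ => hR (Or.inr ⟨_, h.symm⟩), sub_zero, mul_ite, mul_one, mul_zero,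
        Finset.sum_ite_eq, Set.Finite.mem_toFinset, Set.mem_ofPred_eq]
      split_ifs with h
      · rfl
      · rw [not_not.1 h, Int.zero_ediv]
    rw [Units.val_div_eq_div_val, ordP_div R x.ne_zero (Units.ne_zero _),
      Units.val_pow_eq_pow_val, ordP_pow, h1, Int.mul_ediv_cancel' (hx R fun h => hR (Or.inl h)),
      sub_self]
  obtain ⟨⟨_, w, rfl⟩, hw⟩ := QuotientGroup.mk_out_eq_mul (powMonoidHom m).range
    (⟨_, hu⟩ : selmU (S ∪ Set.range r))
  refine ⟨_, (Set.Finite.mem_toFinset _).2 ⟨QuotientGroup.mk ⟨_, hu⟩, rfl⟩, y / w, ?_⟩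
  simp only [hw]
  simp [div_pow]

/-- parities of sums of valuations -/
noncomputable def selmH {ι : Type} (T : ι → Finset (HeightOneSpectrum (𝓞 M))) :
    Mˣ →* Multiplicative (ι → ZMod 2) :=
  MonoidHom.mk' (fun x => Multiplicative.ofAdd fun i => ((∑ P ∈ T i, ordP P (x : M) : ℤ) : ZMod 2))
    fun x y => by
      rw [← ofAdd_add]
      congr 1
      funext i
      simp only [Units.val_mul, ordP_mul _ x.ne_zero y.ne_zero, Finset.sum_add_distrib,
        Int.cast_add, Pi.add_apply]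

theorem selm_ker {ι : Type} (T : ι → Finset (HeightOneSpectrum (𝓞 M))) (x : Mˣ) :
    x ∈ (selmH T).ker ↔ ∀ i, Even (∑ P ∈ T i, ordP P (x : M)) := by
  simp only [← ZMod.intCast_eq_zero_iff_even]
  exact funext_iff

theorem idx_finite (Y : Subgroup Mˣ) [Y.FiniteIndex] :
    {p : ℕ | p.Prime ∧ ∃ T : Finset (HeightOneSpectrum (𝓞 M)), T.Nonempty ∧
      (∀ P ∈ T, (p : 𝓞 M) ∈ P.asIdeal) ∧ ∀ y ∈ Y, Even (∑ P ∈ T, ordP P (y : M))}.Finite := by
  classical
  by_contra h
  obtain ⟨s, hs, hc⟩ := Set.Infinite.exists_subset_card_eq h Y.index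
  choose T hT h1 h2 using fun p : s => (hs p.2).2
  choose Q hQ using hT
  have hsurj : Function.Surjective (selmH T) := fun b => by
    obtain ⟨x, hx0, hx⟩ := exists_ordP (Finset.univ.biUnion T)
      fun P => ∑ p : s, if P = Q p then ((b.toAdd p).val : ℤ) else 0
    refine ⟨Units.mk0 x hx0, Multiplicative.toAdd.injective (funext fun p => ?_)⟩
    show ((∑ P ∈ T p, ordP P x : ℤ) : ZMod 2) = b.toAdd p
    rw [Finset.sum_congr rfl fun P hP => hx P (Finset.mem_biUnion.2 ⟨p, Finset.mem_univ _, hP⟩),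
      Finset.sum_comm, Finset.sum_eq_single p, Finset.sum_ite_eq', if_pos (hQ p), Int.cast_natCast,
      ZMod.natCast_zmod_val]
    · intro q _ hq
      rw [Finset.sum_ite_eq', if_neg fun h => hq (Subtype.ext
        (prime_mem_unique (hs q.2).1 (hs p.2).1 (h1 q _ (hQ q)) (h1 p _ h)))]
    · exact fun h => absurd (Finset.mem_univ p) h
  have h3 := Subgroup.index_antitone
    (show Y ≤ (selmH T).ker from fun y hy => (selm_ker T y).2 fun p => h2 p y hy)
  rw [Subgroup.index_ker, MonoidHom.range_eq_top.2 hsurj, Subgroup.card_top,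
    Nat.card_congr Multiplicative.toAdd, Nat.card_fun, Nat.card_zmod, Nat.card_eq_fintype_card,
    Fintype.card_coe, hc] at h3
  exact absurd Nat.lt_two_pow_self (not_lt.2 h3)

theorem finiteIndex_even (S : Set (HeightOneSpectrum (𝓞 M))) (hS : S.Finite) :
    ∃ Y : Subgroup Mˣ, Y.FiniteIndex ∧ ∀ y ∈ Y, ∀ P ∈ S, Even (ordP P (y : M)) := by
  obtain ⟨n, f, hf⟩ := hS.fin_embedding
  refine ⟨(selmH fun i => {f i}).ker, inferInstance, fun y hy P hP => ?_⟩
  obtain ⟨i, rfl⟩ := hf.ge hP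
  simpa only [Finset.sum_singleton] using (selm_ker _ y).1 hy i

theorem finiteIndex_res (P : HeightOneSpectrum (𝓞 M)) :
    ∃ Y : Subgroup Mˣ, Y.FiniteIndex ∧ ∀ y ∈ Y, ∃ z u : M, z ≠ 0 ∧ (y : M) = z ^ 2 * u ∧
      (u = 1 ∨ 0 < ordP P (u - 1)) := by
  obtain ⟨A, hA⟩ := exists_val (RingHom.id M) P
  obtain ⟨π, h0, hπ⟩ := exists_unif P
  obtain ⟨ϖ, hϖ⟩ : ∃ ϖ : Mˣ, ordP P (ϖ : M) = 1 :=
    ⟨Units.mk0 _ (RingOfIntegers.coe_ne_zero_iff.2 h0), hπ⟩
  have hu : ∀ x : Mˣ, ordP P ((x / ϖ ^ ordP P (x : M) : Mˣ) : M) = 0 := fun x => by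
    rw [Units.val_div_eq_div_val, ordP_div P x.ne_zero (Units.ne_zero _),
      Units.val_zpow_eq_zpow_val, ordP_zpow, hϖ, mul_one, sub_self]
  choose a ha using fun x : Mˣ => hA.exists_int ((hA.mem_iff _).2 (hu x).ge)
  refine ⟨Subgroup.zpowers (ϖ ^ 2) ⊔ A.principalUnitGroup, ?_, fun y hy => ?_⟩
  · have := P.asIdeal.finiteQuotientOfFreeOfNeBot P.ne_bot
    have : Finite (Mˣ ⧸ (Subgroup.zpowers (ϖ ^ 2) ⊔ A.principalUnitGroup)) := by
      refine Finite.of_injective (fun q => (((ordP P ((q.out : Mˣ) : M) : ℤ) : ZMod 2),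
        Ideal.Quotient.mk P.asIdeal (a q.out))) fun q q' h => ?_
      rw [← q.out_eq', ← q'.out_eq', QuotientGroup.eq]
      obtain ⟨h1, h2⟩ := Prod.mk.inj h
      clear h
      generalize q.out = x, q'.out = x' at h1 h2 ⊢
      obtain ⟨k, hk⟩ := (ZMod.intCast_eq_intCast_iff_dvd_sub _ _ 2).1 h1
      have h3 := sub_mem (add_mem (ha x') (neg_mem ((hA _).1 (Ideal.Quotient.eq.1 h2)))) (ha x)
      refine Subgroup.mem_sup.2 ⟨(ϖ ^ 2) ^ k, Subgroup.zpow_mem_zpowers _ _,
        x' / ϖ ^ ordP P (x' : M) / (x / ϖ ^ ordP P (x : M)), ?_, ?_⟩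
      · have h4 : A.valuation ((x / ϖ ^ ordP P (x : M) : Mˣ) : M) = 1 :=
          (hA.val_eq_one (Units.ne_zero _)).2 (hu x)
        rw [ValuationSubring.mem_principalUnitGroup_iff, Units.val_div_eq_div_val,
          div_sub_one (Units.ne_zero _), map_div₀, h4, div_one,
          ← ValuationSubring.mem_nonunits_iff]
        convert h3 using 1
        simp only [RingHom.id_apply, map_sub]
        ring
      · rw [eq_add_of_sub_eq hk, zpow_add, zpow_mul, zpow_natCast]
        generalize (ϖ ^ 2) ^ k = t, ϖ ^ ordP P (x : M) = t'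
        apply Units.ext
        push_cast
        field_simp
    exact Subgroup.finiteIndex_of_finite_quotient
  · obtain ⟨_, ⟨k, rfl⟩, u, hu, rfl⟩ := Subgroup.mem_sup.1 hy
    refine ⟨(ϖ ^ k : Mˣ), u, Units.ne_zero _, ?_, ?_⟩
    · rw [← Units.val_pow_eq_pow_val, ← Units.val_mul, ← zpow_natCast (ϖ ^ k), ← zpow_mul,
        mul_comm k, zpow_mul, zpow_natCast]
    · exact (eq_or_ne (u : M) 1).imp_right fun h => (hA.nonunits_iff (sub_ne_zero.2 h)).1
        (A.mem_nonunits_iff.2 hu)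

theorem infinite_classes (S : Set (HeightOneSpectrum (𝓞 M))) (hS : S.Infinite) :
    ∃ x : ℕ → Mˣ, (∀ n, ∀ P ∉ S, ordP P (x n : M) = 0) ∧
      ∀ n n', n ≠ n' → ¬IsSquare ((x n : M) * x n') := by
  classical
  have := hS.to_subtype
  obtain ⟨c, hc⟩ := Finite.exists_infinite_fiber fun P : S => selmCl P.1
  let e := Infinite.natEmbedding ((fun P : S => selmCl P.1) ⁻¹' {c})
  have he : ∀ i j, (e i).1.1 = (e j).1.1 ↔ i = j := fun i j =>
    ⟨fun h => e.injective (Subtype.ext (Subtype.ext h)), fun h => by rw [h]⟩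
  choose x hx using fun n => selm_same ((e (n + 1)).2.trans (e 0).2.symm)
  refine ⟨x, fun n P hP => ?_, fun n n' hn ⟨y, hy⟩ => ?_⟩
  · have : ∀ i, P ≠ (e i).1.1 := fun i h => hP (h ▸ (e i).1.2)
    rw [hx, if_neg (this _), if_neg (this _), sub_zero]
  · have h0 : y ≠ 0 := fun h => mul_ne_zero (x n).ne_zero (x n').ne_zero (by rw [hy, h, mul_zero])
    have h1 := congrArg (ordP (e (n + 1)).1.1) hy
    rw [ordP_mul _ (x n).ne_zero (x n').ne_zero, ordP_mul _ h0 h0, hx, hx] at h1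
    simp only [he, Nat.succ_ne_zero, Nat.add_right_cancel_iff, hn, if_true, if_false] at h1
    omega

end Vale.Agent.P024
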