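import Vale.Agent.P024.KumH
import Vale.Agent.P024.Selm
import Vale.Agent.P024.PrC

/-! # P024 FinC (TASK; helper lemma names start with `finC_` or are private)
Only finitely many characters of given order are unramified outside `l`.  PLAN.  `z` a primitive `m`-th root of unity, `U' = U ⊓ stab z`, `M = Fx U'`.  `kummer` gives `y`, `x = y^m ∈ M`; for `P` not above `l` take `A` over `P` (`exists_val`), `dvd_ordP_of_II` gives `m ∣ ordP P x`.
`selmer`: `x = t w^m`, so `y / w` is an `m`-th root of `t`, one of finitely many elements of `E`, and `c` on `U'` is determined by `y / w` (`pow_val_inj`).  Finally `c` on `U` is determined by `c` on `U'` and its values on a finite set of coset representatives.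
Formulate: the map `c ↦ (y / w, values on representatives)` into a finite set is injective on classes modulo equality on `U`; choose one `c` in each fibre. -/

namespace Vale.Agent.P024

open NumberField IsDedekindDomain Filter
open scoped Pointwise Topology

set_option linter.unusedSectionVars false

variable {F E : Type*} [Field F] [NumberField F] [Field E] [CharZero E] [Algebra F E] [IsGalois F E]

theorem finC_gen {X Y : Type*} [Nonempty X] {P : X → Prop} {R : X → X → Prop} {rel : X → Y → Prop}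
    {K : Set Y} (hK : K.Finite) (h1 : ∀ c, P c → ∃ y ∈ K, rel c y)
    (h2 : ∀ c c' y, P c → P c' → rel c y → rel c' y → R c c') :
    ∃ T : Finset X, ∀ c, P c → ∃ t ∈ T, R c t := by
  classical
  have h3 : ∀ y : Y, ∃ t : X, (∃ c, P c ∧ rel c y) → P t ∧ rel t y := by
    intro y
    by_cases h : ∃ c, P c ∧ rel c y
    · obtain ⟨c, hc⟩ := h
      exact ⟨c, fun _ => hc⟩
    · exact ⟨Classical.arbitrary X, fun h' => absurd h' h⟩
  choose f hf using h3
  refine ⟨hK.toFinset.image f, fun c hc => ?_⟩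
  obtain ⟨y, hy, hr⟩ := h1 c hc
  obtain ⟨ha, hb⟩ := hf y ⟨c, hc, hr⟩
  exact ⟨f y, Finset.mem_image_of_mem f (hK.mem_toFinset.2 hy), h2 c (f y) y hc ha hr hb⟩

theorem finC_roots (U : OpenSubgroup Gal(E/F)) (m : ℕ) [NeZero m] {l : ℕ} (hl : l.Prime) {z : E}
    (hz : IsPrimitiveRoot z m) (hU : ∀ g ∈ U, g z = z) :
    ∃ K : Set E, K.Finite ∧ ∀ c : Gal(E/F) → ZMod m, IsCh U c → Unr l U c →
      ∃ u ∈ K, u ≠ 0 ∧ ∀ g ∈ U, g u = z ^ (c g).val * u := by
  classical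
  have hm : 0 < m := Nat.pos_of_ne_zero (NeZero.ne m)
  obtain ⟨T, hT⟩ := selmer (M := Fx U) m hm _ (finite_over (M := Fx U) hl.ne_zero)
  refine ⟨⋃ t ∈ T, {u : E | u ^ m = (((t : (Fx U)ˣ) : Fx U) : E)}, ?_, fun c hc hun => ?_⟩
  · refine Set.Finite.biUnion T.finite_toSet fun t _ => ?_
    refine (Polynomial.nthRoots m (((t : (Fx U)ˣ) : Fx U) : E)).toFinset.finite_toSet.subset ?_
    intro u hu
    simpa [Polynomial.mem_nthRoots hm] using hu
  obtain ⟨y, hy0, hy⟩ := kummer hz hU hc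
  have hx : y ^ m ∈ Fx U := by
    refine mem_Fx.2 fun g hg => ?_
    rw [map_pow, hy g hg, mul_pow, ← pow_mul, mul_comm _ m, pow_mul, hz.pow_eq_one, one_pow,
      one_mul]
  have hx0 : (⟨y ^ m, hx⟩ : Fx U) ≠ 0 := by
    intro h
    exact pow_ne_zero m hy0 (congrArg Subtype.val h)
  obtain ⟨t, ht, w, hw⟩ := hT (Units.mk0 _ hx0) (by
    intro P hP
    obtain ⟨A, hA⟩ := exists_val (inc U) P
    obtain ⟨p, hp, hov, hpP⟩ := hA.exists_ov
    have hpl : p ≠ l := by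
      rintro rfl
      exact hP hpP
    refine dvd_ordP_of_II hA hx0 (y := y) rfl fun g hg hI => ?_
    rw [hy g hg, hun A p hp hpl hov g hg hI]
    simp)
  have hw0 : (((w : (Fx U)ˣ) : Fx U) : E) ≠ 0 := by
    intro h
    exact w.ne_zero (Subtype.ext h)
  have e : y ^ m = (((t : (Fx U)ˣ) : Fx U) : E) * (((w : (Fx U)ˣ) : Fx U) : E) ^ m := by
    have := congrArg (fun a : (Fx U)ˣ => ((a : Fx U) : E)) hw
    simpa using this
  refine ⟨y / (((w : (Fx U)ˣ) : Fx U) : E), ?_, div_ne_zero hy0 hw0, fun g hg => ?_⟩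
  · simp only [Set.mem_iUnion, Set.mem_ofPred_eq]
    refine ⟨t, ht, ?_⟩
    rw [div_pow, e, mul_div_cancel_right₀ _ (pow_ne_zero m hw0)]
  · rw [map_div₀, hy g hg, mem_Fx.1 (w : Fx U).2 g hg, mul_div_assoc]

theorem fin_ch (hE : RC E) (U : OpenSubgroup Gal(E/F)) (m : ℕ) [NeZero m] {l : ℕ} (hl : l.Prime) :
    ∃ T : Finset (Gal(E/F) → ZMod m), ∀ c, IsCh U c → Unr l U c → ∃ t ∈ T, ∀ g ∈ U, c g = t g := by
  classical
  have hm : 0 < m := Nat.pos_of_ne_zero (NeZero.ne m)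
  obtain ⟨z, hz⟩ := hE.prim m hm
  set U' : OpenSubgroup Gal(E/F) := U ⊓ stab z with hU'
  have hle : U' ≤ U := inf_le_left
  have hfix : ∀ g ∈ U', g z = z := fun g hg => mem_stab.1 (OpenSubgroup.mem_inf.1 hg).2
  obtain ⟨K, hK, hKs⟩ := finC_roots U' m hl hz hfix
  have hr : ∀ q : Gal(E/F) ⧸ U'.toSubgroup, ∃ r : Gal(E/F),
      (∃ g ∈ U, (g : Gal(E/F) ⧸ U'.toSubgroup) = q) → r ∈ U ∧ (r : Gal(E/F) ⧸ U'.toSubgroup) = q := by
    intro q
    by_cases h : ∃ g ∈ U, (g : Gal(E/F) ⧸ U'.toSubgroup) = q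
    · obtain ⟨g, hg⟩ := h
      exact ⟨g, fun _ => hg⟩
    · exact ⟨1, fun h' => absurd h' h⟩
  choose r hr using hr
  have hfin : Finite (Gal(E/F) ⧸ U'.toSubgroup) := inferInstance
  have key := finC_gen (X := Gal(E/F) → ZMod m) (Y := E × (Gal(E/F) ⧸ U'.toSubgroup → ZMod m))
    (P := fun c => IsCh U c ∧ Unr l U c) (R := fun c t => ∀ g ∈ U, c g = t g)
    (rel := fun c y => y.1 ≠ 0 ∧ (∀ g ∈ U', g y.1 = z ^ (c g).val * y.1) ∧ ∀ q, y.2 q = c (r q))
    (K := K ×ˢ Set.univ) (hK.prod Set.finite_univ) ?_ ?_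
  · obtain ⟨T, hT⟩ := key
    exact ⟨T, fun c hc hu => hT c ⟨hc, hu⟩⟩
  · rintro c ⟨hc, hu⟩
    obtain ⟨u, huK, hu0, hus⟩ := hKs c (hc.mono hle)
      (fun A p hp hpl hov g hg hI => hu A p hp hpl hov g (hle hg) hI)
    exact ⟨(u, fun q => c (r q)), ⟨huK, Set.mem_univ _⟩, hu0, hus, fun _ => rfl⟩
  · rintro c c' ⟨u, v⟩ ⟨hc, -⟩ ⟨hc', -⟩ ⟨hu0, h1, h2⟩ ⟨-, h1', h2'⟩ g hg
    obtain ⟨hrU, hrq⟩ := hr (g : Gal(E/F) ⧸ U'.toSubgroup) ⟨g, hg, rfl⟩
    have hmem : (r g)⁻¹ * g ∈ U' := QuotientGroup.eq.1 hrq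
    have e1 : c ((r g)⁻¹ * g) = c' ((r g)⁻¹ * g) := by
      refine pow_val_inj hz (mul_right_cancel₀ hu0 ?_)
      exact (h1 _ hmem).symm.trans (h1' _ hmem)
    have e2 : c (r g) = c' (r g) := (h2 _).symm.trans (h2' _)
    have e3 : g = r g * ((r g)⁻¹ * g) := by group
    have e4 := hc.add _ hrU _ (hle hmem)
    have e5 := hc'.add _ hrU _ (hle hmem)
    rw [← e3] at e4 e5
    rw [e4, e5, e1, e2]

end Vale.Agent.P024
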