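import Vale.Agent.P024.Defs

/-! # P024 Grp (TASK; helper lemma names start with `grp_` or are private)
Small lemmas on groups.  PLAN.
`cyc_two`: if `zpowers g ≠ ⊤` it lies in a subgroup of index two (`Sylow.exists_subgroup_card_pow_prime_le`).
`eig_triv`, `eig_neg`: indices.  `H0 = H1 ⊓ Hc`; if `A ⊓ B = H0` with `A`, `B` of index `q` and `H0` of index `q²` then `A ⊔ B = ⊤` and `H0.relIndex A = q`.  `eig_triv`: `y - ι y ∈ H2 ⊓ Hc = H0` for `y ∈ H2`, and `⊤ = H2 ⊔ H1`.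
`eig_neg`: `y ↦ y - δ y` induces an injective map `H2 ⧸ H0 → Hc ⧸ H0` between sets of the same finite size, so each `z ∈ Hc` is `y - δ y` modulo `H0`; `δ z + z ≡ y - δ δ y ∈ H2 ⊓ Hc`; `⊤ = Hc ⊔ H1`.
`joint_surj`: the image is a subgroup of `ι → ZMod m` stable under scalars and under the diagonal operators `z ↦ (ξ i g * z i)`; kill the other coordinates one at a time (`Finset.induction`).
`exists_pairs`: greedy choice by induction on `r`. -/

namespace Vale.Agent.P024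

open NumberField IsDedekindDomain Filter
open scoped Pointwise Topology

theorem cyc_two {Q : Type*} [Group Q] [Finite Q] (h2 : IsPGroup 2 Q) (Q0 : Subgroup Q)
    (hi : Q0.index ≤ 2) (h : ∀ M : Subgroup Q, M.index = 2 → Q0 ≤ M) : IsCyclic Q := by
  obtain ⟨g, hg⟩ : ∃ g, g ∈ Q0 → Q0 = ⊤ := by
    by_cases h0 : Q0 = ⊤
    · exact ⟨1, fun _ => h0⟩
    · obtain ⟨g, -, hg⟩ := SetLike.exists_of_lt (lt_top_iff_ne_top.2 h0)
      exact ⟨g, fun h => absurd h hg⟩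
  rw [isCyclic_iff_exists_zpowers_eq_top]
  refine ⟨g, by_contra fun hne => ?_⟩
  obtain ⟨n, hn⟩ := IsPGroup.iff_card.1 h2
  obtain ⟨k, hk⟩ := IsPGroup.iff_card.1 (h2.to_subgroup (Subgroup.zpowers g))
  have hkn : k < n := by
    have h1 : Nat.card (Subgroup.zpowers g) ≤ Nat.card Q := Subgroup.card_le_card_group _
    have h3 : Nat.card (Subgroup.zpowers g) ≠ Nat.card Q := fun e =>
      hne (Subgroup.eq_top_of_card_eq _ e)
    rw [hk, hn] at h1 h3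
    exact (Nat.pow_lt_pow_iff_right one_lt_two).1 (lt_of_le_of_ne h1 h3)
  obtain ⟨n, rfl⟩ : ∃ m, n = m + 1 := ⟨n - 1, by omega⟩
  obtain ⟨M, hM, hle⟩ := Sylow.exists_subgroup_card_pow_prime_le 2 (m := n)
    (hn ▸ pow_dvd_pow 2 n.le_succ) _ hk (by omega)
  have hM2 : M.index = 2 := by
    have := M.card_mul_index
    rw [hM, hn, pow_succ] at this
    exact Nat.eq_of_mul_eq_mul_left (by positivity) this
  have h3 := Subgroup.relIndex_mul_index (h M hM2)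
  have h4 : Q0.index ≠ 0 := Subgroup.index_ne_zero_of_finite
  have h5 : Q0.relIndex M = 1 := by
    rw [hM2] at h3
    omega
  have h6 := hg (Subgroup.relIndex_eq_one.1 h5 (hle (Subgroup.mem_zpowers g)))
  rw [h5, hM2, h6, Subgroup.index_top] at h3
  omega

theorem grp_rel {X : Type*} [AddCommGroup X] {H K : AddSubgroup X} {q : ℕ} (hq : q ≠ 0)
    (hle : H ≤ K) (i0 : H.index = q ^ 2) (i1 : K.index = q) : H.relIndex K = q := by
  have := AddSubgroup.relIndex_mul_index hle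
  rw [i0, i1, sq] at this
  exact Nat.eq_of_mul_eq_mul_right (Nat.pos_of_ne_zero hq) this

theorem grp_sup {X : Type*} [AddCommGroup X] {H K : AddSubgroup X} {q : ℕ} (hq : q ≠ 0)
    (i1 : H.index = q) (i2 : K.index = q) (i0 : (H ⊓ K).index = q ^ 2) (x : X) :
    ∃ y ∈ K, ∃ z ∈ H, y + z = x := by
  have h1 := grp_rel hq inf_le_right i0 i2
  rw [AddSubgroup.inf_relIndex_right, ← AddSubgroup.relIndex_sup_right] at h1
  have h2 := AddSubgroup.relIndex_mul_index (le_sup_right : H ≤ K ⊔ H)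
  rw [h1, i1] at h2
  have h3 : (K ⊔ H).index = 1 :=
    Nat.eq_of_mul_eq_mul_left (Nat.pos_of_ne_zero hq) (h2.trans (mul_one q).symm)
  exact AddSubgroup.mem_sup.1 (AddSubgroup.index_eq_one.1 h3 ▸ AddSubgroup.mem_top x)

theorem eig_triv {X : Type*} [AddCommGroup X] (ι : X →+ X) {H1 H2 Hc : AddSubgroup X} {q : ℕ}
    (hq : q ≠ 0) (i1 : H1.index = q) (i2 : H2.index = q) (i0 : (H1 ⊓ H2).index = q ^ 2)
    (e : H2 ⊓ Hc ≤ H1) (s1 : ∀ x ∈ H1, ι x ∈ H1) (s2 : ∀ x ∈ H2, ι x ∈ H2)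
    (sc : ∀ x, ι x - x ∈ Hc) (x : X) : ι x - x ∈ H1 := by
  obtain ⟨y, hy, z, hz, rfl⟩ := grp_sup hq i1 i2 i0 x
  rw [map_add, add_sub_add_comm]
  exact add_mem (e ⟨H2.sub_mem (s2 y hy) hy, sc y⟩) (sub_mem (s1 z hz) hz)

theorem eig_neg {X : Type*} [AddCommGroup X] (δ : X →+ X) {H1 H2 H3 Hc : AddSubgroup X} {q : ℕ}
    (hq : q ≠ 0) (i1 : H1.index = q) (i2 : H2.index = q) (ic : Hc.index = q)
    (i0 : (H1 ⊓ Hc).index = q ^ 2) (e2 : H2 ⊓ Hc = H1 ⊓ Hc) (e3 : H2 ⊓ H3 = H1 ⊓ Hc)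
    (s1 : ∀ x ∈ H1, δ x ∈ H1) (s2 : ∀ x ∈ H2, δ x ∈ H3) (s3 : ∀ x ∈ H3, δ x ∈ H2)
    (sc : ∀ x, δ x - x ∈ Hc) (x : X) : δ x + x ∈ H1 := by
  let φ : X →+ X := δ - AddMonoidHom.id X
  have hφ : ∀ y, φ y = δ y - y := fun y => rfl
  have h0 : H1 ⊓ Hc ≤ H2 := e2 ▸ inf_le_left
  have h1 : (H1 ⊓ Hc).comap φ ⊓ H2 = H1 ⊓ Hc := by
    refine le_antisymm (fun y hy => ?_) fun y hy => ⟨⟨H1.sub_mem (s1 y hy.1) hy.1, sc y⟩, h0 hy⟩
    have a1 : δ y - y ∈ H1 ⊓ Hc := hy.1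
    have a2 : δ y ∈ H1 ⊓ Hc := e3 ▸ ⟨by simpa using add_mem (h0 a1) hy.2, s2 y hy.2⟩
    simpa using sub_mem a2 a1
  have h2 : (H1 ⊓ Hc).relIndex (H2.map φ ⊔ H1 ⊓ Hc) = q := by
    rw [AddSubgroup.relIndex_sup_right, ← AddSubgroup.relIndex_comap,
      ← AddSubgroup.inf_relIndex_right, h1]
    exact grp_rel hq h0 i0 i2
  have h3 : H2.map φ ⊔ H1 ⊓ Hc ≤ Hc := sup_le (by
    rintro _ ⟨y, -, rfl⟩
    exact sc y) inf_le_right
  have h4 := AddSubgroup.relIndex_mul_index (le_sup_right : H1 ⊓ Hc ≤ H2.map φ ⊔ H1 ⊓ Hc)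
  rw [h2, i0, sq, ← AddSubgroup.relIndex_mul_index h3, ic] at h4
  have h5 : Hc ≤ H2.map φ ⊔ H1 ⊓ Hc := AddSubgroup.relIndex_eq_one.1
    (Nat.eq_of_mul_eq_mul_right (Nat.pos_of_ne_zero hq)
      ((Nat.eq_of_mul_eq_mul_left (Nat.pos_of_ne_zero hq) h4).trans (one_mul q).symm))
  obtain ⟨y, hy, z, hz, rfl⟩ := grp_sup hq i1 ic i0 x
  obtain ⟨_, ⟨u, hu, rfl⟩, v, hv, rfl⟩ := AddSubgroup.mem_sup.1 (h5 hy)
  have h6 : δ (δ u) - u ∈ H1 ⊓ Hc :=
    e2 ▸ ⟨H2.sub_mem (s3 _ (s2 u hu)) hu, by simpa using add_mem (sc (δ u)) (sc u)⟩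
  have e : δ (φ u + v + z) + (φ u + v + z) = δ (δ u) - u + (δ v + v) + (δ z + z) := by
    simp only [hφ, map_add, map_sub]
    abel
  rw [e]
  exact add_mem (add_mem h6.1 (add_mem (s1 v hv.1) hv.1)) (add_mem (s1 z hz) hz)

theorem joint_surj {G : Type*} [Group G] (U U' : Subgroup G)
    (hn : ∀ g ∈ U', ∀ u ∈ U, g * u * g⁻¹ ∈ U) {ι : Type*} [Finite ι] {m : ℕ} [NeZero m]
    (c ξ : ι → G → ZMod m) (hc : ∀ i, ∀ g ∈ U, ∀ h ∈ U, c i (g * h) = c i g + c i h)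
    (he : ∀ i, ∀ g ∈ U', ∀ u ∈ U, c i (g * u * g⁻¹) = ξ i g * c i u)
    (hs : ∀ i, ∃ u ∈ U, IsUnit (c i u))
    (hd : ∀ i j, i ≠ j → ∃ g ∈ U', IsUnit (ξ i g - ξ j g)) (y : ι → ZMod m) :
    ∃ u ∈ U, ∀ i, c i u = y i := by
  classical
  have := Fintype.ofFinite ι
  let S : AddSubmonoid (ι → ZMod m) :=
    { carrier := {z | ∃ u ∈ U, ∀ i, c i u = z i}
      zero_mem' := ⟨1, U.one_mem, fun i => by
        have := hc i 1 U.one_mem 1 U.one_mem
        rw [mul_one] at this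
        exact left_eq_add.1 this⟩
      add_mem' := by
        rintro a b ⟨u, hu, ha⟩ ⟨v, hv, hb⟩
        exact ⟨u * v, U.mul_mem hu hv, fun i => by rw [hc i u hu v hv, ha, hb, Pi.add_apply]⟩ }
  have hsm : ∀ (t : ZMod m), ∀ z ∈ S, t • z ∈ S := fun t z hz => by
    rw [← ZMod.natCast_zmod_val t, Nat.cast_smul_eq_nsmul]
    exact nsmul_mem hz _
  have key : ∀ i (s : Finset ι), i ∉ s → ∃ z ∈ S, IsUnit (z i) ∧ ∀ j ∈ s, z j = 0 := by
    intro i s
    induction s using Finset.induction_on with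
    | empty =>
      obtain ⟨u, hu, h⟩ := hs i
      exact fun _ => ⟨fun j => c j u, ⟨u, hu, fun _ => rfl⟩, h, by simp⟩
    | insert j s _ ih =>
      intro hi
      rw [Finset.mem_insert, not_or] at hi
      obtain ⟨z, hz, h1, h2⟩ := ih hi.2
      obtain ⟨g, hg, h3⟩ := hd i j hi.1
      have h4 : (fun k => ξ k g * z k) ∈ S := by
        obtain ⟨u, hu, h⟩ := hz
        exact ⟨_, hn g hg u hu, fun k => by rw [he k g hg u hu, h]⟩
      have e : ∀ k, ((fun k => ξ k g * z k) + (-ξ j g) • z) k = (ξ k g - ξ j g) * z k := fun k => by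
        simp only [Pi.add_apply, Pi.smul_apply, smul_eq_mul]
        ring
      refine ⟨_, add_mem h4 (hsm (-ξ j g) z hz), e i ▸ h3.mul h1, fun k hk => ?_⟩
      rw [e]
      rcases Finset.mem_insert.1 hk with rfl | hk
      · rw [sub_self, zero_mul]
      · rw [h2 k hk, mul_zero]
  have h1 : ∀ i, Pi.single i (y i) ∈ S := fun i => by
    obtain ⟨z, hz, ⟨w, hw⟩, h2⟩ := key i (Finset.univ.erase i) (Finset.notMem_erase _ _)
    have e : Pi.single i (y i) = (y i * ↑w⁻¹) • z := by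
      funext k
      by_cases hk : k = i
      · subst hk
        simp [← hw]
      · simp [hk, h2 k (by simp [hk])]
    exact e ▸ hsm _ z hz
  have h2 : y ∈ S := Finset.univ_sum_single y ▸ sum_mem fun i _ => h1 i
  exact h2

theorem exists_pairs (Rel : ℕ → ℕ → Prop) (h1 : {q | ∃ p, Rel p q}.Infinite)
    (h2 : ∀ p, {q | Rel p q}.Finite) (hne : ∀ p q, Rel p q → p ≠ q) (r b : ℕ) :
    ∃ p q : Fin r → ℕ, (∀ i, Rel (p i) (q i)) ∧ Function.Injective p ∧ Function.Injective q ∧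
      (∀ i j, p i ≠ q j) ∧ ∀ i, b < q i := by
  induction r with
  | zero => exact ⟨Fin.elim0, Fin.elim0, fun i => i.elim0, fun i => i.elim0, fun i => i.elim0,
      fun i => i.elim0, fun i => i.elim0⟩
  | succ r ih =>
    obtain ⟨p, q, a1, a2, a3, a4, a5⟩ := ih
    have hf : (Set.range p ∪ Set.range q).Finite := (Set.finite_range p).union (Set.finite_range q)
    obtain ⟨q', ⟨p', hr⟩, hq'⟩ :=
      (h1.sdiff ((hf.union (Set.finite_Iic b)).union (hf.biUnion fun x _ => h2 x))).nonempty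
    have hp' : p' ∉ Set.range p ∪ Set.range q := fun h => hq' (Or.inr (Set.mem_biUnion h hr))
    refine ⟨Fin.cons p' p, Fin.cons q' q, Fin.forall_fin_succ.2 ⟨hr, a1⟩,
      Fin.cons_injective_iff.2 ⟨fun h => hp' (Or.inl h), a2⟩,
      Fin.cons_injective_iff.2 ⟨fun h => hq' (Or.inl (Or.inl (Or.inr h))), a3⟩,
      Fin.forall_fin_succ.2 ⟨Fin.forall_fin_succ.2 ⟨hne _ _ hr, fun j h => hp' (Or.inr ⟨j, h.symm⟩)⟩,
        fun i => Fin.forall_fin_succ.2 ⟨fun h => hq' (Or.inl (Or.inl (Or.inl ⟨i, h⟩))), a4 i⟩⟩,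
      Fin.forall_fin_succ.2 ⟨not_le.1 fun h => hq' (Or.inl (Or.inr h)), a5⟩⟩

/-- at least half of the tuples have all components nonzero -/
theorem prod_le_two_mul {r : ℕ} (q : Fin r → ℕ) (hq : ∀ i, 2 * r ≤ q i) :
    ∏ i, q i ≤ 2 * ∏ i, (q i - 1) := by
  rcases Nat.eq_zero_or_pos r with rfl | hr
  · simp
  have hr' : (1 : ℝ) ≤ r := by exact_mod_cast hr
  have h0 : 1 / (2 * r : ℝ) ≤ 1 := div_le_one_of_le₀ (by linarith) (by linarith)
  have h1 : ∏ i, ((q i : ℝ) * (1 + -(1 / (2 * r)))) ≤ ∏ i, ((q i - 1 : ℕ) : ℝ) := by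
    refine Finset.prod_le_prod (fun i _ => mul_nonneg (Nat.cast_nonneg _) (by linarith))
      fun i _ => ?_
    have h2 : (2 * r : ℝ) ≤ q i := by exact_mod_cast hq i
    have h3 : 1 ≤ (q i : ℝ) * (1 / (2 * r)) := by
      rw [mul_one_div, le_div_iff₀ (by linarith)]
      linarith
    rw [Nat.cast_sub (by have := hq i; omega), Nat.cast_one]
    linarith
  have h2 := one_add_mul_le_pow (a := -(1 / (2 * r : ℝ))) (by linarith) r
  have h3 : 1 + (r : ℝ) * -(1 / (2 * r)) = 1 / 2 := by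
    field_simp
    ring
  rw [Finset.prod_mul_distrib, Finset.prod_const, Finset.card_fin] at h1
  have h4 : (0 : ℝ) ≤ ∏ i, (q i : ℝ) := Finset.prod_nonneg fun i _ => Nat.cast_nonneg _
  have h5 : (∏ i, (q i : ℝ)) ≤ 2 * ∏ i, ((q i - 1 : ℕ) : ℝ) := by
    nlinarith [mul_le_mul_of_nonneg_left h2 h4]
  exact_mod_cast h5

/-- roots of unity in the `l`-adic integers -/
theorem exists_padic_root {l q : ℕ} [Fact l.Prime] (hq : q.Prime) (h : q ∣ l - 1) :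
    ∃ z : ℤ_[l], z ^ q = 1 ∧ ∀ a : ℕ, ¬q ∣ a → IsUnit (z ^ a - 1) := by
  have hl : l.Prime := Fact.out
  have := Fact.mk hq
  obtain ⟨ζ, hζ⟩ := exists_prime_orderOf_dvd_card (G := (ZMod l)ˣ) q (by rwa [ZMod.card_units])
  have hu : ∀ x : ℤ_[l], ‖x‖ < 1 ↔ PadicInt.toZMod x = 0 := fun x => by
    rw [← RingHom.mem_ker, PadicInt.ker_toZMod, IsLocalRing.mem_maximalIdeal,
      PadicInt.mem_nonunits]
  have hu' : ∀ x : ℤ_[l], PadicInt.toZMod x ≠ 0 → IsUnit x := fun x hx => by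
    by_contra hc
    exact hx ((hu x).1 (PadicInt.not_isUnit_iff.1 hc))
  obtain ⟨a, ha⟩ := ZMod.ringHom_surjective (PadicInt.toZMod (p := l)) ζ
  have hql : (q : ZMod l) ≠ 0 := fun h0 => by
    have h1 := Nat.le_of_dvd hq.pos ((ZMod.natCast_eq_zero_iff q l).1 h0)
    have h2 := Nat.le_of_dvd (by have := hl.two_le; omega) h
    have := hl.two_le
    omega
  have hd : ‖(Polynomial.X ^ q - 1 : Polynomial ℤ_[l]).derivative.aeval a‖ = 1 := by
    refine PadicInt.isUnit_iff.1 (hu' _ ?_)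
    simp [Polynomial.derivative_X_pow, ha, hql]
  obtain ⟨z, h1, h2, -⟩ := hensels_lemma (F := (Polynomial.X ^ q - 1 : Polynomial ℤ_[l])) (a := a) (by
    rw [hd, one_pow, hu]
    simp [ha, ← Units.val_pow_eq_pow_val, ← hζ])
  rw [hd, hu, map_sub, ha, sub_eq_zero] at h2
  refine ⟨z, by simpa [sub_eq_zero] using h1, fun n hn => hu' _ fun h0 => hn ?_⟩
  rw [map_sub, map_pow, h2, map_one, sub_eq_zero, ← Units.val_pow_eq_pow_val, Units.val_eq_one] at h0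
  exact hζ ▸ orderOf_dvd_of_pow_eq_one h0

end Vale.Agent.P024
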