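import Vale.Agent.P024.Hex
import Vale.Agent.P024.Mink

/-! # P024 Hun (TASK; helper lemma names start with `hun_` or are private)
The Herbrand quotient of the units.  PLAN.  `e` from `exists_mink`, `Pl = InfinitePlace M`, `φ : (Pl → ℤ) →+ Additive Mˣ`, `a ↦ ∑ a w • e w`, equivariant for the permutation action `π` of `g` on `Pl → ℤ`; `E2 = range φ` has finite index in `UU M` (`mink_index`).
`ker φ` is infinite cyclic, generated by `z`: the coordinate at `w0` is injective on it (`mink_indep`), and it is nonzero (`mink_dep`).  `π z = ± z`, and `π^n = 1` with `n` odd forces `π z = z` (compare `|coordinate|`; or `π z = k z`, `k^n = 1`).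
`Fr = Pl → ℤ` is induced: `g` acts freely on `Pl` (`place_free`), so `π a = a` implies `a = N b`, and `N a = 0` implies `a = π b - b` (orbit representatives, partial sums along each orbit).
Then `h0 E2 = 1`: `φ a` fixed gives `π a - a = k z`, apply `N`: `n k z = 0`, so `a` is fixed, `a = N b`.  `h1 E2 = n`: the map `{a | N a ∈ ker φ} → ℤ ⧸ n`, `N a = k z ↦ k`, is onto (`z = N b`) with kernel `range (π - 1) + ker φ`; use `hex_map`.
Finish with `hex` for `E2 ⊓ E' ≤ E2` and `E2 ⊓ E' ≤ E'`. -/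

namespace Vale.Agent.P024

open NumberField IsDedekindDomain Filter
open scoped Pointwise Topology

section hun

variable {X R : Type*} [AddCommGroup X] [CommRing R]

theorem hun_succ (π : AddMonoid.End X) (i : ℕ) (a : X) : (π ^ (i + 1)) a = π ((π ^ i) a) := by
  rw [pow_succ']; rfl

theorem hun_sig {K M : Type*} [Field K] [Field M] [Algebra K M] (g : Gal(M/K)) (i : ℕ)
    (x : Additive Mˣ) : (((sig (g : M →+* M) ^ i) x).toMul : M) = (g ^ i) (x.toMul : M) := by
  induction i with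
  | zero => rfl
  | succ i ih => rw [hun_succ, pow_succ', AlgEquiv.mul_apply, ← ih]; rfl

theorem hun_pow_mul {π : AddMonoid.End R} (hm : ∀ a b, π (a * b) = π a * π b) (i : ℕ) (a b : R) :
    (π ^ i) (a * b) = (π ^ i) a * (π ^ i) b := by
  induction i with
  | zero => rfl
  | succ i ih => simp only [hun_succ, ih, hm]

theorem hun_fix {π : AddMonoid.End X} {a : X} (h : π a = a) (i : ℕ) : (π ^ i) a = a := by
  induction i with
  | zero => rfl
  | succ i ih => rw [hun_succ, ih, h]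

theorem hun_nfix {π : AddMonoid.End X} {a : X} (h : π a = a) (n : ℕ) :
    nrmE π n a = (n : ℤ) • a := by
  simp [nrmE_apply, hun_fix h]

theorem hun_H0 {π : AddMonoid.End R} (hm : ∀ a b, π (a * b) = π a * π b) {n : ℕ} {β : R}
    (hβ : nrmE π n β = 1) {a : R} (h : π a = a) : ∃ b, nrmE π n b = a := by
  refine ⟨a * β, ?_⟩
  rw [nrmE_apply] at hβ ⊢
  simp only [hun_pow_mul hm, hun_fix h]
  rw [← Finset.mul_sum, hβ, mul_one]

theorem hun_H1 {π : AddMonoid.End R} (hm : ∀ a b, π (a * b) = π a * π b) {n : ℕ} (hn : π ^ n = 1)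
    {β : R} (hβ : nrmE π n β = 1) {a : R} (h : nrmE π n a = 0) : ∃ b, π b - b = a := by
  have hs : ∀ i, π (nrmE π i a) = nrmE π (i + 1) a - a := fun i => by
    rw [nrmE_apply, nrmE_apply, Finset.sum_range_succ', map_sum]
    simp only [hun_succ, pow_zero, AddMonoid.End.one_apply,
      add_sub_cancel_right]
  have h1 : ∑ i ∈ Finset.range n, π ((π ^ i) β) = 1 := by
    rw [← map_sum, ← nrmE_apply, (sub_mul_nrmE hn β).1, hβ]
  have h2 := Finset.sum_range_succ' (fun i => nrmE π i a * (π ^ i) β) n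
  have h3 : nrmE π 0 a = 0 := by simp [nrmE_apply]
  rw [Finset.sum_range_succ, h, h3, zero_mul, zero_mul, add_zero, add_zero] at h2
  refine ⟨-∑ i ∈ Finset.range n, nrmE π i a * (π ^ i) β, ?_⟩
  rw [map_neg, map_sum]
  simp only [hm, hs, sub_mul, Finset.sum_sub_distrib]
  rw [← Finset.mul_sum, h1]
  simp only [hun_succ] at h2
  rw [← h2]
  ring

theorem hun_equiv {Y : Type*} [AddCommGroup Y] {σ : AddMonoid.End X} {π : AddMonoid.End Y}
    {φ : Y →+ X} (hφ : ∀ a, φ (π a) = σ (φ a)) (n : ℕ) (a : Y) :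
    φ (nrmE π n a) = nrmE σ n (φ a) := by
  have h : ∀ i : ℕ, φ ((π ^ i) a) = (σ ^ i) (φ a) := fun i => by
    induction i with
    | zero => rfl
    | succ i ih => simp only [hun_succ, hφ, ih]
  simp only [nrmE_apply, map_sum, h]

theorem hun_abs {Y : Type*} [AddCommGroup Y] {σ : AddMonoid.End X} {π : AddMonoid.End Y}
    {φ : Y →+ X} (hφ : ∀ a, φ (π a) = σ (φ a)) {n : ℕ} (hn0 : n ≠ 0) (hn : π ^ n = 1)
    (H0 : ∀ a, π a = a → ∃ b, nrmE π n b = a) (H1 : ∀ a, nrmE π n a = 0 → ∃ b, π b - b = a)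
    {z : Y} (hz : ∀ k : ℤ, k • z = 0 → k = 0) (hz0 : φ z = 0) (hz1 : π z = z)
    (hk : ∀ a, φ a = 0 → ∃ k : ℤ, a = k • z) :
    h0 σ n φ.range = 1 ∧ h1 σ n φ.range = n := by
  have hN : ∀ c, nrmE π n (π c - c) = 0 := fun c => by
    rw [map_sub, (sub_mul_nrmE hn c).2, sub_self]
  have hD : ∀ x, (σ - 1 : AddMonoid.End X) x = σ x - x := fun x => rfl
  constructor
  · refine AddSubgroup.relIndex_eq_one.2 ?_
    rintro _ ⟨⟨a, rfl⟩, ha⟩
    have ha' : σ (φ a) - φ a = 0 := ha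
    obtain ⟨k, hk⟩ := hk (π a - a) (by rw [map_sub, hφ, ha'])
    have h1 := hN a
    rw [hk, map_zsmul, hun_nfix hz1, smul_smul] at h1
    have h2 : k = 0 := (mul_eq_zero.1 (hz _ h1)).resolve_right (by exact_mod_cast hn0)
    rw [h2, zero_smul, sub_eq_zero] at hk
    obtain ⟨b, hb⟩ := H0 a hk
    exact ⟨φ b, ⟨b, rfl⟩, by rw [← hb]; exact (hun_equiv hφ n b).symm⟩
  · obtain ⟨b, hb⟩ := H0 z hz1
    have e1 : φ.range ⊓ (nrmE σ n).ker =
        φ.range.map (σ - 1 : AddMonoid.End X) ⊔ (zmultiplesHom X (φ b)).range := by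
      refine le_antisymm ?_ (sup_le ?_ ?_)
      · rintro _ ⟨⟨a, rfl⟩, ha⟩
        have ha' : nrmE σ n (φ a) = 0 := ha
        obtain ⟨k, hk⟩ := hk (nrmE π n a) (by rw [hun_equiv hφ, ha'])
        obtain ⟨c, hc⟩ := H1 (a - k • b) (by rw [map_sub, map_zsmul, hb, hk, sub_self])
        refine AddSubgroup.mem_sup.2 ⟨_, ⟨φ c, ⟨c, rfl⟩, rfl⟩, _, ⟨k, rfl⟩, ?_⟩
        change σ (φ c) - φ c + k • φ b = φ a
        rw [← hφ, ← map_sub, hc, map_sub, map_zsmul, sub_add_cancel]
      · rintro _ ⟨_, ⟨c, rfl⟩, rfl⟩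
        have h1 : (σ - 1 : AddMonoid.End X) (φ c) = φ (π c - c) := by rw [hD, map_sub, hφ]
        refine ⟨⟨_, h1.symm⟩, ?_⟩
        change nrmE σ n ((σ - 1 : AddMonoid.End X) (φ c)) = 0
        rw [h1, ← hun_equiv hφ, hN, map_zero]
      · rintro _ ⟨k, rfl⟩
        refine ⟨⟨k • b, map_zsmul φ k b⟩, ?_⟩
        change nrmE σ n (k • φ b) = 0
        rw [map_zsmul, ← hun_equiv hφ, hb, hz0, smul_zero]
    have e2 : (φ.range.map (σ - 1 : AddMonoid.End X)).comap (zmultiplesHom X (φ b)) =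
        AddSubgroup.zmultiples (n : ℤ) := by
      refine le_antisymm ?_ ?_
      · rintro k ⟨_, ⟨c, rfl⟩, h⟩
        change σ (φ c) - φ c = k • φ b at h
        obtain ⟨j, hj⟩ := hk (k • b - (π c - c)) (by
          rw [map_sub, map_sub, hφ, map_zsmul, h, sub_self])
        have h1 := congrArg (nrmE π n) hj
        rw [map_sub, hN, sub_zero, map_zsmul, map_zsmul, hb, hun_nfix hz1, smul_smul,
          ← sub_eq_zero, ← sub_smul] at h1
        exact ⟨j, (sub_eq_zero.1 (hz _ h1)).symm⟩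
      · rw [AddSubgroup.zmultiples_le]
        obtain ⟨c, hc⟩ := H1 ((n : ℤ) • b - z) (by
          rw [map_sub, map_zsmul, hb, hun_nfix hz1, sub_self])
        refine ⟨φ c, ⟨c, rfl⟩, ?_⟩
        change σ (φ c) - φ c = (n : ℤ) • φ b
        rw [← hφ, ← map_sub, hc, map_sub, hz0, sub_zero, map_zsmul]
    rw [h1, e1, AddSubgroup.relIndex_sup_left, ← AddSubgroup.index_comap, e2,
      Int.index_zmultiples, Int.natAbs_natCast]

theorem hun_ker {P : Type*} {φ : (P → ℤ) →+ X} (w : P) (h : ∀ a, φ a = 0 → a w = 0 → a = 0)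
    {a : P → ℤ} (ha : a ≠ 0) (ha0 : φ a = 0) :
    ∃ z, z ≠ 0 ∧ φ z = 0 ∧ ∀ a, φ a = 0 → ∃ k : ℤ, a = k • z := by
  obtain ⟨d, hd⟩ := Int.subgroup_cyclic (φ.ker.map (Pi.evalAddMonoidHom (fun _ => ℤ) w))
  obtain ⟨z, hz, hzd⟩ : d ∈ φ.ker.map (Pi.evalAddMonoidHom (fun _ => ℤ) w) := by
    rw [hd]; exact AddSubgroup.mem_closure_singleton_self d
  have hz0 : φ z = 0 := hz
  have H : ∀ a, φ a = 0 → ∃ k : ℤ, a = k • z := fun a ha => by
    have h1 : a w ∈ AddSubgroup.closure {d} := by rw [← hd]; exact ⟨a, ha, rfl⟩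
    obtain ⟨k, hk⟩ := AddSubgroup.mem_closure_singleton.1 h1
    refine ⟨k, sub_eq_zero.1 (h _ (by rw [map_sub, map_zsmul, ha, hz0, smul_zero, sub_zero]) ?_)⟩
    change a w - k • z w = 0
    rw [← hk, ← hzd]
    exact sub_self _
  refine ⟨z, fun h0 => ?_, hz0, H⟩
  obtain ⟨k, hk⟩ := H a ha0
  exact ha (by rw [hk, h0, smul_zero])

/-- the permutation action on functions -/
def hun_pi {G : Type*} (P : Type*) [Group G] [MulAction G P] (u : G) : AddMonoid.End (P → ℤ) :=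
  AddMonoidHom.mk' (fun a w => a (u • w)) fun _ _ => rfl

theorem hun_pi_pow {G P : Type*} [Group G] [MulAction G P] (u : G) (i : ℕ) (a : P → ℤ) (w : P) :
    (hun_pi P u ^ i) a w = a (u ^ i • w) := by
  induction i generalizing w with
  | zero => simp
  | succ i ih =>
    rw [hun_succ, pow_succ, mul_smul, ← ih]
    rfl

theorem hun_beta {G P : Type*} [Group G] [Finite G] [MulAction G P] {u : G}
    (hu : ∀ h, h ∈ Subgroup.zpowers u) (hf : ∀ (w : P) (g : G), g • w = w → g = 1) :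
    ∃ β : P → ℤ, nrmE (hun_pi P u) (Nat.card G) β = 1 := by
  classical
  refine ⟨fun w => if w = (Quotient.mk (MulAction.orbitRel G P) w).out then 1 else 0,
    funext fun w => ?_⟩
  rw [nrmE_apply, Finset.sum_apply, ← orderOf_eq_card_of_forall_mem_zpowers hu]
  simp only [hun_pi_pow]
  have hq : ∀ g : G, Quotient.mk (MulAction.orbitRel G P) (g • w) =
      Quotient.mk (MulAction.orbitRel G P) w := fun g => Quotient.sound ⟨g, rfl⟩
  obtain ⟨g, hg⟩ : (Quotient.mk (MulAction.orbitRel G P) w).out ∈ MulAction.orbit G w :=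
    Quotient.mk_out (s := MulAction.orbitRel G P) w
  obtain ⟨i, hi, rfl⟩ := Finset.mem_image.1 (mem_zpowers_iff_mem_range_orderOf.1 (hu g))
  simp only [hq, ← hg]
  rw [Finset.sum_eq_single_of_mem i hi, if_pos rfl, Pi.one_apply]
  refine fun j hj hji => if_neg fun h => hji ?_
  have h1 := hf w ((u ^ i)⁻¹ * u ^ j) (by rw [mul_smul, h, inv_smul_smul])
  exact pow_injOn_Iio_orderOf (Finset.mem_range.1 hj) (Finset.mem_range.1 hi)
    (inv_mul_eq_one.1 h1).symm

end hun

theorem herb_units {K M : Type*} [Field K] [NumberField K] [Field M] [NumberField M] [Algebra K M]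
    [IsGalois K M] [IsTotallyComplex K] (g : Gal(M/K)) (hg : ∀ h : Gal(M/K), h ∈ Subgroup.zpowers g)
    {n : ℕ} (hn : Nat.card Gal(M/K) = n) (ho : Odd n) {E' : AddSubgroup (Additive Mˣ)}
    (hle : E' ≤ (UU M).toAddSubgroup) (hi : E'.relIndex (UU M).toAddSubgroup ≠ 0)
    (hs : ∀ x ∈ E', sig (g : M →+* M) x ∈ E') :
    h0 (sig (g : M →+* M)) n E' ≠ 0 ∧
      h1 (sig (g : M →+* M)) n E' = n * h0 (sig (g : M →+* M)) n E' := by
  classical
  have hM : IsTotallyComplex M := isTotallyComplex_of_algebra K M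
  obtain ⟨e, he, heg, hlt⟩ := exists_mink K M
  have hn0 : n ≠ 0 := by rintro rfl; simp at ho
  obtain ⟨φ, hφd⟩ : ∃ φ : (InfinitePlace M → ℤ) →+ Additive Mˣ,
      ∀ a, φ a = ∑ w, a w • Additive.ofMul (e w) :=
    ⟨AddMonoidHom.mk' (fun a => ∑ w, a w • Additive.ofMul (e w)) fun a b => by
      simp only [Pi.add_apply, add_zsmul, Finset.sum_add_distrib], fun _ => rfl⟩
  have hφm : ∀ a, (φ a).toMul = ∏ w, e w ^ a w := fun a => by
    simp only [hφd, toMul_sum, toMul_zsmul, toMul_ofMul]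
  have hφ : ∀ a, φ (hun_pi _ g⁻¹ a) = sig (g : M →+* M) (φ a) := fun a => by
    rw [hφd, hφd, map_sum, ← Equiv.sum_comp (MulAction.toPerm g)]
    refine Finset.sum_congr rfl fun w _ => ?_
    rw [map_zsmul]
    congr 1
    · exact congrArg a (inv_smul_smul g w)
    · exact congrArg Additive.ofMul (Units.ext (heg g w))
  have hgn : g ^ n = 1 := by rw [← hn]; exact pow_card_eq_one'
  have hπ : hun_pi (InfinitePlace M) g⁻¹ ^ n = 1 := by
    ext1 a
    funext w
    change (hun_pi _ g⁻¹ ^ n) a w = a w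
    rw [hun_pi_pow, inv_pow, hgn, inv_one, one_smul]
  have hσ : sig (g : M →+* M) ^ n = 1 := by
    ext1 x
    exact Units.ext ((hun_sig g n x).trans (by rw [hgn]; rfl))
  obtain ⟨β, hβ⟩ := hun_beta (P := InfinitePlace M) (u := g⁻¹)
    (by rwa [Subgroup.zpowers_inv]) fun w g h => place_free w h
  rw [hn] at hβ
  obtain ⟨a, ha, ha0⟩ := mink_dep he
  obtain ⟨z, hz, hz0, hk⟩ := hun_ker (φ := φ) (Classical.arbitrary _) (fun a h1 h2 =>
    mink_indep he hlt a h2 (by rw [← hφm, h1]; exact IsOfFinOrder.one)) ha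
    (Additive.toMul.injective ((hφm a).trans ha0))
  have hz' : ∀ k : ℤ, k • z = 0 → k = 0 := fun k h => (smul_eq_zero.1 h).resolve_right hz
  have hz1 : hun_pi _ g⁻¹ z = z := by
    obtain ⟨k, hk⟩ := hk (hun_pi _ g⁻¹ z) (by rw [hφ, hz0, map_zero])
    have h1 : ∀ i : ℕ, (hun_pi _ g⁻¹ ^ i) z = k ^ i • z := fun i => by
      induction i with
      | zero => simp
      | succ i ih =>
        rw [hun_succ, ih, map_zsmul, hk, smul_smul, pow_succ]
    have h2 := hz' (k ^ n - 1 ^ n) (by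
      rw [sub_smul, ← h1, hπ, one_pow, one_smul]; exact sub_self z)
    rw [hk, ho.strictMono_pow.injective (sub_eq_zero.1 h2), one_smul]
  obtain ⟨H0, H1⟩ := hun_abs hφ hn0 hπ (fun a h => hun_H0 (fun _ _ => rfl) hβ h)
    (fun a h => hun_H1 (fun _ _ => rfl) hπ hβ h) hz' hz0 hz1 hk
  have hE : φ.range ≤ (UU M).toAddSubgroup := by
    rintro _ ⟨a, rfl⟩
    change (φ a).toMul ∈ UU M
    rw [hφm]
    exact prod_mem fun w _ => zpow_mem (he w) _
  have hE1 : φ.range.relIndex (UU M).toAddSubgroup ≠ 0 := fun h => by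
    refine mink_index he hlt ?_
    rw [← Subgroup.relIndex_toAddSubgroup]
    refine AddSubgroup.relIndex_eq_zero_of_le_left (fun x hx => ?_) h
    refine (Subgroup.closure_le φ.range.toSubgroup).2 ?_ hx
    rintro _ ⟨w, rfl⟩
    refine ⟨Pi.single w 1, ?_⟩
    rw [hφd, Finset.sum_eq_single w, Pi.single_eq_same, one_zsmul]
    · rfl
    · exact fun v _ hv => by rw [Pi.single_eq_of_ne hv, zero_zsmul]
    · exact fun h => absurd (Finset.mem_univ w) h
  have hE2 : ∀ x ∈ φ.range, sig (g : M →+* M) x ∈ φ.range := by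
    rintro _ ⟨a, rfl⟩
    exact ⟨_, hφ a⟩
  have hA : ∀ x ∈ φ.range ⊓ E', sig (g : M →+* M) x ∈ φ.range ⊓ E' :=
    fun x hx => ⟨hE2 x hx.1, hs x hx.2⟩
  obtain ⟨a1, -, a3⟩ := hex hσ inf_le_left hA hE2 (by
    rw [AddSubgroup.inf_relIndex_left]
    exact fun h => hi (AddSubgroup.relIndex_eq_zero_of_le_right hE h))
  obtain ⟨b1, -, b3⟩ := hex hσ inf_le_right hA hs (by
    rw [AddSubgroup.inf_relIndex_right]
    exact fun h => hE1 (AddSubgroup.relIndex_eq_zero_of_le_right hle h))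
  rw [H0] at a1 a3
  rw [H1, one_mul] at a3
  have a4 := a1.2 one_ne_zero
  refine ⟨b1.1 a4, Nat.eq_of_mul_eq_mul_left (Nat.pos_of_ne_zero a4) ?_⟩
  rw [b3, ← a3]
  ring

theorem sig_pow_card {K M : Type*} [Field K] [Field M] [Algebra K M] (g : Gal(M/K)) {n : ℕ}
    (hn : Nat.card Gal(M/K) = n) : sig (g : M →+* M) ^ n = 1 := by
  have hgn : g ^ n = 1 := by rw [← hn]; exact pow_card_eq_one'
  ext1 x
  exact Units.ext ((hun_sig g n x).trans (by rw [hgn]; rfl))

theorem sig_pow_apply {K M : Type*} [Field K] [Field M] [Algebra K M] (g : Gal(M/K)) (i : ℕ)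
    (x : Mˣ) : (((sig (g : M →+* M) ^ i) (Additive.ofMul x)).toMul : M) = (g ^ i) (x : M) := by
  exact hun_sig g i _

end Vale.Agent.P024
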