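import Vale.Agent.P024.Li
import Vale.Agent.P024.Hun

/-! # P024 H90 (TASK; helper lemma names start with `h90_` or are private)
A cohomologically trivial group of principal units.  PLAN.  Normal basis `θ` of `M / K` (`IsGalois.normalBasis`), scaled so that `∑ i < n, g^i θ = 1` (the trace of a normal basis element is nonzero).  `Λ = {∑ r_i g^i θ, r_i ∈ LI K l}`, a `g`-stable additive subgroup, an `LI K l`-module, `1 ∈ Λ`.
There is `c` with `l^c Λ ⊆ LI M l` and `l^c LI M l ⊆ Λ` (`exists_pow_mul_mem` for `θ` and for the finitely many coordinates of an integral basis of `M`; `LI M l` = integral elements divided by naturals prime to `l`).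
`B = {x | (x - 1) / l^a ∈ Λ}`, `a = 6 c + 1`; a subgroup (products: `l^a x y ∈ l^(a - 2c) LI ⊆ Λ`; inverses by `inv_mem_LI`).  Let `u = 1 + l^a x`, `N u = 1`.  Expanding, `Tr x = ∑ r_i ∈ l^(a-2c) LI K` (a product of elements `1 + w_i` with `w_i ≡ 0 mod l^(a-c)` is `≡ 1 + ∑ w_i mod l^(2a-2c)`; `LI M ∩ K = LI K` by `map_mem_LI`).
`x - (Tr x) θ` has coordinate sum zero, so equals `g y - y` with `y ∈ Λ` (partial sums).  `b1 = 1 + l^a y ∈ B`, `u' = u b1 / g b1 ≡ 1 mod l^(2a - 3c)`, `N u' = 1`.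
Hilbert 90 formula for `v = u'⁻¹`: `b2 = ∑ i < n, (∏ j < i, g^j v) g^i θ` satisfies `v * g b2 = b2` and `b2 ≡ 1 mod l^(2a - 4c)`, so `b2 ∈ B`; `u = g (b1 b2) / (b1 b2)`. -/

namespace Vale.Agent.P024

open NumberField IsDedekindDomain Filter
open scoped Pointwise Topology

theorem h90_unif {F ι : Type*} [Field F] [Fintype ι] (l : ℕ) (Q : AddSubgroup F) {z : ι → F}
    (h : ∀ i, ∃ c : ℕ, (l : F) ^ c * z i ∈ Q) : ∃ c : ℕ, ∀ i, (l : F) ^ c * z i ∈ Q := by
  choose c hc using h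
  refine ⟨∑ i, c i, fun i => ?_⟩
  obtain ⟨d, hd⟩ := Nat.exists_eq_add_of_le
    (Finset.single_le_sum (fun j _ => Nat.zero_le (c j)) (Finset.mem_univ i))
  have := nsmul_mem (hc i) (l ^ d)
  rwa [nsmul_eq_mul, Nat.cast_pow, ← mul_assoc, ← pow_add, add_comm, ← hd] at this

theorem h90_sum {G A : Type*} [Group G] [Fintype G] [AddCommMonoid A] {g : G}
    (hg : ∀ h, h ∈ Subgroup.zpowers g) (f : G → A) :
    ∑ i ∈ Finset.range (Nat.card G), f (g ^ i) = ∑ e, f e := by
  classical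
  rw [← IsCyclic.image_range_card hg, Finset.sum_image]
  rw [← orderOf_eq_card_of_forall_mem_zpowers hg, Finset.coe_range]
  exact pow_injOn_Iio_orderOf

theorem h90_div {M : Type*} [Field M] [CharZero M] {l : ℕ} [Fact l.Prime] {m c : ℕ} {x θ : M}
    (h : Cg l (m + c) x 0) (hθ : (l : M) ^ c * θ ∈ LI M l) : Cg l m (x * θ) 0 := by
  obtain ⟨t, ht, rfl⟩ := cg_iff.1 h
  exact cg_iff.2 ⟨_, mul_mem ht hθ, by ring⟩

theorem h90_prod {M ι : Type*} [Field M] [CharZero M] {l : ℕ} [Fact l.Prime] {a : ℕ}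
    (s : Finset ι) {w : ι → M} (h : ∀ i, Cg l a (w i) 0) :
    Cg l (a + a) (∏ i ∈ s, (1 + w i)) (1 + ∑ i ∈ s, w i) := by
  classical
  induction s using Finset.induction_on with
  | empty => simpa using cg_refl 1
  | insert j s hj ih =>
    rw [Finset.prod_insert hj, Finset.sum_insert hj]
    have h1 : Cg l a (∑ i ∈ s, w i) 0 := by simpa using cg_sum s (g := fun _ => 0) fun i _ => h i
    refine (ih.mul_left (add_mem (one_mem _) ((h j).mem (zero_mem _)))).trans (cg_zero_iff.2 ?_)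
    rw [show (1 + w j) * (1 + ∑ i ∈ s, w i) - (1 + (w j + ∑ i ∈ s, w i)) = w j * ∑ i ∈ s, w i by
      ring]
    exact (h j).mul_zero h1

section

variable {K M : Type*} [Field K] [NumberField K] [Field M] [NumberField M] [Algebra K M]
  [IsGalois K M] {l : ℕ} [Fact l.Prime]

theorem h90_low (b : Module.Basis Gal(M/K) K M) : ∃ c : ℕ, ∀ x ∈ LI M l,
    (l : M) ^ c * x ∈ Submodule.span (LI K l) (Set.range b) := by
  set Λ := Submodule.span (LI K l) (Set.range b)
  have h1 : ∀ z : M, ∃ c : ℕ, (l : M) ^ c * z ∈ Λ.toAddSubgroup := fun z => by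
    obtain ⟨c, hc⟩ := h90_unif l (LI K l).toAddSubgroup fun e => exists_pow_mul_mem (b.repr z e)
    refine ⟨c, ?_⟩
    rw [← b.sum_repr z, Finset.mul_sum]
    refine sum_mem fun e _ => ?_
    have := Λ.smul_mem ⟨_, hc e⟩ (Submodule.subset_span ⟨e, rfl⟩)
    rwa [Subring.smul_def, mul_smul, Algebra.smul_def, map_pow, map_natCast] at this
  obtain ⟨c, hc⟩ := h90_unif l Λ.toAddSubgroup fun i => h1 (RingOfIntegers.basis M i)
  refine ⟨c, fun x ⟨s, hs, hx⟩ => ?_⟩
  have h2 : (l : M) ^ c * (s * x) ∈ Λ := by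
    have e := congrArg (algebraMap (𝓞 M) M) ((RingOfIntegers.basis M).sum_repr ⟨_, hx⟩)
    rw [map_sum] at e
    rw [show (s : M) * x = _ from e.symm, Finset.mul_sum]
    refine sum_mem fun i _ => ?_
    rw [map_zsmul, mul_smul_comm]
    exact zsmul_mem (hc i) _
  have h3 := Λ.smul_mem ⟨_, inv_natCast_mem_LI (E := K) hs⟩ h2
  have h4 : (s : M) ≠ 0 := by
    rintro h0
    rw [Nat.cast_eq_zero.1 h0, Nat.coprime_zero_left] at hs
    exact (Fact.out : l.Prime).ne_one hs
  rwa [Subring.smul_def, Algebra.smul_def, map_inv₀, map_natCast, mul_left_comm,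
    inv_mul_cancel_left₀ h4] at h3

theorem h90_up (b : Module.Basis Gal(M/K) K M) : ∃ c : ℕ,
    ∀ x ∈ Submodule.span (LI K l) (Set.range b), (l : M) ^ c * x ∈ LI M l := by
  obtain ⟨c, hc⟩ := h90_unif l (LI M l).toAddSubgroup fun e => exists_pow_mul_mem (b e)
  refine ⟨c, fun x hx => ?_⟩
  induction hx using Submodule.span_induction with
  | mem x hx =>
    obtain ⟨e, rfl⟩ := hx
    exact hc e
  | zero => simp
  | add x y _ _ hx hy => simpa [mul_add] using add_mem hx hy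
  | smul r x _ hx =>
    rw [Subring.smul_def, Algebra.smul_def, mul_left_comm]
    exact mul_mem ((map_mem_LI _).2 r.2) hx

theorem h90_lat (g : Gal(M/K)) (hg : ∀ h : Gal(M/K), h ∈ Subgroup.zpowers g) :
    ∃ (θ : M) (c : ℕ), ∑ e : Gal(M/K), e θ = 1 ∧ (l : M) ^ c * θ ∈ LI M l ∧
      ∀ a, ∃ P : AddSubgroup M, (∀ x, Cg l (a + c) x 0 → x ∈ P) ∧ (∀ x ∈ P, Cg l a x 0) ∧
        (∀ x ∈ P, g x ∈ P) ∧ ∀ x ∈ P, ∃ y ∈ P, x - (∑ e : Gal(M/K), e x) * θ = g y - y := by
  set b := IsGalois.normalBasis K M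
  have hb : ∀ h e : Gal(M/K), h (b e) = b (h * e) := fun h e => by
    rw [IsGalois.normalBasis_apply e, IsGalois.normalBasis_apply (h * e), AlgEquiv.mul_apply]
  set t := ∑ e, b e with ht
  have ht0 : t ≠ 0 := fun h0 => one_ne_zero (Fintype.linearIndependent_iff.1 b.linearIndependent
    (fun _ => 1) (by simpa using h0) 1)
  have h1 : ∀ e, ∑ h : Gal(M/K), h (b e) = t := fun e => by
    simp only [hb]
    exact Equiv.sum_comp (Equiv.mulRight e) b
  have h2 : ∀ h : Gal(M/K), h t = t := fun h => by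
    simp only [ht, map_sum, hb]
    exact Equiv.sum_comp (Equiv.mulLeft h) b
  set Λ := Submodule.span (LI K l) (Set.range b)
  have hm : ∀ e, b e ∈ Λ := fun e => Submodule.subset_span ⟨e, rfl⟩
  have hs : ∀ (e : Gal(M/K)) (r : LI K l) (x : M), e (r • x) = r • e x := fun e r x => by
    rw [Subring.smul_def, Subring.smul_def, Algebra.smul_def, Algebra.smul_def, map_mul,
      AlgEquiv.commutes]
  have h3 : ∀ x ∈ Λ, g x ∈ Λ := fun x hx => by
    induction hx using Submodule.span_induction with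
    | mem x hx =>
      obtain ⟨e, rfl⟩ := hx
      exact hb g e ▸ hm _
    | zero => simp
    | add x y _ _ hx hy => simpa using add_mem hx hy
    | smul r x _ hx =>
      rw [hs]
      exact Λ.smul_mem r hx
  have h4 : ∀ x ∈ Λ, ∃ y ∈ Λ, x - (∑ e : Gal(M/K), e x) * (b 1 / t) = g y - y := fun x hx => by
    induction hx using Submodule.span_induction with
    | mem x hx =>
      obtain ⟨e, rfl⟩ := hx
      obtain ⟨k, rfl⟩ := mem_powers_iff_mem_zpowers.2 (hg e)
      refine ⟨∑ j ∈ Finset.range k, b (g ^ j), sum_mem fun j _ => hm _, ?_⟩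
      rw [h1, mul_div_cancel₀ _ ht0, map_sum, ← Finset.sum_sub_distrib]
      simp only [hb, ← pow_succ']
      rw [Finset.sum_range_sub (fun j => b (g ^ j)), pow_zero]
    | zero => exact ⟨0, zero_mem _, by simp⟩
    | add x x' _ _ hx hx' =>
      obtain ⟨y, hy, e⟩ := hx
      obtain ⟨y', hy', e'⟩ := hx'
      refine ⟨y + y', add_mem hy hy', ?_⟩
      simp only [map_add, Finset.sum_add_distrib]
      linear_combination e + e'
    | smul r x _ hx =>
      obtain ⟨y, hy, e⟩ := hx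
      refine ⟨r • y, Λ.smul_mem r hy, ?_⟩
      simp only [hs, ← Finset.smul_sum]
      rw [smul_mul_assoc, ← smul_sub, ← smul_sub, e]
  obtain ⟨c1, hc1⟩ := h90_up (l := l) b
  obtain ⟨c2, hc2⟩ := h90_low (l := l) b
  obtain ⟨c3, hc3⟩ := exists_pow_mul_mem (l := l) (b 1 / t)
  refine ⟨b 1 / t, c1 + c2 + c3, ?_, ?_, fun a => ⟨Λ.toAddSubgroup.map
    (AddMonoidHom.mulLeft ((l : M) ^ (a + c1))), fun x hx => ?_, ?_, ?_, ?_⟩⟩
  · simp only [map_div₀, h2]
    rw [← Finset.sum_div, h1, div_self ht0]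
  · rw [pow_add, mul_assoc]
    exact mul_mem (pow_mem (natCast_mem _ l) _) hc3
  · obtain ⟨r, hr, rfl⟩ := cg_iff.1 (hx.mono (m' := a + c1 + c2) (by omega))
    exact ⟨_, hc2 r hr, by simp [pow_add, mul_assoc]⟩
  · rintro _ ⟨x, hx, rfl⟩
    exact cg_iff.2 ⟨_, hc1 x hx, by simp [pow_add, mul_assoc]⟩
  · rintro _ ⟨x, hx, rfl⟩
    exact ⟨_, h3 x hx, by simp⟩
  · rintro _ ⟨x, hx, rfl⟩
    obtain ⟨y, hy, e⟩ := h4 x hx
    refine ⟨_, ⟨y, hy, rfl⟩, ?_⟩
    simp only [AddMonoidHom.coe_mulLeft, map_mul, map_pow, map_natCast, ← Finset.mul_sum]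
    linear_combination (l : M) ^ (a + c1) * e

omit [NumberField K] [NumberField M] [IsGalois K M] in
theorem h90_formula (g : Gal(M/K)) {n : ℕ} (hn : g ^ n = 1) {v : M} (θ : M)
    (hv : ∏ j ∈ Finset.range n, (g ^ j) v = 1) :
    v * g (∑ i ∈ Finset.range n, (∏ j ∈ Finset.range i, (g ^ j) v) * (g ^ i) θ) =
      ∑ i ∈ Finset.range n, (∏ j ∈ Finset.range i, (g ^ j) v) * (g ^ i) θ := by
  have h := Finset.sum_range_sub (fun i => (∏ j ∈ Finset.range i, (g ^ j) v) * (g ^ i) θ) n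
  rw [hv, hn, Finset.prod_range_zero, pow_zero, sub_self, Finset.sum_sub_distrib, sub_eq_zero] at h
  refine Eq.trans ?_ h
  rw [map_sum, Finset.mul_sum]
  refine Finset.sum_congr rfl fun i _ => ?_
  rw [Finset.prod_range_succ', map_mul, map_prod]
  simp only [pow_succ', AlgEquiv.mul_apply, pow_zero, AlgEquiv.one_apply]
  ring

omit [NumberField K] [IsGalois K M] in
theorem h90_cg (e : Gal(M/K)) {m : ℕ} {x y : M} (h : Cg l m x y) : Cg l m (e x) (e y) :=
  (cg_map (e : M →+* M)).2 h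

omit [NumberField K] [IsGalois K M] in
theorem h90_core (g : Gal(M/K)) {n c : ℕ} (hn : g ^ n = 1) {θ : M}
    (h1 : ∑ i ∈ Finset.range n, (g ^ i) θ = 1) (h2 : (l : M) ^ c * θ ∈ LI M l) {x y : M}
    (hx : Cg l (3 * c + 1) x 0) (hy : Cg l (3 * c + 1) y 0)
    (e : x - (∑ i ∈ Finset.range n, (g ^ i) x) * θ = g y - y)
    (hN : ∏ i ∈ Finset.range n, (g ^ i) (1 + x) = 1) :
    ∃ z : M, Cg l (3 * c + 1 + c) z 1 ∧ (1 + x) * ((1 + y) * z) = g ((1 + y) * z) := by
  have one : ∀ {w : M}, Cg l (3 * c + 1) w 0 → Cg l (3 * c + 1) (1 + w) 1 := fun h => by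
    simpa using (cg_refl 1).add h
  have hx1 := (one hx).ne_zero (by omega)
  have hy1 := (one hy).ne_zero (by omega)
  have a1 := h90_prod (l := l) (a := 3 * c + 1) (Finset.range n) (w := fun i => (g ^ i) x)
    fun i => by simpa using h90_cg (g ^ i) hx
  simp only [map_add, map_one] at hN
  rw [hN] at a1
  have a2 : Cg l (5 * c + 2 + c) (∑ i ∈ Finset.range n, (g ^ i) x) 0 := by
    simpa using (cg_zero_iff.1 a1.symm).mono (by omega)
  have a3 := (h90_div a2 h2).add ((hx.mul_zero hy).mono (by omega))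
  set v := g (1 + y) / ((1 + x) * (1 + y)) with hv
  have a4 : Cg l (5 * c + 2) v 1 := by
    have := a3.mul_left (neg_mem (mul_mem (inv_mem_LI (one hx) (by omega))
      (inv_mem_LI (one hy) (by omega))))
    rw [add_zero, mul_zero] at this
    refine cg_zero_iff.2 ?_
    rwa [show v - 1 = -((1 + x)⁻¹ * (1 + y)⁻¹) * ((∑ i ∈ Finset.range n, (g ^ i) x) * θ + x * y) by
      rw [hv, map_add, map_one, eq_add_of_sub_eq e.symm]
      field_simp
      ring]
  have a5 : ∏ j ∈ Finset.range n, (g ^ j) v = 1 := by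
    have b1 : ∏ j ∈ Finset.range n, (g ^ j) (g (1 + y)) = ∏ j ∈ Finset.range n, (g ^ j) (1 + y) := by
      have c1 := Finset.prod_range_succ (fun j => (g ^ j) (1 + y)) n
      rw [Finset.prod_range_succ', hn, pow_zero] at c1
      simpa only [pow_succ, AlgEquiv.mul_apply] using
        mul_right_cancel₀ ((map_ne_zero _).2 hy1) c1
    simp only [hv, map_div₀, map_mul, Finset.prod_div_distrib, Finset.prod_mul_distrib, b1]
    simp only [map_add (g ^ _) 1 x, map_one, hN, one_mul]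
    exact div_self (Finset.prod_ne_zero_iff.2 fun j _ => (map_ne_zero _).2 hy1)
  refine ⟨∑ i ∈ Finset.range n, (∏ j ∈ Finset.range i, (g ^ j) v) * (g ^ i) θ, ?_, ?_⟩
  · rw [← h1]
    refine cg_sum _ fun i _ => cg_zero_iff.2 ?_
    rw [← sub_one_mul]
    refine h90_div (c := c) ((cg_zero_iff.1 ?_).mono (m := 5 * c + 2) (by omega)) ?_
    · have := cg_prod (l := l) (Finset.range i) (f := fun j => (g ^ j) v) (g := fun _ => (1 : M))
        (fun j _ => by simpa only [map_one] using h90_cg (g ^ j) a4) fun _ _ => one_mem _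
      rwa [Finset.prod_const_one] at this
    · have : (g ^ i) ((l : M) ^ c * θ) ∈ LI M l :=
        (map_mem_LI ((g ^ i : Gal(M/K)) : M →+* M)).2 h2
      rwa [map_mul, map_pow, map_natCast] at this
  · have b2 := h90_formula g hn θ a5
    generalize ∑ i ∈ Finset.range n, (∏ j ∈ Finset.range i, (g ^ j) v) * (g ^ i) θ = z at b2 ⊢
    rw [map_mul, ← b2, hv]
    nth_rw 2 [b2]
    field_simp

end

theorem exists_h90 {K M : Type*} [Field K] [NumberField K] [Field M] [NumberField M] [Algebra K M]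
    [IsGalois K M] (l : ℕ) [Fact l.Prime] (g : Gal(M/K))
    (hg : ∀ h : Gal(M/K), h ∈ Subgroup.zpowers g) {n : ℕ} (hn : Nat.card Gal(M/K) = n) :
    ∃ (B : AddSubgroup (Additive Mˣ)) (a : ℕ), 0 < a ∧ (∀ x ∈ B, sig (g : M →+* M) x ∈ B) ∧
      (∀ x ∈ B, nrmE (sig (g : M →+* M)) n x = 0 → ∃ y ∈ B, x = sig (g : M →+* M) y - y) ∧
      (VV M l a).toAddSubgroup ≤ B ∧ B ≤ (VV M l 1).toAddSubgroup := by
  subst hn
  obtain ⟨θ, c, h1, h2, h3⟩ := h90_lat (l := l) g hg
  obtain ⟨P, p1, p2, p3, p4⟩ := h3 (3 * c + 1)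
  have p5 : ∀ {u : M}, u - 1 ∈ P → Cg l (3 * c + 1) u 1 := fun h => cg_zero_iff.2 (p2 _ h)
  have p6 : ∀ {u v : M}, u - 1 ∈ P → v - 1 ∈ P → u * v - 1 ∈ P := fun {u v} hu hv => by
    rw [show u * v - 1 = (u - 1) * (v - 1) + (u - 1) + (v - 1) by ring]
    exact add_mem (add_mem (p1 _ (((p2 _ hu).mul_zero (p2 _ hv)).mono (by omega))) hu) hv
  let B : Subgroup Mˣ :=
    { carrier := {u | (u : M) - 1 ∈ P}
      one_mem' := by simp
      mul_mem' := fun hu hv => p6 hu hv
      inv_mem' := fun {u} (hu : (u : M) - 1 ∈ P) => by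
        have := ((p2 _ hu).mul_zero (p2 _ hu)).mul_left (inv_mem_LI (p5 hu) (by omega))
        rw [mul_zero] at this
        show ((u⁻¹ : Mˣ) : M) - 1 ∈ P
        rw [show ((u⁻¹ : Mˣ) : M) - 1 = (u : M)⁻¹ * ((u - 1) * (u - 1)) - (u - 1) by
          rw [Units.val_inv_eq_inv_val]
          field_simp
          ring]
        exact sub_mem (p1 _ (this.mono (by omega))) hu }
  refine ⟨B.toAddSubgroup, 3 * c + 1 + c, by omega, fun x hx => ?_, fun x hx hN => ?_,
    fun x hx => p1 _ (cg_zero_iff.1 hx.1), fun x hx => (mem_VV one_pos).2 ((p5 hx).mono (by omega))⟩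
  · have := p3 _ hx
    rw [map_sub, map_one] at this
    exact this
  · obtain ⟨y, hy, e⟩ := p4 _ hx
    have hN' : ∏ i ∈ Finset.range (Nat.card Gal(M/K)), (g ^ i) (1 + ((x.toMul : M) - 1)) = 1 := by
      have := congrArg (fun w : Additive Mˣ => (w.toMul : M))
        ((AddMonoidHom.finsetSum_apply _ _ x).symm.trans hN)
      simp only [toMul_sum, Units.coe_prod] at this
      rw [add_sub_cancel]
      exact (Finset.prod_congr rfl fun i _ => (sig_pow_apply g i x.toMul).symm).trans this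
    obtain ⟨z, hz, e'⟩ := h90_core g pow_card_eq_one' (θ := θ)
      ((h90_sum hg fun e => e θ).trans h1) h2 (p2 _ hx) (p2 _ hy)
      (by rw [h90_sum hg fun e => e ((x.toMul : M) - 1)]; exact e) hN'
    have hm : (1 + y) * z - 1 ∈ P := p6 (by simpa using hy) (p1 _ (cg_zero_iff.1 hz))
    have h0 := (p5 hm).ne_zero (by omega)
    refine ⟨Additive.ofMul (Units.mk0 _ h0), hm, Additive.toMul.injective (Units.ext ?_)⟩
    rw [add_sub_cancel] at e'
    rw [toMul_sub, Units.val_div_eq_div_val]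
    exact eq_div_of_mul_eq h0 e'

end Vale.Agent.P024
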