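import Vale.Agent.P024.Hq
import Vale.Agent.P024.H90
import Vale.Agent.P024.Dv

/-! # P024 Herb (TASK; helper lemma names start with `herb_` or are private)
The norm index inequality for cyclic extensions of odd degree.  PLAN.  `σ = sig g`, `τ = dvMap l g` as an endomorphism of `Dv M l` (`τ^i (single P' 1) = single (g^i P') 1`, `τ^n = 1`), `f = dvH M l`, `B`, `a` from `exists_h90`.
`u : Pr M l → Pr K l` the prime below (`HeightOneSpectrum.under` or `Ideal.under`), with finite nonempty fibres which are the orbits of `g` (`Ideal.exists_smul_eq_of_isGaloisGroup`, `Algebra.IsInvariant.exists_smul_of_under_eq`).  `j : Dv K l →+ Dv M l`, `j D P' = D (u P')`, injective with range `ker (τ - 1)`; `j (dv x) = dv (algebraMap x)` by `hu`.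
`H = comap j ((B ⊓ ker (σ-1)).map f ⊔ range (nrmE τ n))`, its index is the relative index in `hq` (`AddSubgroup.index_comap`), nonzero because `Pm K l a ≤ H` (`Pm_index`).  `B ⊓ ker f ≤ UU M` (`mem_UU_of_dv`) with finite index (`VV_relIndex_UU`, `dv_of_mem_UU`); `herb_units`, `hq`.
`n • D`: `nrmE τ n (j D) = n • j D`.  Trivial stabiliser: `i ↦ g^i P'` is a bijection from `range n` onto the fibre, so `nrmE τ n (single P' 1) = j (single P 1)`. -/

namespace Vale.Agent.P024

open NumberField IsDedekindDomain Filter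
open scoped Pointwise Topology

set_option linter.unusedSectionVars false

private theorem herb_abs {G Y Z : Type*} [Group G] [Finite G] [MulAction G Y] {g : G}
    (hg : ∀ h, h ∈ Subgroup.zpowers g) (u : Y → Z) (hs : Function.Surjective u)
    (hu : ∀ y y', u y = u y' ↔ ∃ h : G, h • y = y') {τ : AddMonoid.End (Y →₀ ℤ)}
    (hτ : ∀ D y, τ D (g • y) = D y) :
    τ ^ Nat.card G = 1 ∧ ∃ j : (Z →₀ ℤ) →+ (Y →₀ ℤ), (∀ D y, j D y = D (u y)) ∧
      j.range = (τ - 1 : AddMonoid.End (Y →₀ ℤ)).ker ∧ ∀ y, (∀ h : G, h • y = y → h = 1) →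
        nrmE τ (Nat.card G) (Finsupp.single y 1) = j (Finsupp.single (u y) 1) := by
  classical
  have := Fintype.ofFinite G
  have h1 : ∀ (i : ℕ) D y, (τ ^ i) D y = D ((g ^ i)⁻¹ • y) := by
    intro i
    induction i with
    | zero => simp
    | succ i ih =>
      intro D y
      rw [hun_succ, ← smul_inv_smul g y, hτ, ih, smul_inv_smul, ← mul_smul, ← mul_inv_rev, pow_succ']
  have h2 : ∀ D : Z →₀ ℤ, (Function.support fun y => D (u y)).Finite := fun D => by
    refine D.hasFiniteSupport.preimage' (f := u) fun z _ => ?_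
    obtain ⟨y, rfl⟩ := hs z
    exact (Set.finite_range fun h : G => h • y).subset fun y' e => (hu y y').1 (Eq.symm e)
  let j : (Z →₀ ℤ) →+ (Y →₀ ℤ) :=
    AddMonoidHom.mk' (fun D => Finsupp.ofSupportFinite _ (h2 D)) fun _ _ => Finsupp.ext fun _ => rfl
  have hj : ∀ D y, j D y = D (u y) := fun _ _ => rfl
  refine ⟨AddMonoidHom.ext fun D => Finsupp.ext fun y => ?_, j, hj, ?_, fun y hy => ?_⟩
  · refine (h1 _ D y).trans ?_
    rw [pow_card_eq_one', inv_one, one_smul]
    rfl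
  · ext D
    change _ ↔ τ D - D = 0
    rw [sub_eq_zero]
    constructor
    · rintro ⟨D, rfl⟩
      ext y
      rw [← smul_inv_smul g y, hτ, hj, hj, (hu _ _).2 ⟨g, rfl⟩]
    · intro hD
      refine ⟨Finsupp.comapDomain (Function.surjInv hs) D (Function.injective_surjInv hs).injOn,
        Finsupp.ext fun y => ?_⟩
      obtain ⟨h, e⟩ := (hu _ _).1 (Function.surjInv_eq hs (u y))
      obtain ⟨i, rfl⟩ := mem_powers_iff_mem_zpowers.2 (hg h)
      rw [hj, Finsupp.comapDomain_apply, ← congrFun (congrArg DFunLike.coe (hun_fix hD i)) y, h1,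
        eq_inv_smul_iff.2 e]
  · ext y'
    rw [nrmE_apply, Finsupp.finsetSum_apply, hj]
    simp only [h1]
    rw [h90_sum hg fun h => Finsupp.single y (1 : ℤ) (h⁻¹ • y')]
    by_cases e : u y = u y'
    · obtain ⟨h, rfl⟩ := (hu _ _).1 e
      rw [Finset.sum_eq_single h, inv_smul_smul, ← e, Finsupp.single_eq_same,
        Finsupp.single_eq_same]
      · intro k _ hk
        refine Finsupp.single_eq_of_ne fun e' => hk ?_
        rw [← mul_smul] at e'
        exact inv_mul_eq_one.1 (hy _ e')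
      · simp
    · rw [Finsupp.single_eq_of_ne (Ne.symm e)]
      refine Finset.sum_eq_zero fun h _ => Finsupp.single_eq_of_ne fun e' => e ?_
      exact (hu _ _).2 ⟨h, by rw [← e', smul_inv_smul]⟩

private theorem herb_act {K M : Type*} [Field K] [Field M] [NumberField M] [Algebra K M]
    (l : ℕ) [Fact l.Prime] (h : Gal(M/K)) (P : Pr M l) :
    (prMap l (h : M ≃+* M) P).1.asIdeal = h • P.1.asIdeal := by
  ext a
  rw [Ideal.mem_pointwise_smul_iff_inv_smul_mem, ← mem_prMap (h : M ≃+* M) P]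
  conv_lhs => rw [← smul_inv_smul h a]
  rfl

theorem herb {K M : Type*} [Field K] [NumberField K] [Field M] [NumberField M] [Algebra K M]
    [IsGalois K M] [IsTotallyComplex K] (l : ℕ) [Fact l.Prime] (g : Gal(M/K))
    (hg : ∀ h : Gal(M/K), h ∈ Subgroup.zpowers g) {n : ℕ} (hn : Nat.card Gal(M/K) = n) (ho : Odd n)
    (hu : ∀ (P' : Pr M l) (P : Pr K l),
      (∀ a : 𝓞 K, a ∈ P.1.asIdeal ↔ algebraMap (𝓞 K) (𝓞 M) a ∈ P'.1.asIdeal) →
      ∀ x : K, ordP P'.1 (algebraMap K M x) = ordP P.1 x) :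
    ∃ H : AddSubgroup (Dv K l), (∃ m, 0 < m ∧ Pm K l m ≤ H) ∧ n ≤ H.index ∧ (∀ D, n • D ∈ H) ∧
      ∀ (P' : Pr M l) (P : Pr K l),
        (∀ a : 𝓞 K, a ∈ P.1.asIdeal ↔ algebraMap (𝓞 K) (𝓞 M) a ∈ P'.1.asIdeal) →
        (∀ σ : Gal(M/K), σ • P'.1.asIdeal = P'.1.asIdeal → σ = 1) → Finsupp.single P 1 ∈ H := by
  let : MulAction Gal(M/K) (Pr M l) :=
    { smul := fun h P => prMap l (h : M ≃+* M) P
      one_smul := fun P => Subtype.ext (HeightOneSpectrum.ext
        ((herb_act l 1 P).trans (one_smul _ _)))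
      mul_smul := fun a b P => Subtype.ext (HeightOneSpectrum.ext ((herb_act l (a * b) P).trans
        ((mul_smul _ _ _).trans
          (((herb_act l a _).trans (congrArg (a • ·) (herb_act l b P))).symm)))) }
  have ha : ∀ (h : Gal(M/K)) (P : Pr M l), (h • P).1.asIdeal = h • P.1.asIdeal := herb_act l
  let u : Pr M l → Pr K l := fun P => ⟨P.1.under (𝓞 K), fun e => P.2 (by
    simpa using (Ideal.mem_comap.1 e))⟩
  have hs : Function.Surjective u := fun P => by
    have := P.1.isMaximal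
    obtain ⟨Q, h1, h2⟩ := Ideal.exists_ideal_over_maximal_of_isIntegral (S := 𝓞 M) P.1.asIdeal
      ((RingHom.injective_iff_ker_eq_bot (algebraMap (𝓞 K) (𝓞 M))).1
        (FaithfulSMul.algebraMap_injective _ _) ▸ bot_le)
    refine ⟨⟨⟨Q, h1.isPrime, fun e => P.1.ne_bot ?_⟩, fun e => P.2 ?_⟩,
      Subtype.ext (HeightOneSpectrum.ext h2)⟩
    · rw [← h2, e, Ideal.comap_bot_of_injective _ (FaithfulSMul.algebraMap_injective _ _)]
    · rw [← h2, Ideal.mem_comap, map_natCast]
      exact e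
  have hu' : ∀ P P' : Pr M l, u P = u P' ↔ ∃ h : Gal(M/K), h • P = P' := fun P P' => by
    constructor
    · intro e
      have := P.1.isPrime
      have := P'.1.isPrime
      obtain ⟨h, e'⟩ := Algebra.IsInvariant.exists_smul_of_under_eq (𝓞 K) (𝓞 M) Gal(M/K)
        P.1.asIdeal P'.1.asIdeal (congrArg (fun Q : Pr K l => Q.1.asIdeal) e)
      exact ⟨h, Subtype.ext (HeightOneSpectrum.ext ((ha h P).trans e'.symm))⟩
    · rintro ⟨h, rfl⟩
      refine Subtype.ext (HeightOneSpectrum.ext ?_)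
      change P.1.asIdeal.under _ = (h • P).1.asIdeal.under _
      rw [ha, Ideal.under_smul]
  let τ : AddMonoid.End (Dv M l) := (dvMap l (g : M ≃+* M)).toAddMonoidHom
  obtain ⟨hτ, j, hj, hr, hN⟩ := herb_abs hg u hs hu' (τ := τ) (dvMap_apply (g : M ≃+* M))
  rw [hn] at hτ hN
  obtain ⟨B, a, h0, hB, hB1, hV, hV1⟩ := exists_h90 l g hg hn
  have hf : ∀ x, dvH M l (sig (g : M →+* M) x) = τ (dvH M l x) := fun x =>
    (dvMap_dv (g : M ≃+* M) _).symm
  have hm : ∀ {x : M} (h : Cg l a x 1), Additive.ofMul (Units.mk0 x (h.ne_zero h0)) ∈ B :=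
    fun h => hV ((mem_VV h0).2 h)
  have hP : Pm K l a ≤ ((B ⊓ (sig (g : M →+* M) - 1 : AddMonoid.End _).ker).map (dvH M l) ⊔
      (nrmE τ n).range).comap j := by
    refine (AddSubgroup.closure_le _).2 ?_
    rintro _ ⟨x, hx, rfl⟩
    have h1 : Cg l a (algebraMap K M x) 1 := by simpa using (cg_map (algebraMap K M)).2 hx
    refine AddSubgroup.mem_sup_left ⟨_, ⟨hm h1, ?_⟩, Finsupp.ext fun P => ?_⟩
    · exact sub_eq_zero.2 (Additive.toMul.injective (Units.ext (g.commutes x)))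
    · rw [hj]
      exact hu P (u P) (fun _ => Iff.rfl) x
  have hI := ne_zero_of_dvd_ne_zero (Pm_index K l a) (AddSubgroup.index_dvd_of_le hP)
  have hC : (B.map (dvH M l)).index ≠ 0 := by
    refine ne_zero_of_dvd_ne_zero (Pm_index M l a) (AddSubgroup.index_dvd_of_le ?_)
    refine (AddSubgroup.closure_le _).2 ?_
    rintro _ ⟨x, hx, rfl⟩
    exact ⟨_, hm hx, rfl⟩
  obtain ⟨h2, h3⟩ := herb_units g hg hn ho (E' := B ⊓ (dvH M l).ker)
    (fun x hx => mem_UU_of_dv (hV1 hx.1) hx.2) (by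
      have h1 := VV_relIndex_UU M l a
      rw [← Subgroup.relIndex_toAddSubgroup, ← AddSubgroup.inf_relIndex_right] at h1
      exact ne_zero_of_dvd_ne_zero h1 (AddSubgroup.relIndex_dvd_of_le_left _
        fun x hx => ⟨hV hx.1, dv_of_mem_UU hx.2⟩))
    fun x hx => ⟨hB x hx.1, (hf x).trans ((congrArg τ hx.2).trans (map_zero τ))⟩
  refine ⟨_, ⟨a, h0, hP⟩, ?_, fun D => AddSubgroup.mem_sup_right ⟨j D, ?_⟩,
    fun P' P h4 h5 => AddSubgroup.mem_sup_right ⟨Finsupp.single P' 1, ?_⟩⟩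
  · rw [AddSubgroup.index_comap, hr] at hI ⊢
    have h4 := hq (sig_pow_card g hn) hτ (dvH M l) hf hB hB1 hC h2 hI
    rw [h3, mul_comm n] at h4
    exact Nat.le_of_mul_le_mul_left h4 (Nat.pos_of_ne_zero h2)
  · have h4 : j D ∈ (τ - 1 : AddMonoid.End _).ker := hr ▸ ⟨D, rfl⟩
    refine (hun_nfix (sub_eq_zero.1 h4) n).trans ?_
    rw [map_nsmul, natCast_zsmul]
  · obtain rfl : P = u P' := Subtype.ext (HeightOneSpectrum.ext (Ideal.ext h4))
    exact hN P' fun h e => h5 h (by rw [← ha, e])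

end Vale.Agent.P024
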