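import Vale.Agent.P024.Defs

/-! # P024 Hex (TASK; helper lemma names start with `hex_` or are private)
Herbrand quotients: invariance under finite index.  PLAN.  Write `D = σ - 1`, `N = nrmE σ n`; `D N = N D = σ^n - 1 = 0` (`mul_geom_sum`, `geom_sum_mul`).
General index lemma (`hex_map`): for an additive map `f` and subgroups `X ≤ Y` of finite relative index, `X.relIndex Y = (X.map f).relIndex (Y.map f) * (X ⊓ ker f).relIndex (Y ⊓ ker f)`
(`AddSubgroup.relIndex` calculus: `relIndex_mul_relIndex` through `X ⊔ (Y ⊓ ker f)`, `relIndex_map_map`/`relIndex_comap`, `relIndex_sup_left`, `inf_relIndex_left`).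
Apply it to `f = D` and `f = N`: with `i = X.relIndex Y`, `i = a_D b_D = a_N b_N`.  Chains `N X ≤ N Y ≤ Y ⊓ ker D` and `N X ≤ X ⊓ ker D ≤ Y ⊓ ker D` give `a_N * h0 Y = h0 X * b_D`, similarly `a_D * h1 Y = h1 X * b_N`.  Multiply.
`hq`: `B` plays the role of ray elements, `f` of the divisor map.  With `P = B.map f`, `Fa = ker (τ - 1)`, `Na = range N_τ`:
(i) `(f (B ⊓ ker D)).relIndex (P ⊓ Fa) = h1 (B ⊓ ker f)` (the map `b ↦ D b` from `{b ∈ B, f (D b) = 0}` onto `B ⊓ ker f ⊓ ker N`, onto by `hB1`);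
(ii) `(N P).relIndex (P ⊓ Na) ≤ c1 :=  (P ⊔ range D).relIndex {a | N a ∈ P}`; (iii) `((P ⊓ Fa) ⊔ Na).relIndex Fa * p1 ≥ c0 := (P ⊔ Na).relIndex {a | D a ∈ P}` with `p1 = h1 τ n P ≤ h0 σ n (B ⊓ ker f)`, `p1 ≠ 0`;
(iv) `c0 = c1 ≠ 0` (the finite group `A ⧸ P`: `card ker * card range = card`).  One can also work in the quotient types.  This theorem is in the file `Hq`. -/

namespace Vale.Agent.P024

open NumberField IsDedekindDomain Filter
open scoped Pointwise Topology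

variable {X : Type*} [AddCommGroup X]

theorem hex_map {X' : Type*} [AddCommGroup X'] (f : X →+ X') {A B : AddSubgroup X} (h : A ≤ B) :
    A.relIndex B = (A.map f).relIndex (B.map f) * (A ⊓ f.ker).relIndex (B ⊓ f.ker) := by
  have h1 : B ⊔ f.ker = (A ⊔ f.ker) ⊔ B := by rw [sup_right_comm, sup_eq_right.2 h]
  have h2 : A ⊓ f.ker = A ⊓ (B ⊓ f.ker) := by rw [← inf_assoc, inf_eq_left.2 h]
  rw [AddSubgroup.relIndex_map_map, h1, h2, AddSubgroup.relIndex_sup_left,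
    AddSubgroup.inf_relIndex_right, ← AddSubgroup.relIndex_sup_left (B ⊓ f.ker) A, inf_comm B,
    ← sup_inf_assoc_of_le _ h, mul_comm, AddSubgroup.relIndex_inf_mul_relIndex, inf_sup_self]


theorem sub_mul_nrmE {σ : AddMonoid.End X} {n : ℕ} (hσ : σ ^ n = 1) (x : X) :
    σ (nrmE σ n x) = nrmE σ n x ∧ nrmE σ n (σ x) = nrmE σ n x := by
  have h1 := mul_geom_sum σ n
  have h2 := geom_sum_mul σ n
  rw [hσ, sub_self] at h1 h2
  rw [sub_mul, one_mul, sub_eq_zero] at h1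
  rw [mul_sub, mul_one, sub_eq_zero] at h2
  exact ⟨DFunLike.congr_fun h1 x, DFunLike.congr_fun h2 x⟩


theorem nrmE_apply (σ : AddMonoid.End X) (n : ℕ) (x : X) :
    nrmE σ n x = ∑ i ∈ Finset.range n, (σ ^ i) x := by
  exact AddMonoidHom.finsetSum_apply _ _ _


theorem hex_chain (P Q : X →+ X) {A B : AddSubgroup X} (h : A ≤ B) (hA : A.map P ≤ A ⊓ Q.ker)
    (hB : B.map P ≤ B ⊓ Q.ker) :
    (A.map P).relIndex (B.map P) * (B.map P).relIndex (B ⊓ Q.ker) =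
      (A.map P).relIndex (A ⊓ Q.ker) * (A ⊓ Q.ker).relIndex (B ⊓ Q.ker) := by
  rw [AddSubgroup.relIndex_mul_relIndex _ _ _ (AddSubgroup.map_mono h) hB,
    AddSubgroup.relIndex_mul_relIndex _ _ _ hA (inf_le_inf_right _ h)]

theorem hex_nrm_le {σ : AddMonoid.End X} {n : ℕ} (hσ : σ ^ n = 1) {A : AddSubgroup X}
    (hA : ∀ a ∈ A, σ a ∈ A) : A.map (nrmE σ n) ≤ A ⊓ (σ - 1 : AddMonoid.End X).ker := by
  rintro _ ⟨a, ha, rfl⟩
  refine ⟨?_, sub_eq_zero.2 (sub_mul_nrmE hσ a).1⟩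
  have h : ∀ i, (σ ^ i) a ∈ A := fun i => by
    induction i with
    | zero => exact ha
    | succ i ih =>
      rw [pow_succ']
      exact hA _ ih
  exact nrmE_apply σ n a ▸ A.sum_mem fun i _ => h i

theorem hex_sub_le {σ : AddMonoid.End X} {n : ℕ} (hσ : σ ^ n = 1) {A : AddSubgroup X}
    (hA : ∀ a ∈ A, σ a ∈ A) : A.map (σ - 1 : AddMonoid.End X) ≤ A ⊓ (nrmE σ n).ker := by
  rintro _ ⟨a, ha, rfl⟩
  refine ⟨A.sub_mem (hA a ha) ha, ?_⟩
  show nrmE σ n (σ a - a) = 0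
  rw [map_sub, (sub_mul_nrmE hσ a).2, sub_self]

theorem hex {σ : AddMonoid.End X} {n : ℕ} (hσ : σ ^ n = 1) {A B : AddSubgroup X} (h : A ≤ B)
    (hA : ∀ a ∈ A, σ a ∈ A) (hB : ∀ b ∈ B, σ b ∈ B) (hi : A.relIndex B ≠ 0) :
    (h0 σ n A ≠ 0 ↔ h0 σ n B ≠ 0) ∧ (h1 σ n A ≠ 0 ↔ h1 σ n B ≠ 0) ∧
      h0 σ n A * h1 σ n B = h0 σ n B * h1 σ n A := by
  have e0 : _ * h0 σ n B = h0 σ n A * _ := hex_chain _ _ h (hex_nrm_le hσ hA) (hex_nrm_le hσ hB)
  have e1 : _ * h1 σ n B = h1 σ n A * _ := hex_chain _ _ h (hex_sub_le hσ hA) (hex_sub_le hσ hB)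
  have iD := hex_map (σ - 1 : AddMonoid.End X) h
  have iN := hex_map (nrmE σ n) h
  obtain ⟨d1, d2⟩ := mul_ne_zero_iff.1 (iD ▸ hi)
  obtain ⟨n1, n2⟩ := mul_ne_zero_iff.1 (iN ▸ hi)
  refine ⟨?_, ?_, mul_right_cancel₀ hi ?_⟩
  · rw [← mul_ne_zero_iff_right d2, ← e0, mul_ne_zero_iff_left n1]
  · rw [← mul_ne_zero_iff_right n2, ← e1, mul_ne_zero_iff_left d1]
  · conv_lhs => rw [iD, mul_comm (AddSubgroup.relIndex _ _), mul_mul_mul_comm, ← e0,
      mul_comm (h1 σ n B), e1]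
    rw [iN]
    ring


end Vale.Agent.P024
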