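import Vale.Agent.P024.Hex

/-! # P024 Hq (TASK; helper lemma names start with `hq_` or are private)
The index inequality behind the norm index bound for cyclic extensions.  PLAN: see the header of `Hex` (part `hq`).  In detail, all groups inside `A`: `P = B.map f`, `Fa = ker (τ - 1)`, `Na = range (nrmE τ n)`, `Pk = (B ⊓ ker (σ-1)).map f`, `Kf = B ⊓ ker f`.
`(Pk ⊔ Na).relIndex Fa = (Pk ⊔ Na).relIndex ((P ⊓ Fa) ⊔ Na) * ((P ⊓ Fa) ⊔ Na).relIndex Fa`, and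
`Pk.relIndex (P ⊓ Fa) = Pk.relIndex (Pk ⊔ (P ⊓ Na)) * (Pk ⊔ Na).relIndex ((P ⊓ Fa) ⊔ Na)` (modular law; `Na ≤ Fa`), with `Pk.relIndex (Pk ⊔ (P ⊓ Na)) ≤ c1` because `N P ≤ Pk`.  Use `hex_map` for all comparisons:
(i) `f` and `σ - 1` on `B' = B ⊓ comap (σ-1) (ker f) ≥ (B ⊓ ker (σ-1)) ⊔ Kf`; (ii) `nrmE τ n` on `comap N P ≥ P ⊔ range (τ-1)`; (iii) `τ - 1` on `comap (τ-1) P ≥ P ⊔ Na`;
`h1 τ n P` versus `h0 σ n Kf`: `f` and `nrmE σ n` on `B'' = B ⊓ comap N (ker f) ≥ B.map (σ-1) ⊔ Kf`, where `hB1` shows `B ⊓ ker N ≤ B.map (σ-1)`. -/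

namespace Vale.Agent.P024

open NumberField IsDedekindDomain Filter
open scoped Pointwise Topology

section

open AddSubgroup

variable {X A : Type*} [AddCommGroup X] [AddCommGroup A]

theorem hq_iso (g : X →+ A) {U V : AddSubgroup X} (h : U ≤ V) (hk : V ⊓ g.ker ≤ U) :
    U.relIndex V = (U.map g).relIndex (V.map g) := by
  rw [hex_map g h, relIndex_eq_one.2 (le_inf hk inf_le_right), mul_one]

theorem hq_c {D N : A →+ A} {P : AddSubgroup A} (hD : P ≤ P.comap D) (hDN : ∀ a, D (N a) = 0) :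
    P.relIndex N.range * (P ⊔ N.range).relIndex (P.comap D) * P.relIndex D.range = P.index := by
  have h : P ⊔ N.range ≤ P.comap D := sup_le hD (by
    rintro _ ⟨a, rfl⟩
    rw [AddSubgroup.mem_comap, hDN]
    exact P.zero_mem)
  rw [← relIndex_sup_left N.range P, relIndex_mul_relIndex _ _ _ le_sup_left h, ← index_comap,
    relIndex_mul_index hD]

theorem hq_cc {D N : A →+ A} {P : AddSubgroup A} (hP : P.index ≠ 0) (hD : P ≤ P.comap D)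
    (hN : P ≤ P.comap N) (hDN : ∀ a, D (N a) = 0) (hND : ∀ a, N (D a) = 0) :
    (P ⊔ D.range).relIndex (P.comap N) ≠ 0 ∧
      (P ⊔ D.range).relIndex (P.comap N) = (P ⊔ N.range).relIndex (P.comap D) := by
  have h1 := hq_c hD hDN
  have h2 := hq_c hN hND
  have h3 : P.relIndex D.range * P.relIndex N.range ≠ 0 := fun h => hP (by
    rw [← h1, mul_right_comm, mul_comm (P.relIndex N.range), h, zero_mul])
  refine ⟨fun h => hP (by rw [← h2, h, mul_zero, zero_mul]), mul_left_cancel₀ h3 ?_⟩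
  linear_combination h2 - h1

theorem hq_snake {f : X →+ A} {g : X →+ X} {g' : A →+ A} (hf : ∀ x, f (g x) = g' (f x))
    (B : AddSubgroup X) : ((B ⊓ g.ker).map f).relIndex (B.map f ⊓ g'.ker) =
      ((B ⊓ f.ker).map g).relIndex ((B ⊓ f.ker.comap g).map g) := by
  have h : (B ⊓ g.ker) ⊔ (B ⊓ f.ker) ≤ B ⊓ f.ker.comap g := by
    refine sup_le (inf_le_inf_left _ fun x hx => ?_) (inf_le_inf_left _ fun x hx => ?_)
    · rw [AddSubgroup.mem_comap, AddMonoidHom.mem_ker.1 hx]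
      exact zero_mem _
    · rw [AddSubgroup.mem_comap, AddMonoidHom.mem_ker, hf, AddMonoidHom.mem_ker.1 hx, map_zero]
  have h1 := hq_iso f h fun x hx => mem_sup_right ⟨hx.1.1, hx.2⟩
  have h2 := hq_iso g h fun x hx => mem_sup_left ⟨hx.1.1, hx.2⟩
  have e1 : (B ⊓ f.ker).map f = ⊥ := (AddSubgroup.map_eq_bot_iff _).2 inf_le_right
  have e2 : (B ⊓ g.ker).map g = ⊥ := (AddSubgroup.map_eq_bot_iff _).2 inf_le_right
  have e3 : (B ⊓ f.ker.comap g).map f = B.map f ⊓ g'.ker := by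
    refine le_antisymm ?_ ?_
    · rintro _ ⟨x, hx, rfl⟩
      exact ⟨⟨x, hx.1, rfl⟩, (hf x).symm.trans hx.2⟩
    · rintro _ ⟨⟨x, hx, rfl⟩, h⟩
      exact ⟨x, ⟨hx, (hf x).trans h⟩, rfl⟩
  rw [AddSubgroup.map_sup, e1, sup_bot_eq, e3] at h1
  rw [AddSubgroup.map_sup, e2, bot_sup_eq] at h2
  rw [← h1, h2]

theorem hq_gen {D N : X →+ X} {D' N' : A →+ A} {f : X →+ A} (hDN : ∀ x, D (N x) = 0)
    (hND : ∀ x, N (D x) = 0) (hDN' : ∀ a, D' (N' a) = 0) (hND' : ∀ a, N' (D' a) = 0)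
    (hfD : ∀ x, f (D x) = D' (f x)) (hfN : ∀ x, f (N x) = N' (f x)) {B : AddSubgroup X}
    (hBD : ∀ b ∈ B, D b ∈ B) (hBN : ∀ b ∈ B, N b ∈ B)
    (hB1 : ∀ b ∈ B, N b = 0 → ∃ b' ∈ B, b = D b') (hC : (B.map f).index ≠ 0)
    (h0K : ((B ⊓ f.ker).map N).relIndex (B ⊓ f.ker ⊓ D.ker) ≠ 0)
    (_hfin : ((B ⊓ D.ker).map f ⊔ N'.range).relIndex D'.ker ≠ 0) :
    ((B ⊓ f.ker).map D).relIndex (B ⊓ f.ker ⊓ N.ker) ≤
      ((B ⊓ f.ker).map N).relIndex (B ⊓ f.ker ⊓ D.ker) *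
        ((B ⊓ D.ker).map f ⊔ N'.range).relIndex D'.ker := by
  have hPD : B.map f ≤ (B.map f).comap D' := by
    rintro _ ⟨b, hb, rfl⟩
    exact ⟨D b, hBD b hb, hfD b⟩
  have hPN : B.map f ≤ (B.map f).comap N' := by
    rintro _ ⟨b, hb, rfl⟩
    exact ⟨N b, hBN b hb, hfN b⟩
  have hNF : N'.range ≤ D'.ker := by
    rintro _ ⟨a, rfl⟩
    exact hDN' a
  have hDF : D'.range ≤ N'.ker := by
    rintro _ ⟨a, rfl⟩
    exact hND' a
  have hPk : (B ⊓ D.ker).map f ≤ B.map f ⊓ D'.ker := by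
    rintro _ ⟨b, hb, rfl⟩
    exact ⟨⟨b, hb.1, rfl⟩, AddMonoidHom.mem_ker.2 (by
      rw [← hfD, AddMonoidHom.mem_ker.1 hb.2, map_zero])⟩
  have hNP : (B.map f).map N' ≤ (B ⊓ D.ker).map f := by
    rintro _ ⟨_, ⟨b, hb, rfl⟩, rfl⟩
    exact ⟨N b, ⟨hBN b hb, hDN b⟩, hfN b⟩
  -- (i)
  have i1 := hq_snake hfD B
  have e1 : (B ⊓ f.ker.comap D).map D = B ⊓ f.ker ⊓ N.ker := by
    refine le_antisymm ?_ ?_
    · rintro _ ⟨x, hx, rfl⟩
      exact ⟨⟨hBD x hx.1, hx.2⟩, hND x⟩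
    · rintro x ⟨hx, h⟩
      obtain ⟨b, hb, rfl⟩ := hB1 x hx.1 h
      exact ⟨b, ⟨hb, hx.2⟩, rfl⟩
  rw [e1] at i1
  -- `h1 P` divides `h0 K`
  have i2 := hq_snake hfN B
  have e2 : (B ⊓ N.ker).map f = (B.map f).map D' := by
    refine le_antisymm ?_ ?_
    · rintro _ ⟨x, hx, rfl⟩
      obtain ⟨b, hb, rfl⟩ := hB1 x hx.1 hx.2
      exact ⟨f b, ⟨b, hb, rfl⟩, (hfD b).symm⟩
    · rintro _ ⟨_, ⟨b, hb, rfl⟩, rfl⟩
      exact ⟨D b, ⟨hBD b hb, hND b⟩, hfD b⟩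
  have e3 : (B ⊓ f.ker.comap N).map N ≤ B ⊓ f.ker ⊓ D.ker := by
    rintro _ ⟨x, hx, rfl⟩
    exact ⟨⟨hBN x hx.1, hx.2⟩, hDN x⟩
  rw [e2] at i2
  have i3 := relIndex_le_of_le_right (H := (B ⊓ f.ker).map N) e3 h0K
  have i3' : ((B ⊓ f.ker).map N).relIndex ((B ⊓ f.ker.comap N).map N) ≠ 0 := fun h =>
    h0K (relIndex_eq_zero_of_le_right e3 h)
  rw [← i2] at i3 i3'
  -- (iv)
  obtain ⟨c0, cc⟩ := hq_cc hC hPD hPN hDN' hND'
  -- (ii)
  have l1 : B.map f ⊔ D'.range ≤ (B.map f).comap N' := sup_le hPN fun a ha => by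
    rw [AddSubgroup.mem_comap, AddMonoidHom.mem_ker.1 (hDF ha)]
    exact zero_mem _
  have l2 : B.map f ⊔ N'.range ≤ (B.map f).comap D' := sup_le hPD fun a ha => by
    rw [AddSubgroup.mem_comap, AddMonoidHom.mem_ker.1 (hNF ha)]
    exact zero_mem _
  have i4 := hex_map N' l1
  rw [AddSubgroup.map_sup, (AddSubgroup.map_eq_bot_iff _).2 hDF, sup_bot_eq, map_comap_eq] at i4
  have i5 : ((B ⊓ D.ker).map f).relIndex (N'.range ⊓ B.map f) ≤
      (B.map f ⊔ D'.range).relIndex ((B.map f).comap N') :=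
    Nat.le_of_dvd (Nat.pos_of_ne_zero c0)
      ((relIndex_dvd_of_le_left _ hNP).trans (Dvd.intro _ i4.symm))
  -- (iii)
  have i6 := hex_map D' l2
  have e4 : (B.map f).comap D' ⊓ D'.ker = D'.ker := inf_eq_right.2 fun a ha => by
    rw [AddSubgroup.mem_comap, AddMonoidHom.mem_ker.1 ha]
    exact zero_mem _
  have e5 : (B.map f ⊔ N'.range) ⊓ D'.ker = N'.range ⊔ B.map f ⊓ D'.ker := by
    rw [sup_comm, sup_inf_assoc_of_le _ hNF]
  rw [AddSubgroup.map_sup, (AddSubgroup.map_eq_bot_iff _).2 hNF, sup_bot_eq, map_comap_eq, e4, e5] at i6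
  have i7 : ((B.map f).map D').relIndex (D'.range ⊓ B.map f) ≤
      ((B.map f).map D').relIndex (B.map f ⊓ N'.ker) :=
    relIndex_le_of_le_right (fun a ha => ⟨ha.2, hDF ha.1⟩) i3'
  -- the two chains
  have j1 := relIndex_mul_relIndex ((B ⊓ D.ker).map f ⊔ N'.range) (N'.range ⊔ B.map f ⊓ D'.ker)
    D'.ker (sup_le (hPk.trans le_sup_right) le_sup_left) (sup_le hNF inf_le_right)
  have e6 : N'.range ⊔ B.map f ⊓ D'.ker = ((B ⊓ D.ker).map f ⊔ N'.range) ⊔ B.map f ⊓ D'.ker := by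
    rw [sup_comm ((B ⊓ D.ker).map f), sup_assoc, sup_eq_right.2 hPk]
  have j2 := relIndex_mul_relIndex ((B ⊓ D.ker).map f)
    (((B ⊓ D.ker).map f ⊔ N'.range) ⊓ (B.map f ⊓ D'.ker)) (B.map f ⊓ D'.ker)
    (le_inf le_sup_left hPk) inf_le_right
  have e7 : N'.range ⊓ (B.map f ⊓ D'.ker) = N'.range ⊓ B.map f := by
    rw [inf_comm (B.map f), ← inf_assoc, inf_eq_left.2 hNF]
  rw [inf_relIndex_right, sup_inf_assoc_of_le _ hPk, relIndex_sup_left, e7] at j2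
  have j3 : ((B ⊓ D.ker).map f ⊔ N'.range).relIndex (N'.range ⊔ B.map f ⊓ D'.ker) =
      ((B ⊓ D.ker).map f ⊔ N'.range).relIndex (B.map f ⊓ D'.ker) := by
    rw [e6, relIndex_sup_left]
  rw [← i1, ← j2, ← j1, j3, mul_comm (relIndex _ (B.map f ⊓ D'.ker)), ← mul_assoc]
  refine Nat.mul_le_mul_right _ (i5.trans ?_)
  rw [cc, i6]
  exact Nat.mul_le_mul_right _ (i7.trans i3)

end

theorem hq_nrm {X : Type*} [AddCommGroup X] {σ : AddMonoid.End X} {n : ℕ} (hσ : σ ^ n = 1)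
    (x : X) : (σ - 1 : AddMonoid.End X) (nrmE σ n x) = 0 ∧
      nrmE σ n ((σ - 1 : AddMonoid.End X) x) = 0 := by
  obtain ⟨h1, h2⟩ := sub_mul_nrmE hσ x
  constructor
  · exact sub_eq_zero.2 h1
  · show nrmE σ n (σ x - x) = 0
    rw [map_sub, h2, sub_self]

theorem hq {X A : Type*} [AddCommGroup X] [AddCommGroup A] {σ : AddMonoid.End X}
    {τ : AddMonoid.End A} {n : ℕ} (hσ : σ ^ n = 1) (hτ : τ ^ n = 1) (f : X →+ A)
    (hf : ∀ x, f (σ x) = τ (f x)) {B : AddSubgroup X} (hB : ∀ b ∈ B, σ b ∈ B)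
    (hB1 : ∀ b ∈ B, nrmE σ n b = 0 → ∃ b' ∈ B, b = σ b' - b') (hC : (B.map f).index ≠ 0)
    (h0K : h0 σ n (B ⊓ f.ker) ≠ 0)
    (hfin : ((B ⊓ (σ - 1 : AddMonoid.End X).ker).map f ⊔ (nrmE τ n).range).relIndex
      (τ - 1 : AddMonoid.End A).ker ≠ 0) :
    h1 σ n (B ⊓ f.ker) ≤ h0 σ n (B ⊓ f.ker) *
      ((B ⊓ (σ - 1 : AddMonoid.End X).ker).map f ⊔ (nrmE τ n).range).relIndex
        (τ - 1 : AddMonoid.End A).ker := by
  have hp : ∀ (i : ℕ) x, f ((σ ^ i) x) = (τ ^ i) (f x) := fun i => by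
    induction i with
    | zero => exact fun _ => rfl
    | succ i ih => exact fun x => by rw [pow_succ, pow_succ]; exact (ih (σ x)).trans (by rw [hf]; rfl)
  have hq : ∀ (i : ℕ), ∀ b ∈ B, (σ ^ i) b ∈ B := fun i => by
    induction i with
    | zero => exact fun _ h => h
    | succ i ih => exact fun b hb => by rw [pow_succ]; exact ih _ (hB b hb)
  refine hq_gen (D := (σ - 1 : AddMonoid.End X)) (N := nrmE σ n) (D' := (τ - 1 : AddMonoid.End A))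
    (N' := nrmE τ n) (fun x => (hq_nrm hσ x).1) (fun x => (hq_nrm hσ x).2)
    (fun x => (hq_nrm hτ x).1) (fun x => (hq_nrm hτ x).2) (fun x => ?_) (fun x => ?_)
    (fun b hb => B.sub_mem (hB b hb) hb) (fun b hb => ?_) hB1 hC h0K hfin
  · show f (σ x - x) = τ (f x) - f x
    rw [map_sub, hf]
  · show f (nrmE σ n x) = nrmE τ n (f x)
    rw [nrmE_apply, nrmE_apply, map_sum]
    exact Finset.sum_congr rfl fun i _ => hp i x
  · show nrmE σ n b ∈ B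
    rw [nrmE_apply]
    exact sum_mem fun i _ => hq i b hb

end Vale.Agent.P024
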