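import Vale.Agent.P024.ZlB
import Vale.Agent.P024.FinC

/-! # P024 Zl (TASK; helper lemma names start with `zl_` or are private)
Characters that lift to every level.  PLAN.  `Eig.cast`: `IsCh.comp`, `PadicInt.cast_toZModPow`.  `Eig.div`: `μ : ZMod (l^K) →+ ZMod (l^(K+1))`, `x ↦ l * x.val`, is injective with image the nonunits, `μ (cast a * x) = a * μ x`; `c' u = ((c u).val / l : ℕ)`.
`zl_unit`: if no level `j + 1` character has a unit value, the same holds at all levels `K ≥ j + 1` (`Eig.cast`, `ZMod.isUnit_iff_coprime`); by induction on `K ≥ j` there is a finset of at most `n` functions such that every level `K` eigencharacter agrees on `T2` with one of them, `n` the size of the finset of `fin_ch` at level `j`; this contradicts `zl_many` for `l^K > n`.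
`exists_zl`: reduce the characters of `zl_unit` of levels `j ≥ k` to level `k`; by `fin_ch` and the pigeonhole principle (`Finite.exists_infinite_fiber`, or `Filter.frequently`) one class occurs for infinitely many `j`. -/

namespace Vale.Agent.P024

open NumberField IsDedekindDomain Filter
open scoped Pointwise Topology

set_option linter.unusedSectionVars false

variable {F E : Type*} [Field F] [NumberField F] [Field E] [CharZero E] [Algebra F E] [IsGalois F E]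

variable {l : ℕ} [Fact l.Prime] {T T2 : OpenSubgroup Gal(E/F)} {ξ : Gal(E/F) → ℤ_[l]}

/-- multiplication by `l` from level `K` to level `K + 1` -/
def zl_mu (l K : ℕ) (x : ZMod (l ^ K)) : ZMod (l ^ (K + 1)) := ((l * x.val : ℕ) : ZMod (l ^ (K + 1)))

theorem zl_cast_iff {K a b : ℕ} :
    ((l * a : ℕ) : ZMod (l ^ (K + 1))) = ((l * b : ℕ) : ZMod (l ^ (K + 1))) ↔
      (a : ZMod (l ^ K)) = (b : ZMod (l ^ K)) := by
  rw [ZMod.natCast_eq_natCast_iff, ZMod.natCast_eq_natCast_iff, pow_succ']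
  exact Nat.ModEq.mul_left_cancel_iff' (Fact.out : l.Prime).ne_zero

theorem zl_mu_natCast {K : ℕ} (a : ℕ) :
    zl_mu l K (a : ZMod (l ^ K)) = ((l * a : ℕ) : ZMod (l ^ (K + 1))) := by
  haveI : NeZero (l ^ K) := ⟨pow_ne_zero _ (Fact.out : l.Prime).ne_zero⟩
  exact zl_cast_iff.2 (ZMod.natCast_zmod_val _)

theorem zl_mu_inj {K : ℕ} {x y : ZMod (l ^ K)} (h : zl_mu l K x = zl_mu l K y) : x = y := by
  haveI : NeZero (l ^ K) := ⟨pow_ne_zero _ (Fact.out : l.Prime).ne_zero⟩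
  have := zl_cast_iff.1 h
  rwa [ZMod.natCast_zmod_val, ZMod.natCast_zmod_val] at this

theorem zl_mu_zero {K : ℕ} : zl_mu l K 0 = 0 := by
  simp [zl_mu]

theorem zl_mu_add {K : ℕ} (x y : ZMod (l ^ K)) : zl_mu l K (x + y) = zl_mu l K x + zl_mu l K y := by
  haveI : NeZero (l ^ K) := ⟨pow_ne_zero _ (Fact.out : l.Prime).ne_zero⟩
  have : x + y = ((x.val + y.val : ℕ) : ZMod (l ^ K)) := by
    rw [Nat.cast_add, ZMod.natCast_zmod_val, ZMod.natCast_zmod_val]
  rw [this, zl_mu_natCast]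
  unfold zl_mu
  push_cast
  ring

theorem zl_mu_mul {K : ℕ} (a : ZMod (l ^ (K + 1))) (x : ZMod (l ^ K)) :
    zl_mu l K (ZMod.castHom (pow_dvd_pow l (Nat.le_succ K)) (ZMod (l ^ K)) a * x) =
      a * zl_mu l K x := by
  haveI : NeZero (l ^ K) := ⟨pow_ne_zero _ (Fact.out : l.Prime).ne_zero⟩
  haveI : NeZero (l ^ (K + 1)) := ⟨pow_ne_zero _ (Fact.out : l.Prime).ne_zero⟩
  obtain ⟨n, rfl⟩ := ZMod.natCast_zmod_surjective a
  obtain ⟨m, rfl⟩ := ZMod.natCast_zmod_surjective x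
  rw [map_natCast, ← Nat.cast_mul, zl_mu_natCast, zl_mu_natCast]
  push_cast
  ring

theorem zl_mu_div {K : ℕ} {y : ZMod (l ^ (K + 1))} (hy : ¬IsUnit y) :
    zl_mu l K ((y.val / l : ℕ) : ZMod (l ^ K)) = y := by
  have hl : l.Prime := Fact.out
  haveI : NeZero (l ^ (K + 1)) := ⟨pow_ne_zero _ hl.ne_zero⟩
  have hd : l ∣ y.val := by
    by_contra hd
    apply hy
    rw [← ZMod.natCast_zmod_val y, ZMod.isUnit_iff_coprime]
    exact Nat.Coprime.pow_right _ ((Nat.Prime.coprime_iff_not_dvd hl).2 hd).symm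
  rw [zl_mu_natCast, Nat.mul_div_cancel' hd, ZMod.natCast_zmod_val]

theorem zl_cast_toZModPow {k K : ℕ} (hK : k ≤ K) (x : ℤ_[l]) :
    ZMod.castHom (pow_dvd_pow l hK) (ZMod (l ^ k)) (PadicInt.toZModPow K x) =
      PadicInt.toZModPow k x := by
  rw [ZMod.castHom_apply]
  exact PadicInt.cast_toZModPow k K hK x

theorem Eig.cast {k K : ℕ} (hK : k ≤ K) {c : Gal(E/F) → ZMod (l ^ K)} (h : Eig l T T2 ξ K c) :
    Eig l T T2 ξ k fun g => ZMod.castHom (pow_dvd_pow l hK) (ZMod (l ^ k)) (c g) := by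
  refine ⟨h.ch.comp (ZMod.castHom (pow_dvd_pow l hK) (ZMod (l ^ k))).toAddMonoidHom, ?_, ?_⟩
  · intro A p hp hl hA g hg hI
    simp only [h.unr A p hp hl hA g hg hI, map_zero]
  · intro g hg u hu
    simp only [h.eig g hg u hu, map_mul]
    rw [zl_cast_toZModPow hK]

theorem Eig.div (hn : NormIn T2 T) {K : ℕ} {c : Gal(E/F) → ZMod (l ^ (K + 1))}
    (h : Eig l T T2 ξ (K + 1) c) (hu : ∀ u ∈ T2, ¬IsUnit (c u)) :
    ∃ c', Eig l T T2 ξ K c' ∧ ∀ u ∈ T2, c u = ((l * (c' u).val : ℕ) : ZMod (l ^ (K + 1))) := by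
  set c' : Gal(E/F) → ZMod (l ^ K) := fun u => (((c u).val / l : ℕ) : ZMod (l ^ K)) with hc'
  have key : ∀ u ∈ T2, zl_mu l K (c' u) = c u := fun u hu' => zl_mu_div (hu u hu')
  have hz : ∀ u ∈ T2, c u = 0 → c' u = 0 := fun u hu' h0 =>
    zl_mu_inj (by rw [key u hu', h0, zl_mu_zero])
  refine ⟨c', ⟨?_, ?_, ?_⟩, fun u hu' => (key u hu').symm⟩
  · refine IsCh.of_le (fun g hg k hk => zl_mu_inj ?_) h.ch.ker fun g hg hk => hz g hg hk.2
    rw [zl_mu_add, key g hg, key k hk, key _ (T2.mul_mem hg hk), h.ch.add g hg k hk]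
  · intro A p hp hl hA g hg hI
    exact hz g hg (h.unr A p hp hl hA g hg hI)
  · intro g hg u hu'
    refine zl_mu_inj ?_
    rw [key _ (hn g hg u hu'), h.eig g hg u hu', ← zl_cast_toZModPow (Nat.le_succ K), zl_mu_mul,
      key u hu']

theorem zl_unit (hE : RC E) (h : ZD l T T2 ξ) (j : ℕ) :
    ∃ c, Eig l T T2 ξ j c ∧ ∃ u ∈ T2, IsUnit (c u) := by
  classical
  have hl : l.Prime := Fact.out
  by_contra hc
  push Not at hc
  have hnu : ∀ K, j ≤ K → ∀ c, Eig l T T2 ξ K c → ∀ u ∈ T2, ¬IsUnit (c u) := by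
    intro K hK c he u hu hun
    exact hc _ (he.cast hK) u hu (hun.map _)
  haveI : NeZero (l ^ j) := ⟨pow_ne_zero _ hl.ne_zero⟩
  obtain ⟨S0, hS0⟩ := fin_ch hE T2 (l ^ j) hl
  have key : ∀ K, j ≤ K → ∃ S : Finset (Gal(E/F) → ZMod (l ^ K)), S.card ≤ S0.card ∧
      ∀ c, Eig l T T2 ξ K c → ∃ t ∈ S, ∀ g ∈ T2, c g = t g := by
    intro K hK
    induction K, hK using Nat.le_induction with
    | base => exact ⟨S0, le_rfl, fun c he => hS0 c he.ch he.unr⟩
    | succ K hK ih =>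
      obtain ⟨S, hS, hS'⟩ := ih
      refine ⟨S.image fun t g => zl_mu l K (t g), Finset.card_image_le.trans hS, fun c he => ?_⟩
      obtain ⟨c', he', hcc⟩ := he.div h.normIn (hnu _ (hK.trans (Nat.le_succ K)) c he)
      obtain ⟨t, ht, htt⟩ := hS' c' he'
      refine ⟨_, Finset.mem_image_of_mem _ ht, fun g hg => ?_⟩
      rw [hcc g hg, htt g hg]
      rfl
  obtain ⟨S, hS, hS'⟩ := key (j + S0.card + 1) (by omega)
  obtain ⟨M, hM, hM1, hM2⟩ := zl_many hE h (K := j + S0.card + 1) (by omega)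
  choose! φ hφ hφ' using hS'
  have hle : M.card ≤ S.card := by
    refine Finset.card_le_card_of_injOn φ (fun c hc => hφ c (hM1 c hc)) fun c hc c' hc' e => ?_
    refine hM2 c hc c' hc' fun x hx => ?_
    rw [hφ' c (hM1 c hc) x hx, hφ' c' (hM1 c' hc') x hx, e]
  have := Nat.lt_pow_self (n := j + S0.card + 1) hl.one_lt
  omega

theorem exists_zl (hE : RC E) (h : ZD l T T2 ξ) (k : ℕ) :
    ∃ c, Eig l T T2 ξ k c ∧ (∃ u ∈ T2, IsUnit (c u)) ∧
      ∀ (K : ℕ) (hK : k ≤ K), ∃ c' : Gal(E/F) → ZMod (l ^ K), IsCh T2 c' ∧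
        ∀ u ∈ T2, ZMod.castHom (pow_dvd_pow l hK) (ZMod (l ^ k)) (c' u) = c u := by
  have hl : l.Prime := Fact.out
  haveI : NeZero (l ^ k) := ⟨pow_ne_zero _ hl.ne_zero⟩
  obtain ⟨S, hS⟩ := fin_ch hE T2 (l ^ k) hl
  let P : (Gal(E/F) → ZMod (l ^ k)) → ℕ → Prop := fun t j => ∃ (hj : k ≤ j)
    (c : Gal(E/F) → ZMod (l ^ j)), Eig l T T2 ξ j c ∧ (∃ u ∈ T2, IsUnit (c u)) ∧
      ∀ u ∈ T2, ZMod.castHom (pow_dvd_pow l hj) (ZMod (l ^ k)) (c u) = t u
  have h1 : ∀ j, k ≤ j → ∃ t ∈ S, P t j := by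
    intro j hj
    obtain ⟨c, he, hu⟩ := zl_unit hE h j
    obtain ⟨t, ht, htt⟩ := hS _ (he.cast hj).ch (he.cast hj).unr
    exact ⟨t, ht, hj, c, he, hu, htt⟩
  have h2 : ∃ t ∈ S, ∃ᶠ j in atTop, P t j := by
    by_contra hc
    push Not at hc
    obtain ⟨j, hj, hj'⟩ := ((eventually_ge_atTop k).and ((eventually_all_finset S).2 hc)).exists
    obtain ⟨t, ht, hP⟩ := h1 j hj
    exact hj' t ht hP
  obtain ⟨t, -, ht⟩ := h2
  obtain ⟨j0, hj0, c0, he0, ⟨u0, hu0, hun⟩, ht0⟩ := ht.exists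
  refine ⟨_, he0.cast hj0, ⟨u0, hu0, hun.map _⟩, fun K hK => ?_⟩
  obtain ⟨j, ⟨hj, c, he, -, htc⟩, hjK⟩ := (ht.and_eventually (eventually_ge_atTop K)).exists
  refine ⟨_, (he.cast hjK).ch, fun u hu => ?_⟩
  rw [ht0 u hu, ← htc u hu, ← RingHom.comp_apply, ZMod.castHom_comp]

end Vale.Agent.P024
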