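import Vale.Agent.P024.KeyA1
import Vale.Agent.P024.Zl

/-! # P024 KeyA (TASK; helper lemma names start with `keyA_` or are private)
The family of characters on the side of `G1`.  PLAN.  `T2` = the kernel of `(η0, η)` (`IsCh.ker` of `isCh_pi`, intersected), `U2 = α.pre T2` (`OpenSubgroup.ext`), `ξ` from `exists_xi` with `D i = DD F (B i)`, `c0 a` from `exists_zl`, `c a g = c0 a (α.f g)`.
`IsCh.pre`, `unr_pull`, `joint_surj` for `T2 ≤ T` with `toZModPow k ∘ ξ` (units map to units) and `hT.2`; `OH.conj`; for the last clause `u' = g⁻¹ u g ∈ U2 ⊓ DD (A i)` (`DD_conj`), `Eig.kill` (`q i ≠ l`). -/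

namespace Vale.Agent.P024

open NumberField IsDedekindDomain Filter
open scoped Pointwise Topology

set_option linter.unusedSectionVars false

variable {F E : Type*} [Field F] [NumberField F] [Field E] [CharZero E] [Algebra F E] [IsGalois F E]

theorem keyA (hE : RC E) {α : OH G1 Gal(E/F)} {T : OpenSubgroup Gal(E/F)} (hT : α.Onto T)
    (h8 : ∀ t ∈ T, ∀ z : E, z ^ 8 = 1 → t z = z)
    {r : ℕ} (q : Fin r → ℕ) (hq : ∀ j, (q j).Prime) (hi : Function.Injective q) (h2 : ∀ j, q j ≠ 2)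
    {η0 : Gal(E/F) → ZMod 2} {η : ∀ i, Gal(E/F) → ZMod (q i)} (c0 : IsCh T η0)
    (c1 : ∀ i, IsCh T (η i)) (h0 : ∃ h ∈ T, η0 h ≠ 0) (B : Fin r → ValuationSubring E)
    (hB : ∀ j, Ov (B j) (q j)) (hη : ∀ i, ∃ h ∈ T, h ∈ DD F (B i) ∧ η i h ≠ 0)
    (A : Fin r → ValuationSubring Qb)
    (hD : ∀ j, ∀ g ∈ α.V, g ∈ DD ℚ (A j) → α.f g ∈ DD F (B j)) {l : ℕ} [Fact l.Prime] (hl2 : l ≠ 2)
    (hl : ∀ i, q i ∣ l - 1) {U2 : OpenSubgroup G1}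
    (hU2 : ∀ g, g ∈ U2 ↔ g ∈ α.V ∧ η0 (α.f g) = 0 ∧ ∀ i, η i (α.f g) = 0) :
    ∃ (ι : Type) (_ : Fintype ι), Fintype.card ι = ∏ i, (q i - 1) ∧
      ∀ k : ℕ, ∃ c : ι → G1 → ZMod (l ^ k), (∀ a, IsCh U2 (c a)) ∧ (∀ a, Unr l U2 (c a)) ∧
        (∀ y : ι → ZMod (l ^ k), ∃ g ∈ U2, ∀ a, c a g = y a) ∧
        (∀ a, ∀ δ ∈ α.V, η0 (α.f δ) ≠ 0 → (∀ i, η i (α.f δ) = 0) →
          ∀ u ∈ U2, c a (δ * u * δ⁻¹) = -c a u) ∧
        ∀ a i, ∀ g ∈ α.V, ∀ u ∈ U2, u ∈ DD ℚ (g • A i) → c a u = 0 := by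
  have hlp : l.Prime := Fact.out
  let T2 : OpenSubgroup Gal(E/F) := c0.ker ⊓ (isCh_pi c1).ker
  have hT2 : ∀ g, g ∈ T2 ↔ g ∈ T ∧ η0 g = 0 ∧ ∀ i, η i g = 0 := fun g =>
    ⟨fun h => ⟨h.1.1, h.1.2, fun i => congrFun h.2.2 i⟩,
      fun h => ⟨⟨h.1, h.2.1⟩, h.1, funext h.2.2⟩⟩
  obtain rfl : U2 = α.pre T2 := by
    ext g
    rw [hU2, OH.mem_pre, hT2]
    exact ⟨fun h => ⟨h.1, hT.1 g h.1, h.2⟩, fun h => ⟨h.1, h.2.2⟩⟩
  obtain ⟨ι, _, ξ, hc, hZ, hd, hm, hδ⟩ :=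
    exists_xi h8 q hq hi h2 c0 c1 h0 hT2 (fun i => DD F (B i)) hη hl2 hl
  refine ⟨ι, inferInstance, hc, fun k => ?_⟩
  choose c hE1 hE2 hE3 using fun a => exists_zl hE (hZ a) k
  have hN : NormIn T2 T := fun g hg n hn => ⟨c0.normIn g hg n hn.1, (isCh_pi c1).normIn g hg n hn.2⟩
  refine ⟨fun a g => c a (α.f g), fun a => (hE1 a).ch.pre α, fun a => unr_pull α (hE3 a),
    fun y => ?_, fun a δ hδV h1 h3 u hu => ?_, fun a i g hg u hu huD => ?_⟩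
  · obtain ⟨u, hu, h1⟩ := joint_surj T2.toSubgroup T.toSubgroup hN c
      (fun a g => PadicInt.toZModPow k (ξ a g)) (fun a => (hE1 a).ch.add) (fun a => (hE1 a).eig)
      hE2 (fun a a' h => by
        obtain ⟨g, hg, hu⟩ := hd a a' h
        exact ⟨g, hg, by rw [← map_sub]; exact hu.map _⟩) y
    obtain ⟨g, hg, rfl⟩ := hT.2 u ((hT2 u).1 hu).1
    exact ⟨g, ⟨hg, hu⟩, h1⟩
  · beta_reduce
    rw [α.conj hδV hu.1, (hE1 a).eig _ (hT.1 δ hδV) _ hu.2, hm a _ (hT.1 δ hδV) h1 h3, map_neg,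
      map_one, neg_one_mul]
  · have hV : g⁻¹ * u * g ∈ α.V := α.V.mul_mem (α.V.mul_mem (α.V.inv_mem hg) hu.1) hg
    have e : g * (g⁻¹ * u * g) * g⁻¹ = u := by group
    have h1 : g⁻¹ * u * g ∈ DD ℚ (A i) := (DD_conj g).1 (by rwa [e])
    have h3 : α.f (g⁻¹ * u * g) ∈ T2 := by
      have h4 := α.conj (α.V.inv_mem hg) hu.1
      rw [inv_inv] at h4
      rw [h4]
      exact hN _ (hT.1 _ (α.V.inv_mem hg)) _ hu.2
    obtain ⟨δ, hδT, hδD, hδu⟩ := hδ a i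
    have hql : q i ≠ l := by
      have := Nat.le_of_dvd (by have := hlp.two_le; omega) (hl i)
      have := hlp.two_le
      omega
    have h5 := Eig.kill (hZ a) (hE1 a) (hq i) hql (hB i) hδT hδD hδu _ h3 (hD i _ hV h1)
    beta_reduce
    rw [← e, α.conj hg hV, (hE1 a).eig _ (hT.1 g hg) _ h3, h5, mul_zero]

end Vale.Agent.P024
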