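import Vale.Agent.P024.ZlA
import Vale.Agent.P024.Grp

/-! # P024 KeyA1 (TASK; helper lemma names start with `keyA1_` or are private)
The family of odd `l`-adic characters.  PLAN.  `ι = {a : ∀ i, ZMod (q i) // ∀ i, a i ≠ 0}` (or `∀ i, (ZMod (q i))ˣ`), `z i` from `exists_padic_root`, `ξ a g = (-1)^(η0 g).val * ∏ i, z i ^ (a i * η i g).val` (`pow_val_add`-type lemma: `pow_eq_pow_mod`, `ZMod.val_add`).
`n = 2 * ∏ q i`; `l ∤ n` since `q i ∣ l - 1`.  `exists_delta`: a power `h^(2 ∏ j ≠ i, q j)`.  `ex`: `δ0 = h^(∏ q i)` has `ξ = -1`, and `-2` is a unit.  For `a i ≠ a' i`: `z^x.val - z^y.val = z^y.val * (z^(x-y).val - 1)`. -/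

namespace Vale.Agent.P024

open NumberField IsDedekindDomain Filter
open scoped Pointwise Topology

set_option linter.unusedSectionVars false

variable {F E : Type*} [Field F] [NumberField F] [Field E] [CharZero E] [Algebra F E] [IsGalois F E]

theorem keyA1_add {R : Type*} [Monoid R] {z : R} {q : ℕ} [NeZero q] (hz : z ^ q = 1)
    (x y : ZMod q) : z ^ (x + y).val = z ^ x.val * z ^ y.val := by
  rw [ZMod.val_add, ← pow_eq_pow_mod _ hz, pow_add]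

theorem keyA1_pow {G : Type*} [Group G] [TopologicalSpace G] {U : OpenSubgroup G} {m : ℕ}
    {c : G → ZMod m} (h : IsCh U c) {g : G} (hg : g ∈ U) (n : ℕ) : c (g ^ n) = n * c g := by
  induction n with
  | zero => rw [pow_zero, h.one, Nat.cast_zero, zero_mul]
  | succ n ih =>
    rw [pow_succ, h.add _ (pow_mem hg n) _ hg, ih]
    push_cast
    ring

theorem keyA1_comm {G Q : Type*} [Group G] [TopologicalSpace G] [AddCommGroup Q]
    {U : OpenSubgroup G} {c : G → Q} (h : IsCh U c) {g k : G} (hg : g ∈ U) (hk : k ∈ U) :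
    c (g * k * g⁻¹ * k⁻¹) = 0 := by
  rw [h.add _ (mul_mem (mul_mem hg hk) (inv_mem hg)) _ (inv_mem hk),
    h.add _ (mul_mem hg hk) _ (inv_mem hg), h.add _ hg _ hk, h.inv hg, h.inv hk]
  abel

theorem keyA1_unit {l q : ℕ} [Fact l.Prime] [NeZero q] {z : ℤ_[l]}
    (hz : ∀ a : ℕ, ¬q ∣ a → IsUnit (z ^ a - 1)) {x : ZMod q} (hx : x ≠ 0) :
    IsUnit (z ^ x.val - 1) := by
  refine hz _ fun h => hx ?_
  rw [← ZMod.natCast_zmod_val x]
  exact (ZMod.natCast_eq_zero_iff _ _).2 h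

theorem exists_xi {T T2 : OpenSubgroup Gal(E/F)} (h8 : ∀ t ∈ T, ∀ z : E, z ^ 8 = 1 → t z = z)
    {r : ℕ} (q : Fin r → ℕ) (hq : ∀ j, (q j).Prime) (hi : Function.Injective q) (h2 : ∀ j, q j ≠ 2)
    {η0 : Gal(E/F) → ZMod 2} {η : ∀ i, Gal(E/F) → ZMod (q i)} (c0 : IsCh T η0)
    (c1 : ∀ i, IsCh T (η i)) (h0 : ∃ h ∈ T, η0 h ≠ 0)
    (hT2 : ∀ g, g ∈ T2 ↔ g ∈ T ∧ η0 g = 0 ∧ ∀ i, η i g = 0) (D : Fin r → Subgroup Gal(E/F))
    (hη : ∀ i, ∃ h ∈ T, h ∈ D i ∧ η i h ≠ 0) {l : ℕ} [Fact l.Prime] (hl2 : l ≠ 2)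
    (hl : ∀ i, q i ∣ l - 1) :
    ∃ (ι : Type) (_ : Fintype ι) (ξ : ι → Gal(E/F) → ℤ_[l]), Fintype.card ι = ∏ i, (q i - 1) ∧
      (∀ a, ZD l T T2 (ξ a)) ∧ (∀ a a', a ≠ a' → ∃ g ∈ T, IsUnit (ξ a g - ξ a' g)) ∧
      (∀ a, ∀ δ ∈ T, η0 δ ≠ 0 → (∀ i, η i δ = 0) → ξ a δ = -1) ∧
      ∀ a i, ∃ δ ∈ T, δ ∈ D i ∧ IsUnit (ξ a δ - 1) := by
  classical
  have hlp : l.Prime := Fact.out
  have hF : ∀ i, Fact (q i).Prime := fun i => ⟨hq i⟩
  choose z hz1 hz2 using fun i => exists_padic_root (l := l) (hq i) (hl i)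
  have n2 : ¬ 2 ∣ ∏ i, q i := by
    intro h
    obtain ⟨j, -, hj⟩ := (Nat.prime_two.prime.dvd_finsetProd_iff _).1 h
    exact h2 j ((Nat.prime_dvd_prime_iff_eq Nat.prime_two (hq j)).1 hj).symm
  obtain ⟨δ0, hδ0, hδ0', hδ0''⟩ : ∃ δ ∈ T, η0 δ ≠ 0 ∧ ∀ i, η i δ = 0 := by
    obtain ⟨h, hT, hh⟩ := h0
    refine ⟨h ^ ∏ i, q i, pow_mem hT _, ?_, fun i => ?_⟩
    · rw [keyA1_pow c0 hT]
      exact mul_ne_zero (fun e => n2 ((ZMod.natCast_eq_zero_iff _ _).1 e)) hh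
    · rw [keyA1_pow (c1 i) hT,
        (ZMod.natCast_eq_zero_iff _ _).2 (Finset.dvd_prod_of_mem q (Finset.mem_univ i)), zero_mul]
  have hδ : ∀ i, ∃ δ ∈ T, δ ∈ D i ∧ η0 δ = 0 ∧ η i δ ≠ 0 ∧ ∀ j, j ≠ i → η j δ = 0 := by
    intro i
    obtain ⟨h, hT, hD, hh⟩ := hη i
    refine ⟨h ^ (2 * ∏ j ∈ Finset.univ.erase i, q j), pow_mem hT _, pow_mem hD _, ?_, ?_,
      fun j hj => ?_⟩
    · rw [keyA1_pow c0 hT, (ZMod.natCast_eq_zero_iff _ _).2 (dvd_mul_right _ _), zero_mul]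
    · rw [keyA1_pow (c1 i) hT]
      refine mul_ne_zero (fun e => ?_) hh
      rcases (Nat.Prime.dvd_mul (hq i)).1 ((ZMod.natCast_eq_zero_iff _ _).1 e) with e | e
      · exact h2 i ((Nat.prime_dvd_prime_iff_eq (hq i) Nat.prime_two).1 e)
      · obtain ⟨j, hj, hj'⟩ := ((hq i).prime.dvd_finsetProd_iff _).1 e
        exact Finset.ne_of_mem_erase hj (hi ((Nat.prime_dvd_prime_iff_eq (hq i) (hq j)).1 hj')).symm
    · rw [keyA1_pow (c1 j) hT, (ZMod.natCast_eq_zero_iff _ _).2 (Dvd.dvd.mul_left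
        (Finset.dvd_prod_of_mem q (Finset.mem_erase.2 ⟨hj, Finset.mem_univ j⟩)) 2), zero_mul]
  let ξ : (∀ i, (ZMod (q i))ˣ) → Gal(E/F) → ℤ_[l] := fun a g =>
    (-1) ^ (η0 g).val * ∏ i, z i ^ ((a i : ZMod (q i)) * η i g).val
  have e1 : ∀ a, ∀ δ, η0 δ ≠ 0 → (∀ i, η i δ = 0) → ξ a δ = -1 := by
    intro a δ h1 h3
    have h4 : ∀ x : ZMod 2, x ≠ 0 → x.val = 1 := by decide
    simp [ξ, h3, h4 _ h1]
  have e2 : ∀ a i δ, η0 δ = 0 → (∀ j, j ≠ i → η j δ = 0) →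
      ξ a δ = z i ^ ((a i : ZMod (q i)) * η i δ).val := by
    intro a i δ h1 h3
    simp only [ξ, h1, ZMod.val_zero, pow_zero, one_mul]
    refine Finset.prod_eq_single i (fun j _ hj => ?_) (by simp)
    rw [h3 j hj, mul_zero, ZMod.val_zero, pow_zero]
  refine ⟨∀ i, (ZMod (q i))ˣ, inferInstance, ξ, ?_, fun a => ?_, fun a a' hne => ?_,
    fun a δ _ => e1 a δ, fun a i => ?_⟩
  · rw [Fintype.card_pi]
    exact Finset.prod_congr rfl fun i _ => ZMod.card_units (q i)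
  · refine ⟨hl2, fun g hg => ((hT2 g).1 hg).1, fun g hg h hh => (hT2 _).2
      ⟨mul_mem (mul_mem (mul_mem hg hh) (inv_mem hg)) (inv_mem hh), keyA1_comm c0 hg hh,
        fun i => keyA1_comm (c1 i) hg hh⟩, ⟨2 * ∏ i, q i, fun e => ?_, fun g hg => (hT2 _).2
      ⟨pow_mem hg _, ?_, fun i => ?_⟩⟩, fun g hg h hh => ?_, fun h hh => ?_, ⟨δ0, hδ0, ?_⟩, h8⟩
    · rcases (Nat.Prime.dvd_mul hlp).1 e with e | e
      · exact hl2 ((Nat.prime_dvd_prime_iff_eq hlp Nat.prime_two).1 e)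
      · obtain ⟨j, -, hj⟩ := (hlp.prime.dvd_finsetProd_iff _).1 e
        have h3 := Nat.le_of_dvd (by have := hlp.two_le; omega) (hj.trans (hl j))
        have := hlp.two_le
        omega
    · rw [keyA1_pow c0 hg, (ZMod.natCast_eq_zero_iff _ _).2 (dvd_mul_right _ _), zero_mul]
    · rw [keyA1_pow (c1 i) hg, (ZMod.natCast_eq_zero_iff _ _).2 (Dvd.dvd.mul_left
        (Finset.dvd_prod_of_mem q (Finset.mem_univ i)) 2), zero_mul]
    · simp only [ξ]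
      rw [c0.add g hg h hh, keyA1_add (by norm_num), mul_mul_mul_comm, ← Finset.prod_mul_distrib]
      congr 1
      refine Finset.prod_congr rfl fun i _ => ?_
      rw [(c1 i).add g hg h hh, mul_add, keyA1_add (hz1 i)]
    · obtain ⟨-, h1, h3⟩ := (hT2 h).1 hh
      simp [ξ, h1, h3]
    · rw [e1 a δ0 hδ0' hδ0'']
      have h1 : IsUnit ((2 : ℕ) : ℤ_[l]) := by
        rw [PadicInt.isUnit_iff, PadicInt.norm_natCast_eq_one_iff]
        exact (Nat.coprime_primes hlp Nat.prime_two).2 hl2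
      have h3 : (-1 - 1 : ℤ_[l]) = -((2 : ℕ) : ℤ_[l]) := by
        push_cast
        ring
      rw [h3]
      exact h1.neg
  · obtain ⟨i, hi'⟩ := Function.ne_iff.1 hne
    obtain ⟨δ, hT, -, h1, h3, h4⟩ := hδ i
    refine ⟨δ, hT, ?_⟩
    rw [e2 a i δ h1 h4, e2 a' i δ h1 h4]
    have h5 : (a i : ZMod (q i)) * η i δ =
        (a' i : ZMod (q i)) * η i δ + ((a i : ZMod (q i)) - a' i) * η i δ := by ring
    rw [h5, keyA1_add (hz1 i), ← mul_sub_one]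
    refine IsUnit.mul (IsUnit.pow _ (IsUnit.of_pow_eq_one (hz1 i) (hq i).ne_zero))
      (keyA1_unit (hz2 i) (mul_ne_zero (sub_ne_zero.2 fun e => hi' (Units.ext e)) h3))
  · obtain ⟨δ, hT, hD, h1, h3, h4⟩ := hδ i
    refine ⟨δ, hT, hD, ?_⟩
    rw [e2 a i δ h1 h4]
    exact keyA1_unit (hz2 i) (mul_ne_zero (a i).ne_zero h3)

end Vale.Agent.P024
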