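import Vale.Agent.P024.Dv
import Vale.Agent.P024.Tow

/-! # P024 KeyC1 (TASK; helper lemma names start with `keyC1_` or are private)
Preparations for the transcendence step.  PLAN.  `exists_pi`: `P` under `A` (`exists_lies`), not above `l` (`prime_mem_unique`), `π` from `exists_gen`; `Lies.nonunits_iff`.  If `A'.valuation π ≠ 1` then `A' ≠ ⊤`, `A'` is over a prime `p'` (`exists_ov`), `p' ≠ l` (`Cg.val_eq_one`, `cg_map`), the prime `P'` under `A'` has `ordP P' π ≠ 0`, so `P' = P`; `trans_U`.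
The two valuation formulas: `DD_val`; `val_smul_eq_one` for `g⁻¹ • A`.
`exists_sec`: `n = card Δ`, `δ0 = h^n`, `s ν = u^(n+1)` with `η u = ν` (`card_nsmul_eq_zero`, `IsCh.pow`); the index: `IsCh.relIndex_ker` for the pair `(η0, η)`, `Subgroup.relIndex_mul_index`.
`exists_tau`: `τ` enumerates `Quotient.out` of `G1 ⧸ U'`; `s = (τ a)⁻¹ τ a'`, `u' = τ a' u (τ a')⁻¹`. -/

namespace Vale.Agent.P024

open NumberField IsDedekindDomain Filter
open scoped Pointwise Topology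

set_option linter.unusedSectionVars false

theorem exists_pi {l : ℕ} [Fact l.Prime] (U : OpenSubgroup G1) {A : ValuationSubring Qb} {p : ℕ}
    (hp : p.Prime) (hl : p ≠ l) (hA : Ov A p) :
    ∃ π : Fx U, Cg l 1 π 1 ∧ A.valuation (π : Qb) < 1 ∧
      (∀ A' : ValuationSubring Qb, A'.valuation (π : Qb) ≠ 1 → ∃ u ∈ U, A' = u • A) ∧
      (∀ g : G1, (∃ x ∈ DD ℚ A, ∃ u ∈ U, g = x * u) → A.valuation (g π) = A.valuation (π : Qb)) ∧
      (∀ g : G1, (¬∃ x ∈ DD ℚ A, ∃ u ∈ U, g = x * u) → A.valuation (g π) = 1) ∧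
      ∀ (A' : ValuationSubring Qb) (p' : ℕ) (g : G1), p'.Prime → p' ≠ p → Ov A' p' →
        A'.valuation (g π) = 1 := by
  have hlp : l.Prime := Fact.out
  obtain ⟨P, hP⟩ := exists_lies (M := Fx U) hA hp (inc U)
  have hPl : (l : 𝓞 (Fx U)) ∉ P.asIdeal := fun h => hl (prime_mem_unique hp hlp (hP.ov.1 hA) h)
  obtain ⟨n, π, hn, hc, hd⟩ := exists_gen (l := l) ⟨P, hPl⟩
  have h0 : π ≠ 0 := hc.ne_zero one_pos
  have h0' : (π : Qb) ≠ 0 := fun h => h0 (Subtype.ext h)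
  have key : ∀ A' : ValuationSubring Qb, A'.valuation (π : Qb) ≠ 1 → ∃ u ∈ U, A' = u • A := by
    intro A' hA'
    have ht : A' ≠ ⊤ := by
      rintro rfl
      refine hA' (le_antisymm ((ValuationSubring.valuation_le_one_iff _ _).2 trivial) ?_)
      have h1 := (ValuationSubring.valuation_le_one_iff ⊤ (π : Qb)⁻¹).2 trivial
      rwa [map_inv₀, inv_le_one₀ (zero_lt_iff.2 ((map_ne_zero _).2 h0'))] at h1
    obtain ⟨p', hp', hov⟩ := exists_ov ht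
    have hpl : p' ≠ l := by
      rintro rfl
      have h1 : Cg p' 1 (inc U π) 1 := by
        rw [← map_one (inc U), cg_map]
        exact hc
      exact hA' (h1.val_eq_one one_pos hov).2
    obtain ⟨P', hP'⟩ := exists_lies (M := Fx U) hov hp' (inc U)
    have hPl' : (l : 𝓞 (Fx U)) ∉ P'.asIdeal := fun h =>
      hpl (prime_mem_unique hp' hlp (hP'.ov.1 hov) h)
    have h2 : ordP P' π ≠ 0 := fun h => hA' ((hP'.val_eq_one h0).2 h)
    have h3 : P' = P := by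
      by_contra hne
      have h4 : (⟨P', hPl'⟩ : Pr (Fx U) l) ≠ ⟨P, hPl⟩ := fun e => hne (congrArg Subtype.val e)
      apply h2
      have h5 := dv_apply l π ⟨P', hPl'⟩
      rw [hd, Finsupp.smul_apply, Finsupp.single_eq_of_ne h4, smul_zero] at h5
      exact h5.symm
    subst h3
    obtain ⟨g, hg, e⟩ := trans_U hP hP'
    exact ⟨g, hg, e.symm⟩
  have key2 : ∀ (A' : ValuationSubring Qb) (g : G1), A'.valuation (g π) ≠ 1 →
      ∃ u ∈ U, g⁻¹ • A' = u • A := by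
    intro A' g h
    refine key _ fun h1 => h ((val_smul_eq_one g⁻¹).1 ?_)
    rwa [← AlgEquiv.mul_apply, inv_mul_cancel]
  refine ⟨π, hc, ?_, key, ?_, fun g hg => ?_, fun A' p' g hp' hne hov => ?_⟩
  · rw [← ValuationSubring.mem_nonunits_iff]
    refine (hP.nonunits_iff h0).2 ?_
    have h5 := dv_apply l π ⟨P, hPl⟩
    rw [hd, Finsupp.smul_apply, Finsupp.single_eq_same] at h5
    rw [← h5]
    simpa using hn
  · rintro _ ⟨x, hx, u, hu, rfl⟩
    rw [AlgEquiv.mul_apply, mem_Fx.1 π.2 u hu, DD_val hx]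
  · by_contra h
    obtain ⟨u, hu, e⟩ := key2 A g h
    refine hg ⟨g * u, ?_, u⁻¹, U.inv_mem hu, by group⟩
    rw [mem_DD, mul_smul, ← e, smul_inv_smul]
  · by_contra h
    obtain ⟨u, hu, e⟩ := key2 A' g h
    exact hne ((e ▸ hov.smul g⁻¹ : Ov (u • A) p').unique (hA.smul u) hp' hp)

theorem exists_sec {U' U2 : OpenSubgroup G1} {Δ : Type*} [AddCommGroup Δ] [Fintype Δ]
    (hΔ : Odd (Fintype.card Δ)) {η0 : G1 → ZMod 2} {η : G1 → Δ} (c0 : IsCh U' η0) (c1 : IsCh U' η)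
    (h0 : ∃ h ∈ U', η0 h ≠ 0) (hη : ∀ ν, ∃ u ∈ U', η u = ν)
    (hU2 : ∀ g, g ∈ U2 ↔ g ∈ U' ∧ η0 g = 0 ∧ η g = 0) :
    (∃ δ0 ∈ U', η0 δ0 = 1 ∧ η δ0 = 0) ∧
      (∃ s : Δ → G1, ∀ ν, s ν ∈ U' ∧ η0 (s ν) = 0 ∧ η (s ν) = ν) ∧
      U2.toSubgroup.index = 2 * (U'.toSubgroup.index * Fintype.card Δ) := by
  obtain ⟨h, hh, h1⟩ := h0
  have h2 : η0 h = 1 := by
    revert h1
    generalize η0 h = z
    revert z
    decide
  have hδ : ∃ δ0 ∈ U', η0 δ0 = 1 ∧ η δ0 = 0 := by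
    refine ⟨h ^ Fintype.card Δ, U'.toSubgroup.pow_mem hh _, ?_, ?_⟩
    · rw [c0.pow hh, h2, nsmul_one, (ZMod.natCast_eq_one_iff_odd).2 hΔ]
    · rw [c1.pow hh, card_nsmul_eq_zero]
  have hs : ∀ ν, ∃ s ∈ U', η0 s = 0 ∧ η s = ν := by
    intro ν
    obtain ⟨u, hu, e⟩ := hη ν
    refine ⟨u ^ (Fintype.card Δ + 1), U'.toSubgroup.pow_mem hu _, ?_, ?_⟩
    · rw [c0.pow hu, nsmul_eq_mul, (ZMod.natCast_eq_zero_iff_even).2 hΔ.add_one, zero_mul]
    · rw [c1.pow hu, succ_nsmul, card_nsmul_eq_zero, zero_add, e]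
  refine ⟨hδ, ?_, ?_⟩
  · choose s hs1 hs2 hs3 using hs
    exact ⟨s, fun ν => ⟨hs1 ν, hs2 ν, hs3 ν⟩⟩
  · have c2 : IsCh U' fun g => (η0 g, η g) :=
      IsCh.of_le (fun g hg k hk => by rw [c0.add g hg k hk, c1.add g hg k hk]; rfl)
        (c0.ker ⊓ c1.ker) fun g _ hk => Prod.ext hk.1.2 hk.2.2
    have e : U2.toSubgroup = c2.ker.toSubgroup := by
      ext g
      exact (hU2 g).trans (and_congr Iff.rfl Prod.mk_eq_zero.symm)
    have h3 := c2.relIndex_ker (by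
      rintro ⟨a, ν⟩
      obtain ⟨δ, hδ1, hδ2, hδ3⟩ := hδ
      obtain ⟨s, hs1, hs2, hs3⟩ := hs ν
      refine ⟨δ ^ a.val * s, U'.mul_mem (U'.toSubgroup.pow_mem hδ1 _) hs1, ?_⟩
      rw [c0.add _ (U'.toSubgroup.pow_mem hδ1 _) s hs1, c1.add _ (U'.toSubgroup.pow_mem hδ1 _) s hs1,
        c0.pow hδ1, c1.pow hδ1, hδ2, hδ3, hs2, hs3]
      simp)
    rw [e, ← Subgroup.relIndex_mul_index (H := c2.ker.toSubgroup) (K := U'.toSubgroup) c2.ker_le,
      h3, Nat.card_prod, Nat.card_zmod, Nat.card_eq_fintype_card]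
    ring

theorem exists_tau (U' : OpenSubgroup G1) (η0 : G1 → ZMod 2)
    (h : ∀ s, s ∉ U' → ∃ u ∈ core U', η0 (s * u * s⁻¹) ≠ η0 u) :
    ∃ τ : Fin U'.toSubgroup.index → G1, ∀ a a', a ≠ a' →
      ∃ u ∈ (core U').toSubgroup, η0 ((τ a)⁻¹ * u * τ a) ≠ η0 ((τ a')⁻¹ * u * τ a') := by
  have : Finite (G1 ⧸ U'.toSubgroup) := Subgroup.quotient_finite_of_isOpen _ U'.isOpen
  let e : G1 ⧸ U'.toSubgroup ≃ Fin U'.toSubgroup.index := Finite.equivFinOfCardEq rfl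
  refine ⟨fun a => (e.symm a).out, fun a a' hne => ?_⟩
  obtain ⟨u, hu, h1⟩ := h (((e.symm a).out)⁻¹ * (e.symm a').out) fun hm => hne (by
    have h2 := QuotientGroup.eq.2 (show _ ∈ U'.toSubgroup from hm)
    rw [QuotientGroup.out_eq', QuotientGroup.out_eq'] at h2
    exact e.symm.injective h2)
  refine ⟨(e.symm a').out * u * ((e.symm a').out)⁻¹, (core U').isNormal'.conj_mem u hu _, ?_⟩
  have e1 : ∀ x y : G1, x⁻¹ * (y * u * y⁻¹) * x = x⁻¹ * y * u * (x⁻¹ * y)⁻¹ := fun x y => by group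
  have e2 : ∀ y : G1, y⁻¹ * (y * u * y⁻¹) * y = u := fun y => by group
  rw [e1, e2]
  exact h1

end Vale.Agent.P024
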