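import Vale.Agent.P024.Ch

/-! # P024 KumH (TASK; helper lemma names start with `kumH_` or are private)
Kummer theory for one character.  PLAN.  `N = ker c`, `s` a finite set of representatives of `U ⧸ N` (one `g_a ∈ U` for each value `a` of `c`).  For `w ∈ Fx N` put `y = ∑ a, z^(-a) g_a w`.  The restrictions of the `g_a` to `Fx N` are different monoid homomorphisms (`mem_of_fix`),
so `y ≠ 0` for some `w` (`linearIndependent_monoidHom`).  For `g ∈ U`, `g g_a ∈ g_{a + c g} N`; reindex.  It is convenient to use the homomorphism `a ↦ z ^ a.val` (`IsPrimitiveRoot.zmodEquivZPowers`, or `pow_mod_orderOf`, `ZMod.val_add`). -/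

namespace Vale.Agent.P024

open NumberField IsDedekindDomain Filter
open scoped Pointwise Topology

set_option linter.unusedSectionVars false

variable {F E : Type*} [Field F] [NumberField F] [Field E] [CharZero E] [Algebra F E] [IsGalois F E]

theorem pow_val_add {z : E} {m : ℕ} [NeZero m] (hz : z ^ m = 1) (a b : ZMod m) :
    z ^ (a + b).val = z ^ a.val * z ^ b.val := by
  rw [ZMod.val_add, ← pow_eq_pow_mod _ hz, pow_add]

theorem pow_val_mul {z : E} {m : ℕ} [NeZero m] (hz : z ^ m = 1) (a b : ZMod m) :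
    z ^ (a * b).val = (z ^ a.val) ^ b.val := by
  rw [ZMod.val_mul, ← pow_eq_pow_mod _ hz, pow_mul]

theorem pow_val_natCast {z : E} {m : ℕ} [NeZero m] (hz : z ^ m = 1) (a : ℕ) :
    z ^ (a : ZMod m).val = z ^ a := by
  rw [ZMod.val_natCast, ← pow_eq_pow_mod _ hz]

theorem pow_val_inj {z : E} {m : ℕ} [NeZero m] (hz : IsPrimitiveRoot z m) {a b : ZMod m}
    (h : z ^ a.val = z ^ b.val) : a = b := by
  exact ZMod.val_injective m (hz.pow_inj (ZMod.val_lt a) (ZMod.val_lt b) h)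

theorem kummer {U : OpenSubgroup Gal(E/F)} {m : ℕ} [NeZero m] {z : E} (hz : IsPrimitiveRoot z m)
    (hU : ∀ g ∈ U, g z = z) {c : Gal(E/F) → ZMod m} (hc : IsCh U c) :
    ∃ y : E, y ≠ 0 ∧ ∀ g ∈ U, g y = z ^ (c g).val * y := by
  classical
  have hz0 : z ≠ 0 := hz.ne_zero (NeZero.ne m)
  choose r r1 r2 using fun a : {a : ZMod m // ∃ g ∈ U, c g = a} => a.2
  have key : ∀ g ∈ U, ∀ h ∈ U, c g = c h → ∀ w ∈ Fx hc.ker, g w = h w := fun g hg h hh e w hw => by
    have h1 := mem_Fx.1 hw (h⁻¹ * g) ⟨U.mul_mem (U.inv_mem hh) hg, by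
      rw [hc.add _ (U.inv_mem hh) _ hg, hc.inv hh, e, neg_add_cancel]⟩
    conv_rhs => rw [← h1, ← AlgEquiv.mul_apply, mul_inv_cancel_left]
  let φ : {a : ZMod m // ∃ g ∈ U, c g = a} → (Fx hc.ker →* E) := fun a =>
    ((r a : E →+* E).comp (inc hc.ker) : Fx hc.ker →+* E)
  have hφ : ∀ a (w : Fx hc.ker), φ a w = r a w := fun _ _ => rfl
  have inj : Function.Injective φ := fun a b e => by
    have h1 : (r b)⁻¹ * r a ∈ hc.ker := mem_of_fix fun x hx => by
      have h2 : r a x = r b x := by rw [← hφ a ⟨x, hx⟩, e, hφ]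
      rw [AlgEquiv.mul_apply, h2, ← AlgEquiv.mul_apply, inv_mul_cancel, AlgEquiv.one_apply]
    exact Subtype.ext (by rw [← r2, ← r2, hc.eq_of_inv_mul (r1 b) (r1 a) h1.2])
  have li := Fintype.linearIndependent_iff.1
    ((linearIndependent_monoidHom (Fx hc.ker) E).comp φ inj) fun a => z ^ (-a.1).val
  have ex : ∃ w : Fx hc.ker, ∑ a, z ^ (-a.1).val * r a w ≠ 0 := by
    by_contra hn
    push Not at hn
    refine pow_ne_zero _ hz0 (li (funext fun w => ?_) ⟨0, 1, U.one_mem, hc.one⟩)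
    rw [Finset.sum_apply]
    exact hn w
  obtain ⟨w, hw⟩ := ex
  refine ⟨_, hw, fun g hg => ?_⟩
  let e : {a : ZMod m // ∃ g ∈ U, c g = a} → {a : ZMod m // ∃ g ∈ U, c g = a} := fun a =>
    ⟨c g + a, g * r a, U.mul_mem hg (r1 a), by rw [hc.add _ hg _ (r1 a), r2]⟩
  have he : Function.Bijective e := Finite.injective_iff_bijective.1 fun a b h =>
    Subtype.ext (add_left_cancel (congrArg Subtype.val h))
  rw [map_sum, ← he.sum_comp fun a => z ^ (-a.1).val * r a w, Finset.mul_sum]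
  refine Finset.sum_congr rfl fun a _ => ?_
  rw [map_mul, map_pow, hU g hg, ← AlgEquiv.mul_apply, ← mul_assoc, ← pow_val_add hz.pow_eq_one,
    key _ (U.mul_mem hg (r1 a)) _ (r1 (e a)) (by rw [hc.add _ hg _ (r1 a), r2, r2]) _ w.2]
  congr 3
  simp [e]

/-- the Kummer character of an element -/
theorem exists_kum_ch {U : OpenSubgroup Gal(E/F)} {m : ℕ} [NeZero m] {z : E}
    (hz : IsPrimitiveRoot z m) (hU : ∀ g ∈ U, g z = z) {y : E} (hy : y ≠ 0)
    (hf : ∀ g ∈ U, g (y ^ m) = y ^ m) :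
    ∃ c : Gal(E/F) → ZMod m, IsCh U c ∧ ∀ g ∈ U, g y = z ^ (c g).val * y := by
  have h1 : ∀ g ∈ U, ∃ a : ZMod m, g y = z ^ a.val * y := fun g hg => by
    obtain ⟨i, -, hi⟩ := hz.eq_pow_of_pow_eq_one (ξ := g y / y) (by
      rw [div_pow, ← map_pow, hf g hg, div_self (pow_ne_zero _ hy)])
    exact ⟨i, by rw [pow_val_natCast hz.pow_eq_one, hi, div_mul_cancel₀ _ hy]⟩
  choose! c hc using h1
  refine ⟨c, IsCh.of_le (fun g hg h hh => pow_val_inj hz (mul_right_cancel₀ hy ?_)) (stab y)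
    fun g hg hs => pow_val_inj hz (mul_right_cancel₀ hy ?_), hc⟩
  · rw [← hc _ (U.mul_mem hg hh), AlgEquiv.mul_apply, hc h hh, map_mul, map_pow, hU g hg, hc g hg,
      pow_val_add hz.pow_eq_one]
    ring
  · rw [← hc g hg, mem_stab.1 hs, ZMod.val_zero, pow_zero, one_mul]

end Vale.Agent.P024
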