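import Vale.Agent.P024.Defs

/-! # P024 Lat (TASK; helper lemma names start with `lat_` or are private)
A lattice count.  PLAN.  `f = γ - u`, `ν = ∑ i < s, u^(s-1-i) γ^i`, `f ν = ν f = 1 - u^s` on `A` (`Commute.geom_sum₂`-type identity, or telescoping).  Pass to `Ab = A ⧸ torsion` (or work with the subgroups below directly).
`Fr` = subgroup generated by the `γ^i e`, free of rank `s`; `A' = {a ∈ A | ∃ k ≠ 0, k • a ∈ Fr}`; `Fr.relIndex A' ≠ 0` (finitely generated torsion quotient), `Tor` = torsion subgroup of `A'`.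
`(f Fr).relIndex Fr = u^s - 1`: the map `∑ a_i γ^i e ↦ ∑ a_i u^i mod (u^s - 1)` is onto with kernel `f Fr`.  With `hex_map`-type counting (`Fr ≤ A'`, and `ker f ≤ Tor` finite): `(f A').relIndex A' = card (ker f ⊓ A') * (u^s - 1)`;
more simply work modulo torsion, where `f` is injective and `(f A' ⊔ Tor).relIndex A' = u^s - 1`.  Let `Y = {a ∈ A' | N0 • ν a ∈ l^K • A}`.  If `N0 • ν a = l^K • b` then `w N0 • a + f b` is torsion, `b ∈ A'`, so `w N0 • a ∈ f A' ⊔ Tor`.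
Hence `Y ⧸ (f A' ⊔ Tor)` is killed by `w N0`, has order prime to `l`, and `l^K` divides `Y.relIndex A'` (note `f A' ≤ Y`; replace `Y` by `Y ⊔ Tor`).  Take coset representatives. -/

namespace Vale.Agent.P024

open NumberField IsDedekindDomain Filter
open scoped Pointwise Topology

theorem lat_fin {X : Type*} [AddCommGroup X] (H B : AddSubgroup X) (hB : B.FG)
    (h : ∀ x ∈ B, ∃ k : ℕ, k ≠ 0 ∧ k • x ∈ H) : H.relIndex B ≠ 0 := by
  have : AddGroup.FG B := (AddGroup.fg_iff_addSubgroup_fg B).2 hB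
  have : Finite (B ⧸ H.addSubgroupOf B) := by
    apply AddCommGroup.finite_of_fg_isAddTorsion
    intro q
    obtain ⟨x, rfl⟩ := QuotientAddGroup.mk_surjective q
    obtain ⟨k, hk, hx⟩ := h x x.2
    rw [isOfFinAddOrder_iff_nsmul_eq_zero]
    refine ⟨k, Nat.pos_of_ne_zero hk, ?_⟩
    rw [← QuotientAddGroup.mk_nsmul, QuotientAddGroup.eq_zero_iff]
    exact hx
  exact AddSubgroup.index_ne_zero_of_finite

theorem lat_fg {X : Type*} [AddCommGroup X] {A B : AddSubgroup X} (hA : A.FG) (h : B ≤ A) :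
    B.FG := by
  have h1 : (AddSubgroup.toIntSubmodule A).FG := by
    rw [Submodule.fg_iff_addSubgroup_fg]; exact hA
  have h2 : (AddSubgroup.toIntSubmodule B).FG :=
    Submodule.FG.of_le h1 h
  rw [Submodule.fg_iff_addSubgroup_fg] at h2
  exact h2

theorem lat_idx {X : Type*} [AddCommGroup X] (f : X →+ X) (hf : Function.Injective f)
    {F B : AddSubgroup X} (hFB : F ≤ B) (hF : F.map f ≤ F) (hB : B.map f ≤ B)
    (h0 : F.relIndex B ≠ 0) : (B.map f).relIndex B = (F.map f).relIndex F := by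
  have h1 := AddSubgroup.relIndex_mul_relIndex (F.map f) (B.map f) B
    (AddSubgroup.map_mono hFB) hB
  have h2 := AddSubgroup.relIndex_mul_relIndex (F.map f) F B hF hFB
  rw [AddSubgroup.relIndex_map_map_of_injective _ _ hf, ← h2, mul_comm] at h1
  exact Nat.eq_of_mul_eq_mul_right (Nat.pos_of_ne_zero h0) h1

theorem lat_cop {X : Type*} [AddCommGroup X] {H Y : AddSubgroup X} {m l : ℕ} (hl : l.Prime)
    (hm : m.Coprime l) (h0 : H.relIndex Y ≠ 0) (h : ∀ y ∈ Y, m • y ∈ H) :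
    (H.relIndex Y).Coprime l := by
  have : Fact l.Prime := ⟨hl⟩
  have : Finite (Y ⧸ H.addSubgroupOf Y) := Nat.finite_of_card_ne_zero h0
  rw [Nat.coprime_comm, hl.coprime_iff_not_dvd]
  intro hd
  obtain ⟨q, hq⟩ := exists_prime_addOrderOf_dvd_card' (G := Y ⧸ H.addSubgroupOf Y) l hd
  have hmq : m • q = 0 := by
    obtain ⟨x, rfl⟩ := QuotientAddGroup.mk_surjective q
    rw [← QuotientAddGroup.mk_nsmul, QuotientAddGroup.eq_zero_iff]
    exact h x x.2
  have := addOrderOf_dvd_of_nsmul_eq_zero hmq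
  rw [hq] at this
  exact (hl.coprime_iff_not_dvd.1 hm.symm) this

theorem lat_reps {X : Type*} [AddCommGroup X] {Y B : AddSubgroup X} (h0 : Y.relIndex B ≠ 0) :
    ∃ S : Finset X, S.card = Y.relIndex B ∧ (∀ a ∈ S, a ∈ B) ∧
      ∀ a ∈ S, ∀ a' ∈ S, a - a' ∈ Y → a = a' := by
  classical
  have : Finite (B ⧸ Y.addSubgroupOf B) := Nat.finite_of_card_ne_zero h0
  have := Fintype.ofFinite (B ⧸ Y.addSubgroupOf B)
  let g : (B ⧸ Y.addSubgroupOf B) → X := fun q => (Quotient.out q : B)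
  have hg : ∀ q q', g q - g q' ∈ Y → q = q' := by
    intro q q' h
    rw [← QuotientAddGroup.out_eq' q, ← QuotientAddGroup.out_eq' q', QuotientAddGroup.eq_iff_sub_mem]
    exact h
  have hinj : Function.Injective g := fun q q' h => hg q q' (by rw [h, sub_self]; exact Y.zero_mem)
  refine ⟨Finset.univ.image g, ?_, ?_, ?_⟩
  · rw [Finset.card_image_of_injective _ hinj, Finset.card_univ, ← Nat.card_eq_fintype_card]
    rfl
  · intro a ha
    obtain ⟨q, -, rfl⟩ := Finset.mem_image.1 ha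
    exact (Quotient.out q : B).2
  · intro a ha a' ha' h
    obtain ⟨q, -, rfl⟩ := Finset.mem_image.1 ha
    obtain ⟨q', -, rfl⟩ := Finset.mem_image.1 ha'
    rw [hg q q' h]

theorem lat_dvd {X : Type*} [AddCommGroup X] (γ : AddMonoid.End X) {s : ℕ} (hs : 0 < s)
    (hγ : γ ^ s = 1) (e : X) (Φ : (Fin s → ℤ) →+ X)
    (hΦ : ∀ a, Φ a = ∑ i, a i • (γ ^ (i : ℕ)) e) (hinj : Function.Injective Φ) {n u : ℕ}
    (hn : (u : ZMod n) ^ s = 1) (f : X →+ X) (hf : ∀ x, f x = u • x - γ x) :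
    Φ.range.map f ≤ Φ.range ∧ n ∣ (Φ.range.map f).relIndex Φ.range := by
  classical
  let ψ : (Fin s → ℤ) →+ ZMod n :=
    { toFun := fun a => ∑ i, a i • (u : ZMod n) ^ (i : ℕ)
      map_zero' := by simp
      map_add' := by intro a b; simp [add_mul, Finset.sum_add_distrib] }
  have hψ : ∀ a, ψ a = ∑ i, a i • (u : ZMod n) ^ (i : ℕ) := fun a => rfl
  let σ : Fin s → Fin s := fun i => ⟨(i + 1) % s, Nat.mod_lt _ hs⟩
  have hΦ1 : ∀ j : Fin s, Φ (Pi.single j 1) = (γ ^ (j : ℕ)) e := by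
    intro j
    rw [hΦ, Finset.sum_eq_single j]
    · simp
    · intro i _ hi; simp [hi]
    · simp
  have hψ1 : ∀ j : Fin s, ψ (Pi.single j 1) = (u : ZMod n) ^ (j : ℕ) := by
    intro j
    rw [hψ, Finset.sum_eq_single j]
    · simp
    · intro i _ hi; simp [hi]
    · simp
  have key : ∀ a, ∃ c, ψ c = 0 ∧ f (Φ a) = Φ c := by
    intro a
    refine ⟨u • a - ∑ i, a i • (Pi.single (σ i) 1 : Fin s → ℤ), ?_, ?_⟩
    · rw [map_sub, map_nsmul, map_sum, hψ a, Finset.smul_sum, sub_eq_zero]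
      refine Finset.sum_congr rfl fun i _ => ?_
      rw [map_zsmul, hψ1, smul_comm]
      congr 1
      show _ = (u : ZMod n) ^ ((i + 1) % s)
      rw [← pow_eq_pow_mod _ hn, pow_succ', nsmul_eq_mul]
    · rw [hf, map_sub, map_nsmul, map_sum]
      congr 1
      rw [hΦ a, map_sum]
      refine Finset.sum_congr rfl fun i _ => ?_
      rw [map_zsmul, map_zsmul, hΦ1]
      congr 1
      show _ = (γ ^ ((i + 1) % s)) e
      rw [← pow_eq_pow_mod _ hγ, pow_succ']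
      rfl
  have hle : Φ.range.map f ≤ ψ.ker.map Φ := by
    rintro _ ⟨_, ⟨a, rfl⟩, rfl⟩
    obtain ⟨c, hc, h⟩ := key a
    exact ⟨c, hc, h.symm⟩
  have hsurj : Function.Surjective ψ := by
    intro z
    obtain ⟨k, rfl⟩ := ZMod.intCast_surjective z
    refine ⟨k • Pi.single ⟨0, hs⟩ 1, ?_⟩
    rw [map_zsmul, hψ1]
    simp
  refine ⟨hle.trans (AddSubgroup.map_le_range _ _), ?_⟩
  have h1 := AddSubgroup.relIndex_dvd_of_le_left Φ.range hle
  have h2 : (ψ.ker.map Φ).relIndex Φ.range = n := by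
    rw [AddMonoidHom.range_eq_map, AddSubgroup.relIndex_map_map_of_injective _ _ hinj,
      AddSubgroup.relIndex_top_right, AddSubgroup.index_ker,
      AddMonoidHom.range_eq_top.2 hsurj, AddSubgroup.card_top, Nat.card_zmod]
  rwa [h2] at h1

theorem lat_tf {X : Type*} [AddCommGroup X] (htf : ∀ (k : ℕ) (x : X), k ≠ 0 → k • x = 0 → x = 0)
    (A : AddSubgroup X) (hA : A.FG)
    (γ : AddMonoid.End X) (hγA : ∀ a ∈ A, γ a ∈ A) {s : ℕ} (hs : 0 < s) (hγ : γ ^ s = 1)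
    {e : X} (he : e ∈ A)
    (hind : ∀ a : Fin s → ℤ, ∑ i, a i • (γ ^ (i : ℕ)) e = 0 → a = 0)
    {l K u w N0 : ℕ} (hl : l.Prime) (hu : u ^ s = l ^ K * w + 1) (hw : w.Coprime l)
    (hN : N0.Coprime l) :
    ∃ S : Finset X, l ^ K ≤ S.card ∧ (∀ a ∈ S, a ∈ A) ∧ ∀ a ∈ S, ∀ a' ∈ S, ∀ b ∈ A,
      N0 • (∑ i ∈ Finset.range s, u ^ (s - 1 - i) • (γ ^ i) (a - a')) = l ^ K • b → a = a' := by
  classical
  have hw0 : w ≠ 0 := by
    rintro rfl
    exact hl.one_lt.ne' (Nat.coprime_zero_left _ |>.1 hw)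
  have hN0 : N0 ≠ 0 := by
    rintro rfl
    exact hl.one_lt.ne' (Nat.coprime_zero_left _ |>.1 hN)
  have hlK : l ^ K ≠ 0 := pow_ne_zero _ hl.ne_zero
  set ν : AddMonoid.End X := ∑ i ∈ Finset.range s, γ ^ i * (u : AddMonoid.End X) ^ (s - 1 - i)
    with hν
  set f : AddMonoid.End X := (u : AddMonoid.End X) - γ with hfdef
  have hc : Commute γ (u : AddMonoid.End X) := Nat.commute_cast _ _
  have hus : (u : AddMonoid.End X) ^ s - γ ^ s = ((l ^ K * w : ℕ) : AddMonoid.End X) := by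
    rw [← Nat.cast_pow, hu, hγ, Nat.cast_add, Nat.cast_one, add_sub_cancel_right]
  have hfν : f * ν = ((l ^ K * w : ℕ) : AddMonoid.End X) := by
    rw [← hus]; exact hc.mul_neg_geom_sum₂ s
  have hνf : ν * f = ((l ^ K * w : ℕ) : AddMonoid.End X) := by
    rw [← hus, ← neg_sub (γ ^ s), ← hc.geom_sum₂_mul s, ← mul_neg, neg_sub]
  have hfν' : ∀ x, f (ν x) = (l ^ K * w) • x := fun x => by
    rw [← AddMonoid.End.natCast_apply, ← hfν]; rfl
  have hνf' : ∀ x, ν (f x) = (l ^ K * w) • x := fun x => by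
    rw [← AddMonoid.End.natCast_apply, ← hνf]; rfl
  have hf : ∀ x, f x = u • x - γ x := fun x => by
    rw [← AddMonoid.End.natCast_apply]; rfl
  have hνx : ∀ x, ν x = ∑ i ∈ Finset.range s, u ^ (s - 1 - i) • (γ ^ i) x := fun x => by
    rw [hν]
    refine (AddMonoidHom.finsetSum_apply _ _ _).trans (Finset.sum_congr rfl fun i _ => ?_)
    rw [← map_nsmul, ← AddMonoid.End.natCast_apply, Nat.cast_pow]
    rfl
  have hfinj : Function.Injective f := by
    rw [injective_iff_map_eq_zero]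
    intro x hx
    apply htf _ x (mul_ne_zero hlK hw0)
    rw [← hνf', hx, map_zero]
  -- stability under powers of `γ`
  have hst : ∀ C : AddSubgroup X, (∀ x ∈ C, γ x ∈ C) → ∀ i : ℕ, ∀ x ∈ C, (γ ^ i) x ∈ C := by
    intro C hC i
    induction i with
    | zero => intro x hx; exact hx
    | succ i ih => intro x hx; rw [pow_succ']; exact hC _ (ih x hx)
  have hνst : ∀ C : AddSubgroup X, (∀ x ∈ C, γ x ∈ C) → ∀ x ∈ C, ν x ∈ C := by
    intro C hC x hx
    rw [hνx]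
    exact C.sum_mem fun i _ => C.nsmul_mem (hst C hC i x hx) _
  let Φ : (Fin s → ℤ) →+ X :=
    { toFun := fun a => ∑ i, a i • (γ ^ (i : ℕ)) e
      map_zero' := by simp
      map_add' := by intro a b; simp [add_smul, Finset.sum_add_distrib] }
  have hΦ : ∀ a, Φ a = ∑ i, a i • (γ ^ (i : ℕ)) e := fun a => rfl
  have hΦinj : Function.Injective Φ := (injective_iff_map_eq_zero Φ).2 hind
  have hn : (u : ZMod (l ^ K)) ^ s = 1 := by
    rw [← Nat.cast_pow, hu, Nat.cast_add, Nat.cast_mul, ZMod.natCast_self, zero_mul, zero_add,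
      Nat.cast_one]
  obtain ⟨hFf, hdvd⟩ := lat_dvd γ hs hγ e Φ hΦ hΦinj hn f hf
  set F := Φ.range with hF
  have hFA : F ≤ A := by
    rintro _ ⟨a, rfl⟩
    rw [hΦ]
    exact A.sum_mem fun i _ => A.zsmul_mem (hst A hγA i e he) _
  have hFγ : ∀ x ∈ F, γ x ∈ F := by
    intro x hx
    have : γ x = u • x - f x := by rw [hf]; abel
    rw [this]
    exact F.sub_mem (F.nsmul_mem hx _) (hFf ⟨x, hx, rfl⟩)
  let B : AddSubgroup X :=
    { carrier := {a | a ∈ A ∧ ∃ k : ℕ, k ≠ 0 ∧ k • a ∈ F}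
      zero_mem' := ⟨A.zero_mem, 1, one_ne_zero, by simp⟩
      add_mem' := by
        rintro a b ⟨ha, k, hk, hka⟩ ⟨hb, j, hj, hjb⟩
        refine ⟨A.add_mem ha hb, k * j, mul_ne_zero hk hj, ?_⟩
        rw [smul_add]
        refine F.add_mem ?_ ?_
        · rw [mul_comm, mul_smul]; exact F.nsmul_mem hka _
        · rw [mul_smul]; exact F.nsmul_mem hjb _
      neg_mem' := by
        rintro a ⟨ha, k, hk, hka⟩
        exact ⟨A.neg_mem ha, k, hk, by rw [smul_neg]; exact F.neg_mem hka⟩ }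
  have hBm : ∀ a, a ∈ B ↔ a ∈ A ∧ ∃ k : ℕ, k ≠ 0 ∧ k • a ∈ F := fun a => Iff.rfl
  have hBA : B ≤ A := fun a ha => ha.1
  have hFB : F ≤ B := fun a ha => ⟨hFA ha, 1, one_ne_zero, by simpa using ha⟩
  have hBγ : ∀ x ∈ B, γ x ∈ B := by
    rintro x ⟨hx, k, hk, hkx⟩
    exact ⟨hγA x hx, k, hk, by rw [← map_nsmul]; exact hFγ _ hkx⟩
  have hBsat : ∀ (k : ℕ) (x : X), k ≠ 0 → x ∈ A → k • x ∈ B → x ∈ B := by
    rintro k x hk hx ⟨-, j, hj, hjx⟩
    exact ⟨hx, j * k, mul_ne_zero hj hk, by rw [mul_smul]; exact hjx⟩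
  have hBfg : B.FG := lat_fg hA hBA
  have hBf : B.map f ≤ B := by
    rintro _ ⟨x, hx, rfl⟩
    show f x ∈ B
    rw [hf]
    exact B.sub_mem (B.nsmul_mem hx _) (hBγ x hx)
  have hidx := lat_idx f hfinj hFB hFf hBf (lat_fin F B hBfg fun x hx => hx.2)
  have h0 : (B.map f).relIndex B ≠ 0 := lat_fin _ B hBfg fun x hx =>
    ⟨l ^ K * w, mul_ne_zero hlK hw0, ν x, hνst B hBγ x hx, hfν' x⟩
  let Y : AddSubgroup X :=
    { carrier := {a | a ∈ B ∧ ∃ b ∈ A, N0 • ν a = l ^ K • b}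
      zero_mem' := ⟨B.zero_mem, 0, A.zero_mem, by simp⟩
      add_mem' := by
        rintro a b ⟨ha, c, hc, hac⟩ ⟨hb, d, hd, hbd⟩
        exact ⟨B.add_mem ha hb, c + d, A.add_mem hc hd, by rw [map_add, smul_add, hac, hbd, smul_add]⟩
      neg_mem' := by
        rintro a ⟨ha, c, hc, hac⟩
        exact ⟨B.neg_mem ha, -c, A.neg_mem hc, by rw [map_neg, smul_neg, hac, smul_neg]⟩ }
  have hYB : Y ≤ B := fun a ha => ha.1
  have hfY : B.map f ≤ Y := by
    rintro _ ⟨x, hx, rfl⟩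
    refine ⟨hBf ⟨x, hx, rfl⟩, (w * N0) • x, A.nsmul_mem (hBA hx) _, ?_⟩
    show N0 • ν (f x) = _
    rw [hνf', smul_smul, smul_smul]
    congr 1
    ring
  have hmul := AddSubgroup.relIndex_mul_relIndex (B.map f) Y B hfY hYB
  have h1 : (B.map f).relIndex Y ≠ 0 := fun h => h0 (by rw [← hmul, h, zero_mul])
  have h2 : Y.relIndex B ≠ 0 := fun h => h0 (by rw [← hmul, h, mul_zero])
  have hcop : ((B.map f).relIndex Y).Coprime l := by
    refine lat_cop hl (Nat.Coprime.mul_left hw hN) h1 ?_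
    rintro y ⟨hy, b, hb, hyb⟩
    refine ⟨b, hBsat _ b hlK hb ?_, ?_⟩
    · rw [← hyb]; exact B.nsmul_mem (hνst B hBγ y hy) _
    · show f b = _
      rw [← sub_eq_zero]
      apply htf _ _ hlK
      rw [smul_sub, ← map_nsmul, ← hyb, map_nsmul, hfν', smul_smul, smul_smul, sub_eq_zero]
      congr 1
      ring
  have hd : l ^ K ∣ Y.relIndex B := by
    rw [← hidx, ← hmul] at hdvd
    exact (Nat.Coprime.pow_left K hcop.symm).dvd_of_dvd_mul_left hdvd
  obtain ⟨S, hS, hSB, hSY⟩ := lat_reps h2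
  refine ⟨S, ?_, fun a ha => hBA (hSB a ha), fun a ha a' ha' b hb h => hSY a ha a' ha' ?_⟩
  · rw [hS]; exact Nat.le_of_dvd (Nat.pos_of_ne_zero h2) hd
  · exact ⟨B.sub_mem (hSB a ha) (hSB a' ha'), b, hb, by rw [hνx]; exact h⟩

theorem lat_count {X : Type*} [AddCommGroup X] (A : AddSubgroup X) (hA : A.FG)
    (γ : AddMonoid.End X) (hγA : ∀ a ∈ A, γ a ∈ A) {s : ℕ} (hs : 0 < s) (hγ : γ ^ s = 1)
    {e : X} (he : e ∈ A)
    (hind : ∀ a : Fin s → ℤ, IsOfFinAddOrder (∑ i, a i • (γ ^ (i : ℕ)) e) → a = 0)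
    {l K u w N0 : ℕ} (hl : l.Prime) (hu : u ^ s = l ^ K * w + 1) (hw : w.Coprime l)
    (hN : N0.Coprime l) :
    ∃ S : Finset X, l ^ K ≤ S.card ∧ (∀ a ∈ S, a ∈ A) ∧ ∀ a ∈ S, ∀ a' ∈ S, ∀ b ∈ A,
      N0 • (∑ i ∈ Finset.range s, u ^ (s - 1 - i) • (γ ^ i) (a - a')) = l ^ K • b → a = a' := by
  classical
  let T := AddCommGroup.torsion X
  let π : X →+ X ⧸ T := QuotientAddGroup.mk' T
  have hT : T ≤ T.comap γ := fun x hx => AddMonoidHom.isOfFinAddOrder γ hx
  let γb : AddMonoid.End (X ⧸ T) := QuotientAddGroup.map T T γ hT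
  have hγb : ∀ (n : ℕ) (x : X), (γb ^ n) (π x) = π ((γ ^ n) x) := by
    intro n
    induction n with
    | zero => intro x; rfl
    | succ n ih =>
      intro x
      rw [pow_succ, pow_succ]
      exact ih (γ x)
  have hz : ∀ x, π x = 0 ↔ IsOfFinAddOrder x := fun x => QuotientAddGroup.eq_zero_iff x
  have htf : ∀ (k : ℕ) (x : X ⧸ T), k ≠ 0 → k • x = 0 → x = 0 := by
    intro k x hk h
    obtain ⟨y, rfl⟩ := QuotientAddGroup.mk'_surjective T x
    have h' : π (k • y) = 0 := by rw [map_nsmul]; exact h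
    exact (hz y).2 (((hz _).1 h').of_nsmul hk)
  have hAb : (A.map π).FG := by
    obtain ⟨t, ht⟩ := hA
    exact ⟨t.image π, by rw [← ht, AddMonoidHom.map_closure, Finset.coe_image]⟩
  obtain ⟨S, hS, hSA, hSi⟩ := lat_tf htf (A.map π) hAb γb
    (by rintro _ ⟨a, ha, rfl⟩; exact ⟨γ a, hγA a ha, rfl⟩) hs
    (by
      refine AddMonoidHom.ext fun x => ?_
      obtain ⟨y, rfl⟩ := QuotientAddGroup.mk'_surjective T x
      exact (hγb s y).trans (by rw [hγ]; rfl))
    (e := π e) ⟨e, he, rfl⟩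
    (fun a ha => hind a ((hz _).1 (by
      rw [map_sum, ← ha]
      exact Finset.sum_congr rfl fun i _ => by rw [map_zsmul, hγb])))
    hl hu hw hN
  choose! g hgA hg using hSA
  have hinj : Set.InjOn g S := fun x hx y hy h => by rw [← hg x hx, ← hg y hy, h]
  refine ⟨S.image g, ?_, ?_, ?_⟩
  · rw [Finset.card_image_of_injOn hinj]; exact hS
  · intro a ha
    obtain ⟨x, hx, rfl⟩ := Finset.mem_image.1 ha
    exact hgA x hx
  · intro a ha a' ha' b hb h
    obtain ⟨x, hx, rfl⟩ := Finset.mem_image.1 ha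
    obtain ⟨y, hy, rfl⟩ := Finset.mem_image.1 ha'
    congr 1
    refine hSi x hx y hy (π b) ⟨b, hb, rfl⟩ ?_
    rw [← map_nsmul π, ← h, map_nsmul, map_sum]
    congr 1
    refine Finset.sum_congr rfl fun i _ => ?_
    rw [map_nsmul, ← hγb, map_sub π, hg x hx, hg y hy]

end Vale.Agent.P024
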