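import Vale.Agent.P024.Uq

/-! # P024 Li (TASK; helper lemma names start with `li_` or are private)
The semilocal ring `LI E l` and congruences.  PLAN.  Ring calculus: `Cg l m x y ↔ ∃ t ∈ LI E l, x = y + l^m t`.
`inv_mem_LI`: `x = 1 + l t`, `s t` integral, `y = s x = s + l (s t)` is integral and nonzero (otherwise the rational `s / l` is integral); the constant coefficient `a` of the minimal polynomial of `y` over `ℤ` is, up to sign, a product of conjugates `s + l t'`, so `a ≡ ± s^d` modulo `l` times an algebraic integer and `l ∤ a`;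
`a / y` is integral.  Alternatively prove `mem_LI_iff` first: if `x ∉ LI`, the ideal `{r ∈ 𝓞 | r x ∈ 𝓞}` of the ring of all integers of `E` contains no natural number prime to `l`, so together with `l` it lies in a maximal ideal `P` (lying over in the integral extension `ℤ → 𝓞`: if `r + l t = 1` take norms, or use `Ideal.exists_ideal_over_prime_of_isIntegral`);
inside the number field `ℚ(x)` the localisation at `P` is a valuation ring not containing `x`; extend it to `E` by `LocalSubring.exists_le_valuationSubring` (domination keeps `x⁻¹` a nonunit).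
`exists_res`: for `x ∈ LI`, `s x = y` integral, `s s' ≡ 1 mod l^R`, `r x = mk (s' y)`; the card is `Ideal.absNorm_span_singleton` with `Algebra.norm_algebraMap` / `Ideal.absNorm_span_natCast`.
`exists_pow_cg`: the unit group of the finite ring `𝓞 M ⧸ (l^m)`; take `t` = its cardinality. -/

namespace Vale.Agent.P024

open NumberField IsDedekindDomain Filter
open scoped Pointwise Topology

variable {E : Type*} [Field E] [CharZero E] {l : ℕ} [Fact l.Prime] {m : ℕ} {x y z : E}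

private theorem li_ne (k : ℕ) : (l : E) ^ k ≠ 0 :=
  pow_ne_zero _ (Nat.cast_ne_zero.2 (Fact.out : l.Prime).ne_zero)

private theorem li_l (k : ℕ) : (l : E) ^ k ∈ LI E l := pow_mem (natCast_mem _ l) k

theorem cg_iff : Cg l m x y ↔ ∃ t ∈ LI E l, x = y + (l : E) ^ m * t := by
  have h := li_ne (E := E) (l := l) m
  refine ⟨fun h' => ⟨_, h', by field_simp; ring⟩, ?_⟩
  rintro ⟨t, ht, rfl⟩
  rwa [Cg, add_sub_cancel_left, mul_div_cancel_left₀ _ h]

theorem mem_LI_of_isIntegral (h : IsIntegral ℤ x) : x ∈ LI E l := by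
  exact ⟨1, Nat.coprime_one_left l, by simpa using h⟩

theorem inv_natCast_mem_LI {s : ℕ} (h : s.Coprime l) : (s : E)⁻¹ ∈ LI E l := by
  refine ⟨s, h, ?_⟩
  by_cases h0 : (s : E) = 0
  · simpa [h0] using isIntegral_zero
  · simpa [mul_inv_cancel₀ h0] using isIntegral_one

theorem cg_refl (x : E) : Cg l m x x := by
  simp [Cg]

theorem Cg.symm (h : Cg l m x y) : Cg l m y x := by
  have := neg_mem h
  rwa [← neg_div, neg_sub] at this

theorem Cg.trans (h : Cg l m x y) (h' : Cg l m y z) : Cg l m x z := by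
  have := add_mem h h'
  rwa [← add_div, sub_add_sub_cancel] at this

theorem Cg.add {x' y' : E} (h : Cg l m x y) (h' : Cg l m x' y') : Cg l m (x + x') (y + y') := by
  have := add_mem h h'
  rwa [← add_div, ← add_sub_add_comm] at this

theorem Cg.sub {x' y' : E} (h : Cg l m x y) (h' : Cg l m x' y') : Cg l m (x - x') (y - y') := by
  have := sub_mem h h'
  rwa [← sub_div, sub_sub_sub_comm] at this

theorem Cg.mem (h : Cg l m x y) (hy : y ∈ LI E l) : x ∈ LI E l := by
  obtain ⟨t, ht, rfl⟩ := cg_iff.1 h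
  exact add_mem hy (mul_mem (li_l m) ht)

theorem Cg.mul_left (h : Cg l m x y) (hz : z ∈ LI E l) : Cg l m (z * x) (z * y) := by
  have := mul_mem hz h
  rwa [← mul_div_assoc, mul_sub] at this

theorem Cg.mul {x' y' : E} (h : Cg l m x y) (h' : Cg l m x' y') (hy : y ∈ LI E l)
    (hy' : y' ∈ LI E l) : Cg l m (x * x') (y * y') := by
  refine (h'.mul_left (h.mem hy)).trans ?_
  simpa only [mul_comm y'] using h.mul_left hy'

theorem Cg.pow (h : Cg l m x y) (hy : y ∈ LI E l) (k : ℕ) : Cg l m (x ^ k) (y ^ k) := by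
  induction k with
  | zero => simpa using cg_refl 1
  | succ k ih => simpa only [pow_succ] using ih.mul h (pow_mem hy k) hy

theorem cg_prod {ι : Type*} (s : Finset ι) {f g : ι → E} (h : ∀ i ∈ s, Cg l m (f i) (g i))
    (hg : ∀ i ∈ s, g i ∈ LI E l) : Cg l m (∏ i ∈ s, f i) (∏ i ∈ s, g i) := by
  classical
  induction s using Finset.induction_on with
  | empty => simpa using cg_refl 1
  | insert a s ha ih =>
    rw [Finset.prod_insert ha, Finset.prod_insert ha]
    exact (h a (by simp)).mul (ih (fun i hi => h i (by simp [hi])) fun i hi => hg i (by simp [hi]))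
      (hg a (by simp)) (prod_mem fun i hi => hg i (by simp [hi]))

theorem cg_sum {ι : Type*} (s : Finset ι) {f g : ι → E} (h : ∀ i ∈ s, Cg l m (f i) (g i)) :
    Cg l m (∑ i ∈ s, f i) (∑ i ∈ s, g i) := by
  have := sum_mem h
  rwa [← Finset.sum_div, Finset.sum_sub_distrib] at this

theorem Cg.mono {m' : ℕ} (h : Cg l m x y) (hm : m' ≤ m) : Cg l m' x y := by
  obtain ⟨t, ht, rfl⟩ := cg_iff.1 h
  obtain ⟨k, rfl⟩ := Nat.exists_eq_add_of_le hm
  exact cg_iff.2 ⟨_, mul_mem (li_l k) ht, by rw [pow_add, mul_assoc]⟩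

theorem cg_zero_iff : Cg l m x y ↔ Cg l m (x - y) 0 := by
  rw [Cg, Cg, sub_zero]

theorem Cg.mul_zero {m' : ℕ} (h : Cg l m x 0) (h' : Cg l m' y 0) : Cg l (m + m') (x * y) 0 := by
  obtain ⟨t, ht, rfl⟩ := cg_iff.1 h
  obtain ⟨t', ht', rfl⟩ := cg_iff.1 h'
  exact cg_iff.2 ⟨_, mul_mem ht ht', by ring⟩

theorem Cg.pow_l (h : Cg l m x 1) (hm : 0 < m) : Cg l (m + 1) (x ^ l) 1 := by
  rw [cg_zero_iff, ← mul_geom_sum]
  refine (cg_zero_iff.1 h).mul_zero ((cg_sum _ fun i _ =>
    (h.mono hm).pow (one_mem _) i).trans (cg_iff.2 ⟨1, one_mem _, by simp⟩))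

theorem Cg.pow_l_pow (h : Cg l m x 1) (hm : 0 < m) (k : ℕ) : Cg l (m + k) (x ^ l ^ k) 1 := by
  induction k with
  | zero => simpa using h
  | succ k ih =>
    rw [pow_succ, pow_mul]
    exact ih.pow_l (by omega)

theorem map_mem_LI {E' : Type*} [Field E'] (σ : E →+* E') : σ x ∈ LI E' l ↔ x ∈ LI E l := by
  refine exists_congr fun s => and_congr_right fun _ => ?_
  rw [← map_natCast σ, ← map_mul]
  exact isIntegral_algHom_iff σ.toIntAlgHom σ.injective

theorem cg_map {E' : Type*} [Field E'] (σ : E →+* E') : Cg l m (σ x) (σ y) ↔ Cg l m x y := by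
  rw [Cg, Cg, ← map_mem_LI σ, map_div₀, map_sub, map_pow, map_natCast]

private theorem li_unit (h : Cg l m x 1) (hm : 0 < m) :
    ∃ s : ℕ, s.Coprime l ∧ ∃ r, IsIntegral ℤ r ∧ (s : E) = r * x := by
  have hl : l.Prime := Fact.out
  obtain ⟨t, ⟨s, hs, ht⟩, rfl⟩ := cg_iff.1 (h.mono hm)
  let y : integralClosure ℤ E := s + l * ⟨_, ht⟩
  by_cases hc : (Ideal.span {y}).comap (algebraMap ℤ _) ≤ Ideal.span {(l : ℤ)}
  · have := (Ideal.span_singleton_prime (Int.natCast_ne_zero.2 hl.ne_zero)).2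
      (Nat.prime_iff_prime_int.1 hl)
    obtain ⟨Q, h1, -, h2⟩ := Ideal.exists_ideal_over_prime_of_isIntegral _ _ hc
    have h3 : (l : ℤ) ∈ Q.comap (algebraMap ℤ _) := h2 ▸ Ideal.mem_span_singleton_self _
    rw [Ideal.mem_comap, map_natCast] at h3
    have h4 : (s : ℤ) ∈ Q.comap (algebraMap ℤ _) := by
      rw [Ideal.mem_comap, map_natCast]
      exact (Q.add_mem_iff_left (Q.mul_mem_right _ h3)).1 (h1 (Ideal.mem_span_singleton_self y))
    rw [h2, Ideal.mem_span_singleton, Int.natCast_dvd_natCast] at h4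
    exact absurd h4 (hl.coprime_iff_not_dvd.1 hs.symm)
  · obtain ⟨a, h1, h2⟩ := SetLike.not_le_iff_exists.1 hc
    have h3 : (a.natAbs : ℤ) ∈ (Ideal.span {y}).comap (algebraMap ℤ _) :=
      Ideal.mem_of_dvd _ (Int.dvd_natAbs.2 dvd_rfl) h1
    rw [Ideal.mem_comap, map_natCast, Ideal.mem_span_singleton'] at h3
    obtain ⟨r, hr⟩ := h3
    rw [Ideal.mem_span_singleton, Int.natCast_dvd] at h2
    refine ⟨a.natAbs, (hl.coprime_iff_not_dvd.2 h2).symm, r * s,
      IsIntegral.mul r.2 (isIntegral_natCast s), ?_⟩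
    have h4 := congrArg Subtype.val hr
    simp only [y] at h4
    push_cast at h4
    rw [← h4]
    ring

private theorem li_s {s : ℕ} (h : s.Coprime l) : (s : E) ≠ 0 := by
  rw [Nat.cast_ne_zero]
  rintro rfl
  exact (Fact.out : l.Prime).ne_one (by simpa using h)

theorem not_cg_zero_one (hm : 0 < m) : ¬Cg l m (0 : E) 1 := by
  intro h
  obtain ⟨s, hs, r, -, hr⟩ := li_unit h hm
  exact li_s hs (hr.trans (MulZeroClass.mul_zero r))

theorem Cg.ne_zero (h : Cg l m x 1) (hm : 0 < m) : x ≠ 0 := by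
  rintro rfl
  exact not_cg_zero_one hm h

theorem inv_mem_LI (h : Cg l m x 1) (hm : 0 < m) : x⁻¹ ∈ LI E l := by
  obtain ⟨s, hs, r, h1, hr⟩ := li_unit h hm
  exact ⟨s, hs, by rwa [hr, mul_inv_cancel_right₀ (h.ne_zero hm)]⟩

theorem Cg.inv (h : Cg l m x 1) (hm : 0 < m) : Cg l m x⁻¹ 1 := by
  have := h.symm.mul_left (inv_mem_LI h hm)
  rwa [mul_one, inv_mul_cancel₀ (h.ne_zero hm)] at this

theorem mem_VV (hm : 0 < m) {u : Eˣ} : u ∈ VV E l m ↔ Cg l m (u : E) 1 := by
  exact ⟨fun h => h.1, fun h => ⟨h, by simpa using h.inv hm⟩⟩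

private theorem li_closed (h : IsIntegral (LI E l) x) : x ∈ LI E l := by
  let : Algebra (integralClosure ℤ E) (LI E l) :=
    (Subring.inclusion (S := (integralClosure ℤ E).toSubring)
      fun _ => mem_LI_of_isIntegral).toAlgebra
  have : IsScalarTower (integralClosure ℤ E) (LI E l) E := .of_algebraMap_eq fun _ => rfl
  let N : Submonoid (integralClosure ℤ E) :=
    { carrier := {r | ∃ s : ℕ, s.Coprime l ∧ (s : integralClosure ℤ E) = r}
      one_mem' := ⟨1, Nat.coprime_one_left l, Nat.cast_one⟩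
      mul_mem' := by
        rintro _ _ ⟨s, hs, rfl⟩ ⟨t, ht, rfl⟩
        exact ⟨s * t, Nat.Coprime.mul_left hs ht, Nat.cast_mul _ _⟩ }
  have : IsLocalization N (LI E l) := by
    refine ⟨⟨?_, ?_, fun {a b} hab => ⟨1, ?_⟩⟩⟩
    · rintro ⟨_, s, hs, rfl⟩
      refine .of_mul_eq_one ⟨_, inv_natCast_mem_LI hs⟩ (Subtype.ext ?_)
      simp [li_s (E := E) hs]
    · rintro ⟨z, s, hs, hz⟩
      exact ⟨(⟨_, hz⟩, ⟨_, s, hs, rfl⟩), Subtype.ext (mul_comm z s)⟩
    · have e : (a : E) = b := congrArg (fun z : LI E l => (z : E)) hab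
      rw [Subtype.ext e]
  obtain ⟨⟨_, s, hs, rfl⟩, hm⟩ := IsIntegral.exists_multiple_integral_of_isLocalization N x h
  exact ⟨s, hs, isIntegral_trans _ hm⟩

theorem mem_LI_iff [Algebra.IsAlgebraic ℚ E] :
    x ∈ LI E l ↔ ∀ A : ValuationSubring E, Ov A l → x ∈ A := by
  have hl : l.Prime := Fact.out
  constructor
  · rintro ⟨s, hs, h⟩ A hA
    have h1 := (hA.natCast_iff hl s).not.2 (hl.coprime_iff_not_dvd.1 hs.symm)
    rw [ValuationSubring.mem_nonunits_iff_or, not_or, not_not] at h1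
    rw [← inv_mul_cancel_left₀ h1.1 x]
    exact mul_mem h1.2 (mem_of_isIntegral A h)
  · intro h
    by_contra hx
    have : IsIntegrallyClosedIn (LI E l) E :=
      isIntegrallyClosedIn_iff.2 ⟨Subtype.val_injective, fun hy => ⟨⟨_, li_closed hy⟩, rfl⟩⟩
    obtain ⟨V, h1, h2⟩ := Subring.exists_le_valuationSubring_of_isIntegrallyClosedIn hx
    obtain ⟨p, hp, h3⟩ := exists_ov (A := V) fun e => h2 (e ▸ ValuationSubring.mem_top x)
    by_cases e : p = l
    · exact h2 (h V (e ▸ h3))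
    · have h4 := (Nat.coprime_primes hp hl).2 e
      exact (V.mem_nonunits_iff_or.1 h3).elim (li_s h4)
        fun h5 => h5 (h1 (inv_natCast_mem_LI h4))

theorem Cg.val_eq_one [Algebra.IsAlgebraic ℚ E] (h : Cg l m x 1) (hm : 0 < m)
    {A : ValuationSubring E} (hA : Ov A l) : x - 1 ∈ A.nonunits ∧ A.valuation x = 1 := by
  obtain ⟨t, ht, rfl⟩ := cg_iff.1 (h.mono hm)
  have h1 : A.valuation ((l : E) ^ 1 * t) < 1 := by
    rw [pow_one, map_mul]
    exact (mul_le_of_le_one_right' ((A.valuation_le_one_iff t).2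
      (mem_LI_iff.1 ht A hA))).trans_lt (A.mem_nonunits_iff.1 hA)
  exact ⟨by rwa [add_sub_cancel_left, A.mem_nonunits_iff], A.valuation.map_one_add_of_lt h1⟩

variable {M : Type*} [Field M] [NumberField M]

theorem cg_int_iff (R : ℕ) (a b : 𝓞 M) :
    Cg l R (a : M) b ↔ a - b ∈ Ideal.span {(l : 𝓞 M) ^ R} := by
  rw [cg_iff, Ideal.mem_span_singleton]
  constructor
  · rintro ⟨t, ⟨s, hs, ht⟩, e⟩
    have h1 : IsCoprime ((l : 𝓞 M) ^ R) s := (Nat.Coprime.cast hs.symm).pow_left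
    obtain ⟨y, hy⟩ : ∃ y : 𝓞 M, algebraMap _ M y = s * t := ⟨⟨_, ht⟩, rfl⟩
    refine h1.dvd_of_dvd_mul_left ⟨y, RingOfIntegers.coe_injective ?_⟩
    simp only [map_mul, map_sub, map_pow, map_natCast, hy]
    rw [show algebraMap (𝓞 M) M a = _ from e]
    ring
  · rintro ⟨c, hc⟩
    refine ⟨c, mem_LI_of_isIntegral c.isIntegral_coe, ?_⟩
    rw [sub_eq_iff_eq_add'.1 hc]
    simp

theorem exists_int_cg (R : ℕ) {a : M} (h : a ∈ LI M l) : ∃ b : 𝓞 M, Cg l R a b := by
  obtain ⟨s, hs, ha⟩ := id h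
  obtain ⟨u, v, e⟩ : IsCoprime ((l : ℤ) ^ R) s := (Nat.Coprime.cast hs.symm).pow_left
  obtain ⟨y, hy⟩ : ∃ y : 𝓞 M, algebraMap _ M y = s * a := ⟨⟨_, ha⟩, rfl⟩
  refine ⟨v * y, cg_iff.2 ⟨u * a, mul_mem (intCast_mem _ u) h, ?_⟩⟩
  have e' : (u : M) * l ^ R + v * s = 1 := by exact_mod_cast congrArg (Int.cast : ℤ → M) e
  simp only [map_mul, map_intCast, hy]
  linear_combination (-a) * e'

private theorem li_card (M : Type*) [Field M] [NumberField M] (l R : ℕ) :
    Nat.card (𝓞 M ⧸ Ideal.span {(l : 𝓞 M) ^ R}) = l ^ (R * Module.finrank ℚ M) := by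
  rw [← Submodule.cardQuot_apply, ← Ideal.absNorm_apply, ← Nat.cast_pow,
    Ideal.absNorm_span_natCast, RingOfIntegers.rank, pow_mul]

private theorem li_fin (M : Type*) [Field M] [NumberField M] (l : ℕ) [Fact l.Prime] (R : ℕ) :
    Finite (𝓞 M ⧸ Ideal.span {(l : 𝓞 M) ^ R}) :=
  Nat.finite_of_card_ne_zero (li_card M l R ▸ pow_ne_zero _ (Fact.out : l.Prime).ne_zero)

theorem exists_res (M : Type*) [Field M] [NumberField M] (l : ℕ) [Fact l.Prime] (R : ℕ) :
    ∃ r : M → Fin (l ^ (R * Module.finrank ℚ M)), ∀ a ∈ LI M l, ∀ b ∈ LI M l,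
      r a = r b → Cg l R a b := by
  classical
  have := li_fin M l R
  choose f hf using fun (a : M) (h : a ∈ LI M l) => exists_int_cg R h
  refine ⟨fun a => Finite.equivFinOfCardEq (li_card M l R)
    (if h : a ∈ LI M l then Ideal.Quotient.mk _ (f a h) else 0), fun a ha b hb e => ?_⟩
  simp only [dif_pos ha, dif_pos hb, EmbeddingLike.apply_eq_iff_eq, Ideal.Quotient.eq] at e
  exact ((hf a ha).trans ((cg_int_iff R _ _).2 e)).trans (hf b hb).symm

theorem exists_pow_cg (M : Type*) [Field M] [NumberField M] (l : ℕ) [Fact l.Prime] (m : ℕ) :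
    ∃ t : ℕ, 0 < t ∧ ∀ a : M, a ≠ 0 → a ∈ LI M l → a⁻¹ ∈ LI M l → Cg l m (a ^ t) 1 := by
  have := li_fin M l m
  refine ⟨Nat.card (𝓞 M ⧸ Ideal.span {(l : 𝓞 M) ^ m})ˣ, Nat.card_pos, fun a h0 h1 h2 => ?_⟩
  obtain ⟨b, hb⟩ := exists_int_cg m h1
  obtain ⟨c, hc⟩ := exists_int_cg m h2
  have h3 : Cg l m ((b * c : 𝓞 M) : M) ((1 : 𝓞 M) : M) := by
    simpa [mul_inv_cancel₀ h0] using hb.symm.mul hc.symm h1 h2
  rw [cg_int_iff, ← Ideal.Quotient.eq, map_mul, map_one] at h3
  have h4 := congrArg Units.val (pow_card_eq_one' (x := Units.mkOfMulEqOne _ _ h3))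
  rw [Units.val_pow_eq_pow_val, Units.val_mkOfMulEqOne, ← map_pow, Units.val_one,
    ← map_one (Ideal.Quotient.mk _), Ideal.Quotient.eq, ← cg_int_iff] at h4
  exact (hb.pow (mem_LI_of_isIntegral b.isIntegral_coe) _).trans (by simpa using h4)

/-- every element is integral at `l` after multiplication with a power of `l` -/
theorem exists_pow_mul_mem (a : M) : ∃ c : ℕ, (l : M) ^ c * a ∈ LI M l := by
  have hl : l.Prime := Fact.out
  have h : IsAlgebraic ℤ a :=
    (IsFractionRing.isAlgebraic_iff ℤ ℚ M).2 (Algebra.IsAlgebraic.isAlgebraic a)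
  obtain ⟨n, h0, hn⟩ := h.exists_integral_multiple
  obtain ⟨c, s, hs, e⟩ := Nat.exists_eq_pow_mul_and_not_dvd (Int.natAbs_ne_zero.2 h0) l hl.ne_one
  refine ⟨c, s, (hl.coprime_iff_not_dvd.2 hs).symm, ?_⟩
  have h1 := hn.smul n.sign
  rw [smul_smul, Int.sign_mul_self, e, zsmul_eq_mul] at h1
  convert h1 using 1
  push_cast
  ring

end Vale.Agent.P024
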