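import Vale.Agent.P024.Li

/-! # P024 Liou (TASK; helper lemma names start with `liou_` or are private)
Liouville inequality.  PLAN.  Choose a natural number `a` prime to `l` with all `a γ i j` integral, and a natural `C0 ≥ a` with `house (a γ i j) ≤ C0`, `C0 ≥ 1`.  With `n = card I * card J * L * B` the number `X = a^n * Σ` is integral:
each term is `p e * a^(n - d) * ∏ (a γ)^(b i * e j)`, `d = ∑ b i * e j ≤ n`; every embedding has norm `≤ (L+1)^(card J) l^h C0^n`.  `C = C0^(card I * card J)`.  `X ≡ 0 mod l^R` in `LI`, `X` integral, so `X / l^R` is integral (`cg_int_iff`),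
all its conjugates have norm `< 1`, so it is `0` (`NumberField.one_le_house_of_isIntegral`, or the norm is an integer of absolute value `< 1`: `Algebra.norm_eq_prod_embeddings`). -/

namespace Vale.Agent.P024

open NumberField IsDedekindDomain Filter
open scoped Pointwise Topology

private theorem liou_int {M : Type*} [Field M] {s n : ℕ} (h : s.Coprime n) {y : M}
    (h1 : IsIntegral ℤ ((s : M) * y)) (h2 : IsIntegral ℤ ((n : M) * y)) : IsIntegral ℤ y := by
  obtain ⟨u, v, e⟩ := Nat.isCoprime_iff_coprime.2 h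
  have e' : (u : M) * s + (v : M) * n = 1 := by exact_mod_cast congrArg (Int.cast : ℤ → M) e
  have : y = (u : M) * (s * y) + (v : M) * (n * y) := by linear_combination (-y) * e'
  rw [this]
  exact ((isIntegral_intCast u).mul h1).add ((isIntegral_intCast v).mul h2)

private theorem liou_den {M : Type*} [Field M] [NumberField M] {l : ℕ} {K : Type*} [Fintype K]
    (γ : K → M) (hγ : ∀ k, γ k ∈ LI M l) : ∃ a C : ℕ, a.Coprime l ∧ 0 < C ∧ a ≤ C ∧
      ∀ k, IsIntegral ℤ ((a : M) * γ k) ∧ ∀ σ : M →+* ℂ, ‖σ ((a : M) * γ k)‖ ≤ C := by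
  classical
  choose s hs hi using hγ
  obtain ⟨C, hC⟩ := exists_nat_ge (∑ k, house (((∏ k, s k : ℕ) : M) * γ k))
  refine ⟨∏ k, s k, C + ∏ k, s k + 1, Nat.Coprime.prod_left fun k _ => hs k, Nat.succ_pos _,
    by omega, fun k => ⟨?_, fun σ => ?_⟩⟩
  · rw [← Finset.prod_erase_mul _ _ (Finset.mem_univ k), Nat.cast_mul, mul_assoc]
    exact (isIntegral_natCast _).mul (hi k)
  · refine (norm_embedding_le_house _ σ).trans ((Finset.single_le_sum
      (f := fun k => house (((∏ k, s k : ℕ) : M) * γ k)) (fun _ _ => house_nonneg _)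
      (Finset.mem_univ k)).trans (hC.trans ?_))
    exact_mod_cast (by omega : C ≤ C + ∏ k, s k + 1)

theorem liouville {M : Type*} [Field M] [NumberField M] {l : ℕ} [Fact l.Prime] {I J : Type*}
    [Fintype I] [Fintype J] [DecidableEq J] (γ : I → J → M) (hγ : ∀ i j, γ i j ∈ LI M l) :
    ∃ C : ℕ, 0 < C ∧ ∀ (L B h R : ℕ) (p : (J → Fin (L + 1)) → ℤ) (b : I → ℕ), (∀ i, b i ≤ B) →
      (∀ e, |p e| ≤ (l : ℤ) ^ h) →
      Cg l R (∑ e, (p e : M) * ∏ j, (∏ i, γ i j ^ b i) ^ (e j : ℕ)) 0 →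
      (L + 1) ^ Fintype.card J * l ^ h * C ^ (L * B) < l ^ R →
      ∑ e, (p e : M) * ∏ j, (∏ i, γ i j ^ b i) ^ (e j : ℕ) = 0 := by
  obtain ⟨a, C, ha, hC, haC, H⟩ := liou_den (fun k : I × J => γ k.1 k.2) fun k => hγ k.1 k.2
  refine ⟨C ^ (Fintype.card I * Fintype.card J), pow_pos hC _, ?_⟩
  intro L B h R p b hb hp hcg hlt
  have hl : l.Prime := Fact.out
  have hl0 : (l : M) ^ R ≠ 0 := pow_ne_zero _ (Nat.cast_ne_zero.2 hl.ne_zero)
  have ha0 : a ≠ 0 := by
    rintro rfl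
    exact hl.ne_one ((Nat.coprime_zero_left l).1 ha)
  have hfac : ∀ (i : I) (j : J) (n : Fin (L + 1)),
      IsIntegral ℤ ((a : M) ^ (L * B) * (γ i j ^ b i) ^ (n : ℕ)) ∧
        ∀ σ : M →+* ℂ, ‖σ ((a : M) ^ (L * B) * (γ i j ^ b i) ^ (n : ℕ))‖ ≤ (C : ℝ) ^ (L * B) := by
    intro i j n
    have hle : b i * n ≤ L * B := by
      rw [mul_comm L]
      exact Nat.mul_le_mul (hb i) (Nat.lt_succ_iff.1 n.2)
    obtain ⟨d, hd⟩ := Nat.exists_eq_add_of_le hle
    have e : (a : M) ^ (L * B) * (γ i j ^ b i) ^ (n : ℕ) =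
        ((a : M) * γ i j) ^ (b i * n) * (a : M) ^ d := by
      rw [hd, ← pow_mul]
      ring
    rw [e]
    refine ⟨((H (i, j)).1.pow _).mul ((isIntegral_natCast a).pow _), fun σ => ?_⟩
    rw [map_mul, map_pow, map_pow, norm_mul, norm_pow, norm_pow, map_natCast, Complex.norm_natCast,
      hd, pow_add]
    have h1 := (H (i, j)).2 σ
    have h2 : (a : ℝ) ≤ C := by exact_mod_cast haC
    gcongr
  obtain ⟨S, hS⟩ : ∃ S, S = ∑ e, (p e : M) * ∏ j, (∏ i, γ i j ^ b i) ^ (e j : ℕ) := ⟨_, rfl⟩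
  rw [← hS] at hcg ⊢
  have hX : (∏ _j : J, ∏ _i : I, (a : M) ^ (L * B)) * S = ∑ e, (p e : M) *
      ∏ j, ∏ i, ((a : M) ^ (L * B) * (γ i j ^ b i) ^ (e j : ℕ)) := by
    rw [hS, Finset.mul_sum]
    refine Finset.sum_congr rfl fun e _ => ?_
    simp only [Finset.prod_mul_distrib, Finset.prod_pow]
    ring
  obtain ⟨N, hN⟩ : ∃ N : M, N = ∏ _j : J, ∏ _i : I, (a : M) ^ (L * B) := ⟨_, rfl⟩
  rw [← hN] at hX
  have hNi : IsIntegral ℤ N := hN ▸ IsIntegral.prod _ fun _ _ => IsIntegral.prod _ fun _ _ =>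
    (isIntegral_natCast a).pow _
  have hN0 : N ≠ 0 := hN ▸ Finset.prod_ne_zero_iff.2 fun _ _ => Finset.prod_ne_zero_iff.2
    fun _ _ => pow_ne_zero _ (Nat.cast_ne_zero.2 ha0)
  have hXi : IsIntegral ℤ (N * S) := hX ▸ IsIntegral.sum _ fun e _ =>
    (isIntegral_intCast _).mul (IsIntegral.prod _ fun j _ => IsIntegral.prod _ fun i _ =>
      (hfac i j (e j)).1)
  obtain ⟨s, hs, hsi⟩ := hcg
  have hY : IsIntegral ℤ (N * S / (l : M) ^ R) := by
    refine liou_int (hs.pow_right R) ?_ ?_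
    · have := hNi.mul hsi
      rwa [sub_zero, mul_left_comm, ← mul_div_assoc] at this
    · rwa [Nat.cast_pow, mul_div_cancel₀ _ hl0]
  by_contra hne
  obtain ⟨σ, hσ⟩ := exists_conjugate_one_le_norm (K := M) (α := ⟨_, hY⟩)
    fun e => div_ne_zero (mul_ne_zero hN0 hne) hl0 (congrArg Subtype.val e)
  change 1 ≤ ‖σ (N * S / (l : M) ^ R)‖ at hσ
  have hl1 : (0 : ℝ) < (l : ℝ) ^ R := pow_pos (Nat.cast_pos.2 hl.pos) _
  rw [map_div₀, norm_div, map_pow, map_natCast, norm_pow, Complex.norm_natCast, one_le_div hl1,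
    hX, map_sum] at hσ
  have hlt' : ((L : ℝ) + 1) ^ Fintype.card J * (l : ℝ) ^ h *
      ((C : ℝ) ^ (Fintype.card I * Fintype.card J)) ^ (L * B) < (l : ℝ) ^ R := by
    exact_mod_cast hlt
  refine absurd (hσ.trans ((norm_sum_le _ _).trans ?_)) (not_le.2 hlt')
  refine (Finset.sum_le_card_nsmul _ _
    ((l : ℝ) ^ h * ((C : ℝ) ^ (Fintype.card I * Fintype.card J)) ^ (L * B)) fun e _ => ?_).trans
    (le_of_eq ?_)
  · rw [map_mul, norm_mul, map_intCast, Complex.norm_intCast, map_prod, norm_prod]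
    refine mul_le_mul (by exact_mod_cast hp e) ?_ (by positivity) (by positivity)
    refine (Finset.prod_le_prod (g := fun _ => ∏ _i : I, (C : ℝ) ^ (L * B))
      (fun _ _ => norm_nonneg _) fun j _ => ?_).trans (le_of_eq ?_)
    · rw [map_prod, norm_prod]
      exact Finset.prod_le_prod (fun _ _ => norm_nonneg _) fun i _ => (hfac i j (e j)).2 σ
    · simp only [Finset.prod_const, Finset.card_univ]
      ring
  · rw [Finset.card_univ, Fintype.card_fun, Fintype.card_fin, nsmul_eq_mul]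
    push_cast
    ring

end Vale.Agent.P024
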