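import Vale.Agent.P024.Tame
import Vale.Agent.P024.Cyc

/-! # P024 LocA (TASK; helper lemma names start with `locA_` or are private)
The group theory of a pro-2 subgroup of a tame decomposition group.  PLAN.  `ab4`: `J' = J ⊓ II`.  For `τ ∈ J'`, `g ∈ J`: take `W` open normal inside the open subgroup of `ho` (`exists_normal_le`), `N0` from `rel2`, `c = (cyc (2^(N0+2)) g).val`; `c ≡ 1 mod 4` because `g` fixes a primitive fourth root of unity;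
`rel2` with `τ' = g τ g⁻¹`, `ρ = 1` gives `(τ^c)⁻¹ τ' ∈ N'`, so `τ⁻¹ g τ g⁻¹ ∈ N'`: `J'` is central modulo `N'`.  Apply `res_cyclic` to `N'' = {u ∈ J | ∃ τ ∈ J', τ⁻¹ u ∈ N'}`; compute in the quotient group `J ⧸ (N'.subgroupOf J)`.
`pow_mem_of_comm`: `c = (cyc (2^(N0+m)) σ).val` is odd and `c ≢ 1 mod 2^m`; `(τ^c)⁻¹ τ' ∈ N'` and `τ' τ⁻¹ ∈ N'` give `τ^(c-1) ∈ N'`; also `τ^(2^k) ∈ N'`; the gcd of `c - 1` and `2^k` divides `2^m`. -/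

namespace Vale.Agent.P024

open NumberField IsDedekindDomain Filter
open scoped Pointwise Topology

set_option linter.unusedSectionVars false

variable {F E : Type*} [Field F] [NumberField F] [Field E] [CharZero E] [Algebra F E] [IsGalois F E]

variable {A : ValuationSubring E} {p : ℕ}

private theorem locA_rel (hE : RC E) (hp : p.Prime) (h2 : p ≠ 2) (hA : Ov A p)
    {J : Subgroup Gal(E/F)} (hD : J ≤ DD F A) (pro : ∀ g ∈ J, Pro2 g)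
    (W : OpenNormalSubgroup Gal(E/F)) {g τ : Gal(E/F)} (hg : g ∈ J) (hτ : τ ∈ J)
    (hI : τ ∈ II F A) (k : ℕ) :
    ∃ c : ℕ, (∀ z : E, z ^ 2 ^ k = 1 → g z = z ^ c) ∧ (τ ^ c)⁻¹ * (g * τ * g⁻¹) ∈ W := by
  obtain ⟨N0, hN⟩ := rel2 hE hp h2 hA W
  refine ⟨(cyc (2 ^ (N0 + k)) g).val, fun z hz => cyc_spec hE g ?_, ?_⟩
  · rw [add_comm, pow_add, pow_mul, hz, one_pow]
  · refine hN (J ⊓ II F A) inf_le_right (fun τ h => pro τ h.1) τ ⟨hτ, hI⟩ _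
      ⟨J.mul_mem (J.mul_mem hg hτ) (J.inv_mem hg), II_normal (hD hg) hI⟩ g (hD hg) 1
      (II F A).one_mem (by simp) _ fun z hz => cyc_spec hE g ?_
    rw [pow_add, pow_mul, hz, one_pow]

private theorem locA_quot.{u} {G : Type u} [Group G] {J N : Subgroup G}
    (hn : ∀ g ∈ J, ∀ u ∈ J, u ∈ N → g * u * g⁻¹ ∈ N) :
    ∃ (Q : Type u) (_ : Group Q) (π : J →* Q), Function.Surjective π ∧
      ∀ u : J, π u = 1 ↔ (u : G) ∈ N :=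
  have : (N.subgroupOf J).Normal := ⟨fun u hu g => hn g g.2 u u.2 hu⟩
  ⟨J ⧸ N.subgroupOf J, inferInstance, QuotientGroup.mk' _, QuotientGroup.mk'_surjective _,
    fun u => QuotientGroup.eq_one_iff u⟩

private theorem locA_comm {Q : Type*} [Group Q] {a x y : Q} {i j : ℕ}
    (h1 : (a ^ i)⁻¹ * x ∈ Subgroup.center Q) (h3 : (a ^ j)⁻¹ * y ∈ Subgroup.center Q) :
    x * y * x⁻¹ * y⁻¹ = 1 := by
  obtain ⟨s, rfl⟩ : ∃ s, x = a ^ i * s := ⟨(a ^ i)⁻¹ * x, by group⟩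
  obtain ⟨t, rfl⟩ : ∃ t, y = a ^ j * t := ⟨(a ^ j)⁻¹ * y, by group⟩
  rw [inv_mul_cancel_left, Subgroup.mem_center_iff] at h1 h3
  have hcm : Commute (a ^ i * s) (a ^ j * t) :=
    Commute.mul_left (Commute.mul_right (Commute.pow_pow_self a i j) (h3 _)) (h1 _).symm
  rw [hcm.eq]
  group

private theorem locA_ab {G : Type*} [Group G] {J N I : Subgroup G}
    (hn : ∀ g ∈ J, ∀ u ∈ J, u ∈ N → g * u * g⁻¹ ∈ N) (h4 : ∀ g ∈ J, g ^ 4 ∈ N)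
    (hc : ∀ g ∈ J, ∀ τ ∈ J, τ ∈ I → ∃ c : ℕ, c % 4 = 1 ∧ (τ ^ c)⁻¹ * (g * τ * g⁻¹) ∈ N) :
    ∃ N'' : Subgroup G, (∀ u ∈ J, u ∈ N → u ∈ N'') ∧ (∀ u ∈ J, u ∈ I → u ∈ N'') ∧
      ∀ w ∈ J, ∀ g ∈ J, ∀ h ∈ J, ∀ i j : ℕ, (w ^ i)⁻¹ * g ∈ N'' → (w ^ j)⁻¹ * h ∈ N'' →
        g * h * g⁻¹ * h⁻¹ ∈ N := by
  obtain ⟨Q, _, π, hs, hπ⟩ := locA_quot hn
  have key : ∀ u : J, (u : G) ∈ ((Subgroup.center Q).comap π).map J.subtype ↔
      π u ∈ Subgroup.center Q := fun u =>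
    ⟨fun ⟨v, hv, e⟩ => Subtype.ext e ▸ hv, fun hu => ⟨u, hu, rfl⟩⟩
  refine ⟨((Subgroup.center Q).comap π).map J.subtype, fun u hu hu' => (key ⟨u, hu⟩).2 ?_,
    fun u hu hI => (key ⟨u, hu⟩).2 ?_, fun w hw g hg h hh i j h1 h3 => ?_⟩
  · rw [(hπ ⟨u, hu⟩).2 hu']; exact one_mem _
  · rw [Subgroup.mem_center_iff]
    intro q
    obtain ⟨g, rfl⟩ := hs q
    obtain ⟨c, hc, hm⟩ := hc g g.2 u hu hI
    have h3 := (hπ (((⟨u, hu⟩ : J) ^ c)⁻¹ * (g * ⟨u, hu⟩ * g⁻¹))).2 hm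
    have h5 : π ⟨u, hu⟩ ^ 4 = 1 := by rw [← map_pow]; exact (hπ _).2 (h4 u hu)
    have h6 : π ⟨u, hu⟩ ^ c = π ⟨u, hu⟩ := by
      rw [← Nat.mod_add_div c 4, pow_add, pow_mul, h5, one_pow, mul_one, hc, pow_one]
    simp only [map_mul, map_inv, map_pow, h6] at h3
    rw [inv_mul_eq_one, eq_mul_inv_iff_mul_eq] at h3
    exact h3.symm
  · have h1' := (key (((⟨w, hw⟩ : J) ^ i)⁻¹ * ⟨g, hg⟩)).1 h1
    have h3' := (key (((⟨w, hw⟩ : J) ^ j)⁻¹ * ⟨h, hh⟩)).1 h3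
    refine (hπ (⟨g, hg⟩ * ⟨h, hh⟩ * ⟨g, hg⟩⁻¹ * ⟨h, hh⟩⁻¹)).1 ?_
    simp only [map_mul, map_inv, map_pow] at h1' h3' ⊢
    exact locA_comm h1' h3'

private theorem locA_gcd {G : Type*} [Group G] {N : Subgroup G} {τ : G} {a b : ℕ}
    (ha : τ ^ a ∈ N) (hb : τ ^ b ∈ N) : τ ^ Nat.gcd a b ∈ N := by
  rw [← zpow_natCast, Nat.gcd_eq_gcd_ab, zpow_add, zpow_mul, zpow_mul, zpow_natCast, zpow_natCast]
  exact N.mul_mem (N.zpow_mem ha _) (N.zpow_mem hb _)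

theorem ab4 (hE : RC E) (hp : p.Prime) (h2 : p ≠ 2) (hA : Ov A p) {J N' : Subgroup Gal(E/F)}
    (hJ : IsClosed (J : Set Gal(E/F))) (hD : J ≤ DD F A) (pro : ∀ g ∈ J, Pro2 g)
    (hi : ∀ g ∈ J, FixI g) (ho : ∃ W : OpenSubgroup Gal(E/F), ∀ u ∈ J, u ∈ W → u ∈ N')
    (hn : ∀ g ∈ J, ∀ u ∈ J, u ∈ N' → g * u * g⁻¹ ∈ N') (h4 : ∀ g ∈ J, g ^ 4 ∈ N') :
    ∀ g ∈ J, ∀ h ∈ J, g * h * g⁻¹ * h⁻¹ ∈ N' := by
  obtain ⟨W0, hW0⟩ := ho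
  obtain ⟨W, hW⟩ := exists_normal_le W0
  obtain ⟨N'', h1, h3, h5⟩ := locA_ab (I := II F A) hn h4 fun g hg τ hτ hI => by
    obtain ⟨c, hc, hm⟩ := locA_rel hE hp h2 hA hD pro W hg hτ hI 2
    obtain ⟨z, hz⟩ := hE.prim 4 (by norm_num)
    have hz2 : z ^ 2 = -1 :=
      (hz.pow (by norm_num) (show 4 = 2 * 2 by norm_num)).eq_neg_one_of_two_right
    have h1 : z ^ c = z ^ 1 := by
      rw [← hc z hz.pow_eq_one, hi g hg z hz2, pow_one]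
    rw [(hz.isOfFinOrder (by norm_num)).pow_eq_pow_iff_modEq, ← hz.eq_orderOf] at h1
    exact ⟨c, h1, hW0 _ (J.mul_mem (J.inv_mem (J.pow_mem hτ c))
      (J.mul_mem (J.mul_mem hg hτ) (J.inv_mem hg))) (hW _ hm)⟩
  intro g hg h hh
  obtain ⟨w, hw, i, j, h6, h7⟩ := res_cyclic hp hA hJ hD
    ⟨W0, fun u hu hu' => h1 u hu (hW0 u hu hu')⟩ h3 hg hh
  exact h5 w hw g hg h hh i j h6 h7

theorem pow_mem_of_comm (hE : RC E) (hp : p.Prime) (h2 : p ≠ 2) (hA : Ov A p)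
    {J : Subgroup Gal(E/F)} (hD : J ≤ DD F A) (pro : ∀ g ∈ J, Pro2 g) {σ τ : Gal(E/F)} (hσ : σ ∈ J)
    (hτ : τ ∈ J) (hI : τ ∈ II F A) {m : ℕ} (hm : ∃ z : E, z ^ 2 ^ m = 1 ∧ σ z ≠ z)
    (N' : OpenSubgroup Gal(E/F)) (h : σ * τ * σ⁻¹ * τ⁻¹ ∈ N') : τ ^ 2 ^ m ∈ N' := by
  obtain ⟨W, hW⟩ := exists_normal_le N'
  obtain ⟨c, hc, hW1⟩ := locA_rel hE hp h2 hA hD pro W hσ hτ hI m
  obtain ⟨z, hz, hne⟩ := hm
  have hz1 := hc z hz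
  obtain ⟨c, rfl⟩ : ∃ c', c = c' + 1 := by
    rcases c with _ | c
    · rw [pow_zero, map_eq_one_iff _ σ.injective] at hz1
      exact absurd (by rw [hz1, map_one]) hne
    · exact ⟨c, rfl⟩
  have h1 : τ ^ c ∈ N'.toSubgroup := by
    have h3 := hW _ (W.isNormal'.conj_mem _ hW1 (τ ^ (c + 1)))
    have h4 := N'.toSubgroup.mul_mem (N'.toSubgroup.inv_mem h3) h
    convert h4 using 1
    group
  obtain ⟨k, hk⟩ := (pro τ hτ).mem_open N'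
  have h3 := locA_gcd h1 (hk k le_rfl)
  obtain ⟨j, -, hj⟩ := (Nat.dvd_prime_pow Nat.prime_two).1 (Nat.gcd_dvd_right c (2 ^ k))
  rcases le_total j m with hjm | hjm
  · obtain ⟨r, rfl⟩ := Nat.exists_eq_add_of_le hjm
    rw [hj] at h3
    rw [pow_add, pow_mul]
    exact N'.toSubgroup.pow_mem h3 _
  · obtain ⟨r, hr⟩ : 2 ^ m ∣ c := (pow_dvd_pow 2 hjm).trans (hj ▸ Nat.gcd_dvd_left c (2 ^ k))
    rw [hr, pow_succ, pow_mul, hz, one_pow, one_mul] at hz1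
    exact absurd hz1 hne

/-- a Sylow subgroup of an open part of the decomposition group acts with infinite order on the
2-power roots of unity -/
theorem exists_move (hE : RC E) (hp : p.Prime) (h2 : p ≠ 2) (hA : Ov A p) (U U' : OpenSubgroup Gal(E/F))
    {J : Subgroup Gal(E/F)} (h : Syl2 (DD F A ⊓ U.toSubgroup) J) :
    ∃ σ ∈ J, σ ∈ U' ∧ ∃ (m : ℕ) (z : E), z ^ 2 ^ m = 1 ∧ σ z ≠ z := by
  by_contra hcon
  obtain ⟨P, hP⟩ := exists_lies hA hp (inc U)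
  obtain ⟨g, hg⟩ := exists_frobU hP
  obtain ⟨f, hf, -, hN⟩ := nrm_eq_pow hp (hP.ov.1 hA)
  obtain ⟨W', hW'⟩ := exists_normal_le U'
  have hn := W'.isNormal'
  have he : 0 < W'.toSubgroup.index :=
    Nat.pos_of_ne_zero (finiteIndex_open W'.toOpenSubgroup).index_ne_zero
  have h1 : 1 < nrm P ^ W'.toSubgroup.index :=
    Nat.one_lt_pow he.ne' (hN ▸ Nat.one_lt_pow hf.ne' hp.one_lt)
  obtain ⟨m, hm⟩ : ∃ m, m = nrm P ^ W'.toSubgroup.index := ⟨_, rfl⟩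
  have hlt : m < 2 ^ m := Nat.lt_two_pow_self
  obtain ⟨W, hW⟩ := exists_cycK (F := F) hE (2 ^ m)
  obtain ⟨j, hj, hjg⟩ := h.surj (N := W.toSubgroup) ⟨W.toOpenSubgroup, fun _ _ h => h⟩
    (fun g _ n _ hn => W.isNormal'.conj_mem n hn g) (fun u _ => ⟨m - 1, (hW _).2 (by
      obtain ⟨v, hv⟩ := isUnit_cyc (t := 2 ^ m) hE u
      have := ZMod.pow_totient v
      rw [Nat.totient_prime_pow Nat.prime_two (by omega), show 2 - 1 = 1 from rfl, mul_one] at this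
      rw [cyc_pow hE, ← hv, ← Units.val_pow_eq_pow_val, this, Units.val_one])⟩) g ⟨hg.frob.1, hg.mem⟩
  have hpm : ¬p ∣ 2 ^ m := fun hd =>
    h2 ((Nat.prime_dvd_prime_iff_eq hp Nat.prime_two).1 (hp.dvd_of_dvd_pow hd))
  have h3 : cyc (2 ^ m) j = (nrm P : ℕ) := by
    rw [← cyc_frob hE hp hA hpm hg.frob, ← mul_inv_cancel_left j g, cyc_mul hE, (hW _).1 hjg,
      mul_one]
  have h4 : cyc (2 ^ m) (j ^ W'.toSubgroup.index) = 1 := by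
    refine (cyc_eq_one_iff hE).2 fun z hz => ?_
    by_contra hne
    exact hcon ⟨_, J.pow_mem hj _, hW' _ (W'.toSubgroup.pow_index_mem j), m, z, hz, hne⟩
  rw [cyc_pow hE, h3, ← Nat.cast_pow, ← hm, ← Nat.cast_one, ZMod.natCast_eq_natCast_iff',
    Nat.mod_eq_of_lt hlt, Nat.mod_eq_of_lt (by omega)] at h4
  omega

end Vale.Agent.P024
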