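import Vale.Agent.P024.LocB1

/-! # P024 LocB
Gluing the valuations; uniqueness of the fixed prime. -/

namespace Vale.Agent.P024

open NumberField IsDedekindDomain Filter
open scoped Pointwise Topology

set_option linter.unusedSectionVars false

theorem locB_non {K L : Type*} [Field K] [Field L] (O : ValuationSubring L) (φ : K →+* L) {x : K} :
    x ∈ (O.comap φ).nonunits ↔ φ x ∈ O.nonunits := by
  rw [ValuationSubring.mem_nonunits_iff_or, ValuationSubring.mem_nonunits_iff_or,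
    ValuationSubring.mem_comap, map_inv₀, map_eq_zero]

theorem locB_ov {K L : Type*} [Field K] [Field L] (O : ValuationSubring L) (φ : K →+* L) {q : ℕ} :
    Ov (O.comap φ) q ↔ Ov O q := by
  rw [Ov, Ov, locB_non, map_natCast]

theorem locB_key {L : Type*} [Field L] [CharZero L] [Algebra.IsAlgebraic ℚ L]
    {O : ValuationSubring L} {q : ℕ} (hq : q.Prime) (h2 : q ≠ 2) (hO : Ov O q) (σ : L →+* L)
    (hσ : ∀ z ∈ O.nonunits, σ z ∈ O.nonunits) {x y : L} (hx : x ∈ O.nonunits) (hy : y ^ 2 = 1 + x)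
    (e : σ x = x) : σ y = y := by
  have h1 : σ y = y ∨ σ y = -y :=
    sq_eq_sq_iff_eq_or_eq_neg.1 (by rw [← map_pow, hy, map_add, map_one, e])
  refine h1.resolve_right fun h3 => h2 ((Nat.prime_dvd_prime_iff_eq hq Nat.prime_two).1
    ((hO.natCast_iff hq 2).1 ?_))
  have h4 : y - 1 ∈ O.nonunits ∨ y + 1 ∈ O.nonunits := by
    by_contra h
    simp only [ValuationSubring.mem_nonunits_iff, not_or, not_lt] at h hx
    rw [show x = (y - 1) * (y + 1) by linear_combination -hy, map_mul] at hx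
    exact absurd (one_le_mul h.1 h.2) (not_le.2 hx)
  rcases h4 with h | h
  · convert neg_mem (add_mem h (hσ _ h)) using 1
    rw [map_sub, h3, map_one]
    ring
  · convert add_mem h (hσ _ h) using 1
    rw [map_add, h3, map_one]
    ring

variable {F E : Type*} [Field F] [NumberField F] [Field E] [CharZero E] [Algebra F E] [IsGalois F E]

theorem locB_alg (K : IntermediateField F E) : Algebra.IsAlgebraic ℚ K :=
  ⟨fun x => (isAlgebraic_algebraMap_iff (algebraMap K E).injective).1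
    ((alg_rat F E).isAlgebraic (algebraMap K E x))⟩

theorem locB_sqV (hE : RC E) {S : Subgroup Gal(E/F)} {B : ValuationSubring E} {q : ℕ}
    (hq : q.Prime) (h2 : q ≠ 2) (hB : Ov B q) (hS : S ≤ DD F B) :
    SqV (B.comap (algebraMap (IntermediateField.fixedField S) E)) := fun x hx => by
  have := alg_rat F E
  obtain ⟨y, hy⟩ := hE.root 2 (1 + x) two_pos
  refine ⟨⟨y, (IntermediateField.mem_fixedField_iff _ _).2 fun g hg =>
    locB_key hq h2 hB (g : E →+* E) (fun z hz => (DD_nonunits (hS hg)).2 hz) ((locB_non _ _).1 hx)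
      hy ((IntermediateField.mem_fixedField_iff _ _).1 x.2 g hg)⟩, Subtype.ext ?_⟩
  exact hy.symm.trans (sq y)

theorem uniq_fix (hE : RC E) {h : Gal(E/F)} (pro : Pro2 h) (hf : ¬IsOfFinOrder h)
    {B B' : ValuationSubring E} {q q' : ℕ} (hq : q.Prime) (h2 : q ≠ 2) (hB : Ov B q) (hq' : q'.Prime)
    (h2' : q' ≠ 2) (hB' : Ov B' q') (hD : h ∈ DD F B) (hD' : h ∈ DD F B') : B = B' := by
  ext y0
  obtain ⟨k, hk⟩ := pro.mem_open (stab y0)
  obtain ⟨x0, hx0⟩ : ∃ x0, (h ^ 2 ^ (k + 0)) x0 ≠ x0 := by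
    by_contra h0
    exact hf (isOfFinOrder_iff_pow_eq_one.2 ⟨_, pow_pos two_pos k,
      AlgEquiv.ext fun x => not_not.1 fun hx => h0 ⟨x, hx⟩⟩)
  obtain ⟨k', hk'⟩ := pro.mem_open (stab x0)
  obtain ⟨n, h1, h3⟩ := Nat.exists_not_and_succ_of_not_zero_of_exists
    (p := fun n => (h ^ 2 ^ (k + n)) x0 = x0) hx0 ⟨k', hk' _ (Nat.le_add_left _ _)⟩
  rw [← add_assoc, pow_succ, pow_mul, sq, AlgEquiv.mul_apply] at h3
  have h4 : (h ^ 2 ^ (k + n)) y0 = y0 := hk _ (Nat.le_add_right _ _)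
  have h5 := Subgroup.zpowers_le.2 (pow_mem hD (2 ^ (k + n)))
  have h6 := Subgroup.zpowers_le.2 (pow_mem hD' (2 ^ (k + n)))
  generalize h ^ 2 ^ (k + n) = g at h1 h3 h4 h5 h6
  have hm : ∀ x, x ∈ IntermediateField.fixedField (Subgroup.zpowers g) ↔ g x = x := fun x =>
    (IntermediateField.mem_fixedField_iff _ _).trans ⟨fun h => h g (Subgroup.mem_zpowers g),
      fun h u hu => (Subgroup.zpowers_le (H := MulAction.stabilizer _ x)).2 h hu⟩
  have := locB_alg (IntermediateField.fixedField (Subgroup.zpowers g))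
  by_contra hne
  have hz : g (x0 - g x0) = -(x0 - g x0) := by rw [map_sub, h3, neg_sub]
  obtain ⟨w, hw⟩ := sq_all (fun e => hne (SetLike.ext_iff.1 e ⟨y0, (hm _).2 h4⟩))
    (((locB_ov B _).2 hB).ne_top hq.ne_zero) (((locB_ov B' _).2 hB').ne_top hq'.ne_zero)
    (locB_sqV hE hq h2 hB h5) (locB_sqV hE hq' h2' hB' h6)
    ⟨(x0 - g x0) ^ 2, (hm _).2 (by rw [map_pow, hz, neg_sq])⟩
  have h7 : (x0 - g x0) ^ 2 = (w : E) ^ 2 := (congrArg Subtype.val hw).trans (sq (w : E)).symm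
  have h8 : g (x0 - g x0) = x0 - g x0 := by
    rcases sq_eq_sq_iff_eq_or_eq_neg.1 h7 with e | e
    · rw [e, (hm _).1 w.2]
    · rw [e, map_neg, (hm _).1 w.2]
  exact h1 (sub_eq_zero.1 (self_eq_neg.1 (h8.symm.trans hz))).symm

/-- the fixed field of `H ⊓ T` -/
abbrev locBK (H : Subgroup Gal(E/F)) (T : OpenNormalSubgroup Gal(E/F)) : IntermediateField F E :=
  IntermediateField.fixedField (H ⊓ T.toSubgroup)

theorem locB_mem {H : Subgroup Gal(E/F)} {T : OpenNormalSubgroup Gal(E/F)} {x : E} :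
    x ∈ locBK H T ↔ ∀ g ∈ H ⊓ T.toSubgroup, g x = x := IntermediateField.mem_fixedField_iff _ _

/-- the automorphism of the fixed field -/
def locBf {H : Subgroup Gal(E/F)} (T : OpenNormalSubgroup Gal(E/F)) {h : Gal(E/F)} (hh : h ∈ H) :
    locBK H T →+* locBK H T :=
  ((h : E →+* E).comp (algebraMap (locBK H T) E)).codRestrict (locBK H T) fun x =>
    locB_mem.2 fun g hg => by
      have := locB_mem.1 x.2 (h⁻¹ * g * h) ⟨H.mul_mem (H.mul_mem (H.inv_mem hh) hg.1) hh,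
        T.isNormal'.conj_mem' g hg.2 h⟩
      simpa [AlgEquiv.mul_apply] using congrArg h this

theorem locB_le {H : Subgroup Gal(E/F)} {T T' : OpenNormalSubgroup Gal(E/F)} (h : T' ≤ T) :
    locBK H T ≤ locBK H T' := fun _ hx => locB_mem.2 fun g hg => locB_mem.1 hx g ⟨hg.1, h hg.2⟩

theorem locB (hE : RC E) {H : Subgroup Gal(E/F)} (hH : IsClosed (H : Set Gal(E/F)))
    (pro : ∀ g ∈ H, Pro2 g) (hi : ∀ g ∈ H, FixI g)
    (hab : ∀ T : OpenNormalSubgroup Gal(E/F), ∀ N' : Subgroup Gal(E/F),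
      (∃ W : OpenSubgroup Gal(E/F), ∀ u ∈ H ⊓ T.toSubgroup, u ∈ W → u ∈ N') →
      (∀ g ∈ H ⊓ T.toSubgroup, ∀ u ∈ H ⊓ T.toSubgroup, u ∈ N' → g * u * g⁻¹ ∈ N') →
      (∀ g ∈ H ⊓ T.toSubgroup, g ^ 4 ∈ N') →
      ∀ g ∈ H ⊓ T.toSubgroup, ∀ h ∈ H ⊓ T.toSubgroup, g * h * g⁻¹ * h⁻¹ ∈ N')
    (hna : ∀ T : OpenNormalSubgroup Gal(E/F),
      ∃ g ∈ H ⊓ T.toSubgroup, ∃ h ∈ H ⊓ T.toSubgroup, g * h ≠ h * g) :
    ∃ (B : ValuationSubring E) (q : ℕ), q.Prime ∧ q ≠ 2 ∧ Ov B q ∧ H ≤ DD F B := by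
  have h0 := fun T : OpenNormalSubgroup Gal(E/F) => locB1 hE (H := H ⊓ T.toSubgroup)
    (hH.inter T.toOpenSubgroup.isClosed) (fun g hg => pro g hg.1) (fun g hg => hi g hg.1)
    (hab T) (hna T)
  choose O hs hq hy using h0
  choose q hq h2 hO using hq
  have alg := fun T => locB_alg (locBK H T)
  have uniq : ∀ T (O' : ValuationSubring (locBK H T)) (p : ℕ), p.Prime → Ov O' p → SqV O' →
      O' = O T := fun T O' p hp h1 h3 => by_contra fun hne => (hy T).elim fun y hy =>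
    hy (sq_all hne (h1.ne_top hp.ne_zero) ((hO T).ne_top (hq T).ne_zero) h3 (hs T) y)
  have inv : ∀ T {h} (hh : h ∈ H), (O T).comap (locBf T hh) = O T := fun T h hh => by
    refine uniq T _ _ (hq T) ((locB_ov _ _).2 (hO T)) fun x hx => ?_
    have h1 := (hs T _ ((locB_non _ _).1 hx)).map (locBf T (inv_mem hh))
    rwa [map_add, map_one, show locBf T (inv_mem hh) (locBf T hh x) = x from
      Subtype.ext (h.symm_apply_apply x)] at h1
  have res : ∀ {T T'} (h : T' ≤ T),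
      (O T').comap (IntermediateField.inclusion (locB_le h)).toRingHom = O T := fun {T T'} h => by
    refine uniq T _ _ (hq T') ((locB_ov _ _).2 (hO T')) fun x hx => ?_
    have h1 := (locB_non _ _).1 hx
    obtain ⟨y, hy⟩ := hs T' _ h1
    refine ⟨⟨y, locB_mem.2 fun g hg => congrArg Subtype.val (locB_key (hq T') (h2 T') (hO T')
      (locBf T' hg.1) (fun z hz => ?_) h1 ((sq y).trans hy.symm)
      (Subtype.ext (locB_mem.1 x.2 g hg)))⟩, Subtype.ext (congrArg Subtype.val hy :)⟩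
    rwa [← locB_non, inv]
  have key : ∀ T x (hx : x ∈ locBK H T),
      (∃ T', ∃ hx' : x ∈ locBK H T', ⟨x, hx'⟩ ∈ O T') ↔ ⟨x, hx⟩ ∈ O T := fun T x hx =>
    ⟨fun ⟨T', hx', h⟩ => by
      rw [← res (inf_le_right : T ⊓ T' ≤ T')] at h
      rw [← res (inf_le_left : T ⊓ T' ≤ T)]
      exact h, fun h => ⟨T, hx, h⟩⟩
  have ex : ∀ x y : E, ∃ T, x ∈ locBK H T ∧ y ∈ locBK H T := fun x y => by
    classical
    obtain ⟨W, hW⟩ := exists_fix_finset (F := F) {x, y}
    exact ⟨W, locB_mem.2 fun g hg => hW g hg.2 x (by simp),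
      locB_mem.2 fun g hg => hW g hg.2 y (by simp)⟩
  obtain ⟨T, h1, -⟩ := ex 1 1
  let B : ValuationSubring E :=
    { carrier := {x | ∃ T', ∃ hx' : x ∈ locBK H T', (⟨x, hx'⟩ : locBK H T') ∈ O T'}
      mul_mem' := fun {x y} hx hy => (ex x y).elim fun T h =>
        ⟨T, mul_mem h.1 h.2, mul_mem ((key T x h.1).1 hx) ((key T y h.2).1 hy)⟩
      one_mem' := ⟨T, one_mem _, one_mem (O T)⟩
      add_mem' := fun {x y} hx hy => (ex x y).elim fun T h =>
        ⟨T, add_mem h.1 h.2, add_mem ((key T x h.1).1 hx) ((key T y h.2).1 hy)⟩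
      zero_mem' := ⟨T, zero_mem _, zero_mem (O T)⟩
      neg_mem' := fun ⟨T, h, hx⟩ => ⟨T, neg_mem h, neg_mem hx⟩
      mem_or_inv_mem' := fun x => (ex x x).elim fun T h => ((O T).mem_or_inv_mem ⟨x, h.1⟩).imp
        (fun h' => ⟨T, h.1, h'⟩) fun h' => ⟨T, inv_mem h.1, h'⟩ }
  have hB : ∀ T, B.comap (algebraMap (locBK H T) E) = O T := fun T =>
    ValuationSubring.ext _ _ fun x => key T x x.2
  refine ⟨B, q T, hq T, h2 T, (locB_ov B _).1 ((hB T).symm ▸ hO T), fun h hh => ?_⟩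
  rw [mem_DD]
  ext x
  obtain ⟨x, rfl⟩ := h.surjective x
  obtain ⟨T, hx, -⟩ := ex x x
  exact (ValuationSubring.smul_mem_pointwise_smul_iff (g := h)).trans ((key T x hx).trans
    ((SetLike.ext_iff.1 (inv T hh) ⟨x, hx⟩).symm.trans (key T _ (locBf T hh ⟨x, hx⟩).2).symm))

end Vale.Agent.P024
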