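import Vale.Agent.P024.Aej
import Vale.Agent.P024.Ch
import Vale.Agent.P024.Grp

/-! # P024 LocB1 (TASK; helper lemma names start with `locB1_` or are private)
A valuation on the fixed field of a pro-2 group without dihedral quotients.  PLAN.  `K = fixedField H`; for `x ∈ K`: `IsSquare x ↔ ∀ h ∈ H, sg h x = 0`.  Apply `aej`.  `-1` is a square (`FixI`, `hE.root`).
`rig`: let `a` be a nonsquare, `b = x² + a y²`, suppose `b`, `a b` are nonsquares.  The characters `sg · a`, `sg · b` of `H` are nonzero and different, so there are `g`, `h` with values `(1,0)` and `(0,1)`.  With `i² = -1`, `α² = a`, `β² = b`, `γ² = x + i y α` (nonzero), `γ' = β / γ`, `γ'² = x - i y α`: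
every `u ∈ H` permutes `{±γ, ±γ'}`; `N' = stab γ ⊓ stab γ'` is normalised by `H` and contains the fourth powers; but `g h γ = -(h g γ)`.
`big`: if some `g ∈ H` fixes `rt u` and moves some `rt y`, take `ψ = sg g` (`sg_mul_right`).  Otherwise `H` is abelian: for `W` open normal the image `Q` of `H` in `G ⧸ W` is a 2-group; let `Q0` be the image of `H ⊓ stab (rt u)`; an index two subgroup of `Q` pulls back to an open subgroup `H2` of index two of `H`,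
which fixes some `w` not fixed by `H` (`InfiniteGalois.fixingSubgroup_fixedField` for closed subgroups); `y0 = w - h w` (`h ∉ H2`) has `h y0 = -y0`, `y0² ∈ K`; so `H ⊓ stab (rt u) ≤ H2`; `cyc_two`; commutators lie in all `W` (`eq_one_of_forall_mem`).
Finally `A ≠ ⊤` (else `π = π * 1²`), `exists_ov`, `not_ov_two`; `π` is a nonsquare. -/

namespace Vale.Agent.P024

open NumberField IsDedekindDomain Filter
open scoped Pointwise Topology

set_option linter.unusedSectionVars false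

variable {F E : Type*} [Field F] [NumberField F] [Field E] [CharZero E] [Algebra F E] [IsGalois F E]

theorem locB1_sq (hE : RC E) {H : Subgroup Gal(E/F)} (x : IntermediateField.fixedField H) :
    IsSquare x ↔ ∀ g ∈ H, sg g (x : E) = 0 := by
  constructor
  · rintro ⟨y, rfl⟩ g hg
    exact (sg_eq_zero_iff (y := (y : E)) (by rw [sq]; rfl)).2
      ((IntermediateField.mem_fixedField_iff _ _).1 y.2 g hg)
  · intro h
    refine ⟨⟨rt (x : E), (IntermediateField.mem_fixedField_iff _ _).2 fun g hg =>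
      (sg_eq_zero_iff (rt_sq hE _)).1 (h g hg)⟩, Subtype.ext ?_⟩
    exact (rt_sq hE _).symm.trans (sq _)

theorem locB1_pair {G : Type*} [Group G] {H : Subgroup G} {c d : G → ZMod 2}
    (hc : ∀ g ∈ H, ∀ h ∈ H, c (g * h) = c g + c h) (hd : ∀ g ∈ H, ∀ h ∈ H, d (g * h) = d g + d h)
    (h2 : ∃ g ∈ H, d g ≠ 0) (h3 : ∃ g ∈ H, c g + d g ≠ 0) : ∃ g ∈ H, c g = 0 ∧ d g ≠ 0 := by
  obtain ⟨g, hg, e⟩ := h2
  obtain ⟨k, hk, e'⟩ := h3
  by_cases h1 : c g = 0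
  · exact ⟨g, hg, h1, e⟩
  by_cases h4 : c k = 0
  · exact ⟨k, hk, h4, by simpa [h4] using e'⟩
  refine ⟨g * k, mul_mem hg hk, ?_⟩
  rw [hc g hg k hk, hd g hg k hk]
  have h5 : d k = 0 := by
    by_contra h5
    exact e' (aej_z2' _ _ h4 h5)
  exact ⟨aej_z2' _ _ h1 h4, by rwa [h5, add_zero]⟩

theorem locB1_dih {H : Subgroup Gal(E/F)}
    (hab : ∀ N' : Subgroup Gal(E/F), (∃ W : OpenSubgroup Gal(E/F), ∀ u ∈ H, u ∈ W → u ∈ N') →
      (∀ g ∈ H, ∀ u ∈ H, u ∈ N' → g * u * g⁻¹ ∈ N') → (∀ g ∈ H, g ^ 4 ∈ N') →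
      ∀ g ∈ H, ∀ h ∈ H, g * h * g⁻¹ * h⁻¹ ∈ N') {γ γ' : E}
    (hp : ∀ u ∈ H, (u γ = γ ∨ u γ = -γ) ∧ (u γ' = γ' ∨ u γ' = -γ') ∨
      (u γ = γ' ∨ u γ = -γ') ∧ (u γ' = γ ∨ u γ' = -γ)) {g h : Gal(E/F)} (hg : g ∈ H) (hh : h ∈ H) :
    g (h γ) = h (g γ) := by
  have key := hab (stab γ ⊓ stab γ' : OpenSubgroup Gal(E/F)).toSubgroup ⟨_, fun u _ hu => hu⟩
    (fun g hg u _ hu => ?_) (fun u hu => ?_) g⁻¹ (inv_mem hg) h⁻¹ (inv_mem hh)
  · have h1 : (g⁻¹ * h⁻¹ * g⁻¹⁻¹ * h⁻¹⁻¹) γ = γ := key.1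
    have h2 : g * h = h * g * (g⁻¹ * h⁻¹ * g⁻¹⁻¹ * h⁻¹⁻¹) := by group
    rw [← AlgEquiv.mul_apply, h2, AlgEquiv.mul_apply, h1, AlgEquiv.mul_apply]
  · have h1 : u γ = γ := hu.1
    have h2 : u γ' = γ' := hu.2
    have h3 : ∀ z, u (g⁻¹ z) = g⁻¹ z → (g * u * g⁻¹) z = z := fun z hz => by
      rw [AlgEquiv.mul_apply, AlgEquiv.mul_apply, hz, ← AlgEquiv.mul_apply, mul_inv_cancel]
      rfl
    refine ⟨h3 γ ?_, h3 γ' ?_⟩ <;>
      rcases hp _ (inv_mem hg) with ⟨a | a, b | b⟩ | ⟨a | a, b | b⟩ <;>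
      simp only [a, b, map_neg, h1, h2]
  · have h3 : ∀ z, (u ^ 4) z = u (u (u (u z))) := fun z => by
      rw [show 4 = 1 + 1 + 1 + 1 from rfl, pow_succ, pow_succ, pow_succ, pow_one]
      rfl
    refine ⟨(h3 γ).trans ?_, (h3 γ').trans ?_⟩ <;>
      rcases hp _ hu with ⟨a | a, b | b⟩ | ⟨a | a, b | b⟩ <;>
      simp only [a, b, map_neg, neg_neg]

theorem locB1_rig (hE : RC E) {H : Subgroup Gal(E/F)} (hi : ∀ g ∈ H, FixI g)
    (hab : ∀ N' : Subgroup Gal(E/F), (∃ W : OpenSubgroup Gal(E/F), ∀ u ∈ H, u ∈ W → u ∈ N') →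
      (∀ g ∈ H, ∀ u ∈ H, u ∈ N' → g * u * g⁻¹ ∈ N') → (∀ g ∈ H, g ^ 4 ∈ N') →
      ∀ g ∈ H, ∀ h ∈ H, g * h * g⁻¹ * h⁻¹ ∈ N') (a x y : IntermediateField.fixedField H)
    (ha : ¬IsSquare a) : IsSquare (x ^ 2 + a * y ^ 2) ∨ IsSquare (a * (x ^ 2 + a * y ^ 2)) := by
  by_contra hcon
  obtain ⟨hb, hab'⟩ := not_or.1 hcon
  obtain ⟨b, hbe⟩ : ∃ b, b = x ^ 2 + a * y ^ 2 := ⟨_, rfl⟩
  rw [← hbe] at hb hab'
  have fx : ∀ (z : IntermediateField.fixedField H), ∀ g ∈ H, g (z : E) = z := fun z =>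
    (IntermediateField.mem_fixedField_iff _ _).1 z.2
  have a0 : (a : E) ≠ 0 := fun h => ha (by
    have : a = 0 := Subtype.ext h
    rw [this]; exact IsSquare.zero)
  have b0 : (b : E) ≠ 0 := fun h => hb (by
    have : b = 0 := Subtype.ext h
    rw [this]; exact IsSquare.zero)
  rw [locB1_sq hE] at ha hb hab'
  push Not at ha hb hab'
  have ca : ∀ g ∈ H, ∀ h ∈ H, sg (g * h) (a : E) = sg g a + sg h a := fun g hg h hh =>
    sg_mul_left hE (fx a g hg) (fx a h hh)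
  have cb : ∀ g ∈ H, ∀ h ∈ H, sg (g * h) (b : E) = sg g b + sg h b := fun g hg h hh =>
    sg_mul_left hE (fx b g hg) (fx b h hh)
  obtain ⟨k, hk, ek⟩ := hab'
  rw [IntermediateField.coe_mul, sg_mul_right hE a0 b0 (fx a k hk) (fx b k hk)] at ek
  obtain ⟨h, hh, h1, h2⟩ := locB1_pair (c := fun g => sg g (a : E))
    (d := fun g => sg g (b : E)) ca cb hb ⟨k, hk, ek⟩
  obtain ⟨g, hg, g1⟩ := ha
  obtain ⟨i, ei⟩ := hE.root 2 (-1) two_pos
  obtain ⟨α, eα⟩ := hE.root 2 a two_pos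
  obtain ⟨β, eβ⟩ := hE.root 2 b two_pos
  obtain ⟨γ, eγ⟩ := hE.root 2 (x + i * y * α) two_pos
  have eb : ((x : E) + i * y * α) * (x - i * y * α) = b := by
    have : (b : E) = x ^ 2 + a * y ^ 2 := by rw [hbe]; rfl
    rw [this, ← eα]
    linear_combination (-(y : E) ^ 2 * α ^ 2) * ei
  have γ0 : γ ≠ 0 := fun e => b0 (by rw [← eb, ← eγ, e]; simp)
  have β0 : β ≠ 0 := fun e => b0 (by rw [← eβ, e]; simp)
  obtain ⟨γ', e1⟩ : ∃ γ', γ * γ' = β := ⟨β / γ, mul_div_cancel₀ _ γ0⟩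
  have γ1 : γ' ≠ 0 := fun e => β0 (by rw [← e1, e, mul_zero])
  have eγ' : γ' ^ 2 = x - i * y * α := by
    refine mul_left_cancel₀ (pow_ne_zero 2 γ0) ?_
    rw [← mul_pow, e1, eβ, eγ, eb]
  have p1 : ∀ u ∈ H, u α = α → (u γ = γ ∨ u γ = -γ) ∧ (u γ' = γ' ∨ u γ' = -γ') := by
    intro u hu e
    refine ⟨sq_eq_sq_iff_eq_or_eq_neg.1 ?_, sq_eq_sq_iff_eq_or_eq_neg.1 ?_⟩
    · rw [← map_pow, eγ, map_add, map_mul, map_mul, fx x u hu, fx y u hu, hi u hu i ei, e]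
    · rw [← map_pow, eγ', map_sub, map_mul, map_mul, fx x u hu, fx y u hu, hi u hu i ei, e]
  have p2 : ∀ u ∈ H, u α = -α → (u γ = γ' ∨ u γ = -γ') ∧ (u γ' = γ ∨ u γ' = -γ) := by
    intro u hu e
    refine ⟨sq_eq_sq_iff_eq_or_eq_neg.1 ?_, sq_eq_sq_iff_eq_or_eq_neg.1 ?_⟩
    · rw [← map_pow, eγ, eγ', map_add, map_mul, map_mul, fx x u hu, fx y u hu, hi u hu i ei, e]
      ring
    · rw [← map_pow, eγ, eγ', map_sub, map_mul, map_mul, fx x u hu, fx y u hu, hi u hu i ei, e]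
      ring
  have key := locB1_dih hab (fun u hu => (ch_pm eα (fx a u hu)).imp (p1 u hu) (p2 u hu)) hg hh
  have q1 := (p2 g hg ((sg_ne_zero_iff eα a0 (fx a g hg)).1 g1)).1
  have q2 := p1 h hh ((sg_eq_zero_iff eα).1 h1)
  have q3 := (sg_ne_zero_iff eβ b0 (fx b h hh)).1 h2
  rw [← e1, map_mul] at q3
  have n0 : ∀ z : E, z ≠ 0 → ¬ -z = z := fun z h0 e => h0 (self_eq_neg.1 e.symm)
  have n1 : ∀ z : E, z ≠ 0 → ¬ z = -z := fun z h0 e => h0 (self_eq_neg.1 e)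
  rcases q1 with q1 | q1 <;> rcases q2 with ⟨q2 | q2, q4 | q4⟩ <;>
    simp only [q1, q2, q4, map_neg, neg_neg, mul_neg, neg_mul, n0 _ γ1, n1 _ γ1,
      n1 _ (mul_ne_zero γ0 γ1)] at key q3

theorem locB1_two {H : Subgroup Gal(E/F)} (hH : IsClosed (H : Set Gal(E/F))) {M : Subgroup H}
    (hM : M.index = 2) (ho : IsOpen (M : Set H)) : ∃ y : E, y ≠ 0 ∧
      ∀ b : H, (b ∈ M → b.1 y = y) ∧ (b ∉ M → b.1 y = -y) := by
  obtain ⟨h, hh, -⟩ := Subgroup.index_eq_two_iff_exists_notMem_and.1 hM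
  have hc : IsClosed (M.map H.subtype : Set Gal(E/F)) :=
    hH.isClosedEmbedding_subtypeVal.isClosedMap _ (M.isClosed_of_isOpen ho)
  have h1 : h.1 ∉ (IntermediateField.fixedField (M.map H.subtype)).fixingSubgroup := by
    rw [InfiniteGalois.fixingSubgroup_fixedField ⟨M.map H.subtype, hc⟩]
    rintro ⟨k, hk, e⟩
    exact hh (Subtype.ext e ▸ hk)
  rw [IntermediateField.mem_fixingSubgroup_iff] at h1
  push Not at h1
  obtain ⟨w, hw, hne⟩ := h1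
  have f1 : ∀ b ∈ M, b.1 w = w := fun b hb =>
    (IntermediateField.mem_fixedField_iff _ _).1 hw b.1 ⟨b, hb, rfl⟩
  have f2 : ∀ b, b ∉ M → b.1 w = h.1 w := fun b hb => by
    have h2 := f1 (h⁻¹ * b) ((Subgroup.mul_mem_iff_of_index_two hM).2 (by simp [hh, hb]))
    have h3 : b.1 = h.1 * (h⁻¹ * b).1 := by simp
    rw [h3, AlgEquiv.mul_apply, h2]
  refine ⟨w - h.1 w, sub_ne_zero.2 hne.symm, fun b => ⟨fun hb => ?_, fun hb => ?_⟩⟩
  · have h2 := f2 (b * h) fun e => hh (((Subgroup.mul_mem_iff_of_index_two hM).1 e).1 hb)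
    have h3 : b.1 (h.1 w) = h.1 w := h2
    rw [map_sub, f1 b hb, h3]
  · have h2 := f1 (b * h) ((Subgroup.mul_mem_iff_of_index_two hM).2 (by simp [hh, hb]))
    have h3 : b.1 (h.1 w) = w := h2
    rw [map_sub, f2 b hb, h3, neg_sub]

theorem locB1_grp {G : Type*} [Group G] (N S : Subgroup G) [N.Normal] [N.FiniteIndex]
    (hp : ∀ g : G, ∃ k : ℕ, g ^ 2 ^ k ∈ N) (hS : S.index ∣ 2)
    (h : ∀ M : Subgroup G, M.index = 2 → N ≤ M → S ≤ M) (a b : G) :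
    (a * b)⁻¹ * (b * a) ∈ N := by
  have hs := QuotientGroup.mk'_surjective N
  have hp' : IsPGroup 2 (G ⧸ N) := by
    intro q
    obtain ⟨g, rfl⟩ := hs q
    obtain ⟨k, hk⟩ := hp g
    exact ⟨k, by rw [← map_pow]; exact (QuotientGroup.eq_one_iff _).2 hk⟩
  have hcyc := cyc_two hp' (S.map (QuotientGroup.mk' N))
    (Nat.le_of_dvd two_pos ((Subgroup.index_map_dvd _ hs).trans hS)) fun M hM => by
      rw [Subgroup.map_le_iff_le_comap]
      refine h _ ((Subgroup.index_comap_of_surjective _ hs).trans hM) fun k hk => ?_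
      rw [Subgroup.mem_comap, QuotientGroup.mk'_apply, (QuotientGroup.eq_one_iff _).2 hk]
      exact M.one_mem
  obtain ⟨z, hz⟩ := hcyc.exists_zpow_surjective
  obtain ⟨m, hm⟩ := hz (a : G ⧸ N)
  obtain ⟨n, hn⟩ := hz (b : G ⧸ N)
  rw [← QuotientGroup.eq, QuotientGroup.mk_mul, QuotientGroup.mk_mul, ← hm, ← hn]
  exact (zpow_mul_comm z m n)

theorem locB1_idx {H : Subgroup Gal(E/F)} {r : E} (hr : ∀ g ∈ H, g r = r ∨ g r = -r) :
    ((stab r : OpenSubgroup Gal(E/F)).toSubgroup.subgroupOf H).index ∣ 2 := by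
  rw [Subgroup.index_dvd_two_iff]
  by_cases e : ∃ g ∈ H, g r = -r
  · obtain ⟨g, hg, e⟩ := e
    refine ⟨⟨g, hg⟩, fun k => (hr k.1 k.2).symm.imp (fun e' => ?_) id⟩
    change k.1 (g r) = r
    rw [e, map_neg, e', neg_neg]
  · exact ⟨1, fun k => Or.inr ((hr k.1 k.2).resolve_right fun e' => e ⟨k.1, k.2, e'⟩)⟩

theorem locB1_comm {H : Subgroup Gal(E/F)} (hH : IsClosed (H : Set Gal(E/F)))
    (pro : ∀ g ∈ H, Pro2 g) {r : E} (hr : ∀ g ∈ H, g r = r ∨ g r = -r)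
    (h : ∀ g ∈ H, g r = r → ∀ y : E, y ≠ 0 → (∀ b ∈ H, b (y ^ 2) = y ^ 2) → g y = y)
    {a b : Gal(E/F)} (ha : a ∈ H) (hb : b ∈ H) : a * b = b * a := by
  refine (inv_mul_eq_one.1 (eq_one_of_forall_mem fun W => ?_))
  have hW : IsOpen (W.toSubgroup.subgroupOf H : Set H) :=
    W.isOpen.preimage continuous_subtype_val
  have h1 := finiteIndex_open W.toOpenSubgroup
  have h2 : (W.toSubgroup.subgroupOf H).FiniteIndex := inferInstance
  have h3 : (W.toSubgroup.subgroupOf H).Normal := W.isNormal'.subgroupOf H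
  refine locB1_grp (W.toSubgroup.subgroupOf H) _ (fun g => pro g.1 g.2 W) (locB1_idx hr)
    (fun M hM hN g hg => ?_) ⟨a, ha⟩ ⟨b, hb⟩
  obtain ⟨y, y0, hy⟩ := locB1_two hH hM (Subgroup.isOpen_mono hN hW)
  have h1 := h g.1 g.2 hg y y0 fun k hk => by
    by_cases e : (⟨k, hk⟩ : H) ∈ M
    · rw [map_pow, (hy _).1 e]
    · rw [map_pow, (hy _).2 e, neg_sq]
  by_contra e
  exact y0 (self_eq_neg.1 (h1.symm.trans ((hy g).2 e)))

theorem locB1 (hE : RC E) {H : Subgroup Gal(E/F)} (hH : IsClosed (H : Set Gal(E/F)))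
    (pro : ∀ g ∈ H, Pro2 g) (hi : ∀ g ∈ H, FixI g)
    (hab : ∀ N' : Subgroup Gal(E/F), (∃ W : OpenSubgroup Gal(E/F), ∀ u ∈ H, u ∈ W → u ∈ N') →
      (∀ g ∈ H, ∀ u ∈ H, u ∈ N' → g * u * g⁻¹ ∈ N') → (∀ g ∈ H, g ^ 4 ∈ N') →
      ∀ g ∈ H, ∀ h ∈ H, g * h * g⁻¹ * h⁻¹ ∈ N')
    (hna : ∃ g ∈ H, ∃ h ∈ H, g * h ≠ h * g) :
    ∃ O : ValuationSubring (IntermediateField.fixedField H), SqV O ∧
      (∃ q : ℕ, q.Prime ∧ q ≠ 2 ∧ Ov O q) ∧ ∃ y : IntermediateField.fixedField H, ¬IsSquare y := by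
  have fx : ∀ (z : IntermediateField.fixedField H), ∀ g ∈ H, g (z : E) = z := fun z =>
    (IntermediateField.mem_fixedField_iff _ _).1 z.2
  have := alg_rat F E
  have : Algebra.IsAlgebraic ℚ (IntermediateField.fixedField H) :=
    Algebra.IsAlgebraic.of_injective
      (algebraMap (IntermediateField.fixedField H) E).toRatAlgHom Subtype.val_injective
  obtain ⟨A, sA, π, π0, hπ⟩ := aej (K := IntermediateField.fixedField H)
    ((locB1_sq hE _).2 fun g hg =>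
      (sg_eq_zero_iff (rt_sq hE _)).2 (hi g hg _ (rt_sq hE _)))
    (locB1_rig hE hi hab) fun u hu => by
      by_contra hc
      obtain ⟨a, ha, b, hb, hne⟩ := hna
      refine hne (locB1_comm hH pro (r := rt (u : E))
        (fun g hg => ch_pm (rt_sq hE _) (fx u g hg)) (fun g hg e y y0 hy => ?_) ha hb)
      by_contra e'
      refine hc ⟨fun z => sg g (z : E), fun z z' hz hz' => sg_mul_right hE
        (fun e => hz (Subtype.ext e)) (fun e => hz' (Subtype.ext e)) (fx z g hg) (fx z' g hg),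
        (sg_eq_zero_iff (rt_sq hE _)).2 e,
        ⟨y ^ 2, (IntermediateField.mem_fixedField_iff _ _).2 hy⟩,
        fun e => pow_ne_zero 2 y0 (congrArg Subtype.val e), fun e => e' ?_⟩
      exact (sg_eq_zero_iff rfl).1 e
  have hA : A ≠ ⊤ := by
    rintro rfl
    exact hπ π 1 (ValuationSubring.mem_top _) (ValuationSubring.mem_top _) (by ring)
  obtain ⟨q, hq, hqA⟩ := exists_ov hA
  refine ⟨A, sA, ⟨q, hq, ?_, hqA⟩, π, ?_⟩
  · rintro rfl
    exact not_ov_two sA π0 hπ hqA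
  · rintro ⟨y, rfl⟩
    exact hπ 1 y A.one_mem (by simp) (by ring)

end Vale.Agent.P024
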