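import Vale.Agent.P024.LocA
import Vale.Agent.P024.LocB

/-! # P024 LocC (TASK; helper lemma names start with `locC_` or are private)
The local correspondence, part 1.  PLAN.  `exists_W0`: `exists_fix_roots 4` on both sides, `OH.pre`, `exists_normal_le`.
`exists_good`: `τ1 = τ^(2^k) ∈ W0`; `H1` from `exists_syl2_ge` for `DD ⊓ W0` and `zpowers τ1`; `H = α.img H1` (closed, pro-2 by `OH.pro2`).  For `T` open normal, `J = H1 ⊓ α.pre T` maps onto `H ⊓ T`; `hab` is `ab4` for `J` and the preimage `{g ∈ V | α g ∈ N'}`;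
`hna`: `σ` from `exists_move`, `τ2` a 2-power of `τ1` in `J`; if the images commute then `pow_mem_of_comm` for all `α.pre W'` gives `(α τ2)^(2^m) = 1`.  `locB`.
`Good.DD` (Frattini argument): for `W' ≤ V` open normal in `G1`, `τ1 = τ^(2^k) ∈ W'`, `J'` a Sylow subgroup of `II ⊓ W'` containing `τ1`; it is commutative (`II_pro2_comm`), so `α J'` commutes with `α τ1` and fixes `B` (`uniq_fix`, `DD_conj`);
`g τ1 g⁻¹` is conjugate into `J'` by `ρ ∈ II ⊓ W'` (`Syl2.conj_le`); `α` of this conjugate fixes `B` and `α (ρ g) • B`, so `α g • B = α ρ⁻¹ • B`.  Choose `W'` with `α W'` fixing a given `y`: `y ∈ α g • B ↔ y ∈ B`.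
`good_finite`: `finite_orbits`, `Good.smul`, `Good.unique`, `Ov.smul`, `Ov.unique`. -/

namespace Vale.Agent.P024

open NumberField IsDedekindDomain Filter
open scoped Pointwise Topology

set_option linter.unusedSectionVars false

variable {F E : Type*} [Field F] [NumberField F] [Field E] [CharZero E] [Algebra F E] [IsGalois F E]

variable {α : OH G1 Gal(E/F)} {A : ValuationSubring Qb} {B B' : ValuationSubring E}

/-- only finitely many residue characteristics change -/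
def KeyFin (α : OH G1 Gal(E/F)) : Prop :=
  {q : ℕ | q.Prime ∧ ∃ (A : ValuationSubring Qb) (B : ValuationSubring E) (p : ℕ),
    Good α A B ∧ p.Prime ∧ Ov A p ∧ Ov B q ∧ p ≠ q}.Finite

/-- the preimage of a subgroup -/
def locC_pre (α : OH G1 Gal(E/F)) (N : Subgroup Gal(E/F)) : Subgroup G1 where
  carrier := {g | g ∈ α.V ∧ α.f g ∈ N}
  one_mem' := ⟨α.V.one_mem, by rw [α.one]; exact N.one_mem⟩
  mul_mem' := fun {a b} ha hb =>
    ⟨α.V.mul_mem ha.1 hb.1, by rw [α.mul a ha.1 b hb.1]; exact N.mul_mem ha.2 hb.2⟩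
  inv_mem' := fun {a} ha => ⟨α.V.inv_mem ha.1, by rw [α.inv ha.1]; exact N.inv_mem ha.2⟩

theorem locC_comm {g h : G1} (hg : g ∈ α.V) (hh : h ∈ α.V) :
    α.f (g * h * g⁻¹ * h⁻¹) = α.f g * α.f h * (α.f g)⁻¹ * (α.f h)⁻¹ := by
  rw [α.mul _ (mul_mem (mul_mem hg hh) (inv_mem hg)) _ (inv_mem hh), α.conj hg hh, α.inv hh]

theorem locC_fin {τ : G1} (hV : τ ∈ α.V) (hf : ¬IsOfFinOrder (α.f τ)) (k : ℕ) :
    ¬IsOfFinOrder (α.f (τ ^ 2 ^ k)) := by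
  rw [α.pow hV, isOfFinOrder_pow]
  exact fun h => h.elim hf (pow_ne_zero k two_ne_zero)

theorem locC_conj {G : Type*} [Group G] {x : G} (hf : ¬IsOfFinOrder x) (g : G) :
    ¬IsOfFinOrder (g * x * g⁻¹) :=
  fun h => hf (by simpa [mul_assoc] using (MulAut.conj g⁻¹).toMonoidHom.isOfFinOrder h)

theorem locC_zp {τ : G1} (pro : Pro2 τ) : ∀ g ∈ Subgroup.zpowers τ, Pro2 g := by
  rintro _ ⟨n, rfl⟩
  exact pro.zpow n

theorem exists_W0 (α : OH G1 Gal(E/F)) :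
    ∃ W : OpenNormalSubgroup G1, ∀ g ∈ W, g ∈ α.V ∧ FixI g ∧ FixI (α.f g) := by
  obtain ⟨W1, h1⟩ := exists_fix_roots (F := ℚ) (E := Qb) 4 (by norm_num)
  obtain ⟨W2, h2⟩ := exists_fix_roots (F := F) (E := E) 4 (by norm_num)
  obtain ⟨W, hW⟩ := exists_normal_le (W1.toOpenSubgroup ⊓ α.pre W2.toOpenSubgroup)
  refine ⟨W, fun g hg => ⟨(hW g hg).2.1, fun i hi => h1 g (hW g hg).1 i ?_,
    fun i hi => h2 _ (hW g hg).2.2 i ?_⟩⟩
  · linear_combination (i ^ 2 - 1) * hi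
  · linear_combination (i ^ 2 - 1) * hi

theorem exists_W_fix (α : OH G1 Gal(E/F)) (s : Finset E) :
    ∃ W : OpenNormalSubgroup G1, ∀ g ∈ W, g ∈ α.V ∧ ∀ y ∈ s, α.f g y = y := by
  obtain ⟨W2, h2⟩ := exists_fix_finset (F := F) s
  obtain ⟨W, hW⟩ := exists_normal_le (α.pre W2.toOpenSubgroup)
  exact ⟨W, fun g hg => ⟨(hW g hg).1, h2 _ (hW g hg).2⟩⟩

theorem exists_good (hE : RC E) {p : ℕ} (hp : p.Prime) (h2 : p ≠ 2) (hA : Ov A p) {τ : G1}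
    (hV : τ ∈ α.V) (hI : τ ∈ II ℚ A) (pro : Pro2 τ) (hf : ¬IsOfFinOrder (α.f τ)) :
    ∃ B, Good α A B := by
  obtain ⟨W0, hW0⟩ := exists_W0 α
  obtain ⟨k, hk⟩ := pro W0
  have hf1 := locC_fin hV hf k
  have hI1 : τ ^ 2 ^ k ∈ II ℚ A := pow_mem hI _
  have pro1 := pro.pow (2 ^ k)
  generalize τ ^ 2 ^ k = τ1 at hk hf1 hI1 pro1
  obtain ⟨H1, hS, hle⟩ := exists_syl2_ge (S := DD ℚ A ⊓ W0.toOpenSubgroup.toSubgroup)
    ((isClosed_DD A).inter W0.toOpenSubgroup.isClosed) (P := Subgroup.zpowers τ1)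
    (Subgroup.zpowers_le.2 ⟨hI1.1, hk⟩) (locC_zp pro1)
  have h1 : τ1 ∈ H1 := hle (Subgroup.mem_zpowers _)
  have hD : H1 ≤ DD ℚ A := fun g hg => (hS.le hg).1
  have hW : ∀ g ∈ H1, g ∈ α.V ∧ FixI g ∧ FixI (α.f g) := fun g hg => hW0 g (hS.le hg).2
  obtain ⟨B, q, hq, hq2, hB, hH⟩ := locB hE (α.isClosed_img hS.closed)
    (by rintro _ ⟨g, hg, hg', rfl⟩; exact α.pro2 hg' (hS.pro g hg))
    (by rintro _ ⟨g, hg, -, rfl⟩; exact (hW g hg).2.2)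
    (by
      rintro T N' ⟨W, ho⟩ hn h4 _ ⟨⟨g, hg, hg', rfl⟩, hgT⟩ _ ⟨⟨h, hh, hh', rfl⟩, hhT⟩
      have hm : ∀ u ∈ H1 ⊓ (α.pre T.toOpenSubgroup).toSubgroup,
          α.f u ∈ α.img H1 ⊓ T.toSubgroup := fun u hu => ⟨⟨u, hu.1, hu.2.1, rfl⟩, hu.2.2⟩
      have := ab4 rc_Qb hp h2 hA (J := H1 ⊓ (α.pre T.toOpenSubgroup).toSubgroup)
        (N' := locC_pre α N') (hS.closed.inter (α.pre T.toOpenSubgroup).isClosed)
        (fun u hu => hD hu.1) (fun u hu => hS.pro u hu.1) (fun u hu => (hW u hu.1).2.1)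
        ⟨α.pre W, fun u hu hu' => ⟨hu'.1, ho _ (hm u hu) hu'.2⟩⟩
        (fun a ha u hu hu' => ⟨mul_mem (mul_mem ha.2.1 hu'.1) (inv_mem ha.2.1), by
          rw [α.conj ha.2.1 hu'.1]
          exact hn _ (hm a ha) _ (hm u hu) hu'.2⟩)
        (fun a ha => ⟨pow_mem ha.2.1 4, by
          rw [α.pow ha.2.1]
          exact h4 _ (hm a ha)⟩) g ⟨hg, hg', hgT⟩ h ⟨hh, hh', hhT⟩
      rw [← locC_comm hg' hh']
      exact this.2)
    (by
      intro T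
      obtain ⟨σ, hσ, hσT, m, hm⟩ := exists_move rc_Qb hp h2 hA W0.toOpenSubgroup
        (α.pre T.toOpenSubgroup) hS
      obtain ⟨j, hj⟩ := pro1.mem_open (α.pre T.toOpenSubgroup)
      have h3 := hj j le_rfl
      refine ⟨_, ⟨⟨σ, hσ, hσT.1, rfl⟩, hσT.2⟩, _, ⟨⟨_, pow_mem h1 _, h3.1, rfl⟩, h3.2⟩, fun e => ?_⟩
      refine locC_fin h3.1 (locC_fin (hW _ h1).1 hf1 j) m ?_
      rw [eq_one_of_forall_mem (g := α.f ((τ1 ^ 2 ^ j) ^ 2 ^ m)) fun W' => ?_]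
      · exact IsOfFinOrder.one
      · refine (pow_mem_of_comm rc_Qb hp h2 hA hD hS.pro hσ (pow_mem h1 _) (pow_mem hI1 _) hm
          (α.pre W'.toOpenSubgroup) ⟨mul_mem (mul_mem (mul_mem hσT.1 h3.1) (inv_mem hσT.1))
            (inv_mem h3.1), ?_⟩).2
        rw [locC_comm hσT.1 h3.1, e, mul_inv_cancel_right, mul_inv_cancel]
        exact one_mem _)
  exact ⟨B, ⟨p, hp, h2, hA⟩, ⟨q, hq, hq2, hB⟩, τ1, (hW _ h1).1, hI1, pro1, hf1,
    hH ⟨τ1, h1, (hW _ h1).1, rfl⟩⟩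

theorem Good.DD (hE : RC E) (h : Good α A B) {g : G1} (hV : g ∈ α.V) (hD : g ∈ DD ℚ A) :
    α.f g ∈ DD F B := by
  obtain ⟨⟨p, hp, h2, hA⟩, ⟨q, hq, hq2, hB⟩, τ, hτ, hI, pro, hf, hD'⟩ := h
  refine mem_DD.2 (SetLike.ext fun y => ?_)
  obtain ⟨W, hW⟩ := exists_W_fix α {y}
  obtain ⟨k, hk⟩ := pro W
  have hf1 := locC_fin hτ hf k
  have hI1 : τ ^ 2 ^ k ∈ II ℚ A := pow_mem hI _
  have pro1 := pro.pow (2 ^ k)
  have hD1 : α.f (τ ^ 2 ^ k) ∈ P024.DD F B := by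
    rw [α.pow hτ]
    exact pow_mem hD' _
  generalize τ ^ 2 ^ k = τ1 at hk hf1 hI1 pro1 hD1
  have hc : IsClosed ((II ℚ A ⊓ W.toOpenSubgroup.toSubgroup : Subgroup G1) : Set G1) :=
    (isClosed_II A).inter W.toOpenSubgroup.isClosed
  obtain ⟨J, hS, hle⟩ := exists_syl2_ge hc (P := Subgroup.zpowers τ1)
    (Subgroup.zpowers_le.2 ⟨hI1, hk⟩) (locC_zp pro1)
  have h1 : τ1 ∈ J := hle (Subgroup.mem_zpowers _)
  obtain ⟨ρ, hρ, h3⟩ := hS.conj_le hc (P := Subgroup.zpowers (g * τ1 * g⁻¹))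
    (Subgroup.zpowers_le.2 ⟨II_normal hD hI1, W.isNormal'.conj_mem _ hk g⟩) (locC_zp (pro1.conj g))
  have h4 : ρ * g * τ1 * (ρ * g)⁻¹ ∈ J := by
    have := h3 _ (Subgroup.mem_zpowers _)
    rwa [show ρ * (g * τ1 * g⁻¹) * ρ⁻¹ = ρ * g * τ1 * (ρ * g)⁻¹ by group] at this
  have hρV := (hW ρ hρ.2).1
  have hV1 := (hW _ hk).1
  have hV3 := (hW _ (hS.le h4).2).1
  have h5 := II_pro2_comm hp h2 hA (fun u hu => (hS.le hu).1) hS.pro h4 h1
  have e3 := α.conj (mul_mem hρV hV) hV1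
  have h6 : B = α.f (ρ * g * τ1 * (ρ * g)⁻¹) • B := by
    refine uniq_fix hE (α.pro2 hV1 pro1) hf1 hq hq2 hB hq hq2 (hB.smul _) hD1 ?_
    have := (DD_conj (α.f (ρ * g * τ1 * (ρ * g)⁻¹))).2 hD1
    rwa [← α.mul _ hV3 _ hV1, h5, α.mul _ hV1 _ hV3, mul_inv_cancel_right] at this
  have h7 : B = α.f (ρ * g) • B := by
    refine uniq_fix hE (α.pro2 hV3 (hS.pro _ h4)) (e3 ▸ locC_conj hf1 _) hq hq2 hB hq hq2
      (hB.smul _) (mem_DD.2 h6.symm) ?_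
    rw [e3]
    exact (DD_conj _).2 hD1
  rw [α.mul _ hρV _ hV, mul_smul] at h7
  conv_rhs => rw [h7, ← (hW ρ hρ.2).2 y (Finset.mem_singleton_self y)]
  exact (mem_smul_iff _).symm

theorem Good.unique (hE : RC E) (h : Good α A B) (h' : Good α A B') : B = B' := by
  obtain ⟨q', hq', h2', hB'⟩ := h'.ovB
  obtain ⟨-, ⟨q, hq, h2, hB⟩, τ, hτ, hI, pro, hf, hD⟩ := h
  exact uniq_fix hE (α.pro2 hτ pro) hf hq h2 hB hq' h2' hB' hD (h'.DD hE hτ hI.1)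

theorem Good.smul (h : Good α A B) {g : G1} (hV : g ∈ α.V) : Good α (g • A) (α.f g • B) := by
  obtain ⟨⟨p, hp, h2, hA⟩, ⟨q, hq, hq2, hB⟩, τ, hτ, hI, pro, hf, hD⟩ := h
  refine ⟨⟨p, hp, h2, hA.smul g⟩, ⟨q, hq, hq2, hB.smul _⟩, g * τ * g⁻¹,
    mul_mem (mul_mem hV hτ) (inv_mem hV), (II_conj g).2 hI, pro.conj g, ?_, ?_⟩
  · rw [α.conj hV hτ]
    exact locC_conj hf _
  · rw [α.conj hV hτ]
    exact (DD_conj _).2 hD

theorem Good.congr (h : Good α A B) {α' : OH G1 Gal(E/F)} (U : OpenSubgroup G1) (hU : U ≤ α.V)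
    (hU' : U ≤ α'.V) (e : ∀ g ∈ U, α'.f g = α.f g) : Good α' A B := by
  obtain ⟨hA, hB, τ, hτ, hI, pro, hf, hD⟩ := h
  obtain ⟨k, hk⟩ := pro.mem_open U
  have h1 := hk k le_rfl
  refine ⟨hA, hB, τ ^ 2 ^ k, hU' h1, pow_mem hI _, pro.pow _, ?_, ?_⟩
  · rw [e _ h1]
    exact locC_fin hτ hf k
  · rw [e _ h1, α.pow hτ]
    exact pow_mem hD _

theorem good_finite (hE : RC E) (α : OH G1 Gal(E/F)) {p : ℕ} (hp : p.Prime) :
    {q : ℕ | q.Prime ∧ ∃ (A : ValuationSubring Qb) (B : ValuationSubring E),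
      Good α A B ∧ Ov A p ∧ Ov B q}.Finite := by
  obtain ⟨S, hS, h⟩ := finite_orbits (F := ℚ) α.V hp
  refine (hS.biUnion (t := fun A' => {q : ℕ | q.Prime ∧ ∃ B, Good α A' B ∧ Ov B q})
    fun A' _ => Set.Subsingleton.finite ?_).subset ?_
  · rintro q ⟨hq, B, h1, h2⟩ q' ⟨hq', B', h1', h2'⟩
    rw [← h1.unique hE h1'] at h2'
    exact h2.unique h2' hq hq'
  · rintro q ⟨hq, A, B, h1, h2, h3⟩
    obtain ⟨A', hA', g, hg, rfl⟩ := h A h2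
    have := h1.smul (inv_mem hg)
    rw [inv_smul_smul] at this
    exact Set.mem_biUnion hA' ⟨hq, _, this, h3.smul _⟩

end Vale.Agent.P024
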