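import Vale.Agent.P024.LocC
import Vale.Agent.P024.PrC

/-! # P024 LocD (TASK; helper lemma names start with `locD_` or are private)
The local correspondence, part 2.  PLAN.  `Good.II`: `τ1 = τ^(2^k) ∈ W0`, `H1` a Sylow subgroup of `DD ⊓ W0` containing it, `σ` from `exists_move`; `α (σ τ1 σ⁻¹ τ1⁻¹) ∈ II B` (`comm_mem_II`, `Good.DD`).  For each `y ∈ B`: `N' = α.pre (stab y)` is not enough; use instead the open subgroup argument with
`N'_W = {g ∈ V | α g ∈ II B ⊔ W}` for `W` open normal (`II B ⊔ W` is an open subgroup): `pow_mem_of_comm` gives `(α τ1)^(2^m) ∈ II B ⊔ W` for all `W`, so it lies in the closed subgroup `II B` (`mem_of_forall_open`); `II_of_pow_mem`.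
`Good.fix_roots`: `mem_of_pro2` for `S = II A ⊓ W0`, `N = {ρ ∈ V | α ρ fixes the 2^n-th roots of unity}` (`cyc`, the unit group of `ZMod (2^n)` is a 2-group), `Good.II`, `II_root`.
`Good.cyc`: `τ ∈ W0` from `h.ex`, `J1` a Sylow subgroup of `II ⊓ W0` containing it, `σ = α τ`, `tc_order` with `m = N` gives `y, z, N'`; `W'` with `α W'` fixing `y`; `N0` from `rel2`; `c' = (cyc (2^(N0+N')) g).val ≡ c mod 2^N`.
`ρ τ' ρ⁻¹ = g τ g⁻¹` with `τ' ∈ J1`; then `tc (α τ') y = tc (σ^c') y ≡ z^c'`, and `tc_conj` twice gives `α g z ≡ α ρ (z^c') = z^c'`; `eq_one_of_pow_eq_one`; a primitive `2^N`-th root is a power of `z`.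
`Good.frob`: `res_pow` for `{y, z}` with `z` primitive of order `2^(a+1)`, `2^a ∥ p - 1`; `z^(p^i) = z^p` forces `i` odd since `p² ≡ 1 mod 2^(a+1)`.
`sg_II_good`: `IsCh.zero_of_pro2` for `S = II A ⊓ α.pre T`; for pro-2 `τ`: finite order gives `α τ = 1` (`Pro2.of_finOrder`, `eq_one_of_fixI`), otherwise `exists_good`, `Good.II`, `exists_lies`, `sg_II_even`. -/

namespace Vale.Agent.P024

open NumberField IsDedekindDomain Filter
open scoped Pointwise Topology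

set_option linter.unusedSectionVars false

variable {F E : Type*} [Field F] [NumberField F] [Field E] [CharZero E] [Algebra F E] [IsGalois F E]

variable {α : OH G1 Gal(E/F)} {A : ValuationSubring Qb} {B : ValuationSubring E}

theorem locD_roots [Algebra.IsAlgebraic ℚ E] {q n : ℕ} (hq : q.Prime) (hB : Ov B q) (h2 : q ≠ 2) {a b : E} (ha : a ^ 2 ^ n = 1)
    (hb : b ^ 2 ^ n = 1) (h : a - b ∈ B.nonunits) : a = b := by
  have hn : (2 ^ n : ℕ) ≠ 0 := by positivity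
  have hb0 : b ≠ 0 := by
    rintro rfl
    rw [zero_pow hn] at hb
    exact zero_ne_one hb
  have hq2 : ¬q ∣ 2 ^ n := fun hd =>
    h2 ((Nat.prime_dvd_prime_iff_eq hq Nat.prime_two).1 (hq.dvd_of_dvd_pow hd))
  have hbi : b⁻¹ ∈ B := (uq_val_one.1 (uq_root B hn (z := b⁻¹) (by rw [inv_pow, hb, inv_one]))).1
  have e : a / b = 1 := by
    refine eq_one_of_pow_eq_one hB hq hq2 (by rw [div_pow, ha, hb, div_one]) ?_
    have : a / b - 1 = b⁻¹ * (a - b) := by field_simp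
    rw [this]
    exact uq_mul hbi h
  exact (div_eq_one_iff_eq hb0).1 e

theorem locD_unit {n : ℕ} {x : ZMod (2 ^ n)} (hx : IsUnit x) : x ^ 2 ^ n = 1 := by
  obtain ⟨u, rfl⟩ := hx
  have h1 : (2 ^ n).totient ∣ 2 ^ n := by
    cases n with
    | zero => simp
    | succ n =>
      rw [Nat.totient_prime_pow_succ Nat.prime_two]
      simpa using pow_dvd_pow 2 (Nat.le_succ n)
  obtain ⟨k, hk⟩ := h1
  have h2 : u ^ 2 ^ n = 1 := by
    have h3 : u ^ ((2 ^ n).totient * k) = 1 := by rw [pow_mul, ZMod.pow_totient, one_pow]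
    rwa [← hk] at h3
  rw [← Units.val_pow_eq_pow_val, h2, Units.val_one]

theorem locD_closed (A : ValuationSubring Qb) (U : OpenSubgroup G1) :
    IsClosed ((II ℚ A ⊓ U.toSubgroup : Subgroup G1) : Set G1) :=
  (isClosed_II A).inter U.isClosed

theorem locD_zp {G : Type*} [Group G] [TopologicalSpace G] [IsTopologicalGroup G] [CompactSpace G]
    [T2Space G] [TotallyDisconnectedSpace G] {τ : G} (h : Pro2 τ) :
    ∀ g ∈ Subgroup.zpowers τ, Pro2 g := by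
  rintro _ ⟨k, rfl⟩
  exact h.zpow k

theorem Good.II (hE : RC E) (h : Good α A B) {τ : G1} (hV : τ ∈ α.V) (hI : τ ∈ II ℚ A)
    (pro : Pro2 τ) (hi : FixI (α.f τ)) : α.f τ ∈ II F B := by
  obtain ⟨p, hp, hp2, hA⟩ := h.ovA
  obtain ⟨q, hq, hq2, hB⟩ := h.ovB
  have hS : IsClosed ((P024.DD ℚ A ⊓ α.V.toSubgroup : Subgroup G1) : Set G1) :=
    (isClosed_DD A).inter α.V.isClosed
  obtain ⟨J, hJ, hτJ⟩ := exists_syl2_ge hS (P := Subgroup.zpowers τ)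
    (Subgroup.zpowers_le_of_mem ⟨hI.1, hV⟩) (locD_zp pro)
  have hτ : τ ∈ J := hτJ (Subgroup.mem_zpowers τ)
  obtain ⟨σ, hσ, hσV, m, hm⟩ := exists_move rc_Qb hp hp2 hA α.V α.V hJ
  have hJD : J ≤ P024.DD ℚ A := hJ.le.trans inf_le_left
  have hτD := h.DD hE hV hI.1
  have hc : α.f (σ * τ * σ⁻¹ * τ⁻¹) ∈ P024.II F B := by
    rw [α.mul _ (α.V.mul_mem (α.V.mul_mem hσV hV) (α.V.inv_mem hσV)) _ (α.V.inv_mem hV),
      α.conj hσV hV, α.inv hV]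
    exact comm_mem_II hq hB (h.DD hE hσV (hJD hσ)) hτD
  refine II_of_pow_mem hE hq hq2 hB hτD hi (k := m) ?_
  refine mem_of_forall_open (isClosed_II B) fun W => ?_
  let T : OpenSubgroup Gal(E/F) := ⟨P024.II F B ⊔ W.toSubgroup,
    Subgroup.isOpen_mono le_sup_right W.isOpen⟩
  have h1 : τ ^ 2 ^ m ∈ α.pre T :=
    pow_mem_of_comm rc_Qb hp hp2 hA hJD hJ.pro hσ hτ hI hm (α.pre T)
      ⟨α.V.mul_mem (α.V.mul_mem (α.V.mul_mem hσV hV) (α.V.inv_mem hσV)) (α.V.inv_mem hV),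
        Subgroup.mem_sup_left hc⟩
  have h2 : α.f τ ^ 2 ^ m ∈ P024.II F B ⊔ W.toSubgroup := by
    rw [← α.pow hV]
    exact h1.2
  obtain ⟨j, hj, w, hw, e⟩ := Subgroup.mem_sup_of_normal_right.1 h2
  refine ⟨j, hj, ?_⟩
  rw [← e, inv_mul_cancel_left]
  exact hw

theorem Good.fix_roots (hE : RC E) (h : Good α A B) (W : OpenNormalSubgroup G1)
    (hW : ∀ g ∈ W, g ∈ α.V ∧ FixI (α.f g)) {ρ : G1} (hρ : ρ ∈ W) (hI : ρ ∈ P024.II ℚ A) {n : ℕ} {z : E}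
    (hz : z ^ 2 ^ n = 1) : α.f ρ z = z := by
  obtain ⟨q, hq, hq2, hB⟩ := h.ovB
  have hq3 : ¬q ∣ 2 ^ n := fun hd =>
    hq2 ((Nat.prime_dvd_prime_iff_eq hq Nat.prime_two).1 (hq.dvd_of_dvd_pow hd))
  obtain ⟨K, hK⟩ := exists_cycK (F := F) hE (2 ^ n)
  have key := mem_of_pro2 (locD_closed A W.toOpenSubgroup)
    (N := (α.pre K.toOpenSubgroup).toSubgroup) ⟨α.pre K.toOpenSubgroup, fun g _ hg => hg⟩ ?_ ?_ ?_
    ρ ⟨hI, hρ⟩
  · exact (cyc_eq_one_iff hE).1 ((hK _).1 key.2) z hz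
  · intro g hg u hu hN
    have hgV := (hW g hg.2).1
    refine ⟨α.V.mul_mem (α.V.mul_mem hgV hN.1) (α.V.inv_mem hgV), ?_⟩
    rw [α.conj hgV hN.1]
    exact K.isNormal'.conj_mem _ hN.2 _
  · intro g hg
    have hgV := (hW g hg.2).1
    refine ⟨n, α.V.toSubgroup.pow_mem hgV _, (hK _).2 ?_⟩
    rw [α.pow hgV, cyc_pow hE]
    exact locD_unit (isUnit_cyc hE _)
  · intro g hg pro
    have hgV := (hW g hg.2).1
    exact ⟨hgV, (hK _).2 (cyc_II hE hq hB hq3 (h.II hE hgV hg.1 pro (hW g hg.2).2))⟩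

theorem Good.cyc (hE : RC E) (h : Good α A B) {g : G1} (hV : g ∈ α.V) (hD : g ∈ P024.DD ℚ A) {N c : ℕ}
    (hc : ∀ z : Qb, z ^ 2 ^ N = 1 → g z = z ^ c) {z : E} (hz : z ^ 2 ^ N = 1) : α.f g z = z ^ c := by
  have := alg_rat F E
  obtain ⟨p, hp, hp2, hA⟩ := h.ovA
  obtain ⟨q, hq, hq2, hB⟩ := h.ovB
  obtain ⟨τ0, h0V, h0I, h0p, h0f, -⟩ := h.ex
  obtain ⟨W0, hW0⟩ := exists_W0 α
  obtain ⟨k, hk⟩ := h0p W0
  set τ := τ0 ^ 2 ^ k with hτ
  have hτI : τ ∈ P024.II ℚ A := (P024.II ℚ A).pow_mem h0I _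
  have hτV : τ ∈ α.V := (hW0 τ hk).1
  have hτp : Pro2 τ := h0p.pow _
  have hσI : α.f τ ∈ P024.II F B := h.II hE hτV hτI hτp (hW0 τ hk).2.2
  have hσf : ¬IsOfFinOrder (α.f τ) := by
    rw [hτ, α.pow h0V]
    exact fun hf => h0f (hf.of_pow (by positivity))
  obtain ⟨y, ζ, N', hy, hN, hζ, hyζ⟩ := tc_order hE hq hq2 hB hσI (α.pro2 hτV hτp) hσf N
  obtain ⟨W', hW'⟩ := exists_W_fix α {y}
  obtain ⟨N0, hN0⟩ := rel2 rc_Qb hp hp2 hA W'
  have hS := locD_closed A W0.toOpenSubgroup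
  obtain ⟨J, hJ, hτJ⟩ := exists_syl2_ge hS (P := Subgroup.zpowers τ)
    (Subgroup.zpowers_le_of_mem ⟨hτI, hk⟩) (locD_zp hτp)
  obtain ⟨ρ, hρ, hρJ⟩ := hJ.conj_le hS (P := Subgroup.zpowers (g * τ * g⁻¹))
    (Subgroup.zpowers_le_of_mem ⟨II_normal hD hτI, W0.isNormal'.conj_mem _ hk _⟩)
    (locD_zp (hτp.conj g))
  have hτ'J := hρJ _ (Subgroup.mem_zpowers _)
  set τ' := ρ * (g * τ * g⁻¹) * ρ⁻¹ with hτ'
  have hτ'S := hJ.le hτ'J
  have hτ'V : τ' ∈ α.V := (hW0 τ' hτ'S.2).1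
  have hσ'I : α.f τ' ∈ P024.II F B := h.II hE hτ'V hτ'S.1 (hJ.pro _ hτ'J) (hW0 τ' hτ'S.2).2.2
  have hρW : ρ⁻¹ ∈ W0 := W0.toSubgroup.inv_mem hρ.2
  have hρI : ρ⁻¹ ∈ P024.II ℚ A := (P024.II ℚ A).inv_mem hρ.1
  have hρV : ρ⁻¹ ∈ α.V := (hW0 _ hρW).1
  have e0 : ρ⁻¹ * τ' * ρ⁻¹⁻¹ = g * τ * g⁻¹ := by rw [hτ']; group
  set c' := (P024.cyc (2 ^ (N0 + N')) g).val with hc'
  have hcs : ∀ (M : ℕ), M ≤ N0 + N' → ∀ w : Qb, w ^ 2 ^ M = 1 → g w = w ^ c' := by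
    intro M hM w hw
    refine cyc_spec rc_Qb g ?_
    obtain ⟨d, hd⟩ := pow_dvd_pow 2 hM
    rw [hd, pow_mul, hw, one_pow]
  have h1 := hN0 J (hJ.le.trans inf_le_left) hJ.pro τ (hτJ (Subgroup.mem_zpowers τ)) τ' hτ'J g hD
    ρ⁻¹ hρI e0 c' (hcs N0 (Nat.le_add_right _ _))
  have h2 := (hW' _ h1).2 y (Finset.mem_singleton_self y)
  have hcV : τ ^ c' ∈ α.V := α.V.toSubgroup.pow_mem hτV _
  rw [α.mul _ (α.V.inv_mem hcV) _ hτ'V, α.inv hcV, α.pow hτV] at h2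
  have h3 : tc (α.f τ') y = tc (α.f τ ^ c') y := by
    unfold tc
    congr 1
    conv_rhs => rw [← h2]
    rw [← AlgEquiv.mul_apply, mul_inv_cancel_left]
  have h4 : tc (α.f τ') y - ζ ^ c' ∈ B.nonunits := by
    rw [h3]
    exact tame_trans (tc_pow hσI hy c') (tame_cpow hyζ (tame_mem hσI.1 hy) c')
  have hgD := h.DD hE hV hD
  have hρD := h.DD hE hρV hρI.1
  have hζc : (ζ ^ c') ^ 2 ^ N' = 1 := by rw [← pow_mul, mul_comm, pow_mul, hζ.pow_eq_one, one_pow]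
  have h5 : α.f ρ⁻¹ (ζ ^ c') = ζ ^ c' :=
    h.fix_roots hE W0 (fun g hg => ⟨(hW0 g hg).1, (hW0 g hg).2.2⟩) hρW hρI hζc
  have h6 : tc (α.f g * α.f τ * (α.f g)⁻¹) y - α.f g ζ ∈ B.nonunits := by
    refine tame_trans (tc_conj hσI hgD hy) ?_
    rw [← map_sub]
    exact (DD_nonunits hgD).2 hyζ
  have h7 : tc (α.f g * α.f τ * (α.f g)⁻¹) y - ζ ^ c' ∈ B.nonunits := by
    rw [← α.conj hV hτV, ← e0, α.conj hρV hτ'V]
    refine tame_trans (tc_conj hσ'I hρD hy) ?_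
    rw [← h5, ← map_sub]
    exact (DD_nonunits hρD).2 h4
  have h8 : α.f g ζ = ζ ^ c' :=
    locD_roots hq hB hq2 (n := N') (by rw [← map_pow, hζ.pow_eq_one, map_one]) hζc
      (tame_trans (tame_symm h6) h7)
  have hz' : z ^ 2 ^ N' = 1 := by
    obtain ⟨d, hd⟩ := pow_dvd_pow 2 hN
    rw [hd, pow_mul, hz, one_pow]
  obtain ⟨i, -, rfl⟩ := hζ.eq_pow_of_pow_eq_one hz'
  obtain ⟨w, hw⟩ := rc_Qb.prim (2 ^ N) (by positivity)
  have h9 : w ^ c' = w ^ c := by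
    rw [← hc w hw.pow_eq_one, hcs N (by omega) w hw.pow_eq_one]
  have h10 : c' ≡ c [MOD 2 ^ N] := by
    rw [hw.eq_orderOf]
    exact (isOfFinOrder_iff_pow_eq_one.2 ⟨2 ^ N, by positivity, hw.pow_eq_one⟩).pow_eq_pow_iff_modEq.1
      h9
  rw [map_pow, h8, ← pow_mul, mul_comm, pow_mul, pow_eq_pow_mod c' hz, pow_eq_pow_mod c hz, h10]

theorem Good.frob (hE : RC E) (h : Good α A B) {p : ℕ} (hp : p.Prime) (hA : Ov A p) (hB : Ov B p)
    {g : G1} (hV : g ∈ α.V) (hg : IsFrob A p g) {y : E} (hy : y ∈ B)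
    (h2 : y ^ p ^ 2 - y ∈ B.nonunits) : α.f g y - y ^ p ∈ B.nonunits := by
  have := alg_rat F E
  obtain ⟨p', hp', hp2, hA'⟩ := h.ovA
  obtain rfl : p = p' := hA.unique hA' hp hp'
  obtain ⟨a, m, hm, e⟩ := Nat.exists_eq_two_pow_mul_odd (n := p - 1) (by have := hp.two_le; omega)
  have hp3 : ¬p ∣ 2 ^ (a + 1) := fun hd =>
    hp2 ((Nat.prime_dvd_prime_iff_eq hp Nat.prime_two).1 (hp.dvd_of_dvd_pow hd))
  obtain ⟨ζ, hζ⟩ := hE.prim (2 ^ (a + 1)) (by positivity)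
  have h1 : α.f g ζ = ζ ^ p :=
    h.cyc hE hV hg.1 (fun z hz => IsFrob.root hA hp hp3 hg hz) hζ.pow_eq_one
  have hζB : ζ ∈ B := (uq_val_one.1 (uq_root B (by positivity) hζ.pow_eq_one)).1
  classical
  obtain ⟨i, hi⟩ := res_pow hp hB (h.DD hE hV hg.1) {y, ζ} (by
    intro x hx
    rcases Finset.mem_insert.1 hx with rfl | hx
    · exact hy
    · rw [Finset.mem_singleton.1 hx]; exact hζB)
  have hw : ∀ k : ℕ, (ζ ^ k) ^ 2 ^ (a + 1) = 1 := fun k => by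
    rw [← pow_mul, mul_comm, pow_mul, hζ.pow_eq_one, one_pow]
  have h3 : ζ ^ p = ζ ^ p ^ i := by
    refine locD_roots hp hB hp2 (hw p) (hw (p ^ i)) ?_
    rw [← h1]
    exact hi ζ (by simp)
  have h4 : p ≡ p ^ i [MOD 2 ^ (a + 1)] := by
    rw [hζ.eq_orderOf]
    exact (isOfFinOrder_iff_pow_eq_one.2
      ⟨2 ^ (a + 1), by positivity, hζ.pow_eq_one⟩).pow_eq_pow_iff_modEq.1 h3
  have hp1 : p = 2 ^ a * m + 1 := by have := hp.two_le; omega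
  obtain ⟨t, ht⟩ := hp.odd_of_ne_two hp2
  have h5 : p ^ 2 ≡ 1 [MOD 2 ^ (a + 1)] := by
    refine ((Nat.modEq_iff_dvd' (Nat.one_le_pow _ _ hp.pos)).2 ⟨m * (t + 1), ?_⟩).symm
    have : p ^ 2 = 2 ^ (a + 1) * (m * (t + 1)) + 1 := by
      calc p ^ 2 = (2 ^ a * m) * (p + 1) + 1 := by rw [hp1]; ring
        _ = _ := by rw [ht]; ring
    omega
  have h6 : ∀ j : ℕ, y ^ p ^ (2 * j) - y ∈ B.nonunits := by
    intro j
    induction j with
    | zero => simp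
    | succ j ih =>
      have : y ^ p ^ (2 * (j + 1)) = (y ^ p ^ (2 * j)) ^ p ^ 2 := by
        rw [← pow_mul, ← pow_add, mul_add, mul_one]
      rw [this]
      exact tame_trans (tame_cpow ih (pow_mem hy _) _) h2
  rcases Nat.even_or_odd' i with ⟨j, rfl | rfl⟩
  · exfalso
    have h7 : p ^ (2 * j) ≡ 1 [MOD 2 ^ (a + 1)] := by
      have := h5.pow j
      rwa [← pow_mul, one_pow] at this
    have h8 := (Nat.modEq_iff_dvd' hp.one_le).1 (h4.trans h7).symm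
    rw [e, pow_succ] at h8
    exact hm.not_two_dvd_nat (Nat.dvd_of_mul_dvd_mul_left (by positivity) h8)
  · refine tame_trans (hi y (by simp)) ?_
    rw [pow_succ, pow_mul]
    exact tame_cpow (h6 j) (pow_mem hy _) _

theorem sg_II_good (hE : RC E) {T : OpenSubgroup Gal(E/F)} (hT : ∀ t ∈ T, FixI t) {p : ℕ}
    (hp : p.Prime) (h2 : p ≠ 2) (hA : Ov A p) (x : Fx T)
    (hx : ∀ B Q, Good α A B → Lies B (inc T) Q → Even (ordP Q x)) {ρ : G1} (hρ : ρ ∈ α.pre T)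
    (hI : ρ ∈ II ℚ A) : sg (α.f ρ) (x : E) = 0 := by
  have := alg_rat F E
  have hc : IsCh (α.pre T) fun g => sg (α.f g) (x : E) :=
    IsCh.pre α (isCh_sg hE (mem_Fx.1 x.2))
  refine hc.zero_of_pro2 (fun y => ⟨1, ?_⟩) (locD_closed A (α.pre T)) (fun g hg => hg.2)
    (fun τ hτ pro => ?_) ρ ⟨hI, hρ⟩
  · revert y
    decide
  have hV : τ ∈ α.V := hτ.2.1
  have hi := hT _ hτ.2.2
  by_cases hf : IsOfFinOrder (α.f τ)
  · obtain ⟨k, hk⟩ := (α.pro2 hV pro).of_finOrder hf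
    show sg (α.f τ) (x : E) = 0
    rw [eq_one_of_fixI hE hi hk]
    simp [sg]
  · obtain ⟨B, hB⟩ := exists_good hE hp h2 hA hV hτ.1 pro hf
    obtain ⟨q, hq, hq2, hBq⟩ := hB.ovB
    obtain ⟨Q, hQ⟩ := exists_lies hBq hq (inc T)
    exact sg_II_even hE hQ hq hq2 hBq (hx B Q hB hQ) (hB.II hE hV hτ.1 pro hi)
      fun y => mem_Fx.1 y.2 _ hτ.2.2

end Vale.Agent.P024
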