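import Vale.Agent.P024.Dv

/-! # P024 NrmD (TASK; helper lemma names start with `nrmD_` or are private)
The norm of divisors modulo `l ^ j`.  PLAN.  `nrm P` is a power of a prime `≠ l`, so a unit `u P` of `ZMod (l^j)`; `ν D = ∏ u P ^ D P` (`Finsupp.prod`).  For `x ≡ 1`: write `x = a / s` with `a ∈ 𝓞 M`, `s` natural prime to `l`; `ν (dvI I) = absNorm I` for ideals prime to `l` (induction on prime factors),
`absNorm (span {a}) = |N a|`, and `N a > 0` in a totally complex field (`Algebra.norm_eq_prod_embeddings`, `InfinitePlace.prod_eq_abs_norm`; pair each embedding with its conjugate: `N a = ∏ w, (w a)^2`, see `NumberField.InfinitePlace.prod_eq_abs_norm` and `Finset.prod_fiberwise`);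
`a ≡ s mod l^j 𝓞` gives `N a ≡ s^d mod l^j` (determinant of the multiplication matrix modulo `l^j`, or the product over embeddings in the ring of algebraic integers). -/

namespace Vale.Agent.P024

open NumberField IsDedekindDomain Filter
open scoped Pointwise Topology

set_option linter.unusedSectionVars false

section

variable {M : Type*} [Field M] [NumberField M]

theorem nrmD_nonneg [IsTotallyComplex M] (a : 𝓞 M) : 0 ≤ Algebra.norm ℤ a := by
  classical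
  by_cases h0 : (a : M) = 0
  · have : a = 0 := RingOfIntegers.coe_eq_zero_iff.1 h0
    rw [this, Algebra.norm_zero]
  have h1 : ((Algebra.norm ℤ a : ℤ) : ℂ) = ∏ φ : M →+* ℂ, φ a := by
    have h := Algebra.norm_eq_prod_embeddings ℚ ℂ (a : M)
    rw [← Algebra.coe_norm_int, ← Fintype.prod_equiv (RingHom.equivRatAlgHom M ℂ)
      (fun φ => φ a) _ fun _ => rfl] at h
    simpa using h
  have h2 : ∀ φ : M →+* ℂ, ((‖φ a‖ : ℝ) : ℂ) ≠ 0 := fun φ => by simpa using h0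
  have h3 : ∏ φ : M →+* ℂ, φ a / ((‖φ a‖ : ℝ) : ℂ) = 1 := by
    refine Finset.prod_involution (fun φ _ => ComplexEmbedding.conjugate φ) (fun φ _ => ?_)
      (fun φ _ _ => IsTotallyComplex.complexEmbedding_not_isReal φ) (fun _ _ => Finset.mem_univ _)
      fun φ _ => star_star φ
    rw [ComplexEmbedding.conjugate_coe_eq, Complex.norm_conj, div_mul_div_comm, Complex.mul_conj',
      sq]
    exact div_self (mul_ne_zero (h2 φ) (h2 φ))
  rw [Finset.prod_div_distrib, div_eq_one_iff_eq (Finset.prod_ne_zero_iff.2 fun φ _ => h2 φ),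
    ← h1, ← Complex.ofReal_prod] at h3
  have h4 : ((Algebra.norm ℤ a : ℤ) : ℝ) = ∏ φ : M →+* ℂ, ‖φ a‖ := by exact_mod_cast h3
  have h5 : (0 : ℝ) ≤ ∏ φ : M →+* ℂ, ‖φ a‖ := Finset.prod_nonneg fun _ _ => norm_nonneg _
  rw [← h4] at h5
  exact_mod_cast h5

theorem nrmD_cong (n : ℕ) (a b : 𝓞 M) :
    ((Algebra.norm ℤ (a + n * b) : ℤ) : ZMod n) = (Algebra.norm ℤ a : ℤ) := by
  classical
  let B := Module.Free.chooseBasis ℤ (𝓞 M)
  rw [Algebra.norm_eq_matrix_det B, Algebra.norm_eq_matrix_det B, Int.cast_det, Int.cast_det,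
    ← nsmul_eq_mul, map_add, map_nsmul]
  congr 1
  ext i k
  simp only [Matrix.map_apply, Matrix.add_apply, Matrix.smul_apply]
  simp

variable {l : ℕ} [Fact l.Prime]

theorem nrmD_cop (j : ℕ) (P : Pr M l) : (nrm P.1).Coprime (l ^ j) := by
  obtain ⟨p, hp, h⟩ := exists_prime_mem P.1
  obtain ⟨f, -, -, e⟩ := nrm_eq_pow hp h
  rw [e]
  refine Nat.Coprime.pow _ _ ((Nat.coprime_primes hp Fact.out).2 ?_)
  rintro rfl
  exact P.2 h

theorem nrmD_ideal {R : Type*} [CommMonoidWithZero R] {c : ℕ →* R} {ν : Dv M l → R}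
    (h1 : ∀ D D', ν (D + D') = ν D * ν D') (h2 : ν 0 = 1)
    (h3 : ∀ P : Pr M l, ν (Finsupp.single P 1) = c (nrm P.1)) (I : Ideal (𝓞 M)) : I ≠ ⊥ →
      (∀ P : HeightOneSpectrum (𝓞 M), I ≤ P.asIdeal → (l : 𝓞 M) ∉ P.asIdeal) →
      ν (dvI l I) = c (Ideal.absNorm I) := by
  induction I using UniqueFactorizationMonoid.induction_on_prime with
  | h₁ => exact fun h => absurd rfl h
  | h₂ I hI =>
    intro _ _
    rw [Ideal.isUnit_iff.1 hI, dvI_top, h2, Ideal.absNorm_top, map_one]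
  | h₃ I p hI hp ih =>
    intro _ h
    let P : HeightOneSpectrum (𝓞 M) := ⟨p, Ideal.isPrime_of_prime hp, hp.ne_zero⟩
    have e := dvI_prime (⟨P, h P Ideal.mul_le_left⟩ : Pr M l)
    rw [dvI_mul hp.ne_zero hI, h1, ih hI fun Q hQ => h Q (Ideal.mul_le_right.trans hQ), e, h3,
      map_mul, map_mul]

theorem nrmD_not_mem {j s : ℕ} (hj : 0 < j) (hs : s.Coprime l) (b : 𝓞 M)
    (P : HeightOneSpectrum (𝓞 M)) (h : (s : 𝓞 M) + (l ^ j : ℕ) * b ∈ P.asIdeal) :
    (l : 𝓞 M) ∉ P.asIdeal := fun hl => by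
  have h1 : ((l ^ j : ℕ) : 𝓞 M) * b ∈ P.asIdeal := by
    rw [Nat.cast_pow]
    exact P.asIdeal.mul_mem_right _ (P.asIdeal.pow_mem_of_mem hl j hj)
  have h2 : (s : 𝓞 M) ∈ P.asIdeal := (P.asIdeal.add_mem_iff_left h1).1 h
  obtain ⟨u, v, e⟩ := Nat.Coprime.cast (R := 𝓞 M) hs
  exact P.isPrime.ne_top ((Ideal.eq_top_iff_one _).2
    (e ▸ P.asIdeal.add_mem (P.asIdeal.mul_mem_left _ h2) (P.asIdeal.mul_mem_left _ hl)))

end

theorem exists_nrmD (M : Type*) [Field M] [NumberField M] [IsTotallyComplex M] (l j : ℕ)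
    [Fact l.Prime] (hj : 0 < j) :
    ∃ ν : Dv M l → ZMod (l ^ j), (∀ D D', ν (D + D') = ν D * ν D') ∧ ν 0 = 1 ∧
      (∀ P : Pr M l, ν (Finsupp.single P 1) = nrm P.1) ∧ ∀ x : M, Cg l j x 1 → ν (dv l x) = 1 := by
  classical
  let u : Pr M l → (ZMod (l ^ j))ˣ := fun P => ZMod.unitOfCoprime _ (nrmD_cop j P)
  let μ : Dv M l → (ZMod (l ^ j))ˣ := fun D => D.prod fun P n => u P ^ n
  have m1 : ∀ D D', μ (D + D') = μ D * μ D' := fun D D' =>
    Finsupp.prod_add_index' (fun _ => zpow_zero _) fun _ _ _ => zpow_add _ _ _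
  have h1 : ∀ D D', (μ (D + D') : ZMod (l ^ j)) = μ D * μ D' := fun D D' => by
    rw [m1, Units.val_mul]
  have h2 : (μ 0 : ZMod (l ^ j)) = 1 := by simp [μ]
  have h3 : ∀ P : Pr M l, (μ (Finsupp.single P 1) : ZMod (l ^ j)) = nrm P.1 := fun P => by
    simp [μ, u]
  refine ⟨fun D => μ D, h1, h2, h3, fun x hx => ?_⟩
  obtain ⟨t, ⟨s, hs, ht⟩, rfl⟩ := cg_iff.1 hx
  have key : ∀ b : 𝓞 M, (((s : 𝓞 M) + (l ^ j : ℕ) * b : 𝓞 M) : M) ≠ 0 ∧
      (μ (dv l (((s : 𝓞 M) + (l ^ j : ℕ) * b : 𝓞 M) : M)) : ZMod (l ^ j)) =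
        (Algebra.norm ℤ (s : 𝓞 M) : ℤ) := fun b => by
    have h0 : (s : 𝓞 M) + (l ^ j : ℕ) * b ≠ 0 := fun h => by
      obtain ⟨P, hP⟩ := exists_over M (Fact.out : l.Prime)
      exact nrmD_not_mem hj hs b P (h ▸ P.asIdeal.zero_mem) hP
    refine ⟨RingOfIntegers.coe_ne_zero_iff.2 h0, ?_⟩
    rw [← dvI_span, nrmD_ideal (c := (Nat.castRingHom (ZMod (l ^ j))).toMonoidHom)
      (ν := fun D => μ D) h1 h2 h3 _ (by simpa using h0) fun P hP =>
        nrmD_not_mem hj hs b P (hP (Ideal.mem_span_singleton_self _)),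
      Ideal.absNorm_span_singleton, ← nrmD_cong (l ^ j) _ b]
    conv_rhs => rw [← Int.natAbs_of_nonneg (nrmD_nonneg _)]
    simp
  have k0 := key 0
  obtain ⟨b, hb⟩ : ∃ b : 𝓞 M, (b : M) = s * t := ⟨⟨s * t, ht⟩, rfl⟩
  have k1 := key b
  have e0 : (((s : 𝓞 M) + (l ^ j : ℕ) * 0 : 𝓞 M) : M) = s := by simp
  have e1 : (((s : 𝓞 M) + (l ^ j : ℕ) * b : 𝓞 M) : M) = s * (1 + l ^ j * t) := by
    change algebraMap (𝓞 M) M _ = _
    rw [map_add, map_mul, map_natCast, map_natCast, show algebraMap (𝓞 M) M b = s * t from hb,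
      Nat.cast_pow]
    ring
  rw [e0] at k0
  rw [e1, dv_mul k0.1 (hx.ne_zero hj), m1, ← k0.2, Units.val_inj, mul_eq_left] at k1
  exact congrArg Units.val k1.2

end Vale.Agent.P024
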