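import Vale.Agent.P024.Li

/-! # P024 PrA (TASK; helper lemma names start with `prA_` or are private)
The dictionary between valuation rings and primes of number fields.  PLAN.  For `Lies A τ P`: `A.comap τ` contains the localisation `HeightOneSpectrum.valuationSubringAtPrime M P` (elements outside `P` are units of `A`), is not `⊤`, hence equals it
(`ValuationSubring.eq_of_le_of_ne_top`, `valuationSubringAtPrime_eq_valuationSubring`).  So `τ x ∈ A ↔ P.valuation M x ≤ 1`; everything else follows.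
`exists_val`: `LocalSubring.exists_le_valuationSubring` (or `IsLocalRing.exists_factor_valuationRing`) for the image of the valuation ring of `P` in `E`.
`ordP_natCast_le`, `nrm_eq_pow`: `P ^ e ∣ span {p}`, `absNorm (span {p}) = p ^ finrank`, `absNorm P ≠ 1`.  `exists_ordP`: multiply uniformisers `π_P ∈ P \ P²` that are units at the other primes of `S` (`IsDedekindDomain.exists_forall_sub_mem_ideal`). -/

namespace Vale.Agent.P024

open NumberField IsDedekindDomain Filter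
open scoped Pointwise Topology

set_option linter.unusedSectionVars false

variable {E : Type*} [Field E] {M : Type*} [Field M] [NumberField M] {A : ValuationSubring E}
  {τ : M →+* E} {P P' : HeightOneSpectrum (𝓞 M)} {x y : M} {p : ℕ}

private theorem prA_ne (P : HeightOneSpectrum (𝓞 M)) (hx : x ≠ 0) : P.valuation M x ≠ 0 :=
  (Valuation.ne_zero_iff _).2 hx

private theorem prA_le_iff (P : HeightOneSpectrum (𝓞 M)) (hx : x ≠ 0) (n : ℤ) :
    n ≤ ordP P x ↔ P.valuation M x ≤ WithZero.exp (-n) := by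
  rw [ordP, le_neg, WithZero.log_le_iff_le_exp (prA_ne P hx)]

private theorem prA_nonneg_iff (P : HeightOneSpectrum (𝓞 M)) (x : M) :
    0 ≤ ordP P x ↔ P.valuation M x ≤ 1 := by
  by_cases hx : x = 0
  · simp [hx, ordP]
  · simpa using prA_le_iff P hx 0

private theorem prA_pos_iff (P : HeightOneSpectrum (𝓞 M)) (hx : x ≠ 0) :
    0 < ordP P x ↔ P.valuation M x < 1 := by
  rw [ordP, neg_pos, WithZero.log_lt_iff_lt_exp (prA_ne P hx), WithZero.exp_zero]

private theorem prA_coe_ne {a : 𝓞 M} (ha : a ≠ 0) : (a : M) ≠ 0 :=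
  RingOfIntegers.coe_ne_zero_iff.2 ha

theorem ordP_zero (P : HeightOneSpectrum (𝓞 M)) : ordP P 0 = 0 := by
  simp [ordP]

theorem ordP_one (P : HeightOneSpectrum (𝓞 M)) : ordP P 1 = 0 := by
  simp [ordP]

theorem ordP_mul (P : HeightOneSpectrum (𝓞 M)) (hx : x ≠ 0) (hy : y ≠ 0) :
    ordP P (x * y) = ordP P x + ordP P y := by
  rw [ordP, ordP, ordP, map_mul, WithZero.log_mul (prA_ne P hx) (prA_ne P hy), neg_add]

theorem ordP_neg (P : HeightOneSpectrum (𝓞 M)) (x : M) : ordP P (-x) = ordP P x := by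
  rw [ordP, ordP, Valuation.map_neg]

theorem ordP_inv (P : HeightOneSpectrum (𝓞 M)) (x : M) : ordP P x⁻¹ = -ordP P x := by
  rw [ordP, ordP, map_inv₀, WithZero.log_inv]

theorem ordP_div (P : HeightOneSpectrum (𝓞 M)) (hx : x ≠ 0) (hy : y ≠ 0) :
    ordP P (x / y) = ordP P x - ordP P y := by
  rw [div_eq_mul_inv, ordP_mul P hx (inv_ne_zero hy), ordP_inv, sub_eq_add_neg]

theorem ordP_pow (P : HeightOneSpectrum (𝓞 M)) (x : M) (n : ℕ) : ordP P (x ^ n) = n * ordP P x := by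
  rw [ordP, ordP, map_pow, WithZero.log_pow, nsmul_eq_mul, mul_neg]

theorem ordP_zpow (P : HeightOneSpectrum (𝓞 M)) (x : M) (n : ℤ) : ordP P (x ^ n) = n * ordP P x := by
  rw [ordP, ordP, map_zpow₀, WithZero.log_zpow, smul_eq_mul, mul_neg]

theorem ordP_prod (P : HeightOneSpectrum (𝓞 M)) {ι : Type*} (s : Finset ι) {f : ι → M}
    (h : ∀ i ∈ s, f i ≠ 0) : ordP P (∏ i ∈ s, f i) = ∑ i ∈ s, ordP P (f i) := by
  classical
  induction s using Finset.induction_on with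
  | empty => simpa using ordP_one P
  | insert a s ha ih =>
    have h1 : ∀ i ∈ s, f i ≠ 0 := fun i hi => h i (Finset.mem_insert_of_mem hi)
    rw [Finset.prod_insert ha, Finset.sum_insert ha, ordP_mul P (h a (Finset.mem_insert_self a s))
      (Finset.prod_ne_zero_iff.2 h1), ih h1]

theorem ordP_nonneg (P : HeightOneSpectrum (𝓞 M)) (a : 𝓞 M) : 0 ≤ ordP P (a : M) := by
  exact (prA_nonneg_iff P _).2 (P.valuation_le_one a)

theorem ordP_pos_iff (P : HeightOneSpectrum (𝓞 M)) {a : 𝓞 M} (ha : a ≠ 0) :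
    0 < ordP P (a : M) ↔ a ∈ P.asIdeal := by
  exact (prA_pos_iff P (prA_coe_ne ha)).trans (P.valuation_lt_one_iff_mem a)

theorem le_ordP_iff (P : HeightOneSpectrum (𝓞 M)) {a : 𝓞 M} (ha : a ≠ 0) (n : ℕ) :
    (n : ℤ) ≤ ordP P (a : M) ↔ a ∈ P.asIdeal ^ n := by
  rw [prA_le_iff P (prA_coe_ne ha), ← P.intValuation_le_pow_iff_mem,
    ← P.valuation_of_algebraMap (K := M)]

theorem exists_unif (P : HeightOneSpectrum (𝓞 M)) : ∃ π : 𝓞 M, π ≠ 0 ∧ ordP P (π : M) = 1 := by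
  obtain ⟨π, h⟩ := P.valuation_exists_uniformizer' M
  have h' : P.valuation M (π : M) = WithZero.exp (-1) := h
  refine ⟨π, ?_, by rw [ordP, h', WithZero.log_exp, neg_neg]⟩
  rintro rfl
  exact WithZero.exp_ne_zero (h'.symm.trans (by simp))

private theorem prA_exists (S : Finset (HeightOneSpectrum (𝓞 M)))
    (n : HeightOneSpectrum (𝓞 M) → ℕ) :
    ∃ y : 𝓞 M, ∀ P ∈ S, y ≠ 0 ∧ ordP P (y : M) = n P := by
  choose π h0 h1 using exists_unif (M := M)
  obtain ⟨y, hy⟩ := IsDedekindDomain.exists_forall_sub_mem_ideal (s := S)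
    (fun P => P.asIdeal) (fun P => n P + 1) (fun P _ => P.prime)
    (fun P _ Q _ h e => h (HeightOneSpectrum.ext e)) fun P => π P.1 ^ n P.1
  refine ⟨y, fun P hP => ?_⟩
  have h2 := hy P hP
  have h3 : ordP P ((π P ^ n P : 𝓞 M) : M) = n P := by
    rw [show ((π P ^ n P : 𝓞 M) : M) = (π P : M) ^ n P from map_pow _ _ _, ordP_pow, h1, mul_one]
  have h4 : π P ^ n P ∈ P.asIdeal ^ n P := (le_ordP_iff P (pow_ne_zero _ (h0 P)) _).1 h3.ge
  have h5 : π P ^ n P ∉ P.asIdeal ^ (n P + 1) := fun h => by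
    have := (le_ordP_iff P (pow_ne_zero _ (h0 P)) _).2 h
    rw [h3] at this
    omega
  have h6 : y ∉ P.asIdeal ^ (n P + 1) := fun h => h5 (by simpa using sub_mem h h2)
  have h7 : y ≠ 0 := fun h => h6 (h ▸ zero_mem _)
  have h8 : y ∈ P.asIdeal ^ n P := by
    simpa using add_mem (Ideal.pow_le_pow_right (Nat.le_succ _) h2) h4
  have h9 := (le_ordP_iff P h7 _).2 h8
  have h10 := (le_ordP_iff P h7 _).not.2 h6
  exact ⟨h7, by omega⟩

theorem exists_ordP (S : Finset (HeightOneSpectrum (𝓞 M))) (a : HeightOneSpectrum (𝓞 M) → ℤ) :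
    ∃ x : M, x ≠ 0 ∧ ∀ P ∈ S, ordP P x = a P := by
  rcases S.eq_empty_or_nonempty with rfl | ⟨Q, hQ⟩
  · exact ⟨1, one_ne_zero, by simp⟩
  obtain ⟨y, hy⟩ := prA_exists S fun P => (a P).toNat
  obtain ⟨z, hz⟩ := prA_exists S fun P => (-a P).toNat
  have h1 := prA_coe_ne (hy Q hQ).1
  have h2 := prA_coe_ne (hz Q hQ).1
  refine ⟨y / z, div_ne_zero h1 h2, fun P hP => ?_⟩
  rw [ordP_div P h1 h2, (hy P hP).2, (hz P hP).2]
  omega

theorem isIntegral_of_ordP (h : ∀ P : HeightOneSpectrum (𝓞 M), 0 ≤ ordP P x) : IsIntegral ℤ x := by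
  obtain ⟨a, rfl⟩ := HeightOneSpectrum.mem_integers_of_valuation_le_one (R := 𝓞 M) M x
    fun P => (prA_nonneg_iff P x).1 (h P)
  exact a.isIntegral_coe

theorem exists_prime_mem (P : HeightOneSpectrum (𝓞 M)) :
    ∃ p : ℕ, p.Prime ∧ (p : 𝓞 M) ∈ P.asIdeal := by
  have := P.isMaximal
  obtain ⟨p, n, -, h1, h2, -⟩ := Ideal.exists_prime_and_absNorm_eq_pow P.asIdeal
  exact ⟨p, h2, h1⟩

theorem prime_mem_unique {q : ℕ} (hp : p.Prime) (hq : q.Prime) (h : (p : 𝓞 M) ∈ P.asIdeal)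
    (h' : (q : 𝓞 M) ∈ P.asIdeal) : p = q := by
  by_contra e
  obtain ⟨u, v, h1⟩ : IsCoprime (p : 𝓞 M) q := Nat.Coprime.cast ((Nat.coprime_primes hp hq).2 e)
  exact P.isPrime.ne_top ((Ideal.eq_top_iff_one _).2
    (h1 ▸ add_mem (P.asIdeal.mul_mem_left u h) (P.asIdeal.mul_mem_left v h')))

theorem finite_over (hp : p ≠ 0) :
    {P : HeightOneSpectrum (𝓞 M) | (p : 𝓞 M) ∈ P.asIdeal}.Finite := by
  have h : Ideal.span {(p : 𝓞 M)} ≠ 0 := by simpa using hp
  simpa only [Ideal.dvd_span_singleton] using Ideal.finite_factors h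

private theorem prA_norm (M : Type*) [Field M] [NumberField M] (p : ℕ) :
    Ideal.absNorm (Ideal.span {(p : 𝓞 M)}) = p ^ Module.finrank ℚ M := by
  rw [Ideal.absNorm_span_natCast, RingOfIntegers.rank]

theorem exists_over (M : Type*) [Field M] [NumberField M] (hp : p.Prime) :
    ∃ P : HeightOneSpectrum (𝓞 M), (p : 𝓞 M) ∈ P.asIdeal := by
  have h : Ideal.span {(p : 𝓞 M)} ≠ ⊤ := fun e => by
    have h1 := prA_norm M p
    rw [e, Ideal.absNorm_top] at h1
    exact (one_lt_pow₀ hp.one_lt Module.finrank_pos.ne').ne h1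
  obtain ⟨Q, h1, h2⟩ := Ideal.exists_le_maximal _ h
  have h3 : (p : 𝓞 M) ∈ Q := h2 (Ideal.mem_span_singleton_self _)
  refine ⟨⟨Q, h1.isPrime, ?_⟩, h3⟩
  rintro rfl
  exact hp.ne_zero (by simpa using h3)

theorem nrm_eq_pow (hp : p.Prime) (h : (p : 𝓞 M) ∈ P.asIdeal) :
    ∃ f : ℕ, 0 < f ∧ f ≤ Module.finrank ℚ M ∧ nrm P = p ^ f := by
  have := P.isMaximal
  obtain ⟨q, n, h0, h1, h2, h3⟩ := Ideal.exists_prime_and_absNorm_eq_pow P.asIdeal
  obtain rfl := prime_mem_unique hp h2 h h1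
  refine ⟨n, h0, ?_, h3⟩
  have h4 := Ideal.absNorm_dvd_absNorm_of_le ((Ideal.span_singleton_le_iff_mem _).2 h)
  rwa [h3, prA_norm, Nat.pow_dvd_pow_iff_le_right hp.one_lt] at h4

theorem ordP_natCast_le (hp : p.Prime) (P : HeightOneSpectrum (𝓞 M)) :
    ordP P (p : M) ≤ Module.finrank ℚ M := by
  have h0 : (p : 𝓞 M) ≠ 0 := Nat.cast_ne_zero.2 hp.ne_zero
  have e : ((p : 𝓞 M) : M) = p := map_natCast (algebraMap (𝓞 M) M) p
  obtain ⟨k, hk⟩ := Int.eq_ofNat_of_zero_le (ordP_nonneg P p)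
  rw [← e, hk, Nat.cast_le]
  rcases k.eq_zero_or_pos with rfl | hk0
  · exact Nat.zero_le _
  have h1 := (le_ordP_iff P h0 k).1 hk.ge
  obtain ⟨f, h2, -, h3⟩ := nrm_eq_pow hp (Ideal.pow_le_self hk0.ne' h1)
  have h4 := Ideal.absNorm_dvd_absNorm_of_le ((Ideal.span_singleton_le_iff_mem _).2 h1)
  rw [map_pow, show Ideal.absNorm P.asIdeal = _ from h3, prA_norm, ← pow_mul,
    Nat.pow_dvd_pow_iff_le_right hp.one_lt] at h4
  exact (Nat.le_mul_of_pos_left k h2).trans h4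

theorem mem_of_nrm_prime (h : nrm P = p) : (p : 𝓞 M) ∈ P.asIdeal := by
  exact h ▸ Ideal.absNorm_mem P.asIdeal

private theorem prA_int (A : ValuationSubring E) (τ : M →+* E) (a : 𝓞 M) : τ (a : M) ∈ A :=
  mem_of_isIntegral A (a.isIntegral_coe.map τ.toIntAlgHom)

private theorem prA_cast (τ : M →+* E) (p : ℕ) : τ ((p : 𝓞 M) : M) = p :=
  map_natCast (τ.comp (algebraMap (𝓞 M) M)) p

theorem exists_lies (hA : Ov A p) (hp : p.Prime) (τ : M →+* E) : ∃ P, Lies A τ P := by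
  let f : 𝓞 M →+* A := (τ.comp (algebraMap (𝓞 M) M)).codRestrict A.toSubring (prA_int A τ)
  have h : ∀ a : 𝓞 M, a ∈ (IsLocalRing.maximalIdeal A).comap f ↔ τ (a : M) ∈ A.nonunits :=
    fun a => (ValuationSubring.coe_mem_nonunits_iff (a := f a)).symm
  refine ⟨⟨(IsLocalRing.maximalIdeal A).comap f, inferInstance, fun e => ?_⟩, h⟩
  have h1 := (h p).2 (by rwa [prA_cast])
  rw [e] at h1
  exact hp.ne_zero (by simpa using h1)

theorem exists_val (τ : M →+* E) (P : HeightOneSpectrum (𝓞 M)) :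
    ∃ A : ValuationSubring E, Lies A τ P := by
  obtain ⟨A, h1, h2⟩ := IsLocalRing.exists_factor_valuationRing
    (τ.comp (P.valuation M).valuationSubring.subtype)
  refine ⟨A, fun a => ?_⟩
  let b : (P.valuation M).valuationSubring := ⟨a, P.valuation_le_one a⟩
  have h3 := ValuationSubring.coe_mem_nonunits_iff (A := A) (a := ⟨τ a, h1 b⟩)
  have h4 := isUnit_map_iff
    ((τ.comp (P.valuation M).valuationSubring.subtype).codRestrict A.toSubring h1) b
  rw [← P.valuation_lt_one_iff_mem (K := M)]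
  refine (Valuation.mem_maximalIdeal_iff M (P.valuation M) (a := b)).symm.trans ?_
  exact h4.not.symm.trans h3.symm

theorem Lies.unique (h : Lies A τ P) (h' : Lies A τ P') : P = P' := by
  exact HeightOneSpectrum.ext (Ideal.ext fun a => (h a).trans (h' a).symm)

theorem Lies.ov (h : Lies A τ P) : Ov A p ↔ (p : 𝓞 M) ∈ P.asIdeal := by
  rw [h, prA_cast, Ov]

theorem Lies.exists_ov (h : Lies A τ P) : ∃ p : ℕ, p.Prime ∧ Ov A p ∧ (p : 𝓞 M) ∈ P.asIdeal := by
  obtain ⟨p, h1, h2⟩ := exists_prime_mem P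
  exact ⟨p, h1, h.ov.2 h2, h2⟩

private theorem prA_mem (h : Lies A τ P) (hx : 0 ≤ ordP P x) : τ x ∈ A := by
  obtain ⟨n, d, e⟩ := P.exists_primeCompl_mul_eq_of_integer x ((prA_nonneg_iff P x).1 hx)
  have h1 := (h d).not.1 d.2
  rw [ValuationSubring.mem_nonunits_iff_or, not_or, not_not] at h1
  rw [← mul_inv_cancel_right₀ h1.1 (τ x), ← map_mul]
  exact mul_mem (e ▸ prA_int A τ n) h1.2

private theorem prA_nonunits (h : Lies A τ P) (hx : 0 < ordP P x) : τ x ∈ A.nonunits := by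
  obtain ⟨π, h0, h1⟩ := exists_unif P
  have h2 : x ≠ 0 := by
    rintro rfl
    simp [ordP_zero] at hx
  have h3 : τ (x / π) ∈ A := prA_mem h (by rw [ordP_div P h2 (prA_coe_ne h0)]; omega)
  have h4 := uq_mul h3 ((h π).1 ((ordP_pos_iff P h0).1 (by omega)))
  rwa [← map_mul, div_mul_cancel₀ _ (prA_coe_ne h0)] at h4

theorem Lies.mem_iff (h : Lies A τ P) (x : M) : τ x ∈ A ↔ 0 ≤ ordP P x := by
  refine ⟨fun hx => not_lt.1 fun h1 => ?_, prA_mem h⟩
  have h2 := prA_nonunits h (x := x⁻¹) (by rw [ordP_inv]; omega)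
  rw [map_inv₀, ValuationSubring.inv_mem_nonunits_iff, map_eq_zero] at h2
  rcases h2 with rfl | h2
  · simp [ordP_zero] at h1
  · exact h2 hx

theorem mem_LI_iff_ordP {l : ℕ} [Fact l.Prime] :
    x ∈ LI M l ↔ ∀ P : HeightOneSpectrum (𝓞 M), (l : 𝓞 M) ∈ P.asIdeal → 0 ≤ ordP P x := by
  have hl : l.Prime := Fact.out
  rw [mem_LI_iff]
  constructor
  · intro h P hP
    obtain ⟨A, hA⟩ := exists_val (RingHom.id M) P
    exact (hA.mem_iff x).1 (h A (hA.ov.2 hP))
  · intro h A hA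
    obtain ⟨P, hP⟩ := exists_lies hA hl (RingHom.id M)
    exact (hP.mem_iff x).2 (h P (hP.ov.1 hA))

theorem Lies.nonunits_iff (h : Lies A τ P) (hx : x ≠ 0) : τ x ∈ A.nonunits ↔ 0 < ordP P x := by
  rw [ValuationSubring.mem_nonunits_iff_or, map_eq_zero, ← map_inv₀, h.mem_iff, ordP_inv]
  simp [hx]

theorem Lies.val_eq_one (h : Lies A τ P) (hx : x ≠ 0) : A.valuation (τ x) = 1 ↔ ordP P x = 0 := by
  rw [uq_val_one, h.mem_iff, h.nonunits_iff hx]
  omega

theorem Lies.val_eq_iff (h : Lies A τ P) (hx : x ≠ 0) (hy : y ≠ 0) :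
    A.valuation (τ x) = A.valuation (τ y) ↔ ordP P x = ordP P y := by
  have h1 : A.valuation (τ y) ≠ 0 := by simpa using hy
  rw [← div_eq_one_iff_eq h1, ← map_div₀, ← map_div₀, h.val_eq_one (div_ne_zero hx hy),
    ordP_div P hx hy, sub_eq_zero]

theorem Lies.exists_int (h : Lies A τ P) (hx : τ x ∈ A) :
    ∃ a : 𝓞 M, τ x - τ (a : M) ∈ A.nonunits := by
  obtain ⟨a, ha⟩ := P.exists_valuation_sub_lt_of_integer
    ((prA_nonneg_iff P x).1 ((h.mem_iff x).1 hx)) 1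
  refine ⟨a, ?_⟩
  rw [← map_sub]
  by_cases e : x - a = 0
  · rw [e, map_zero]
    exact zero_mem _
  · rw [h.nonunits_iff e, prA_pos_iff P e, Valuation.map_sub_swap]
    exact ha

private theorem prA_pow {u v : E} (hu : u ∈ A) (hv : v ∈ A) (h : u - v ∈ A.nonunits) (n : ℕ) :
    u ^ n - v ^ n ∈ A.nonunits := by
  rw [← geom_sum₂_mul]
  exact uq_mul (sum_mem fun i _ => mul_mem (pow_mem hu _) (pow_mem hv _)) h

private theorem prA_card (P : HeightOneSpectrum (𝓞 M)) : Nat.card (𝓞 M ⧸ P.asIdeal) = nrm P := by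
  rw [nrm, Ideal.absNorm_apply, Submodule.cardQuot_apply]

private theorem prA_fin (P : HeightOneSpectrum (𝓞 M)) : Finite (𝓞 M ⧸ P.asIdeal) :=
  Ideal.finiteQuotientOfFreeOfNeBot _ P.ne_bot

theorem Lies.pow_nrm (h : Lies A τ P) (hx : τ x ∈ A) : τ x ^ nrm P - τ x ∈ A.nonunits := by
  obtain ⟨a, ha⟩ := h.exists_int hx
  have := P.isMaximal
  have := prA_fin P
  let := Fintype.ofFinite (𝓞 M ⧸ P.asIdeal)
  let := Ideal.Quotient.field P.asIdeal
  have h1 := FiniteField.pow_card (Ideal.Quotient.mk P.asIdeal a)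
  rw [← Nat.card_eq_fintype_card, prA_card, ← map_pow, Ideal.Quotient.eq, h] at h1
  have h2 : τ ((a ^ nrm P - a : 𝓞 M) : M) = τ a ^ nrm P - τ a := by simp
  have h3 := sub_mem (add_mem (prA_pow hx (prA_int A τ a) ha (nrm P)) (h2 ▸ h1)) ha
  convert h3 using 1
  ring

private theorem prA_intCast (hN : (nrm P).Prime) (a : 𝓞 M) : ∃ k : ℤ, a - k ∈ P.asIdeal := by
  have := prA_fin P
  have := Fact.mk hN
  have h0 : (1 : 𝓞 M ⧸ P.asIdeal) ≠ 0 := by
    have := P.isPrime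
    exact one_ne_zero
  obtain ⟨k, hk⟩ := AddSubgroup.mem_zmultiples_iff.1
    (mem_zmultiples_of_prime_card (prA_card P) h0 (g' := Ideal.Quotient.mk _ a))
  refine ⟨k, Ideal.Quotient.eq.1 ?_⟩
  rw [← hk, map_intCast, zsmul_one]

private theorem prA_sub (τ : M →+* E) (a : 𝓞 M) (k : ℤ) : τ ((a - k : 𝓞 M) : M) = τ a - k := by
  simp

theorem Lies.exists_intCast (h : Lies A τ P) (hN : (nrm P).Prime) (hx : τ x ∈ A) :
    ∃ a : ℤ, τ x - a ∈ A.nonunits := by
  obtain ⟨a, ha⟩ := h.exists_int hx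
  obtain ⟨k, hk⟩ := prA_intCast hN a
  rw [h, prA_sub] at hk
  exact ⟨k, by simpa using add_mem ha hk⟩

/-- if all residues satisfy `x ^ p ≡ x` then the norm is `p` -/
theorem Lies.nrm_eq (h : Lies A τ P) (hp : p.Prime) (hA : Ov A p)
    (hx : ∀ a : 𝓞 M, τ (a : M) ^ p - τ (a : M) ∈ A.nonunits) : nrm P = p := by
  obtain ⟨f, h1, -, h2⟩ := nrm_eq_pow hp (h.ov.1 hA)
  refine le_antisymm ?_ (h2 ▸ Nat.le_self_pow h1.ne' p)
  have := P.isMaximal
  have := prA_fin P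
  let := Fintype.ofFinite (𝓞 M ⧸ P.asIdeal)
  let := Ideal.Quotient.field P.asIdeal
  have h3 := FiniteField.X_pow_card_sub_X_ne_zero (𝓞 M ⧸ P.asIdeal) hp.one_lt
  rw [← prA_card, Nat.card_eq_fintype_card]
  refine le_of_le_of_eq (Polynomial.card_le_degree_of_subset_roots fun z _ => ?_)
    (FiniteField.X_pow_card_sub_X_natDegree_eq (𝓞 M ⧸ P.asIdeal) hp.one_lt)
  obtain ⟨a, rfl⟩ := Ideal.Quotient.mk_surjective z
  have h4 : τ ((a ^ p - a : 𝓞 M) : M) = τ a ^ p - τ a := by simp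
  have h5 := Ideal.Quotient.eq_zero_iff_mem.2 ((h _).2 (h4 ▸ hx a))
  simpa [Polynomial.mem_roots h3] using h5

theorem Lies.smul {F : Type*} [Field F] [Algebra F E] (h : Lies A τ P) (g : Gal(E/F))
    {τ' : M →+* E} (e : ∀ x, τ' x = g (τ x)) : Lies (g • A) τ' P := by
  exact fun a => by rw [e, nonunits_smul_iff, h]

/-- compatibility in towers, for valuations of elements of the smaller field -/
theorem Lies.comap {M' : Type*} [Field M'] [NumberField M'] (φ : M' →+* M)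
    {P' : HeightOneSpectrum (𝓞 M')} (h : Lies A τ P) (h' : Lies A (τ.comp φ) P') (a : 𝓞 M') :
    a ∈ P'.asIdeal ↔ RingOfIntegers.mapRingHom φ a ∈ P.asIdeal := by
  exact (h' a).trans (h (RingOfIntegers.mapRingHom φ a)).symm

/-- two embeddings that induce the same primes of degree one over infinitely many `p` are equal -/
theorem emb_eq [CharZero E] [Algebra.IsAlgebraic ℚ E] (τ τ' : M →+* E)
    (h : {p : ℕ | p.Prime ∧ ∃ (A : ValuationSubring E) (P : HeightOneSpectrum (𝓞 M)),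
      nrm P = p ∧ Lies A τ P ∧ Lies A τ' P}.Infinite) : τ = τ' := by
  have h1 : ∀ a : 𝓞 M, τ a = τ' a := fun a => by
    by_contra e
    refine h ((finite_ov (sub_ne_zero.2 e)).subset ?_)
    rintro p ⟨hp, A, P, rfl, h2, h3⟩
    refine ⟨hp, A, h2.ov.2 (mem_of_nrm_prime rfl), ne_of_lt (A.mem_nonunits_iff.1 ?_)⟩
    obtain ⟨k, hk⟩ := prA_intCast hp a
    have h4 := sub_mem ((h2 _).1 hk) ((h3 _).1 hk)
    rwa [prA_sub, prA_sub, sub_sub_sub_cancel_right] at h4
  ext x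
  obtain ⟨a, b, -, rfl⟩ := IsFractionRing.div_surjective (A := 𝓞 M) x
  rw [map_div₀, map_div₀]
  exact congrArg₂ _ (h1 a) (h1 b)

end Vale.Agent.P024
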