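import Vale.Agent.P024.PrA
import Vale.Agent.P024.Ch

/-! # P024 PrB (TASK; helper lemma names start with `prB_` or are private)
Decomposition groups: transitivity and Frobenius elements.  PLAN.  `O = 𝓞 E` (the definition of `𝓞` needs no finiteness) with the discrete topology; `pr A = {x : O | x ∈ A.nonunits}` is a prime ideal, and `A` is determined by it:
`x ∈ A ↔ ∃ s ∉ pr A, s x ∈ O` (inside the number field `Fx (stab x)`, by `exists_lies` and `Lies.mem_iff`); `pr (g • A) = g • pr A`.  The closed subgroup `U` is a profinite group acting on `O`, `Algebra.IsInvariant (𝓞 (Fx U)) O U`;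
`Algebra.IsInvariant.exists_smul_of_under_eq_of_profinite` gives `trans_U`, `Ideal.Quotient.stabilizerHom_surjective_of_profinite` gives `surj_res` and, with the Frobenius automorphism `x ↦ x ^ nrm P` of the algebraic extension `O ⧸ pr A` of the finite field `𝓞 (Fx U) ⧸ P` (`FiniteField.frobeniusAlgEquivOfAlgebraic`), `exists_frobU`
(every element of `A` is congruent to an element of `O`: `Lies.exists_int`).  The field `fix`: a residue with `x^N = x` is a root of `X^N - X`, whose `N` roots all lie in the image of the base field.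
One may instead replace `U` by `Gal(E / Fx U)` through `IntermediateField.fixingSubgroupEquiv`.  `trans_rat`: `U = ⊤`, the ring of integers of `Fx ⊤` is `ℤ` (an integral element fixed by `G1` is a rational integer), so `p ∈ P` determines `P`. -/

namespace Vale.Agent.P024

open NumberField IsDedekindDomain Filter
open scoped Pointwise Topology

set_option linter.unusedSectionVars false

variable {F E : Type*} [Field F] [NumberField F] [Field E] [CharZero E] [Algebra F E] [IsGalois F E]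

private theorem prB_open (x : E) (S : Set E) : IsOpen {g : Gal(E/F) | g x ∈ S} := by
  rw [isOpen_iff_forall_mem_open]
  intro g hg
  refine ⟨(fun h => g⁻¹ * h) ⁻¹' (stab x : OpenSubgroup Gal(E/F)), fun h hh => ?_,
    (stab x : OpenSubgroup Gal(E/F)).isOpen.preimage (by fun_prop), ?_⟩
  · have h1 : (g⁻¹ * h) x = x := hh
    have h2 : h x = g x := by
      conv_rhs => rw [← h1, ← AlgEquiv.mul_apply, mul_inv_cancel_left]
    change h x ∈ S
    rw [h2]; exact hg
  · change (g⁻¹ * g) x = x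
    simp

private theorem prB_closed (x : E) (S : Set E) : IsClosed {g : Gal(E/F) | g x ∈ S} :=
  isOpen_compl_iff.1 (prB_open x Sᶜ)

private theorem prB_apply (g : Gal(E/F)) (x : E) : g (g⁻¹ x) = x := by
  rw [← AlgEquiv.mul_apply, mul_inv_cancel]; rfl

private theorem prB_DD {A : ValuationSubring E} {g : Gal(E/F)} :
    g ∈ DD F A ↔ ∀ x, g x ∈ A ↔ x ∈ A := by
  refine ⟨fun h x => DD_mem h, fun h => mem_DD.2 (SetLike.ext fun y => ?_)⟩
  rw [← prB_apply g y, mem_smul_iff, h]

/-- the prime of the ring of all integers below `A` -/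
private def prB_pr (A : ValuationSubring E) : Ideal (𝓞 E) where
  carrier := {x | (x : E) ∈ A.nonunits}
  zero_mem' := by simp
  add_mem' := fun {a b} ha hb => by
    change algebraMap (𝓞 E) E (a + b) ∈ A.nonunits
    rw [map_add]; exact add_mem ha hb
  smul_mem' := fun c x hx => by
    change algebraMap (𝓞 E) E (c * x) ∈ A.nonunits
    rw [map_mul]; exact uq_mul (mem_of_isIntegral A c.isIntegral_coe) hx

private theorem prB_mem {A : ValuationSubring E} {x : 𝓞 E} :
    x ∈ prB_pr A ↔ algebraMap (𝓞 E) E x ∈ A.nonunits := Iff.rfl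

private theorem prB_prime (A : ValuationSubring E) : (prB_pr A).IsPrime := by
  refine ⟨fun h => ?_, fun {a b} h => ?_⟩
  · have : (1 : 𝓞 E) ∈ prB_pr A := by rw [h]; trivial
    exact uq_one A (by simpa [prB_mem] using this)
  · rw [prB_mem, map_mul, ValuationSubring.mem_nonunits_iff, map_mul] at h
    rw [prB_mem, prB_mem, ValuationSubring.mem_nonunits_iff, ValuationSubring.mem_nonunits_iff]
    by_contra hn
    rw [not_or, not_lt, not_lt] at hn
    exact absurd h (not_lt.2 (one_le_mul hn.1 hn.2))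

private theorem prB_p {A : ValuationSubring E} {p : ℕ} (hA : Ov A p) :
    (p : 𝓞 E) ∈ prB_pr A := by
  rw [prB_mem, map_natCast]; exact hA

private theorem prB_max {A : ValuationSubring E} {p : ℕ} (hp : p.Prime) (hA : Ov A p) :
    (prB_pr A).IsMaximal := by
  have := prB_prime A
  refine Ideal.isMaximal_of_isIntegral_of_isMaximal_comap (R := ℤ) _ ?_
  refine Ideal.IsPrime.isMaximal inferInstance fun h => hp.ne_zero ?_
  have h1 : (p : ℤ) ∈ (prB_pr A).comap (algebraMap ℤ (𝓞 E)) := by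
    rw [Ideal.mem_comap, map_natCast]; exact prB_p hA
  rw [h] at h1
  simpa using h1

private theorem prB_char {A : ValuationSubring E} {p : ℕ} (hp : p.Prime) (hA : Ov A p) :
    CharP (𝓞 E ⧸ prB_pr A) p := by
  have := prB_prime A
  refine (CharP.charP_iff_prime_eq_zero hp).2 ?_
  rw [← map_natCast (Ideal.Quotient.mk (prB_pr A)), Ideal.Quotient.eq_zero_iff_mem]
  exact prB_p hA

include F in
private theorem prB_ext {A A' : ValuationSubring E} {p q : ℕ} (hp : p.Prime) (hq : q.Prime)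
    (hA : Ov A p) (hA' : Ov A' q) (h : prB_pr A = prB_pr A') : A = A' := by
  ext x
  let y : Fx (stab x : OpenSubgroup Gal(E/F)) := ⟨x, mem_Fx.2 fun g hg => hg⟩
  obtain ⟨P, hP⟩ := exists_lies hA hp (inc (stab x : OpenSubgroup Gal(E/F)))
  obtain ⟨P', hP'⟩ := exists_lies hA' hq (inc (stab x : OpenSubgroup Gal(E/F)))
  have e : P = P' := by
    ext a
    rw [hP a, hP' a]
    exact SetLike.ext_iff.1 h (RingOfIntegers.mapRingHom (inc _) a)
  subst e
  exact (hP.mem_iff y).trans (hP'.mem_iff y).symm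

include F in
private theorem prB_int {A : ValuationSubring E} {p : ℕ} (hp : p.Prime) (hA : Ov A p) {x : E}
    (hx : x ∈ A) : ∃ a : 𝓞 E, x - a ∈ A.nonunits := by
  let y : Fx (stab x : OpenSubgroup Gal(E/F)) := ⟨x, mem_Fx.2 fun g hg => hg⟩
  obtain ⟨P, hP⟩ := exists_lies hA hp (inc (stab x : OpenSubgroup Gal(E/F)))
  obtain ⟨a, ha⟩ := hP.exists_int (x := y) hx
  exact ⟨RingOfIntegers.mapRingHom (inc _) a, ha⟩

private theorem prB_smul (A : ValuationSubring E) (g : Gal(E/F)) (x : 𝓞 E) :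
    x ∈ prB_pr (g • A) ↔ g⁻¹ • x ∈ prB_pr A := by
  change (x : E) ∈ (g • A).nonunits ↔ g⁻¹ (x : E) ∈ A.nonunits
  rw [← nonunits_smul_iff g (x := g⁻¹ (x : E)), prB_apply]

private theorem prB_cont (U : OpenSubgroup Gal(E/F)) [TopologicalSpace (𝓞 E)]
    [DiscreteTopology (𝓞 E)] : ContinuousSMul U.toSubgroup (𝓞 E) := by
  refine continuousSMul_iff_stabilizer_isOpen.2 fun x => ?_
  have : (MulAction.stabilizer U.toSubgroup x : Set U.toSubgroup)
      = Subtype.val ⁻¹' {g : Gal(E/F) | g x ∈ ({(x : E)} : Set E)} := by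
    ext g
    exact ⟨fun h => congrArg (fun y : 𝓞 E => (y : E)) h, fun h => RingOfIntegers.ext h⟩
  rw [this]
  exact (prB_open _ _).preimage continuous_subtype_val

private theorem prB_compact (U : OpenSubgroup Gal(E/F)) : CompactSpace U.toSubgroup :=
  isCompact_iff_compactSpace.1 U.isClosed.isCompact

private theorem prB_inv (U : OpenSubgroup Gal(E/F)) :
    Algebra.IsInvariant (FixedPoints.subring (𝓞 E) U.toSubgroup) (𝓞 E) U.toSubgroup :=
  ⟨fun b hb => ⟨⟨b, hb⟩, rfl⟩⟩

private theorem prB_trans {U : OpenSubgroup Gal(E/F)} {A A' : ValuationSubring E} {p q : ℕ}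
    (hp : p.Prime) (hq : q.Prime) (hA : Ov A p) (hA' : Ov A' q)
    (h : ∀ x : 𝓞 E, (∀ g ∈ U, g x = x) → ((x : E) ∈ A.nonunits ↔ (x : E) ∈ A'.nonunits)) :
    ∃ g ∈ U, g • A = A' := by
  let _ : TopologicalSpace (𝓞 E) := ⊥
  have : DiscreteTopology (𝓞 E) := ⟨rfl⟩
  have := prB_cont U
  have := prB_compact U
  have := prB_inv U
  have := prB_prime A
  have := prB_prime A'
  obtain ⟨g, hg⟩ := Algebra.IsInvariant.exists_smul_of_under_eq_of_profinite
    (A := FixedPoints.subring (𝓞 E) U.toSubgroup) (G := U.toSubgroup) (prB_pr A) (prB_pr A') (by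
      ext x
      exact h x fun g hg => congrArg (fun y : 𝓞 E => (y : E)) (x.2 ⟨g, hg⟩))
  refine ⟨g, g.2, prB_ext (F := F) hp hq (hA.smul _) hA' (Ideal.ext fun x => ?_)⟩
  rw [prB_smul, hg, Ideal.mem_pointwise_smul_iff_inv_smul_mem]
  rfl

private theorem prB_surj (U : OpenSubgroup Gal(E/F)) {A : ValuationSubring E} {p : ℕ}
    (hp : p.Prime) (hA : Ov A p) (ψ : 𝓞 E ⧸ prB_pr A →+* 𝓞 E ⧸ prB_pr A)
    (h : ∀ x : 𝓞 E, (∀ g ∈ U, g x = x) → ψ (Ideal.Quotient.mk _ x) = Ideal.Quotient.mk _ x) :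
    ∃ u ∈ U, u ∈ DD F A ∧
      ∀ x : 𝓞 E, Ideal.Quotient.mk _ (u • x) = ψ (Ideal.Quotient.mk _ x) := by
  let _ : TopologicalSpace (𝓞 E) := ⊥
  have : DiscreteTopology (𝓞 E) := ⟨rfl⟩
  have := prB_cont U
  have := prB_compact U
  have := prB_inv U
  have := prB_max hp hA
  let R := FixedPoints.subring (𝓞 E) U.toSubgroup
  let P : Ideal R := (prB_pr A).under R
  let ψ' : (𝓞 E ⧸ prB_pr A) →ₐ[R ⧸ P] (𝓞 E ⧸ prB_pr A) :=
    { ψ with
      commutes' := fun r => by
        obtain ⟨r, rfl⟩ := Ideal.Quotient.mk_surjective r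
        exact h r fun g hg => congrArg (fun y : 𝓞 E => (y : E)) (r.2 ⟨g, hg⟩) }
  have : Algebra.IsIntegral R (𝓞 E) :=
    Algebra.IsInvariant.isIntegral_of_profinite (G := U.toSubgroup)
  have hb : Function.Bijective ψ' := by
    have h1 : Algebra.IsIntegral (R ⧸ P) (𝓞 E ⧸ prB_pr A) := inferInstance
    have h2 : Algebra.IsAlgebraic (R ⧸ P) (𝓞 E ⧸ prB_pr A) := h1.isAlgebraic
    have h3 : Module.IsTorsionFree (R ⧸ P) (𝓞 E ⧸ prB_pr A) :=
      Module.isTorsionFree_iff_algebraMap_injective.2 (FaithfulSMul.algebraMap_injective _ _)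
    let _ := Ideal.Quotient.field (prB_pr A)
    exact Algebra.IsAlgebraic.algHom_bijective ψ'
  obtain ⟨u, hu⟩ := Ideal.Quotient.stabilizerHom_surjective_of_profinite (G := U.toSubgroup) P
    (prB_pr A) (AlgEquiv.ofBijective ψ' hb)
  refine ⟨u.1, u.1.2, prB_ext (F := F) hp hp (hA.smul _) hA ?_, fun x => ?_⟩
  · ext x
    conv_rhs => rw [← MulAction.mem_stabilizer_iff.1 u.2]
    rw [prB_smul, Ideal.mem_pointwise_smul_iff_inv_smul_mem]
    rfl
  · exact DFunLike.congr_fun hu (Ideal.Quotient.mk _ x)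

private theorem prB_root {K L : Type*} [Field K] [Fintype K] [CommRing L] [IsDomain L]
    (φ : K →+* L) {y : L} (hy : y ^ Fintype.card K = y) : ∃ k, φ k = y := by
  classical
  have hm : (Polynomial.X ^ Fintype.card K - Polynomial.X : Polynomial K).Monic :=
    Polynomial.monic_X_pow_sub (by
      rw [Polynomial.degree_X]; exact_mod_cast Fintype.one_lt_card)
  have h1 := Polynomial.prod_multiset_X_sub_C_of_monic_of_roots_card_eq hm (by
    rw [FiniteField.roots_X_pow_card_sub_X,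
      FiniteField.X_pow_card_sub_X_natDegree_eq K Fintype.one_lt_card]; rfl)
  rw [FiniteField.roots_X_pow_card_sub_X, ← Finset.prod_eq_multiset_prod] at h1
  have h2 := congrArg (Polynomial.eval₂ φ y) h1
  rw [Polynomial.eval₂_finsetProd, Polynomial.eval₂_sub, Polynomial.eval₂_X_pow,
    Polynomial.eval₂_X, hy, sub_self, Finset.prod_eq_zero_iff] at h2
  obtain ⟨k, -, hk⟩ := h2
  rw [Polynomial.eval₂_sub, Polynomial.eval₂_X, Polynomial.eval₂_C, sub_eq_zero] at hk
  exact ⟨k, hk.symm⟩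

private theorem prB_pow {A : ValuationSubring E} {x y : E} (hx : x ∈ A) (hy : y ∈ A)
    (h : x - y ∈ A.nonunits) (N : ℕ) : x ^ N - y ^ N ∈ A.nonunits := by
  rw [← geom_sum₂_mul]
  exact uq_mul (sum_mem fun i _ => mul_mem (pow_mem hx _) (pow_mem hy _)) h

include F in
private theorem prB_res {A : ValuationSubring E} {p : ℕ} (hp : p.Prime) (hA : Ov A p)
    {K : Type*} [Field K] [Fintype K] (φ : K →+* 𝓞 E ⧸ prB_pr A) {x : E} (hx : x ∈ A)
    (h : x ^ Fintype.card K - x ∈ A.nonunits) :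
    ∃ k, ∀ b : 𝓞 E, Ideal.Quotient.mk _ b = φ k → x - b ∈ A.nonunits := by
  have := prB_prime A
  obtain ⟨a, ha⟩ := prB_int (F := F) hp hA hx
  have h1 := prB_pow hx (mem_of_isIntegral A a.isIntegral_coe) ha (Fintype.card K)
  have h2 : Ideal.Quotient.mk (prB_pr A) a ^ Fintype.card K = Ideal.Quotient.mk _ a := by
    rw [← map_pow, Ideal.Quotient.eq, prB_mem, map_sub, map_pow]
    have := add_mem (sub_mem h h1) ha
    convert this using 1
    change (a : E) ^ _ - (a : E) = _
    ring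
  obtain ⟨k, hk⟩ := prB_root φ h2
  refine ⟨k, fun b hb => ?_⟩
  rw [hk, Ideal.Quotient.eq, prB_mem, map_sub] at hb
  have := sub_mem ha hb
  convert this using 1
  change x - (b : E) = x - (a : E) - ((b : E) - (a : E))
  ring

private theorem prB_fix {A : ValuationSubring E} {h : Gal(E/F)} (hh : h ∈ DD F A) {x b : E}
    (hb : h b = b) (hx : x - b ∈ A.nonunits) : h x - x ∈ A.nonunits := by
  have := sub_mem ((DD_nonunits hh).2 hx) hx
  rw [map_sub, hb] at this
  convert this using 1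
  ring

theorem isClosed_DD (A : ValuationSubring E) : IsClosed (DD F A : Set Gal(E/F)) := by
  have : (DD F A : Set Gal(E/F)) = ⋂ x, {g : Gal(E/F) | g x ∈ {y | y ∈ A ↔ x ∈ A}} := by
    ext g
    rw [Set.mem_iInter]
    exact prB_DD
  rw [this]
  exact isClosed_iInter fun x => prB_closed x _

theorem isClosed_II (A : ValuationSubring E) : IsClosed (II F A : Set Gal(E/F)) := by
  have : (II F A : Set Gal(E/F))
      = (DD F A : Set Gal(E/F)) ∩ ⋂ x, {g : Gal(E/F) | g x ∈ {y | x ∈ A → y - x ∈ A.nonunits}} := by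
    ext g
    rw [Set.mem_inter_iff, Set.mem_iInter]
    exact mem_II
  rw [this]
  exact (isClosed_DD A).inter (isClosed_iInter fun x => prB_closed x _)

theorem trans_U {U : OpenSubgroup Gal(E/F)} {A A' : ValuationSubring E}
    {P : HeightOneSpectrum (𝓞 (Fx U))} (h : Lies A (inc U) P) (h' : Lies A' (inc U) P) :
    ∃ g ∈ U, g • A = A' := by
  obtain ⟨p, hp, hA, hP⟩ := h.exists_ov
  refine prB_trans hp hp hA (h'.ov.2 hP) fun x hx => ?_
  let y : Fx U := ⟨x, mem_Fx.2 hx⟩
  have hy : IsIntegral ℤ y :=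
    (isIntegral_algHom_iff (inc U).toIntAlgHom (inc U).injective).1 x.isIntegral_coe
  exact (h ⟨y, hy⟩).symm.trans (h' ⟨y, hy⟩)

theorem trans_rat {A A' : ValuationSubring Qb} {p : ℕ} (hp : p.Prime) (h : Ov A p) (h' : Ov A' p) :
    ∃ g : G1, g • A = A' := by
  obtain ⟨g, -, hg⟩ := prB_trans (F := ℚ) (U := ⊤) hp hp h h' fun x hx => by
    obtain ⟨q, hq⟩ := (InfiniteGalois.mem_range_algebraMap_iff_fixed (k := ℚ) (x : Qb)).2
      fun g => hx g trivial
    have h1 : IsIntegral ℤ q := by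
      have := x.isIntegral_coe
      change IsIntegral ℤ (x : Qb) at this
      rw [← hq] at this
      exact (isIntegral_algHom_iff (algebraMap ℚ Qb).toIntAlgHom (algebraMap ℚ Qb).injective).1 this
    obtain ⟨n, rfl⟩ := IsIntegrallyClosed.isIntegral_iff.1 h1
    rw [← hq, eq_intCast, map_intCast, h.intCast_iff hp, h'.intCast_iff hp]
  exact ⟨g, hg⟩

theorem surj_res {U : OpenSubgroup Gal(E/F)} {A : ValuationSubring E} {p : ℕ} (hp : p.Prime)
    (hA : Ov A p) {h : Gal(E/F)} (hh : h ∈ DD F A)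
    (hx : ∀ x ∈ Fx U, x ∈ A → h x - x ∈ A.nonunits) : ∃ u ∈ U, u ∈ DD F A ∧ u⁻¹ * h ∈ II F A := by
  have hle : prB_pr A ≤ (prB_pr A).comap (MulSemiringAction.toRingHom Gal(E/F) (𝓞 E) h) :=
    fun x hx => (DD_nonunits hh).2 hx
  obtain ⟨u, hu, hD, hu'⟩ := prB_surj U hp hA (Ideal.quotientMap _ _ hle) fun x hx' => by
    rw [Ideal.quotientMap_mk, Ideal.Quotient.eq]
    exact hx x (mem_Fx.2 hx') (mem_of_isIntegral A x.isIntegral_coe)
  have hD' := (DD F A).mul_mem ((DD F A).inv_mem hD) hh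
  refine ⟨u, hu, hD, hD', fun x hxA => ?_⟩
  obtain ⟨a, ha⟩ := prB_int (F := F) hp hA hxA
  have h1 := hu' a
  rw [Ideal.quotientMap_mk, Ideal.Quotient.eq] at h1
  have h2 : u a - h a ∈ A.nonunits := h1
  rw [← DD_nonunits hD, map_sub, AlgEquiv.mul_apply, prB_apply]
  have := sub_mem (sub_mem ((DD_nonunits hh).2 ha) ((DD_nonunits hD).2 ha)) h2
  rw [map_sub, map_sub] at this
  convert this using 1
  ring

theorem exists_frobU {U : OpenSubgroup Gal(E/F)} {A : ValuationSubring E}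
    {P : HeightOneSpectrum (𝓞 (Fx U))} (h : Lies A (inc U) P) : ∃ g, FrobU U A (nrm P) g := by
  obtain ⟨p, hp, hA, hP⟩ := h.exists_ov
  obtain ⟨f, hf, -, hN⟩ := nrm_eq_pow hp hP
  have := Fact.mk hp
  have := prB_char hp hA
  obtain ⟨u, hu, hD, hu'⟩ := prB_surj U hp hA (iterateFrobenius _ p f) fun x hx => by
    rw [iterateFrobenius_def, ← map_pow, Ideal.Quotient.eq, ← hN, prB_mem, map_sub, map_pow]
    exact h.pow_nrm (x := ⟨x, mem_Fx.2 hx⟩) (mem_of_isIntegral A x.isIntegral_coe)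
  refine ⟨u, hu, ⟨hD, fun x hx => ?_⟩, ⟨p, f, hp, hA, hf, hN⟩, fun g hg hgD x hx hxN => ?_⟩
  · obtain ⟨a, ha⟩ := prB_int (F := F) hp hA hx
    have h1 := hu' a
    rw [iterateFrobenius_def, ← map_pow, Ideal.Quotient.eq, ← hN, prB_mem, map_sub, map_pow] at h1
    have h2 : u a - (a : E) ^ nrm P ∈ A.nonunits := h1
    have := sub_mem (add_mem ((DD_nonunits hD).2 ha) h2)
      (prB_pow hx (mem_of_isIntegral A a.isIntegral_coe) ha (nrm P))
    rw [map_sub] at this
    convert this using 1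
    ring
  · have := P.isMaximal
    let _ := Ideal.Quotient.field P.asIdeal
    have : Finite (𝓞 (Fx U) ⧸ P.asIdeal) := Ideal.finiteQuotientOfFreeOfNeBot _ P.ne_bot
    let _ := Fintype.ofFinite (𝓞 (Fx U) ⧸ P.asIdeal)
    have hle : P.asIdeal ≤ (prB_pr A).comap (RingOfIntegers.mapRingHom (inc U)) :=
      fun a ha => (h a).1 ha
    have hc : Fintype.card (𝓞 (Fx U) ⧸ P.asIdeal) = nrm P := by
      rw [nrm, Ideal.absNorm_apply, Submodule.cardQuot_apply, Nat.card_eq_fintype_card]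
    obtain ⟨k, hk⟩ := prB_res (F := F) hp hA (Ideal.quotientMap _ _ hle) hx (by rw [hc]; exact hxN)
    obtain ⟨b, rfl⟩ := Ideal.Quotient.mk_surjective k
    exact prB_fix hgD (mem_Fx.1 (b : Fx U).2 g hg) (hk _ Ideal.quotientMap_mk.symm)

theorem frobU_of_prime {U : OpenSubgroup Gal(E/F)} {A : ValuationSubring E} {p : ℕ} (hp : p.Prime)
    (hA : Ov A p) {g : Gal(E/F)} (hg : g ∈ U) (h : IsFrob A p g) : FrobU U A p g := by
  refine ⟨hg, h, ⟨p, 1, hp, hA, one_pos, (pow_one p).symm⟩, fun g _ hgD x hx hxN => ?_⟩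
  have := Fact.mk hp
  have := prB_char hp hA
  obtain ⟨k, hk⟩ := prB_res (F := F) hp hA (ZMod.castHom (dvd_refl p) _) hx
    (by rw [ZMod.card]; exact hxN)
  obtain ⟨n, rfl⟩ := ZMod.natCast_zmod_surjective k
  have := hk n (by rw [map_natCast, map_natCast])
  have e : ((n : 𝓞 E) : E) = n := map_natCast (algebraMap (𝓞 E) E) n
  rw [e] at this
  exact prB_fix hgD (map_natCast g n) this

/-- only finitely many orbits of primes over `p` -/
theorem finite_orbits (U : OpenSubgroup Gal(E/F)) {p : ℕ} (hp : p.Prime) :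
    ∃ S : Set (ValuationSubring E), S.Finite ∧ ∀ A, Ov A p → ∃ A' ∈ S, ∃ g ∈ U, g • A' = A := by
  choose V hV using exists_val (inc U)
  refine ⟨V '' {P | (p : 𝓞 (Fx U)) ∈ P.asIdeal}, (finite_over hp.ne_zero).image V, fun A hA => ?_⟩
  obtain ⟨P, hP⟩ := exists_lies hA hp (inc U)
  exact ⟨V P, ⟨P, hP.ov.1 hA, rfl⟩, trans_U (hV P) hP⟩

/-- every prime of a number field is induced by a given valuation ring through some embedding -/
theorem exists_emb_lies {M : Type*} [Field M] [NumberField M] {A : ValuationSubring Qb} {p : ℕ}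
    (hp : p.Prime) (hA : Ov A p) {P : HeightOneSpectrum (𝓞 M)} (hP : (p : 𝓞 M) ∈ P.asIdeal) :
    ∃ τ : M →+* Qb, Lies A τ P := by
  let τ : M →+* Qb := (IsAlgClosed.lift : M →ₐ[ℚ] Qb)
  obtain ⟨B, hB⟩ := exists_val τ P
  obtain ⟨g, hg⟩ := trans_rat hp (hB.ov.2 hP) hA
  exact ⟨(g : Qb →+* Qb).comp τ, hg ▸ hB.smul g fun x => rfl⟩

end Vale.Agent.P024
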