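import Vale.Agent.P024.PrB

/-! # P024 PrD (TASK; helper lemma names start with `prD_` or are private)
The quotient of the decomposition group by the inertia group.  PLAN.  Let `k = IsLocalRing.ResidueField A`, a field of characteristic `p`; every `x ∈ A` has `x^(p^m) ≡ x` for some `m > 0` (`Lies.pow_nrm` in `Fx (stab x)`), and then for all multiples of `m`.
`res_pow`: `g ∈ DD` induces a ring automorphism of `k` (`IsLocalRing.ResidueField.mapEquiv`, or `ValuationSubring.decompositionSubgroup`), which preserves the finite subfield `{x | x^(p^m) = x}`; there it is a power of Frobenius (`FiniteField.exists_forall_apply_eq_pow` over `ZMod p`).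
For the version with `N = p^f`: if `g` fixes `{x^N = x}`, take that finite subfield as the base; its cardinality `N'` divides into `N`: alternatively argue with exponents: `g = Frob_p^i` on `k_m = {x^(p^m) = x}` (a finite field with `p^m'` elements, `m' ∣ m`), the automorphism group is cyclic of order `m'` generated by Frobenius, and by Galois theory of `k_m` over the fixed field of `Frob_p^f`, `g ∈ zpowers (Frob_p^f)` (`IsGalois.fixingSubgroup_fixedField` / `IntermediateField.fixingSubgroup_fixedField`).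
`exists_finset_res` (compactness): the closed sets `{g ∈ J | g x ≡ x for x ∈ s} \ N'` are directed with empty intersection.  `res_cyclic`: the subgroup of the cyclic group `Aut k_m` generated by the images of `g`, `h` is cyclic, generated by the image of some `w` in `J`. -/

namespace Vale.Agent.P024

open NumberField IsDedekindDomain Filter
open scoped Pointwise Topology

set_option linter.unusedSectionVars false

section fld

variable {k : Type*} [Field k]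

theorem prD_iter {y : k} {N : ℕ} (h : y ^ N = y) (t : ℕ) : y ^ N ^ t = y := by
  induction t with
  | zero => rw [pow_zero, pow_one]
  | succ t ih => rw [pow_succ, pow_mul, ih, h]

theorem prD_gen {N : ℕ} (hN : 1 < N) :
    ∃ ζ : k, ζ ^ N = ζ ∧ ∀ y : k, y ^ N = y → y = 0 ∨ ∃ a : ℕ, y = ζ ^ a := by
  obtain ⟨n, rfl⟩ : ∃ n, N = n + 1 := ⟨N - 1, by omega⟩
  have : NeZero n := ⟨by omega⟩
  obtain ⟨ζ, hζ⟩ := IsCyclic.exists_monoid_generator (α := rootsOfUnity n k)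
  refine ⟨((ζ : kˣ) : k), ?_, fun y hy => ?_⟩
  · rw [pow_succ, (mem_rootsOfUnity' n _).1 ζ.2, one_mul]
  · by_cases h0 : y = 0
    · exact Or.inl h0
    · have h1 : y ^ n = 1 := mul_right_cancel₀ h0 (by rw [← pow_succ, hy, one_mul])
      obtain ⟨a, ha⟩ := hζ ⟨Units.mk0 y h0, (mem_rootsOfUnity' n _).2 h1⟩
      exact Or.inr ⟨a, by simpa using (congrArg (fun z : rootsOfUnity n k => ((z : kˣ) : k)) ha).symm⟩

open Polynomial in
theorem prD_fld {p f m : ℕ} [Fact p.Prime] [CharP k p] (hf : 0 < f) (hm : 0 < m) (σ : k →+* k)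
    (hσ : ∀ y, y ^ p ^ f = y → σ y = y) :
    ∃ j : ℕ, ∀ y, y ^ (p ^ f) ^ m = y → σ y = y ^ (p ^ f) ^ j := by
  have hN : 1 < (p ^ f) ^ m :=
    Nat.one_lt_pow hm.ne' (Nat.one_lt_pow hf.ne' (Fact.out : p.Prime).one_lt)
  obtain ⟨ζ, hζ, hg⟩ := prD_gen (k := k) hN
  set P : k[X] := ∏ j ∈ Finset.range m, (X - C (ζ ^ (p ^ f) ^ j)) with hP
  have h1 : P.map (iterateFrobenius k p f) = P := by
    refine mul_right_cancel₀ (X_sub_C_ne_zero ζ) ?_
    have e1 := Finset.prod_range_succ (fun j => (X - C (ζ ^ (p ^ f) ^ j) : k[X])) m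
    have e2 := Finset.prod_range_succ' (fun j => (X - C (ζ ^ (p ^ f) ^ j) : k[X])) m
    rw [hζ] at e1
    rw [pow_zero, pow_one] at e2
    rw [← e1, e2, hP, Polynomial.map_prod]
    congr 1
    refine Finset.prod_congr rfl fun j _ => ?_
    rw [Polynomial.map_sub, map_X, map_C, iterateFrobenius_def, ← pow_mul, ← pow_succ]
  have h2 : P.map σ = P := by
    ext n
    rw [coeff_map]
    refine hσ _ ?_
    rw [← iterateFrobenius_def, ← coeff_map, h1]
  have h3 : P.eval ζ = 0 := by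
    rw [hP, eval_prod]
    exact Finset.prod_eq_zero (Finset.mem_range.2 hm) (by simp)
  have h4 : P.eval (σ ζ) = 0 := by
    rw [← h2, eval_map, eval₂_hom, h3, map_zero]
  rw [hP, eval_prod, Finset.prod_eq_zero_iff] at h4
  obtain ⟨j, -, hj⟩ := h4
  rw [eval_sub, eval_X, eval_C, sub_eq_zero] at hj
  refine ⟨j, fun y hy => ?_⟩
  rcases hg y hy with rfl | ⟨a, rfl⟩
  · rw [map_zero, zero_pow (pow_pos (pow_pos (Fact.out : p.Prime).pos _) _).ne']
  · rw [map_pow, hj]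
    exact pow_right_comm _ _ _

theorem prD_fld1 {p m : ℕ} [Fact p.Prime] [CharP k p] (hm : 0 < m) (σ : k →+* k) :
    ∃ j : ℕ, ∀ y, y ^ p ^ m = y → σ y = y ^ p ^ j := by
  have h := prD_fld (p := p) one_pos hm σ fun y hy => by
    rw [pow_one] at hy
    obtain ⟨n, rfl⟩ := (mem_bot_iff_intCast p k).1 ((Subfield.mem_bot_iff_pow_eq_self k p).2 hy)
    exact map_intCast σ n
  rwa [pow_one] at h

theorem prD_rel_pow {N M d : ℕ} {w : RingAut k} (h : ∀ y, y ^ M = y → w y = y ^ N ^ d) (q : ℕ) :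
    ∀ y, y ^ M = y → (w ^ q) y = y ^ N ^ (d * q) := by
  intro y hy
  induction q with
  | zero => simp
  | succ q ih =>
    rw [pow_succ, RingAut.mul_apply, h y hy, map_pow, ih, ← pow_mul, ← pow_add, Nat.mul_succ]

theorem prD_rel_div {N M c r : ℕ} {w u : RingAut k} (h : ∀ y, y ^ M = y → w y = y ^ N ^ c)
    (h' : ∀ y, y ^ M = y → u y = y ^ N ^ (c + r)) :
    ∀ y, y ^ M = y → (w⁻¹ * u) y = y ^ N ^ r := by
  intro y hy
  have e : u y = w (y ^ N ^ r) := by rw [map_pow, h y hy, h' y hy, ← pow_mul, ← pow_add]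
  rw [RingAut.mul_apply, e, ← RingAut.mul_apply, inv_mul_cancel, RingAut.one_apply]

theorem prD_cyc {p m : ℕ} [Fact p.Prime] [CharP k p] (hm : 0 < m) (H : Subgroup (RingAut k)) :
    ∃ w ∈ H, ∀ u ∈ H, ∃ i : ℕ, ∀ y, y ^ p ^ m = y → ((w ^ i)⁻¹ * u) y = y := by
  classical
  have ex : ∃ d, 0 < d ∧ ∃ w ∈ H, ∀ y, y ^ p ^ m = y → w y = y ^ p ^ d :=
    ⟨m, hm, 1, H.one_mem, fun y hy => hy.symm⟩
  obtain ⟨hd, w, hw, hwd⟩ := Nat.find_spec ex
  refine ⟨w, hw, fun u hu => ?_⟩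
  obtain ⟨a, ha⟩ := prD_fld1 (p := p) hm (u : k →+* k)
  have h := prD_rel_div (u := u) (r := a % Nat.find ex) (prD_rel_pow hwd (a / Nat.find ex))
    (by rw [Nat.div_add_mod]; exact ha)
  have h0 : a % Nat.find ex = 0 := by
    by_contra hne
    exact Nat.find_min ex (Nat.mod_lt a hd)
      ⟨Nat.pos_of_ne_zero hne, _, H.mul_mem (H.inv_mem (H.pow_mem hw _)) hu, h⟩
  refine ⟨a / Nat.find ex, fun y hy => ?_⟩
  rw [h y hy, h0, pow_zero, pow_one]

theorem prD_two (h2 : (2 : k) ≠ 0) (hs : ∀ t : k, ∃ u, u ^ 2 = t) {σ : RingAut k} {i : k}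
    (hi : i ^ 2 = -1) (hσi : σ i = i) (hσ : σ * σ = 1) : σ = 1 := by
  have hh : ∀ y, σ (σ y) = y := fun y => by rw [← RingAut.mul_apply, hσ, RingAut.one_apply]
  ext y
  obtain ⟨u, hu⟩ := hs (y - σ y)
  have h1 : σ u ^ 2 = (i * u) ^ 2 := by
    rw [← map_pow, hu, map_sub, hh, mul_pow, hi, hu]
    ring
  have h3 : 2 * u = 0 := by
    have h4 := hh u
    rcases sq_eq_sq_iff_eq_or_eq_neg.1 h1 with h | h
    · rw [h, map_mul, hσi, h] at h4
      linear_combination u * hi - h4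
    · rw [h, map_neg, map_mul, hσi, h] at h4
      linear_combination u * hi - h4
  rw [(mul_eq_zero.1 h3).resolve_left h2] at hu
  rw [RingAut.one_apply]
  linear_combination hu

end fld

variable {F E : Type*} [Field F] [NumberField F] [Field E] [CharZero E] [Algebra F E] [IsGalois F E]

variable {A : ValuationSubring E} {p : ℕ}

open IsLocalRing in
theorem prD_res_eq (a b : A) : residue A a = residue A b ↔ (a : E) - b ∈ A.nonunits := by
  rw [← sub_eq_zero, ← map_sub, residue_eq_zero_iff, ← ValuationSubring.coe_mem_nonunits_iff]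
  rfl

theorem prD_char (hp : p.Prime) (hA : Ov A p) : CharP (IsLocalRing.ResidueField A) p := by
  refine (CharP.charP_iff_prime_eq_zero hp).2 ?_
  rw [← map_natCast (IsLocalRing.residue A), ← map_zero (IsLocalRing.residue A), prD_res_eq]
  simpa [Ov] using hA

/-- the action on the residue field -/
noncomputable def prD_rho (F : Type*) [Field F] [Algebra F E] (A : ValuationSubring E) :
    DD F A →* RingAut (IsLocalRing.ResidueField A) :=
  MulSemiringAction.toRingAut (A.decompositionSubgroup F) (IsLocalRing.ResidueField A)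

theorem prD_rho_iff (g : DD F A) (a b : A) :
    prD_rho F A g (IsLocalRing.residue A a) = IsLocalRing.residue A b ↔
      (g : Gal(E/F)) a - b ∈ A.nonunits :=
  prD_res_eq (⟨(g : Gal(E/F)) a, (DD_mem g.2).2 a.2⟩ : A) b

theorem prD_mem_II (g : DD F A) : (g : Gal(E/F)) ∈ II F A ↔ prD_rho F A g = 1 := by
  constructor
  · intro h
    ext y
    obtain ⟨a, rfl⟩ := IsLocalRing.residue_surjective y
    exact (prD_rho_iff g a a).2 (h.2 a a.2)
  · intro h
    exact ⟨g.2, fun x hx => (prD_rho_iff g ⟨x, hx⟩ ⟨x, hx⟩).1 (by rw [h]; rfl)⟩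

theorem prD_div (w u : DD F A) (i : ℕ) (a : A)
    (h : ((prD_rho F A w ^ i)⁻¹ * prD_rho F A u) (IsLocalRing.residue A a) =
      IsLocalRing.residue A a) : (((w : Gal(E/F)) ^ i)⁻¹ * u) a - a ∈ A.nonunits := by
  rw [← map_pow, ← map_inv, ← map_mul, prD_rho_iff] at h
  simpa only [Subgroup.coe_mul, Subgroup.coe_inv, Subgroup.coe_pow] using h

theorem prD_frob {g : DD F A} {N : ℕ} (h : ∀ x ∈ A, (g : Gal(E/F)) x - x ^ N ∈ A.nonunits)
    (y : IsLocalRing.ResidueField A) : prD_rho F A g y = y ^ N := by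
  obtain ⟨a, rfl⟩ := IsLocalRing.residue_surjective y
  rw [← map_pow, prD_rho_iff]
  exact h a a.2

include F in
theorem prD_alg (hp : p.Prime) (hA : Ov A p) (y : IsLocalRing.ResidueField A) :
    ∃ m : ℕ, 0 < m ∧ y ^ p ^ m = y := by
  obtain ⟨a, rfl⟩ := IsLocalRing.residue_surjective y
  obtain ⟨P, hP⟩ := exists_lies hA hp (inc (stab (a : E) : OpenSubgroup Gal(E/F)))
  obtain ⟨f, hf, -, hN⟩ := nrm_eq_pow hp (hP.ov.1 hA)
  have h := hP.pow_nrm (x := ⟨a, mem_Fx.2 fun g hg => mem_stab.1 hg⟩) a.2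
  rw [hN] at h
  exact ⟨f, hf, by rw [← map_pow]; exact (prD_res_eq (a ^ p ^ f) a).2 h⟩

include F in
theorem prD_algS (hp : p.Prime) (hA : Ov A p) (s : Finset E) (hs : ∀ x ∈ s, x ∈ A) :
    ∃ m : ℕ, 0 < m ∧ ∀ x (hx : x ∈ s), IsLocalRing.residue A ⟨x, hs x hx⟩ ^ p ^ m =
      IsLocalRing.residue A ⟨x, hs x hx⟩ := by
  choose f hf h using prD_alg (F := F) hp hA
  refine ⟨∏ x : s, f (IsLocalRing.residue A ⟨x, hs x x.2⟩), Finset.prod_pos fun x _ => hf _,
    fun x hx => ?_⟩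
  obtain ⟨t, ht⟩ := Finset.dvd_prod_of_mem (fun x : s => f (IsLocalRing.residue A ⟨x, hs x x.2⟩))
    (Finset.mem_univ ⟨x, hx⟩)
  rw [ht, pow_mul]
  exact prD_iter (h _) t

theorem prD_open (x : E) (Q : E → Prop) : IsOpen {u : Gal(E/F) | Q (u x)} := by
  refine isOpen_iff_mem_nhds.2 fun u hu => ?_
  have h : IsOpen ((fun v => u⁻¹ * v) ⁻¹' ((stab x : OpenSubgroup Gal(E/F)) : Set Gal(E/F))) :=
    (stab x).isOpen.preimage (continuous_const.mul continuous_id)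
  refine mem_of_superset (h.mem_nhds (by simp)) fun v hv => ?_
  have h1 : (u⁻¹ * v) x = x := mem_stab.1 hv
  have h2 : v x = u x := by
    rw [← mul_inv_cancel_left u v, AlgEquiv.mul_apply, h1]
  rw [Set.mem_ofPred_eq, h2]
  exact hu

include F in
theorem exists_pow_res (hp : p.Prime) (hA : Ov A p) (s : Finset E) (hs : ∀ x ∈ s, x ∈ A) :
    ∃ m : ℕ, 0 < m ∧ ∀ x ∈ s, x ^ p ^ m - x ∈ A.nonunits := by
  obtain ⟨m, hm, h⟩ := prD_algS (F := F) hp hA s hs
  refine ⟨m, hm, fun x hx => ?_⟩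
  exact (prD_res_eq (⟨x, hs x hx⟩ ^ p ^ m) ⟨x, hs x hx⟩).1 (by rw [map_pow]; exact h x hx)

theorem res_pow (hp : p.Prime) (hA : Ov A p) {g : Gal(E/F)} (hg : g ∈ DD F A) (s : Finset E)
    (hs : ∀ x ∈ s, x ∈ A) : ∃ i : ℕ, ∀ x ∈ s, g x - x ^ p ^ i ∈ A.nonunits := by
  have := Fact.mk hp
  have := prD_char hp hA
  obtain ⟨m, hm, h⟩ := prD_algS (F := F) hp hA s hs
  obtain ⟨i, hi⟩ := prD_fld1 (p := p) hm (prD_rho F A ⟨g, hg⟩).toRingHom
  refine ⟨i, fun x hx => (prD_rho_iff ⟨g, hg⟩ ⟨x, hs x hx⟩ (⟨x, hs x hx⟩ ^ p ^ i)).1 ?_⟩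
  rw [map_pow]
  exact hi _ (h x hx)

theorem comm_mem_II (hp : p.Prime) (hA : Ov A p) {g h : Gal(E/F)} (hg : g ∈ DD F A)
    (hh : h ∈ DD F A) : g * h * g⁻¹ * h⁻¹ ∈ II F A := by
  have := Fact.mk hp
  have := prD_char hp hA
  have hc : prD_rho F A ⟨g, hg⟩ * prD_rho F A ⟨h, hh⟩ = prD_rho F A ⟨h, hh⟩ * prD_rho F A ⟨g, hg⟩ := by
    ext y
    obtain ⟨m, hm, hy⟩ := prD_alg (F := F) hp hA y
    obtain ⟨i, hi⟩ := prD_fld1 (p := p) hm (prD_rho F A ⟨g, hg⟩).toRingHom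
    obtain ⟨j, hj⟩ := prD_fld1 (p := p) hm (prD_rho F A ⟨h, hh⟩).toRingHom
    have hi' : prD_rho F A ⟨g, hg⟩ y = y ^ p ^ i := hi y hy
    have hj' : prD_rho F A ⟨h, hh⟩ y = y ^ p ^ j := hj y hy
    rw [RingAut.mul_apply, RingAut.mul_apply, hi', hj', map_pow, map_pow, hi', hj']
    exact pow_right_comm _ _ _
  have h1 : prD_rho F A (⟨g, hg⟩ * ⟨h, hh⟩ * ⟨g, hg⟩⁻¹ * ⟨h, hh⟩⁻¹) = 1 := by
    rw [map_mul, map_mul, map_mul, hc, map_inv, map_inv, mul_inv_cancel_right, mul_inv_cancel]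
  have h2 := (prD_mem_II _).2 h1
  simpa only [Subgroup.coe_mul, Subgroup.coe_inv] using h2

theorem exists_finset_res {J N' : Subgroup Gal(E/F)} (hJ : IsClosed (J : Set Gal(E/F)))
    (hD : J ≤ DD F A) (ho : ∃ W : OpenSubgroup Gal(E/F), ∀ u ∈ J, u ∈ W → u ∈ N')
    (hI : ∀ u ∈ J, u ∈ II F A → u ∈ N') :
    ∃ s : Finset E, (∀ x ∈ s, x ∈ A) ∧ ∀ u ∈ J, (∀ x ∈ s, u x - x ∈ A.nonunits) → u ∈ N' := by
  classical
  obtain ⟨W, hW⟩ := ho
  have hc : IsClosed {u : Gal(E/F) | u ∈ J ∧ u ∉ N'} := by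
    refine isOpen_compl_iff.1 (isOpen_iff_mem_nhds.2 fun u hu => ?_)
    by_cases hJu : u ∈ J
    · have huN : u ∈ N' := by
        by_contra h
        exact hu ⟨hJu, h⟩
      have h : IsOpen ((fun v => u⁻¹ * v) ⁻¹' (W : Set Gal(E/F))) :=
        W.isOpen.preimage (continuous_const.mul continuous_id)
      refine mem_of_superset (h.mem_nhds (by simp)) fun v hv hv' => hv'.2 ?_
      rw [← mul_inv_cancel_left u v]
      exact N'.mul_mem huN (hW _ (J.mul_mem (J.inv_mem hJu) hv'.1) hv)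
    · exact mem_of_superset (hJ.isOpen_compl.mem_nhds hJu) fun v hv hv' => hv hv'.1
  obtain ⟨t, ht⟩ := hc.isCompact.elim_finite_subfamily_closed
    (fun x : A => {u : Gal(E/F) | u x - x ∈ A.nonunits})
    (fun x => isOpen_compl_iff.1 (prD_open (x : E) fun z => z - x ∉ A.nonunits))
    (Set.eq_empty_of_forall_notMem fun u hu =>
      hu.1.2 (hI u hu.1.1 ⟨hD hu.1.1, fun x hx => Set.mem_iInter.1 hu.2 ⟨x, hx⟩⟩))
  refine ⟨t.image Subtype.val, fun x hx => ?_, fun u hu h => ?_⟩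
  · obtain ⟨a, -, rfl⟩ := Finset.mem_image.1 hx
    exact a.2
  · by_contra hn
    exact Set.eq_empty_iff_forall_notMem.1 ht u ⟨⟨hu, hn⟩, Set.mem_iInter₂.2 fun a ha =>
      h _ (Finset.mem_image_of_mem _ ha)⟩

theorem res_cyclic (hp : p.Prime) (hA : Ov A p) {J N' : Subgroup Gal(E/F)}
    (hJ : IsClosed (J : Set Gal(E/F))) (hD : J ≤ DD F A)
    (ho : ∃ W : OpenSubgroup Gal(E/F), ∀ u ∈ J, u ∈ W → u ∈ N')
    (hI : ∀ u ∈ J, u ∈ II F A → u ∈ N') {g h : Gal(E/F)} (hg : g ∈ J) (hh : h ∈ J) :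
    ∃ w ∈ J, ∃ i j : ℕ, (w ^ i)⁻¹ * g ∈ N' ∧ (w ^ j)⁻¹ * h ∈ N' := by
  have := Fact.mk hp
  have := prD_char hp hA
  obtain ⟨s, hs, hN⟩ := exists_finset_res hJ hD ho hI
  obtain ⟨m, hm, hsm⟩ := prD_algS (F := F) hp hA s hs
  obtain ⟨_, ⟨w, hw, rfl⟩, key⟩ := prD_cyc (p := p) hm ((J.subgroupOf (DD F A)).map (prD_rho F A))
  have hwJ : (w : Gal(E/F)) ∈ J := hw
  have k2 : ∀ u ∈ J, ∃ i : ℕ, ((w : Gal(E/F)) ^ i)⁻¹ * u ∈ N' := by
    intro u hu
    obtain ⟨i, hi⟩ := key _ ⟨⟨u, hD hu⟩, hu, rfl⟩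
    exact ⟨i, hN _ (J.mul_mem (J.inv_mem (J.pow_mem hwJ i)) hu) fun x hx =>
      prD_div w ⟨u, hD hu⟩ i ⟨x, hs x hx⟩ (hi _ (hsm x hx))⟩
  obtain ⟨i, hi⟩ := k2 g hg
  obtain ⟨j, hj⟩ := k2 h hh
  exact ⟨w, hwJ, i, j, hi, hj⟩

theorem FrobU.gen {U : OpenSubgroup Gal(E/F)} {N : ℕ} {g : Gal(E/F)} (h : FrobU U A N g)
    {N' : Subgroup Gal(E/F)}
    (ho : ∃ W : OpenSubgroup Gal(E/F), ∀ u ∈ U, u ∈ DD F A → u ∈ W → u ∈ N')
    (hI : ∀ u ∈ U, u ∈ II F A → u ∈ N') {u : Gal(E/F)} (hu : u ∈ U) (hD : u ∈ DD F A) :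
    ∃ j : ℕ, (g ^ j)⁻¹ * u ∈ N' := by
  obtain ⟨p, f, hp, hA, hf, rfl⟩ := h.pw
  have := Fact.mk hp
  have := prD_char hp hA
  obtain ⟨W, hW⟩ := ho
  obtain ⟨s, hs, hN⟩ := exists_finset_res (A := A) (J := U.toSubgroup ⊓ DD F A) (N' := N')
    (U.isClosed.inter (isClosed_DD A)) inf_le_right ⟨W, fun v hv => hW v hv.1 hv.2⟩
    fun v hv => hI v hv.1
  obtain ⟨m, hm, hsm⟩ := prD_algS (F := F) hp hA s hs
  obtain ⟨j, hj⟩ := prD_fld (p := p) hf hm (prD_rho F A ⟨u, hD⟩).toRingHom fun y hy => by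
    obtain ⟨a, rfl⟩ := IsLocalRing.residue_surjective y
    rw [← map_pow, prD_res_eq] at hy
    exact (prD_rho_iff ⟨u, hD⟩ a a).2 (h.fix u hu hD a a.2 hy)
  have hg : ∀ y, y ^ (p ^ f) ^ m = y → prD_rho F A ⟨g, h.frob.1⟩ y = y ^ (p ^ f) ^ 1 := by
    intro y _
    rw [pow_one]
    exact prD_frob h.frob.2 y
  have key := prD_rel_div (u := prD_rho F A ⟨u, hD⟩) (r := 0) (prD_rel_pow hg j)
    (by rw [one_mul, add_zero]; exact hj)
  have hgJ : g ∈ U.toSubgroup ⊓ DD F A := ⟨h.mem, h.frob.1⟩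
  refine ⟨j, hN _ (Subgroup.mul_mem _ (Subgroup.inv_mem _ (Subgroup.pow_mem _ hgJ j)) ⟨hu, hD⟩)
    fun x hx => ?_⟩
  refine prD_div ⟨g, h.frob.1⟩ ⟨u, hD⟩ j ⟨x, hs x hx⟩ ?_
  rw [key, pow_zero, pow_one]
  rw [← pow_mul, mul_comm, pow_mul]
  exact prD_iter (hsm x hx) f

theorem FrobU.ch_mul {U : OpenSubgroup Gal(E/F)} {N : ℕ} {g : Gal(E/F)} (h : FrobU U A N g)
    {Q : Type*} [AddCommGroup Q] {c : Gal(E/F) → Q} (hc : IsCh U c)
    (hI : ∀ u ∈ U, u ∈ II F A → c u = 0) {u : Gal(E/F)} (hu : u ∈ U) (hD : u ∈ DD F A) :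
    ∃ j : ℕ, c u = j • c g := by
  obtain ⟨j, hj⟩ := h.gen (N' := hc.ker.toSubgroup) ⟨hc.ker, fun _ _ _ hv => hv⟩
    (fun v hv hv' => hc.mem_ker.2 ⟨hv, hI v hv hv'⟩) hu hD
  exact ⟨j, by
    rw [hc.eq_of_inv_mul (U.pow_mem h.mem j) hu (hc.mem_ker.1 hj).2, hc.pow h.mem]⟩

/-- the action on the residue field has no 2-torsion -/
theorem II_of_pow_mem (hE : RC E) (hp : p.Prime) (h2 : p ≠ 2) (hA : Ov A p) {g : Gal(E/F)}
    (hg : g ∈ DD F A) (hi : FixI g) {k : ℕ} (hk : g ^ 2 ^ k ∈ II F A) : g ∈ II F A := by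
  have := prD_char hp hA
  have hroot : ∀ a : A, ∃ b : A, b ^ 2 = a := fun a => by
    obtain ⟨b, hb⟩ := hE.root 2 a two_pos
    have hbA : b ∈ A := by
      rcases A.mem_or_inv_mem b with h | h
      · exact h
      · by_cases h0 : b = 0
        · rw [h0]
          exact A.zero_mem
        · have e : b = a * b⁻¹ := by
            rw [← hb]
            field_simp
          rw [e]
          exact A.mul_mem _ _ a.2 h
    exact ⟨⟨b, hbA⟩, Subtype.ext hb⟩
  have h20 : (2 : IsLocalRing.ResidueField A) ≠ 0 := fun h0 =>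
    h2 ((Nat.prime_dvd_prime_iff_eq hp Nat.prime_two).1
      ((CharP.cast_eq_zero_iff (IsLocalRing.ResidueField A) p 2).1 (by exact_mod_cast h0)))
  have hs : ∀ t : IsLocalRing.ResidueField A, ∃ u, u ^ 2 = t := fun t => by
    obtain ⟨a, rfl⟩ := IsLocalRing.residue_surjective t
    obtain ⟨b, rfl⟩ := hroot a
    exact ⟨_, (map_pow _ b 2).symm⟩
  obtain ⟨i, hi2⟩ := hroot (-1)
  induction k generalizing g with
  | zero => simpa using hk
  | succ k ih =>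
    have h3 : g ^ 2 ∈ II F A := ih ((DD F A).pow_mem hg 2) (hi.pow 2)
      (by rw [← pow_mul, ← pow_succ']; exact hk)
    have h4 := (prD_mem_II ((⟨g, hg⟩ : DD F A) ^ 2)).1 (by rw [Subgroup.coe_pow]; exact h3)
    rw [map_pow, pow_two] at h4
    have h5 : g i = i := hi i (by simpa using congrArg Subtype.val hi2)
    have h6 := (prD_rho_iff ⟨g, hg⟩ i i).2 (by
      rw [Subgroup.coe_mk, h5, sub_self]
      exact zero_mem _)
    have h7 : IsLocalRing.residue A i ^ 2 = -1 := by rw [← map_pow, hi2, map_neg, map_one]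
    exact (prD_mem_II ⟨g, hg⟩).2 (prD_two h20 hs h7 h6 h4)

end Vale.Agent.P024
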