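import Vale.Agent.P024.Defs

/-! # P024 Rank (TASK; helper lemma names start with `rank_` or are private)
The valuation pairing has large rank (finite Fourier analysis).  PLAN.  Work with `ψ : AddChar Δ ℂ` (`AddChar.card_eq`, Fourier inversion via `AddChar.sum_apply_eq_ite` or the basis `AddChar.complexBasis`).
`lh t a ψ = ∑ ν, lam t (a,ν) * conj (ψ ν)`; `Ξ = {ψ | ∃ t a, lh t a ψ ≠ 0}`.  `c ≤ d * card Ξ`: the `lam t` are independent over `ℂ` (integer vectors: `LinearIndependent` over `ℤ` iff over `ℚ` iff over `ℂ`, e.g. by the Gram determinant or `Matrix.rank`; `LinearIndependent.iff_fractionRing`, `LinearIndependent.algebraMap_comp`),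
and the Fourier transform maps their span injectively into `Fin d × Ξ → ℂ`.  The linear map `b ↦ (bh ψ)_{ψ ∈ Ξ}` from `Δ → ℂ` is onto `Ξ → ℂ`, so some set `S` of `card Ξ` coordinate vectors maps to a basis (`exists_linearIndependent`): `b` supported in `S` with `bh ψ = 0` on `Ξ` is zero.
Fix `D`, `w`; `wm y = w y - w (y δ0)` is right invariant under `U2 = {g ∈ U' | η0 g = 0 ∧ η g = 0}`, `wm (y δ0) = - wm y`, and `s ν * s ν' ∈ s (ν+ν') U2`.  `Ef a ψ g = ∑ ν, ψ ν * wm (g τ a s ν)`.  The hypothesis reads `∑ a ψ, lh t a ψ * bh ψ * Ef a ψ g = 0`.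
For `u ∈ N0`, `u' = (τ a)⁻¹ u τ a ∈ N0`: `Ef a ψ (g u) = (-1)^(η0 u') * conj (ψ (η u')) * Ef a ψ g`, and `Ef a ψ (τ a)⁻¹ = 1` by `hD`.  The characters `χ_{a,ψ} : N0 →* ℂ` are pairwise different (raise to the odd power `card Δ` to isolate the sign and use `hτ`; then `hη`).
Eigenvectors of different characters are independent: fix `g`, use `linearIndependent_monoidHom` on `N0` for the function `u ↦ ∑ coef * Ef a ψ g * χ_{a,ψ} u`, then take `g = (τ a)⁻¹`. -/

namespace Vale.Agent.P024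

open NumberField IsDedekindDomain Filter
open scoped Pointwise Topology

private theorem rank_lin {Δ : Type*} [AddCommGroup Δ] [Fintype Δ] {d c : ℕ}
    (lam : Fin c → Fin d × Δ → ℤ) (hl : LinearIndependent ℤ lam) :
    ∃ S : Finset Δ, c ≤ d * S.card ∧ ∀ b : Δ → ℤ, (∀ ν ∉ S, b ν = 0) →
      (∀ t a, ∑ ν, b ν * lam t (a, -ν) = 0) → b = 0 := by
  classical
  let col : Δ → (Fin c × Fin d → ℤ) := fun ν p => lam p.1 (p.2, -ν)
  obtain ⟨s, hs, hmax⟩ := exists_maximal_linearIndepOn ℤ col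
  refine ⟨s.toFinset, ?_, ?_⟩
  · let v : Fin c → (Fin d × s.toFinset → ℤ) := fun t j => lam t (j.1, -(j.2 : Δ))
    have hv : LinearIndependent ℤ v := by
      rw [Fintype.linearIndependent_iff] at hl ⊢
      intro x hx
      apply hl x
      funext j
      obtain ⟨a, ν⟩ := j
      let φ : (Fin c × Fin d → ℤ) →ₗ[ℤ] ℤ := ∑ t, x t • LinearMap.proj (t, a)
      have hφ : ∀ y, φ y = ∑ t, x t * y (t, a) := by
        intro y; simp [φ, LinearMap.sum_apply]
      have h1 : ∀ μ ∈ s, φ (col μ) = 0 := by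
        intro μ hμ
        have := congrFun hx (a, ⟨μ, Set.mem_toFinset.2 hμ⟩)
        rw [hφ]
        simpa [v, col, Finset.sum_apply] using this
      have h2 : φ (col (-ν)) = 0 := by
        by_cases hν : -ν ∈ s
        · exact h1 _ hν
        · obtain ⟨k, hk, hmem⟩ := hmax _ hν
          have hle : Submodule.span ℤ (col '' s) ≤ LinearMap.ker φ := by
            rw [Submodule.span_le]
            rintro _ ⟨μ, hμ, rfl⟩
            exact h1 μ hμ
          have := hle hmem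
          rw [LinearMap.mem_ker, map_smul, smul_eq_mul] at this
          exact (mul_eq_zero.1 this).resolve_left hk
      rw [hφ] at h2
      simpa [col, Finset.sum_apply] using h2
    have := hv.fintype_card_le_finrank
    simpa using this
  · intro b hb h
    have hs' : LinearIndepOn ℤ col (s.toFinset : Set Δ) := by simpa using hs
    rw [linearIndepOn_finset_iff] at hs'
    have h0 : ∑ i ∈ s.toFinset, b i • col i = 0 := by
      funext p
      have := h p.1 p.2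
      rw [← Finset.sum_subset (Finset.subset_univ s.toFinset)
        (fun i _ hi => by rw [hb i hi, zero_mul])] at this
      simpa [col, Finset.sum_apply] using this
    funext ν
    by_cases hν : ν ∈ s.toFinset
    · exact hs' b h0 ν hν
    · exact hb ν hν

private theorem rank_one {G : Type*} [Group G] {U' : Subgroup G} {Q : Type*} [AddCommGroup Q]
    {c : G → Q} (h : ∀ g ∈ U', ∀ h ∈ U', c (g * h) = c g + c h) : c 1 = 0 := by
  have := h 1 U'.one_mem 1 U'.one_mem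
  rw [mul_one] at this
  exact left_eq_add.1 this

private theorem rank_inv {G : Type*} [Group G] {U' : Subgroup G} {Q : Type*} [AddCommGroup Q]
    {c : G → Q} (h : ∀ g ∈ U', ∀ h ∈ U', c (g * h) = c g + c h) {g : G} (hg : g ∈ U') :
    c g⁻¹ = -c g := by
  have := h g hg g⁻¹ (U'.inv_mem hg)
  rw [mul_inv_cancel, rank_one h] at this
  exact (neg_eq_of_add_eq_zero_right this.symm).symm

private theorem rank_pow {G : Type*} [Group G] {U' : Subgroup G} {Q : Type*} [AddCommGroup Q]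
    {c : G → Q} (h : ∀ g ∈ U', ∀ h ∈ U', c (g * h) = c g + c h) {g : G} (hg : g ∈ U') (n : ℕ) :
    c (g ^ n) = n • c g := by
  induction n with
  | zero => simpa using rank_one h
  | succ n ih => rw [pow_succ, h _ (U'.pow_mem hg n) _ hg, ih, succ_nsmul]

private theorem rank_conj {G : Type*} [Group G] {U' : Subgroup G} {Q : Type*} [AddCommGroup Q]
    {c : G → Q} (h : ∀ g ∈ U', ∀ h ∈ U', c (g * h) = c g + c h) {g y : G} (hg : g ∈ U')
    (hy : y ∈ U') : c (y⁻¹ * g * y) = c g := by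
  rw [h _ (U'.mul_mem (U'.inv_mem hy) hg) _ hy, h _ (U'.inv_mem hy) _ hg, rank_inv h hy]
  abel

/-- the sign of an element of `ZMod 2` -/
private def rank_sgn (x : ZMod 2) : ℤ := if x = 0 then 1 else -1

private theorem rank_sgn_add (x y : ZMod 2) : rank_sgn (x + y) = rank_sgn x * rank_sgn y := by
  revert x y; decide

private theorem rank_sgn_inj {x y : ZMod 2} (h : rank_sgn x = rank_sgn y) : x = y := by
  revert x y; decide

private theorem rank_two (x : ZMod 2) : x = 0 ∨ x = 1 := by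
  revert x; decide

theorem rank_lower {G : Type*} [Group G] (U' N0 : Subgroup G) [N0.Normal] (hN : N0 ≤ U')
    {Δ : Type*} [AddCommGroup Δ] [Fintype Δ] (hΔ : Odd (Fintype.card Δ))
    (η0 : G → ZMod 2) (η : G → Δ)
    (a0 : ∀ g ∈ U', ∀ h ∈ U', η0 (g * h) = η0 g + η0 h)
    (a1 : ∀ g ∈ U', ∀ h ∈ U', η (g * h) = η g + η h) (hη : ∀ ν, ∃ u ∈ N0, η u = ν)
    (s : Δ → G) (hs : ∀ ν, s ν ∈ U' ∧ η0 (s ν) = 0 ∧ η (s ν) = ν)
    (δ0 : G) (hδ : δ0 ∈ U' ∧ η0 δ0 = 1 ∧ η δ0 = 0) {d : ℕ} (τ : Fin d → G)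
    (hτ : ∀ a a', a ≠ a' → ∃ u ∈ N0, η0 ((τ a)⁻¹ * u * τ a) ≠ η0 ((τ a')⁻¹ * u * τ a'))
    {c : ℕ} (lam : Fin c → Fin d × Δ → ℤ) (hl : LinearIndependent ℤ lam) :
    ∃ S : Finset Δ, c ≤ d * S.card ∧ ∀ (D : Subgroup G) (w : G → ℤ) (b : Δ → ℤ),
      (∀ g ∈ D, g ∈ U' → η0 g = 0 ∧ η g = 0) →
      (∀ g, (∃ x ∈ D, ∃ u ∈ U', η0 u = 0 ∧ η u = 0 ∧ g = x * u) → w g = 1) →
      (∀ g, (¬∃ x ∈ D, ∃ u ∈ U', η0 u = 0 ∧ η u = 0 ∧ g = x * u) → w g = 0) →
      (∀ ν ∉ S, b ν = 0) →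
      (∀ t g, ∑ j : Fin d × Δ, ∑ ν, b ν * lam t j *
        (w (g * τ j.1 * s j.2 * s ν) - w (g * τ j.1 * s j.2 * s ν * δ0)) = 0) → b = 0 := by
  classical
  obtain ⟨S, hS, hlin⟩ := rank_lin lam hl
  refine ⟨S, hS, fun D w b hD hw1 hw0 hb h => hlin b hb fun t a => ?_⟩
  -- right invariance of `w`
  have hw : ∀ y, ∀ u ∈ U', η0 u = 0 → η u = 0 → w (y * u) = w y := by
    intro y u hu h0 h1
    by_cases hy : ∃ x ∈ D, ∃ u ∈ U', η0 u = 0 ∧ η u = 0 ∧ y = x * u
    · rw [hw1 y hy, hw1]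
      obtain ⟨x, hx, v, hv, h2, h3, rfl⟩ := hy
      exact ⟨x, hx, v * u, U'.mul_mem hv hu, by rw [a0 _ hv _ hu, h2, h0, add_zero],
        by rw [a1 _ hv _ hu, h3, h1, add_zero], mul_assoc _ _ _⟩
    · rw [hw0 y hy, hw0]
      rintro ⟨x, hx, v, hv, h2, h3, e⟩
      refine hy ⟨x, hx, v * u⁻¹, U'.mul_mem hv (U'.inv_mem hu), ?_, ?_, ?_⟩
      · rw [a0 _ hv _ (U'.inv_mem hu), rank_inv a0 hu, h2, h0, neg_zero, add_zero]
      · rw [a1 _ hv _ (U'.inv_mem hu), rank_inv a1 hu, h3, h1, neg_zero, add_zero]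
      · rw [← mul_assoc, ← e, mul_inv_cancel_right]
  let wm : G → ℤ := fun y => w y - w (y * δ0)
  have hwm : ∀ y, ∀ v ∈ U', η v = 0 → wm (y * v) = rank_sgn (η0 v) * wm y := by
    intro y v hv h1
    rcases rank_two (η0 v) with h0 | h0
    · have e : y * v * δ0 = y * δ0 * (δ0⁻¹ * v * δ0) := by group
      simp only [wm, rank_sgn, h0, if_true, one_mul]
      rw [hw y v hv h0 h1, e, hw _ _ (U'.mul_mem (U'.mul_mem (U'.inv_mem hδ.1) hv) hδ.1)
        (by rw [rank_conj a0 hv hδ.1, h0]) (by rw [rank_conj a1 hv hδ.1, h1])]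
    · have e : y * v = y * δ0 * (δ0⁻¹ * v) := by group
      have e2 : w (y * v) = w (y * δ0) := by
        rw [e, hw _ _ (U'.mul_mem (U'.inv_mem hδ.1) hv)]
        · rw [a0 _ (U'.inv_mem hδ.1) _ hv, rank_inv a0 hδ.1, hδ.2.1, h0, neg_add_cancel]
        · rw [a1 _ (U'.inv_mem hδ.1) _ hv, rank_inv a1 hδ.1, hδ.2.2, h1, neg_zero, add_zero]
      have e3 : w (y * v * δ0) = w y := by
        rw [mul_assoc, hw _ _ (U'.mul_mem hv hδ.1)]
        · rw [a0 _ hv _ hδ.1, hδ.2.1, h0]; decide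
        · rw [a1 _ hv _ hδ.1, hδ.2.2, h1, add_zero]
      have e4 : rank_sgn 1 = -1 := by decide
      simp only [wm, h0, e2, e3, e4]
      ring
  have hc : ∀ (a : Fin d) (u : N0), (τ a)⁻¹ * u * τ a ∈ U' := fun a u =>
    hN (by simpa using (inferInstance : N0.Normal).conj_mem _ u.2 (τ a)⁻¹)
  let χ : Fin d → (N0 →* ℤ) := fun a =>
    { toFun := fun u => rank_sgn (η0 ((τ a)⁻¹ * u * τ a))
      map_one' := by simp [rank_one a0, rank_sgn]
      map_mul' := fun u v => by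
        have e : (τ a)⁻¹ * ((u * v : N0) : G) * τ a
            = ((τ a)⁻¹ * u * τ a) * ((τ a)⁻¹ * v * τ a) := by
          rw [Subgroup.coe_mul]; group
        rw [e, a0 _ (hc a u) _ (hc a v), rank_sgn_add] }
  have hχ : Function.Injective χ := by
    intro a a' e
    by_contra hne
    obtain ⟨u, hu, hne'⟩ := hτ a a' hne
    exact hne' (rank_sgn_inj (DFunLike.congr_fun e (⟨u, hu⟩ : N0)))
  have hind : LinearIndependent ℤ (fun a => (χ a : N0 → ℤ)) :=
    (linearIndependent_monoidHom N0 ℤ).comp χ hχ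
  rw [Fintype.linearIndependent_iff] at hind
  let C : Fin d → G → ℤ := fun a g =>
    ∑ μ, ∑ ν, b ν * lam t (a, μ) * wm (g * τ a * s μ * s ν)
  have hC : ∀ g a, C a g = 0 := by
    intro g
    apply hind (fun a => C a g)
    funext u
    have h1 := h t (g * (u : G) ^ Fintype.card Δ)
    rw [Fintype.sum_prod_type] at h1
    simp only [Finset.sum_apply, Pi.smul_apply, smul_eq_mul, Pi.zero_apply]
    rw [← h1]
    refine Finset.sum_congr rfl fun a _ => ?_
    simp only [C, Finset.sum_mul]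
    refine Finset.sum_congr rfl fun μ _ => Finset.sum_congr rfl fun ν _ => ?_
    have hy : s μ * s ν ∈ U' := U'.mul_mem (hs μ).1 (hs ν).1
    have hp : ((τ a)⁻¹ * u * τ a) ^ Fintype.card Δ ∈ U' := U'.pow_mem (hc a u) _
    have e : g * (u : G) ^ Fintype.card Δ * τ a * s μ * s ν = g * τ a * s μ * s ν *
        ((s μ * s ν)⁻¹ * ((τ a)⁻¹ * u * τ a) ^ Fintype.card Δ * (s μ * s ν)) := by
      have : ((τ a)⁻¹ * u * τ a) ^ Fintype.card Δ
          = (τ a)⁻¹ * (u : G) ^ Fintype.card Δ * τ a := by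
        have := conj_pow (a := (τ a)⁻¹) (b := (u : G)) (i := Fintype.card Δ)
        simpa using this
      rw [this]; group
    have h2 := hwm (g * τ a * s μ * s ν) _ (U'.mul_mem (U'.mul_mem (U'.inv_mem hy) hp) hy)
      (by rw [rank_conj a1 hp hy, rank_pow a1 (hc a u), card_nsmul_eq_zero])
    rw [← e, rank_conj a0 hp hy, rank_pow a0 (hc a u)] at h2
    have h3 : Fintype.card Δ • η0 ((τ a)⁻¹ * u * τ a) = η0 ((τ a)⁻¹ * u * τ a) := by
      obtain ⟨k, hk⟩ := hΔ
      have h4 : ∀ x : ZMod 2, 2 • x = 0 := by decide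
      rw [hk, add_nsmul, one_nsmul, mul_comm, mul_nsmul, h4, zero_add]
    rw [h3] at h2
    change _ = b ν * lam t (a, μ) * wm _
    rw [h2]
    change _ * rank_sgn _ = _
    ring
  have hU : ∀ y ∈ U', w y = if η0 y = 0 ∧ η y = 0 then 1 else 0 := by
    intro y hy
    split_ifs with h0
    · exact hw1 y ⟨1, D.one_mem, y, hy, h0.1, h0.2, (one_mul y).symm⟩
    · refine hw0 y ?_
      rintro ⟨x, hx, u, hu, h2, h3, e⟩
      have hxU : x ∈ U' := by
        have : x = y * u⁻¹ := by rw [e, mul_inv_cancel_right]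
        rw [this]; exact U'.mul_mem hy (U'.inv_mem hu)
      obtain ⟨h4, h5⟩ := hD x hx hxU
      exact h0 ⟨by rw [e, a0 _ hxU _ hu, h4, h2, add_zero],
        by rw [e, a1 _ hxU _ hu, h5, h3, add_zero]⟩
  have hval : ∀ μ ν, wm (s μ * s ν) = if μ = -ν then 1 else 0 := by
    intro μ ν
    have hy : s μ * s ν ∈ U' := U'.mul_mem (hs μ).1 (hs ν).1
    have e0 : η0 (s μ * s ν) = 0 := by
      rw [a0 _ (hs μ).1 _ (hs ν).1, (hs μ).2.1, (hs ν).2.1, add_zero]
    have e1 : η (s μ * s ν) = μ + ν := by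
      rw [a1 _ (hs μ).1 _ (hs ν).1, (hs μ).2.2, (hs ν).2.2]
    have e2 : η0 (s μ * s ν * δ0) = 1 := by rw [a0 _ hy _ hδ.1, e0, hδ.2.1, zero_add]
    simp only [wm]
    rw [hU _ hy, hU _ (U'.mul_mem hy hδ.1), e0, e1, e2]
    simp [add_eq_zero_iff_eq_neg]
  have h1 := hC (τ a)⁻¹ a
  simp only [C, inv_mul_cancel, one_mul, hval] at h1
  rw [Finset.sum_comm] at h1
  simpa using h1

end Vale.Agent.P024
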