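import Vale.Agent.P024.Ch

/-! # P024 Red (TASK; helper lemma names start with `red_` or are private)
Reduction to the absolute Galois group of `ℚ`.  PLAN.  `e = IsAlgClosed.lift` (`alg_rat`); make `Qb` an `E`-algebra and an `F`-algebra through `e` (`RingHom.toAlgebra`, scalar towers).  `V` = the elements fixing `e (algebraMap F E x)` for all `x`; open: the intersection of the `stab` of the images of a `ℚ`-basis of `F`.
For `g ∈ V`, `g` is an `F`-algebra automorphism of `Qb`; `f g = AlgEquiv.restrictNormal _ E` (`AlgEquiv.restrictNormal_commutes`); onto by `AlgEquiv.liftNormal` / `AlgEquiv.restrictNormalHom_surjective`.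
Continuity: a homomorphism from `V` is continuous if the preimage of each `fixingSubgroup L`, `L` finite over `F`, is open (`continuous_of_continuousAt_one`, `krullTopology_mem_nhds_one_iff`); it contains the stabiliser of the images of a basis of `L`.
The last clause: `IsGalois E Qb` (`IsGalois.tower_top_of_isGalois`), `InfiniteGalois.mem_bot_iff_fixed` / `mem_range_algebraMap_iff_fixed`. -/

namespace Vale.Agent.P024

open NumberField IsDedekindDomain Filter
open scoped Pointwise Topology

set_option linter.unusedSectionVars false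

theorem red_open {L : Type*} [Field L] [NumberField L] (τ : L →+* Qb) :
    IsOpen {g : G1 | ∀ x, g (τ x) = τ x} := by
  let b := Module.finBasis ℚ L
  have : {g : G1 | ∀ x, g (τ x) = τ x} = ⋂ i, (stab (τ (b i)) : OpenSubgroup G1) := by
    refine Set.Subset.antisymm (fun g hg => Set.mem_iInter.2 fun i => hg _) fun g hg x => ?_
    exact LinearMap.congr_fun (b.ext (f₁ := (g.toAlgHom.comp τ.toRatAlgHom).toLinearMap)
      (f₂ := τ.toRatAlgHom.toLinearMap) fun i => Set.mem_iInter.1 hg i) x
  rw [this]
  exact isOpen_iInter_of_finite fun i => OpenSubgroup.isOpen _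

theorem exists_res_OH (F E : Type*) [Field F] [NumberField F] [Field E] [CharZero E] [Algebra F E]
    [IsGalois F E] :
    ∃ (e : E →+* Qb) (ρ : OH G1 Gal(E/F)), (∀ g ∈ ρ.V, ∀ x, g (e x) = e (ρ.f g x)) ∧
      (∀ σ, ∃ g ∈ ρ.V, ρ.f g = σ) ∧
      ∀ y : Qb, (∀ g ∈ ρ.V, ρ.f g = 1 → g y = y) → ∃ x, e x = y := by
  have := alg_rat F E
  let e : E →+* Qb := (IsAlgClosed.lift : E →ₐ[ℚ] Qb).toRingHom
  let _ : Algebra E Qb := e.toAlgebra
  let _ : Algebra F Qb := (e.comp (algebraMap F E)).toAlgebra
  have : IsScalarTower F E Qb := IsScalarTower.of_algebraMap_eq fun _ => rfl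
  have : IsScalarTower ℚ F Qb := IsScalarTower.of_algebraMap_eq fun q => (map_ratCast _ q).symm
  have : IsScalarTower ℚ E Qb := IsScalarTower.of_algebraMap_eq fun q => (map_ratCast _ q).symm
  have : IsGalois F Qb := IsGalois.tower_top_of_isGalois ℚ F Qb
  have : IsGalois E Qb := IsGalois.tower_top_of_isGalois ℚ E Qb
  let V : OpenSubgroup G1 :=
    { carrier := {g | ∀ x, g (algebraMap F Qb x) = algebraMap F Qb x}
      one_mem' := fun _ => rfl
      mul_mem' := fun {a b} ha hb x => by rw [AlgEquiv.mul_apply, hb x, ha x]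
      inv_mem' := fun {a} ha x => a.injective (by rw [ha x]; exact a.apply_symm_apply _)
      isOpen' := red_open _ }
  have key : ∀ g ∈ V, ∃ σ : Gal(E/F), ∀ x, g (e x) = e (σ x) := fun g hg => by
    let g' : Gal(Qb/F) := { g.toRingEquiv with commutes' := hg }
    exact ⟨g'.restrictNormal E, fun x => (g'.restrictNormal_commutes E x).symm⟩
  choose! f hf using key
  have uq : ∀ g ∈ V, ∀ σ : Gal(E/F), (∀ x, g (e x) = e (σ x)) → f g = σ := fun g hg σ h =>
    AlgEquiv.ext fun x => e.injective ((hf g hg x).symm.trans (h x))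
  have mul : ∀ g ∈ V, ∀ h ∈ V, f (g * h) = f g * f h := fun g hg h hh =>
    uq _ (V.mul_mem hg hh) _ fun x => by
      rw [AlgEquiv.mul_apply, hf h hh, hf g hg, AlgEquiv.mul_apply]
  have onto : ∀ σ, ∃ g ∈ V, f g = σ := fun σ => by
    have hV : (σ.liftNormal Qb).restrictScalars ℚ ∈ V := fun x => (σ.liftNormal Qb).commutes x
    exact ⟨_, hV, uq _ hV _ fun x => σ.liftNormal_commutes Qb x⟩
  have cont : ContinuousOn f V := by
    let φ : V.toSubgroup →* Gal(E/F) := MonoidHom.mk' (fun g => f g) fun g h => mul _ g.2 _ h.2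
    refine continuousOn_iff_continuous_domRestrict.2 (continuous_of_continuousAt_one φ fun s hs => ?_)
    rw [map_one, krullTopology_mem_nhds_one_iff] at hs
    obtain ⟨L, _, hL⟩ := hs
    have : NumberField L := NumberField.of_module_finite F L
    refine mem_map.2 (mem_of_superset (((red_open (e.comp (algebraMap L E))).preimage
      continuous_subtype_val).mem_nhds fun _ => rfl) fun g hg => hL ?_)
    exact (IntermediateField.mem_fixingSubgroup_iff _ _).2 fun x hx =>
      e.injective ((hf g g.2 x).symm.trans (hg ⟨x, hx⟩))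
  refine ⟨e, ⟨V, f, mul, cont, ?_⟩, hf, onto, fun y hy => ?_⟩
  · rw [Set.eq_univ_of_forall (s := f '' V) onto]
    exact isOpen_univ
  · refine (InfiniteGalois.mem_range_algebraMap_iff_fixed (k := E) y).2 fun h => ?_
    have hV : h.restrictScalars ℚ ∈ V := fun x => h.commutes (algebraMap F E x)
    exact hy _ hV (uq _ hV 1 fun x => h.commutes x)

end Vale.Agent.P024
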