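import Vale.Agent.P024.Defs

/-! # P024 RedZ: torsion modulo a prime power -/

namespace Vale.Agent.P024

theorem red_eq_zero {q K n m : ℕ} (hq : q.Prime) (hn : n ≠ 0) (hm : m * q ^ padicValNat q n ∣ q ^ K)
    (hd : m ∣ q ^ K) {x : ZMod (q ^ K)} (h : n • x = 0) : ZMod.castHom hd (ZMod m) x = 0 := by
  haveI : Fact q.Prime := ⟨hq⟩
  haveI : NeZero (q ^ K) := ⟨pow_ne_zero _ hq.ne_zero⟩
  obtain ⟨n', hn'⟩ : q ^ padicValNat q n ∣ n := pow_padicValNat_dvd
  have hc : ¬q ∣ n' := by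
    rintro ⟨c, rfl⟩
    refine pow_succ_padicValNat_not_dvd (p := q) hn ⟨c, ?_⟩
    rw [pow_succ, mul_assoc]; exact hn'
  have h1 : q ^ K ∣ n * x.val := by
    rw [← ZMod.natCast_eq_zero_iff, Nat.cast_mul, ZMod.natCast_zmod_val, ← nsmul_eq_mul, h]
  have h2 : q ^ K ∣ q ^ padicValNat q n * x.val := by
    have : n * x.val = n' * (q ^ padicValNat q n * x.val) := by
      conv_lhs => rw [hn']
      ring
    rw [this] at h1
    exact (Nat.Coprime.pow_left K ((Nat.Prime.coprime_iff_not_dvd hq).2 hc)).dvd_of_dvd_mul_left h1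
  have h3 : m ∣ x.val := by
    have := hm.trans h2
    rw [mul_comm m] at this
    exact Nat.dvd_of_mul_dvd_mul_left (pow_pos hq.pos _) this
  rw [← ZMod.natCast_zmod_val x, map_natCast, ZMod.natCast_eq_zero_iff]
  exact h3

end Vale.Agent.P024
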