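import Vale.Agent.P024.Defs

/-! # P024 Solv (TASK; helper lemma names start with `solv_` or are private)
Solvably closed fields contain all roots.  PLAN.  `solv_adjoin`: if `y` in the algebraic closure generates a Galois extension `E⟮y⟯` whose automorphisms commute then `y ∈ ⊥`.  Roots of unity: `z` primitive of order `n` in the algebraic closure (`HasEnoughRootsOfUnity`), `IsPrimitiveRoot.intermediateField_adjoin_isCyclotomicExtension`, `IsCyclotomicExtension.isAbelianGalois`.
Roots: `y^n = x ≠ 0`, all roots of `X^n - C x` are `ζ^i y` with `ζ ∈ E`, so `E⟮y⟯` is a splitting field (`IsGalois.of_separable_splitting_field`, or `Normal` through `IntermediateField.isSplittingField_iff`, `separable_X_pow_sub_C`); `σ y = ζ^i y`, so automorphisms commute on the generator (`IntermediateField.algHom_ext_of_eq_adjoin`, `adjoin.powerBasis`). -/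

namespace Vale.Agent.P024

open NumberField IsDedekindDomain Filter
open scoped Pointwise Topology

set_option linter.unusedSectionVars false

theorem solv_adjoin {E : Type*} [Field E] [CharZero E]
    (h : ∀ L : IntermediateField E (AlgebraicClosure E), IsAbelianGalois E L → L = ⊥)
    {y : AlgebraicClosure E}
    (h1 : ∀ σ : Gal(AlgebraicClosure E/E), σ y ∈ IntermediateField.adjoin E {y})
    (h2 : ∀ σ τ : Gal(AlgebraicClosure E/E), σ (τ y) = τ (σ y)) :
    ∃ x : E, algebraMap E (AlgebraicClosure E) x = y := by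
  have hN : Normal E (IntermediateField.adjoin E {y}) := by
    rw [IntermediateField.normal_iff_forall_map_le']
    intro σ
    rw [IntermediateField.adjoin_map, Set.image_singleton, IntermediateField.adjoin_simple_le_iff]
    exact h1 σ
  have hG : IsGalois E (IntermediateField.adjoin E {y}) := {}
  have hle : MulAction.stabilizer Gal(AlgebraicClosure E/E) y ≤
      (IntermediateField.adjoin E {y}).fixingSubgroup := by
    rw [← IntermediateField.le_iff_le, IntermediateField.adjoin_simple_le_iff,
      IntermediateField.mem_fixedField_iff]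
    exact fun g hg => hg
  have hC : IsMulCommutative Gal((IntermediateField.adjoin E {y})/E) := ⟨⟨fun a b => by
    obtain ⟨σ, rfl⟩ := AlgEquiv.restrictNormalHom_surjective (AlgebraicClosure E) a
    obtain ⟨τ, rfl⟩ := AlgEquiv.restrictNormalHom_surjective (AlgebraicClosure E) b
    rw [← map_mul, ← map_mul, ← MonoidHom.div_mem_ker_iff, IntermediateField.restrictNormalHom_ker]
    refine hle ?_
    have e : (τ * σ)⁻¹ y = (σ * τ)⁻¹ y := by
      rw [mul_inv_rev, mul_inv_rev]
      exact h2 σ⁻¹ τ⁻¹
    show (σ * τ / (τ * σ)) y = y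
    rw [div_eq_mul_inv, AlgEquiv.mul_apply, e, ← AlgEquiv.mul_apply, mul_inv_cancel]
    rfl⟩⟩
  have := h (IntermediateField.adjoin E {y}) IsAbelianGalois.mk
  exact IntermediateField.mem_bot.1 (this ▸ IntermediateField.mem_adjoin_simple_self E y)

theorem rc_of_solv (E : Type*) [Field E] [CharZero E]
    (h : ∀ L : IntermediateField E (AlgebraicClosure E), IsAbelianGalois E L → L = ⊥) : RC E := by
  have hp : ∀ n : ℕ, 0 < n → ∃ z : E, IsPrimitiveRoot z n := by
    intro n hn
    have : NeZero n := ⟨hn.ne'⟩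
    obtain ⟨z, hz⟩ := HasEnoughRootsOfUnity.exists_primitiveRoot (AlgebraicClosure E) n
    have key : ∀ σ : Gal(AlgebraicClosure E/E), ∃ i, z ^ i = σ z := fun σ => by
      obtain ⟨i, -, hi⟩ := hz.eq_pow_of_pow_eq_one (ξ := σ z)
        (by rw [← map_pow, hz.pow_eq_one, map_one])
      exact ⟨i, hi⟩
    obtain ⟨x, rfl⟩ := solv_adjoin h (y := z) (fun σ => by
      obtain ⟨i, hi⟩ := key σ
      rw [← hi]
      exact pow_mem (IntermediateField.mem_adjoin_simple_self E z) i) fun σ τ => by
      obtain ⟨i, hi⟩ := key σ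
      obtain ⟨j, hj⟩ := key τ
      rw [← hj, ← hi, map_pow, map_pow, ← hi, ← hj, ← pow_mul, ← pow_mul, mul_comm]
    exact ⟨x, hz.of_map_of_injective (algebraMap E (AlgebraicClosure E)).injective⟩
  refine ⟨fun n x hn => ?_, hp⟩
  have : NeZero n := ⟨hn.ne'⟩
  obtain ⟨y, hy⟩ := IsAlgClosed.exists_pow_nat_eq (algebraMap E (AlgebraicClosure E) x) hn
  obtain ⟨ζ, hζ⟩ := hp n hn
  have hζ' := hζ.map_of_injective (algebraMap E (AlgebraicClosure E)).injective
  have key : ∀ σ : Gal(AlgebraicClosure E/E), ∃ c : E, σ y = algebraMap E _ c * y := fun σ => by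
    by_cases h0 : y = 0
    · exact ⟨0, by simp [h0]⟩
    obtain ⟨i, -, hi⟩ := hζ'.eq_pow_of_pow_eq_one (ξ := σ y / y) (by
      rw [div_pow, ← map_pow, hy, AlgEquiv.commutes, ← hy, div_self (pow_ne_zero _ h0)])
    exact ⟨ζ ^ i, by rw [map_pow, hi, div_mul_cancel₀ _ h0]⟩
  obtain ⟨w, rfl⟩ := solv_adjoin h (y := y) (fun σ => by
    obtain ⟨c, hc⟩ := key σ
    rw [hc]
    exact mul_mem (IntermediateField.algebraMap_mem _ c)
      (IntermediateField.mem_adjoin_simple_self E y)) fun σ τ => by
    obtain ⟨c, hc⟩ := key σ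
    obtain ⟨d, hd⟩ := key τ
    rw [hd, hc, map_mul, map_mul, AlgEquiv.commutes, AlgEquiv.commutes, hc, hd, mul_left_comm]
  exact ⟨w, (algebraMap E (AlgebraicClosure E)).injective (by rw [map_pow, hy])⟩

end Vale.Agent.P024
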