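import Vale.Agent.P024.Defs

/-! # P024 Syl (TASK; helper lemma names start with `syl_` or are private)
Pro-2 Sylow theory in a profinite group.  PLAN.
`exists_syl2`: Zorn (`zorn_superset_nonempty` or `zorn_ge_nonempty`) on closed subgroups `J ≤ S` with the property `odd`.  A chain has the lower bound `⨅`: for fixed `W` the
subgroups `J ⊔ W` take finitely many values, let `J0 ⊔ W` be the least one; if `g ∈ J0 ⊔ W` then the closed sets `J ∩ g W` are nonempty and directed, so by compactness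
(`IsCompact.nonempty_iInter_of_directed_nonempty_isCompact_isClosed`) the infimum meets `g W`.  A minimal `J` is pro-2: let `P` be a Sylow 2-subgroup of the image of `J` in `G ⧸ W`
and `J1 = J ⊓ comap P`; it is closed, `J1.relIndex J` is odd, and for every `W'` the index of `J1 ⊔ W'` in `J ⊔ W'` divides it; so `J1 = J`.
`Syl2.conj_le`: for each `W` the image of `P` in `G ⧸ W` is a 2-group acting on the cosets of `J ⊔ W` in `S ⊔ W` (odd number), so it has a fixed point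
(`IsPGroup.nonempty_fixed_point_of_prime_not_dvd_card`), or use finite Sylow theory in `G ⧸ W`; the sets `{ρ ∈ S | ∀ g ∈ P, ρ g ρ⁻¹ ∈ J ⊔ W}` are closed, nonempty, directed; `⨅ W, J ⊔ W = J` as `J` is closed
(`ProfiniteGrp.exist_openNormalSubgroup_sub_open_nhds_of_one`).  `Syl2.surj`: `(J ⊔ N).relIndex S` is odd and a power of two. -/

namespace Vale.Agent.P024

open NumberField IsDedekindDomain Filter
open scoped Pointwise Topology

variable {G : Type*} [Group G] [TopologicalSpace G] [IsTopologicalGroup G] [CompactSpace G]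
  [T2Space G] [TotallyDisconnectedSpace G]

theorem exists_normal_le (U : OpenSubgroup G) : ∃ W : OpenNormalSubgroup G, ∀ g ∈ W, g ∈ U :=   ProfiniteGrp.exist_openNormalSubgroup_sub_open_nhds_of_one U.isOpen U.one_mem

theorem eq_one_of_forall_mem {g : G} (h : ∀ W : OpenNormalSubgroup G, g ∈ W) : g = 1 := by
  by_contra hg
  obtain ⟨W, hW⟩ := ProfiniteGrp.exist_openNormalSubgroup_sub_open_nhds_of_one
    (isOpen_compl_singleton (x := g)) (Ne.symm hg)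
  exact hW (h W) rfl

theorem mem_of_forall_open {J : Subgroup G} (hJ : IsClosed (J : Set G)) {g : G}
    (h : ∀ W : OpenNormalSubgroup G, ∃ j ∈ J, j⁻¹ * g ∈ W) : g ∈ J := by
  by_contra hg
  obtain ⟨W, hW⟩ := ProfiniteGrp.exist_openNormalSubgroup_sub_open_nhds_of_one
    (U := (fun x => g * x⁻¹) ⁻¹' (J : Set G)ᶜ) (hJ.isOpen_compl.preimage (by fun_prop))
    (by simpa using hg)
  obtain ⟨j, hj, hjW⟩ := h W
  exact hW hjW (by simpa using hj)

theorem Pro2.zpow {g : G} (h : Pro2 g) (n : ℤ) : Pro2 (g ^ n) := fun W => by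
  obtain ⟨k, hk⟩ := h W
  refine ⟨k, ?_⟩
  rw [← zpow_natCast, ← zpow_mul, mul_comm, zpow_mul, zpow_natCast]
  exact zpow_mem hk n

theorem Pro2.pow {g : G} (h : Pro2 g) (n : ℕ) : Pro2 (g ^ n) := by
  rw [← zpow_natCast]
  exact h.zpow n

theorem Pro2.conj {g : G} (h : Pro2 g) (ρ : G) : Pro2 (ρ * g * ρ⁻¹) := fun W => by
  obtain ⟨k, hk⟩ := h W
  refine ⟨k, ?_⟩
  rw [conj_pow]
  exact W.isNormal'.conj_mem _ hk ρ

theorem Pro2.mem_open {g : G} (h : Pro2 g) (U : OpenSubgroup G) :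
    ∃ k : ℕ, ∀ n, k ≤ n → g ^ 2 ^ n ∈ U := by
  obtain ⟨W, hW⟩ := exists_normal_le U
  obtain ⟨k, hk⟩ := h W
  refine ⟨k, fun n hn => hW _ ?_⟩
  obtain ⟨d, rfl⟩ := Nat.exists_eq_add_of_le hn
  rw [pow_add, pow_mul]
  exact pow_mem hk _

/-- a pro-2 element of finite order has 2-power order -/
theorem Pro2.of_finOrder {g : G} (h : Pro2 g) (hf : IsOfFinOrder g) : ∃ k : ℕ, g ^ 2 ^ k = 1 := by
  obtain ⟨W, hW⟩ := ProfiniteGrp.exist_openNormalSubgroup_sub_open_nhds_of_one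
    (U := ((Submonoid.powers g : Set G) \ {1})ᶜ) (hf.finite_powers.sdiff.isClosed.isOpen_compl)
    fun h => h.2 rfl
  obtain ⟨k, hk⟩ := h W
  exact ⟨k, by_contra fun h1 => hW hk ⟨⟨_, rfl⟩, h1⟩⟩

omit [TopologicalSpace G] [IsTopologicalGroup G] [CompactSpace G] [T2Space G]
  [TotallyDisconnectedSpace G] in
theorem syl_rel (H K W : Subgroup G) [W.Normal] :
    (H ⊔ W).relIndex (K ⊔ W) = (H ⊔ W).relIndex K := by
  have h := Subgroup.relIndex_map_map (QuotientGroup.mk' W) H K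
  rw [← Subgroup.relIndex_comap, Subgroup.comap_map_eq, QuotientGroup.ker_mk'] at h
  exact h.symm

omit [CompactSpace G] [T2Space G] [TotallyDisconnectedSpace G] in
theorem syl_closed {H : Subgroup G} {W : OpenNormalSubgroup G} (h : W.toSubgroup ≤ H) :
    IsClosed (H : Set G) :=
  H.isClosed_of_isOpen (Subgroup.isOpen_mono h W.isOpen)

omit [Group G] [IsTopologicalGroup G] [T2Space G] [TotallyDisconnectedSpace G] in
theorem syl_inter {ι : Type*} [Nonempty ι] (t : ι → Set G) (hd : Directed (· ⊇ ·) t)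
    (hn : ∀ i, (t i).Nonempty) (hc : ∀ i, IsClosed (t i)) : ∃ x, ∀ i, x ∈ t i := by
  obtain ⟨x, hx⟩ := IsCompact.nonempty_iInter_of_directed_nonempty_isCompact_isClosed t hd hn
    (fun i => (hc i).isCompact) hc
  exact ⟨x, Set.mem_iInter.1 hx⟩

omit [T2Space G] [TotallyDisconnectedSpace G] in
theorem syl_chain {c : Set (Subgroup G)} (hc : ∀ J ∈ c, IsClosed (J : Set G))
    (ht : ∀ a ∈ c, ∀ b ∈ c, a ≤ b ∨ b ≤ a) (hne : c.Nonempty) (W : OpenNormalSubgroup G) :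
    ∃ J0 ∈ c, J0 ⊔ W.toSubgroup = sInf c ⊔ W.toSubgroup := by
  have : Finite (G ⧸ W.toSubgroup) := W.toSubgroup.quotient_finite_of_isOpen W.isOpen
  obtain ⟨J0, h0, hm⟩ := (InvImage.wf (fun J : Subgroup G => J.map (QuotientGroup.mk' W.toSubgroup))
    wellFounded_lt).has_min c hne
  refine ⟨J0, h0, le_antisymm (sup_le (fun g hg => ?_) le_sup_right)
    (sup_le_sup_right (sInf_le h0) _)⟩
  have := hne.to_subtype
  obtain ⟨x, hx⟩ := syl_inter (fun J : c => (J.1 : Set G) ∩ (fun x => x⁻¹ * g) ⁻¹' W.toSubgroup)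
    (fun a b => by
      rcases ht a a.2 b b.2 with h | h
      · exact ⟨a, subset_rfl, Set.inter_subset_inter_left _ h⟩
      · exact ⟨b, Set.inter_subset_inter_left _ h, subset_rfl⟩)
    (fun J => by
      have h1 : J0.map (QuotientGroup.mk' W.toSubgroup) ≤
          J.1.map (QuotientGroup.mk' W.toSubgroup) := by
        rcases ht J0 h0 J J.2 with h | h
        · exact Subgroup.map_mono h
        · exact (eq_of_le_of_not_lt (Subgroup.map_mono h) (hm J J.2)).ge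
      obtain ⟨x, hx, e⟩ := h1 ⟨g, hg, rfl⟩
      exact ⟨x, hx, QuotientGroup.eq.1 e⟩)
    fun J => (hc J J.2).inter ((syl_closed le_rfl).preimage (by fun_prop))
  exact Subgroup.mem_sup_of_normal_right.2 ⟨x, Subgroup.mem_sInf.2 fun J hJ => (hx ⟨J, hJ⟩).1,
    x⁻¹ * g, (hx ⟨J0, h0⟩).2, mul_inv_cancel_left x g⟩

omit [T2Space G] [TotallyDisconnectedSpace G] in
theorem syl_cut (J : Subgroup G) (W : OpenNormalSubgroup G) : ∃ J1 : Subgroup G,
    W.toSubgroup ≤ J1 ∧ IsClosed (J1 : Set G) ∧ Odd (J1.relIndex J) ∧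
      ∀ g ∈ J1, g ∈ J → ∃ k : ℕ, g ^ 2 ^ k ∈ W := by
  have : Finite (G ⧸ W.toSubgroup) := W.toSubgroup.quotient_finite_of_isOpen W.isOpen
  obtain ⟨P⟩ : Nonempty (Sylow 2 (J.map (QuotientGroup.mk' W.toSubgroup))) := inferInstance
  have hle : W.toSubgroup ≤ (P.toSubgroup.map (Subgroup.subtype _)).comap
      (QuotientGroup.mk' W.toSubgroup) := fun w hw => by
    rw [Subgroup.mem_comap, QuotientGroup.mk'_apply, (QuotientGroup.eq_one_iff w).2 hw]
    exact Subgroup.one_mem _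
  refine ⟨_, hle, syl_closed hle, ?_, ?_⟩
  · rw [Subgroup.relIndex_comap, Subgroup.relIndex, Subgroup.subgroupOf,
      Subgroup.comap_map_eq_self_of_injective (Subgroup.subtype_injective _), ← Nat.not_even_iff_odd,
      even_iff_two_dvd]
    exact P.not_dvd_index
  · rintro g ⟨y, hy, e⟩ -
    obtain ⟨k, hk⟩ := P.isPGroup' ⟨y, hy⟩
    refine ⟨k, (QuotientGroup.eq_one_iff (N := W.toSubgroup) _).1 ?_⟩
    rw [← QuotientGroup.mk'_apply, map_pow, ← e, ← map_pow]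
    exact (congrArg _ (congrArg Subtype.val hk)).trans (map_one _)

theorem syl_fix {H : Type*} [Group H] {C B : Subgroup H} (hC : IsPGroup 2 C) (hB : Odd B.index) :
    ∃ a, ∀ c ∈ C, a * c * a⁻¹ ∈ B := by
  obtain ⟨q, hq⟩ := hC.nonempty_fixed_point_of_prime_not_dvd_card (H ⧸ B) (by
    rw [← even_iff_two_dvd, Nat.not_even_iff_odd]
    exact hB)
  obtain ⟨a, rfl⟩ := QuotientGroup.mk_surjective q
  refine ⟨a⁻¹, fun c hc => ?_⟩
  have h : ((a : H) : H ⧸ B) = ((c * a : H) : H ⧸ B) := (hq ⟨c, hc⟩).symm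
  rw [inv_inv, mul_assoc]
  exact QuotientGroup.eq.1 h

theorem exists_syl2 {S : Subgroup G} (hS : IsClosed (S : Set G)) : ∃ J, Syl2 S J := by
  obtain ⟨J, -, ⟨hJ1, hJ2, hJ3⟩, hmin⟩ := zorn_le_nonempty₀ (α := (Subgroup G)ᵒᵈ)
    {J : Subgroup G | J ≤ S ∧ IsClosed (J : Set G) ∧
      ∀ W : OpenNormalSubgroup G, Odd ((J ⊔ W.toSubgroup).relIndex (S ⊔ W.toSubgroup))}
    (fun c hc hch y hy => by
      refine ⟨(sInf (c : Set (Subgroup G)) : Subgroup G), ⟨(sInf_le (α := Subgroup G) hy).trans (hc hy).1, ?_,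
        fun W => ?_⟩, fun z hz => sInf_le (α := Subgroup G) hz⟩
      · exact (Subgroup.coe_sInf (G := G) c).symm ▸ isClosed_biInter fun J hJ => (hc hJ).2.1
      · obtain ⟨J0, h0, e⟩ := syl_chain (c := c) (fun J hJ => (hc hJ).2.1)
          (fun a ha b hb => (hch.total ha hb).symm) ⟨y, hy⟩ W
        exact e ▸ (hc h0).2.2 W)
    S ⟨le_rfl, hS, fun W => by rw [Subgroup.relIndex_self]; exact odd_one⟩
  change Subgroup G at J
  refine ⟨J, hJ1, hJ2, fun g hg W => ?_, hJ3⟩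
  obtain ⟨J1, h1, h2, h3, h4⟩ := syl_cut J W
  refine h4 g (hmin (y := (J ⊓ J1 : Subgroup G)) ⟨inf_le_left.trans hJ1, hJ2.inter h2, fun W' => ?_⟩
    (inf_le_left (α := Subgroup G)) hg).2 hg
  rw [← Subgroup.relIndex_mul_relIndex _ (J ⊔ W'.toSubgroup) _ (sup_le_sup_right inf_le_left _)
    (sup_le_sup_right hJ1 _)]
  refine Odd.mul (Odd.of_dvd_nat h3 ?_) (hJ3 W')
  rw [syl_rel, ← Subgroup.inf_relIndex_left J J1]
  exact Subgroup.relIndex_dvd_of_le_left _ le_sup_left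

theorem Syl2.conj_le {S J : Subgroup G} (h : Syl2 S J) (hS : IsClosed (S : Set G)) {P : Subgroup G}
    (hP : P ≤ S) (h2 : ∀ g ∈ P, Pro2 g) : ∃ ρ ∈ S, ∀ g ∈ P, ρ * g * ρ⁻¹ ∈ J := by
  have : Nonempty (OpenNormalSubgroup G) := ⟨(exists_normal_le ⊤).choose⟩
  obtain ⟨ρ, hρ⟩ := syl_inter (fun W : OpenNormalSubgroup G =>
      (S : Set G) ∩ ⋂ g ∈ P, (fun ρ => ρ * g * ρ⁻¹) ⁻¹' (J ⊔ W.toSubgroup : Subgroup G))
    (fun a b => ⟨a ⊓ b, Set.inter_subset_inter_right _ (Set.iInter₂_mono fun g _ x hx =>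
        sup_le_sup_left (show (a ⊓ b).toSubgroup ≤ a.toSubgroup from fun _ h => h.1) J hx),
      Set.inter_subset_inter_right _ (Set.iInter₂_mono fun g _ x hx =>
        sup_le_sup_left (show (a ⊓ b).toSubgroup ≤ b.toSubgroup from fun _ h => h.2) J hx)⟩)
    (fun W => by
      have h1 := h.odd W
      rw [← QuotientGroup.ker_mk' W.toSubgroup, ← Subgroup.relIndex_map_map] at h1
      obtain ⟨⟨_, ρ, hρ, rfl⟩, ha⟩ := syl_fix (C := (P.map (QuotientGroup.mk' W.toSubgroup)).subgroupOf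
        (S.map (QuotientGroup.mk' W.toSubgroup))) (by
          rintro ⟨⟨y, hy⟩, x, hx, rfl : QuotientGroup.mk' W.toSubgroup x = y⟩
          obtain ⟨k, hk⟩ := h2 x hx W
          refine ⟨k, Subtype.ext (Subtype.ext ?_)⟩
          exact (map_pow (QuotientGroup.mk' W.toSubgroup) x _).symm.trans
            ((QuotientGroup.eq_one_iff _).2 hk)) h1
      refine ⟨ρ, hρ, Set.mem_iInter₂.2 fun g hg => ?_⟩
      obtain ⟨j, hj, e⟩ := ha ⟨_, g, hP hg, rfl⟩ ⟨g, hg, rfl⟩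
      exact Subgroup.mem_sup_of_normal_right.2 ⟨j, hj, j⁻¹ * (ρ * g * ρ⁻¹), QuotientGroup.eq.1 e,
        mul_inv_cancel_left _ _⟩)
    fun W => hS.inter (isClosed_biInter fun g _ => (syl_closed le_sup_right).preimage (by fun_prop))
  refine ⟨ρ, (hρ (Classical.arbitrary _)).1, fun g hg => mem_of_forall_open h.closed fun W => ?_⟩
  obtain ⟨j, hj, w, hw, e⟩ := Subgroup.mem_sup_of_normal_right.1 (Set.mem_iInter₂.1 (hρ W).2 g hg)
  refine ⟨j, hj, ?_⟩
  have e' : j * w = ρ * g * ρ⁻¹ := e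
  rw [← e', inv_mul_cancel_left]
  exact hw

theorem exists_syl2_ge {S : Subgroup G} (hS : IsClosed (S : Set G)) {P : Subgroup G}
    (hP : P ≤ S) (h2 : ∀ g ∈ P, Pro2 g) : ∃ J, Syl2 S J ∧ P ≤ J := by
  obtain ⟨J, hJ⟩ := exists_syl2 hS
  obtain ⟨ρ, hρ, h⟩ := hJ.conj_le hS hP h2
  have e : ∀ x : G, ρ⁻¹ * (ρ * x * ρ⁻¹) * ρ⁻¹⁻¹ = x := fun x => by group
  refine ⟨J.comap (MulAut.conj ρ).toMonoidHom, ⟨fun x hx => ?_,
    hJ.closed.preimage (f := fun x => ρ * x * ρ⁻¹) (by fun_prop), fun x hx => ?_, fun W => ?_⟩, h⟩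
  · rw [← e x]
    exact S.mul_mem (S.mul_mem (S.inv_mem hρ) (hJ.le hx)) (S.inv_mem (S.inv_mem hρ))
  · rw [← e x]
    exact (hJ.pro _ hx).conj _
  · have h1 : J.comap (MulAut.conj ρ).toMonoidHom ⊔ W.toSubgroup =
        (J ⊔ W.toSubgroup).comap (MulAut.conj ρ).toMonoidHom := by
      refine le_antisymm (sup_le (Subgroup.comap_mono le_sup_left) fun w hw =>
        Subgroup.mem_sup_right (W.isNormal'.conj_mem w hw ρ)) fun x hx => ?_
      obtain ⟨j, hj, w, hw, e'⟩ := Subgroup.mem_sup_of_normal_right.1 hx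
      have e2 : j * w = ρ * x * ρ⁻¹ := e'
      refine Subgroup.mem_sup_of_normal_right.2 ⟨ρ⁻¹ * j * ρ, ?_, ρ⁻¹ * w * ρ⁻¹⁻¹,
        W.isNormal'.conj_mem w hw _, ?_⟩
      · change ρ * (ρ⁻¹ * j * ρ) * ρ⁻¹ ∈ J
        rwa [show ρ * (ρ⁻¹ * j * ρ) * ρ⁻¹ = j by group]
      · rw [← e x, ← e2]
        group
    have h3 : S.map (MulAut.conj ρ).toMonoidHom = S := by
      refine le_antisymm ?_ fun x hx => ⟨ρ⁻¹ * x * ρ, S.mul_mem (S.mul_mem (S.inv_mem hρ) hx) hρ,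
        show ρ * (ρ⁻¹ * x * ρ) * ρ⁻¹ = x by group⟩
      rintro _ ⟨x, hx, rfl⟩
      exact S.mul_mem (S.mul_mem hρ hx) (S.inv_mem hρ)
    rw [syl_rel, h1, Subgroup.relIndex_comap, h3, ← syl_rel]
    exact hJ.odd W

/-- `J` surjects onto every finite quotient of `S` that is a 2-group -/
theorem Syl2.surj {S J : Subgroup G} (h : Syl2 S J) {N : Subgroup G}
    (hN : ∃ W : OpenSubgroup G, ∀ g ∈ S, g ∈ W → g ∈ N)
    (hn : ∀ g ∈ S, ∀ n ∈ S, n ∈ N → g * n * g⁻¹ ∈ N) (h2 : ∀ g ∈ S, ∃ k : ℕ, g ^ 2 ^ k ∈ N) :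
    ∀ g ∈ S, ∃ j ∈ J, j⁻¹ * g ∈ N := by
  obtain ⟨U, hU⟩ := hN
  obtain ⟨W, hW⟩ := exists_normal_le U
  have : (N.subgroupOf S).Normal := ⟨fun n hn' g => hn g g.2 n n.2 hn'⟩
  have hp : IsPGroup 2 (S ⧸ N.subgroupOf S) := fun q => by
    obtain ⟨g, rfl⟩ := QuotientGroup.mk_surjective q
    obtain ⟨k, hk⟩ := h2 g g.2
    exact ⟨k, (QuotientGroup.eq_one_iff (g ^ 2 ^ k)).2 hk⟩
  have h1 := h.odd W
  rw [syl_rel] at h1
  have h3 : Odd ((J.subgroupOf S).map (QuotientGroup.mk' (N.subgroupOf S))).index := by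
    rw [← Subgroup.index_comap_of_surjective _ (QuotientGroup.mk'_surjective _)]
    refine h1.of_dvd_nat (Subgroup.index_dvd_of_le fun x hx => ?_)
    obtain ⟨j, hj, w, hw, e⟩ := Subgroup.mem_sup_of_normal_right.1 hx
    have e' : j⁻¹ * (x : G) = w := by
      rw [← show j * w = x from e, inv_mul_cancel_left]
    refine ⟨⟨j, h.le hj⟩, hj, QuotientGroup.eq.2 (hU _ (S.mul_mem (S.inv_mem (h.le hj)) x.2) ?_)⟩
    change j⁻¹ * (x : G) ∈ U
    rw [e']
    exact hW w hw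
  obtain ⟨a, ha⟩ := syl_fix (C := ⊤) (hp.to_subgroup ⊤) h3
  intro g hg
  have h4 := ha (a⁻¹ * (⟨g, hg⟩ : S) * a) trivial
  rw [show a * (a⁻¹ * ((⟨g, hg⟩ : S) : S ⧸ N.subgroupOf S) * a) * a⁻¹ = (⟨g, hg⟩ : S) by group] at h4
  obtain ⟨j, hj, e⟩ := h4
  exact ⟨j, hj, (QuotientGroup.eq (s := N.subgroupOf S)).1 e⟩

/-- an open normal subgroup of `S` with 2-group quotient that contains all pro-2 elements is `S` -/
theorem mem_of_pro2 {S : Subgroup G} (hS : IsClosed (S : Set G)) {N : Subgroup G}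
    (hN : ∃ W : OpenSubgroup G, ∀ g ∈ S, g ∈ W → g ∈ N)
    (hn : ∀ g ∈ S, ∀ n ∈ S, n ∈ N → g * n * g⁻¹ ∈ N) (h2 : ∀ g ∈ S, ∃ k : ℕ, g ^ 2 ^ k ∈ N)
    (h : ∀ g ∈ S, Pro2 g → g ∈ N) : ∀ g ∈ S, g ∈ N := by
  obtain ⟨J, hJ⟩ := exists_syl2 hS
  intro g hg
  obtain ⟨j, hj, e⟩ := hJ.surj hN hn h2 g hg
  have := N.mul_mem (h j (hJ.le hj) (hJ.pro j hj)) e
  rwa [mul_inv_cancel_left] at this

end Vale.Agent.P024
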