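import Vale.Agent.P024.PrD

/-! # P024 Tame (TASK; helper lemma names start with `tame_` or are private)
Tame inertia.  PLAN.  `tc τ y = τ y / y` has valuation one (`DD_val`); it is `≡ 1` for units `y`; `tc τ (y y') = tc τ y * tc τ y'`; `tc (τ ρ) y = τ (tc ρ y) * tc τ y ≡ tc τ y * tc ρ y`; `tc (g τ g⁻¹) y = g (tc τ (g⁻¹ y))` and `g⁻¹ y / y` is a unit.
`tame`: `y' = τ y - y ≠ 0` lies in `S`, `∑ j < n, τ^j y' = τ^n y - y = 0`, dividing by `y'` gives `n ≡ 0`.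
`ch_II`: `S` = fixed field of the closed subgroup `ker c ⊓ DD` (a `Subfield`; `InfiniteGalois.fixingSubgroup_fixedField`); `g τ g⁻¹` and `τ` agree on `S`, so `tc τ y ^ N ≡ tc τ y`, `tc (τ^(N-1)) y ≡ 1`, and `(τ^(N-1))^n ∈ ker c`; `tame`.
`tc_root`: `tc τ y ^ 2^N ≡ 1`; with a primitive root `z` of order `2^N`, `X^(2^N) - 1 = ∏ (X - z^i)`, and a product of elements of `A` is a nonunit only if a factor is.
`rel2`: `2^N0` = a power of two killing all pro-2 elements modulo `W` (for instance `2^(card (G ⧸ W))`); on `S = Fx W` the element `(τ^c)⁻¹ τ'` of `J` has trivial tame character; `tame` with `n = 2^N0`; `mem_of_fix`.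
`tc_order`: otherwise `tc σ y ^ 2^m ≡ 1` for all `y` (a root of unity of 2-power order is primitive of order `2^N`), and `σ^(2^m)` fixes each `Fx W` by `tame`. -/

namespace Vale.Agent.P024

open NumberField IsDedekindDomain Filter
open scoped Pointwise Topology

set_option linter.unusedSectionVars false

variable {F E : Type*} [Field F] [NumberField F] [Field E] [CharZero E] [Algebra F E] [IsGalois F E]

variable {A : ValuationSubring E} {p : ℕ}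

/-- the tame character -/
noncomputable def tc (τ : Gal(E/F)) (y : E) : E := τ y / y

theorem tc_val {τ : Gal(E/F)} (h : τ ∈ DD F A) {y : E} (hy : y ≠ 0) : A.valuation (tc τ y) = 1 := by
  have := alg_rat F E
  rw [tc, map_div₀, DD_val h, div_self ((map_ne_zero _).2 hy)]

theorem tame_mem {τ : Gal(E/F)} (h : τ ∈ DD F A) {y : E} (hy : y ≠ 0) : tc τ y ∈ A :=
  (uq_val_one.1 (tc_val h hy)).1

theorem tame_trans {a b c : E} (h : a - b ∈ A.nonunits) (h' : b - c ∈ A.nonunits) :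
    a - c ∈ A.nonunits := by
  have := add_mem h h'
  rwa [sub_add_sub_cancel] at this

theorem tame_symm {a b : E} (h : a - b ∈ A.nonunits) : b - a ∈ A.nonunits := by
  have := neg_mem h
  rwa [neg_sub] at this

theorem tame_cpow {a b : E} (h : a - b ∈ A.nonunits) (ha : a ∈ A) (n : ℕ) :
    a ^ n - b ^ n ∈ A.nonunits := by
  have hb : b ∈ A := by
    have := sub_mem ha (A.nonunits_subset h)
    rwa [sub_sub_cancel] at this
  rw [← (Commute.all a b).geom_sum₂_mul]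
  exact uq_mul (sum_mem fun i _ => mul_mem (pow_mem ha _) (pow_mem hb _)) h

theorem tame_cancel {u a : E} (hu : A.valuation u = 1) (h : u * a - u ∈ A.nonunits) :
    a - 1 ∈ A.nonunits := by
  rwa [← mul_sub_one, ValuationSubring.mem_nonunits_iff, map_mul, hu, one_mul,
    ← ValuationSubring.mem_nonunits_iff] at h

theorem tame_same {τ : Gal(E/F)} (h : τ ∈ II F A) {y y' : E} (hy : y ≠ 0)
    (e : A.valuation y' = A.valuation y) : tc τ y' - tc τ y ∈ A.nonunits := by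
  have hv : A.valuation (y' / y) = 1 := by rw [map_div₀, e, div_self ((map_ne_zero _).2 hy)]
  have hv' : A.valuation (y / y') = 1 := by rw [map_div₀, e, div_self ((map_ne_zero _).2 hy)]
  have hy' : y' ≠ 0 := fun h0 => by
    rw [h0, zero_div, map_zero] at hv
    exact zero_ne_one hv
  have h1 := uq_mul (mul_mem (tame_mem h.1 hy) (uq_val_one.1 hv').1) (h.2 _ (uq_val_one.1 hv).1)
  have h2 : τ y ≠ 0 := (map_ne_zero _).2 hy
  have h3 : tc τ y * (y / y') * (τ (y' / y) - y' / y) = tc τ y' - tc τ y := by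
    rw [tc, tc, map_div₀]
    field_simp
  rwa [h3] at h1

theorem tc_mul {τ ρ : Gal(E/F)} (h : τ ∈ II F A) (h' : ρ ∈ II F A) {y : E} (hy : y ≠ 0) :
    tc (τ * ρ) y - tc τ y * tc ρ y ∈ A.nonunits := by
  have h1 := uq_mul (tame_mem h.1 hy) (h.2 _ (tame_mem h'.1 hy))
  have h2 : τ y ≠ 0 := (map_ne_zero _).2 hy
  have h3 : tc τ y * (τ (tc ρ y) - tc ρ y) = tc (τ * ρ) y - tc τ y * tc ρ y := by
    simp only [tc, map_div₀, AlgEquiv.mul_apply]
    field_simp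
  rwa [h3] at h1

theorem tc_pow {τ : Gal(E/F)} (h : τ ∈ II F A) {y : E} (hy : y ≠ 0) (n : ℕ) :
    tc (τ ^ n) y - tc τ y ^ n ∈ A.nonunits := by
  induction n with
  | zero => simp [tc, div_self hy]
  | succ n ih =>
    rw [pow_succ', pow_succ']
    refine tame_trans (tc_mul h (pow_mem h n) hy) ?_
    rw [← mul_sub]
    exact uq_mul (tame_mem h.1 hy) ih

theorem tc_conj {τ g : Gal(E/F)} (h : τ ∈ II F A) (hg : g ∈ DD F A) {y : E} (hy : y ≠ 0) :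
    tc (g * τ * g⁻¹) y - g (tc τ y) ∈ A.nonunits := by
  have := alg_rat F E
  have h1 := (DD_nonunits hg).2 (tame_same h hy (DD_val (inv_mem hg) y))
  have h2 : g (g⁻¹ y) = y := by rw [← AlgEquiv.mul_apply, mul_inv_cancel, AlgEquiv.one_apply]
  rwa [map_sub, tc, map_div₀, h2] at h1

theorem tame_quot {a b : Gal(E/F)} (ha : a ∈ II F A) (hb : b ∈ II F A) {y : E} (hy : y ≠ 0)
    (h : tc b y - tc a y ∈ A.nonunits) : tc (a⁻¹ * b) y - 1 ∈ A.nonunits := by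
  have h1 := tc_mul ha (mul_mem (inv_mem ha) hb) hy
  rw [mul_inv_cancel_left] at h1
  exact tame_cancel (tc_val ha.1 hy) (tame_trans (tame_symm h1) h)

theorem tame (hp : p.Prime) (hA : Ov A p) {τ : Gal(E/F)} (h : τ ∈ II F A) (S : Subfield E)
    (hS : ∀ y ∈ S, τ y ∈ S) {n : ℕ} (hn : ¬p ∣ n) (hf : ∀ y ∈ S, (τ ^ n) y = y)
    (ht : ∀ y ∈ S, y ≠ 0 → tc τ y - 1 ∈ A.nonunits) : ∀ y ∈ S, τ y = y := by
  intro y hy
  by_contra hne
  have h0 : τ y - y ≠ 0 := sub_ne_zero.2 hne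
  have h1 : ∑ j ∈ Finset.range n, (τ ^ j) (τ y - y) = 0 := by
    have h2 := Finset.sum_range_sub (fun j => (τ ^ j) y) n
    simp only [pow_succ, AlgEquiv.mul_apply, ← map_sub] at h2
    rw [h2, hf y hy, pow_zero, AlgEquiv.one_apply, sub_self]
  have h2 : ∑ j ∈ Finset.range n, (tc (τ ^ j) (τ y - y) - 1) ∈ A.nonunits :=
    sum_mem fun j _ => tame_trans (tc_pow h h0 j) (by
      simpa only [one_pow] using
        tame_cpow (ht _ (sub_mem (hS y hy) hy) h0) (tame_mem h.1 h0) j)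
  simp only [tc] at h2
  rw [Finset.sum_sub_distrib, ← Finset.sum_div, h1, zero_div, zero_sub, Finset.sum_const,
    Finset.card_range, nsmul_one] at h2
  exact hn ((hA.natCast_iff hp n).1 (neg_mem_iff.1 h2))

theorem tame_triv (hp : p.Prime) (h2 : p ≠ 2) (hA : Ov A p) {σ : Gal(E/F)} (h : σ ∈ II F A)
    (hσ : Pro2 σ) (W : OpenNormalSubgroup Gal(E/F))
    (ht : ∀ y ∈ Fx W.toOpenSubgroup, y ≠ 0 → tc σ y - 1 ∈ A.nonunits) : σ ∈ W := by
  obtain ⟨k, hk⟩ := hσ W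
  refine mem_of_fix (U := W.toOpenSubgroup) (tame hp hA h (Fx W.toOpenSubgroup).toSubfield
    (fun y hy => Fx_stable (fun u hu => W.isNormal'.conj_mem' u hu σ) hy) (n := 2 ^ k)
    (fun hd => h2 ((Nat.prime_dvd_prime_iff_eq hp Nat.prime_two).1 (hp.dvd_of_dvd_pow hd)))
    (fun y hy => mem_Fx.1 hy _ hk) ht)

theorem ch_II {U : OpenSubgroup Gal(E/F)} {N : ℕ} {g : Gal(E/F)} (h : FrobU U A N g) (hp : p.Prime)
    (hA : Ov A p) {Q : Type*} [AddCommGroup Q] {c : Gal(E/F) → Q} (hc : IsCh U c) {n : ℕ}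
    (hn : ¬p ∣ n) (hQ : ∀ y : Q, n • y = 0) {τ : Gal(E/F)} (hU : τ ∈ U) (hτ : τ ∈ II F A) :
    (N - 1) • c τ = 0 := by
  let K : ClosedSubgroup Gal(E/F) :=
    ⟨hc.ker.toSubgroup ⊓ DD F A, hc.ker.isClosed.inter (isClosed_DD A)⟩
  have hK : ∀ u, u ∈ K.toSubgroup ↔ (u ∈ U ∧ c u = 0) ∧ u ∈ DD F A := fun u => Iff.rfl
  have hN : 1 ≤ N := by
    obtain ⟨q, f, hq, -, -, rfl⟩ := h.pw
    exact Nat.one_le_pow _ _ hq.pos
  have hσU := pow_mem hU (N - 1)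
  have hσ := pow_mem hτ (N - 1)
  have key := tame hp hA hσ (IntermediateField.fixedField K.toSubgroup).toSubfield
    (fun y hy => ?_) hn (fun y hy => ?_) (fun y hy h0 => ?_)
  · have h1 : τ ^ (N - 1) ∈ (IntermediateField.fixedField K.toSubgroup).fixingSubgroup :=
      (IntermediateField.mem_fixingSubgroup_iff _ _).2 key
    rw [InfiniteGalois.fixingSubgroup_fixedField, hK, hc.pow hU] at h1
    exact h1.1.2
  · refine (IntermediateField.mem_fixedField_iff _ _).2 fun u hu => ?_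
    obtain ⟨⟨h1, h2⟩, h3⟩ := (hK u).1 hu
    have h4 := (IntermediateField.mem_fixedField_iff _ _).1 hy
      ((τ ^ (N - 1))⁻¹ * u * (τ ^ (N - 1))⁻¹⁻¹) ((hK _).2
        ⟨⟨mul_mem (mul_mem (inv_mem hσU) h1) (inv_mem (inv_mem hσU)),
          by rw [hc.conj (inv_mem hσU) h1, h2]⟩,
        mul_mem (mul_mem (inv_mem hσ.1) h3) (inv_mem (inv_mem hσ.1))⟩)
    conv_rhs => rw [← h4]
    rw [← AlgEquiv.mul_apply, ← AlgEquiv.mul_apply, inv_inv, ← mul_assoc, mul_inv_cancel_left]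
  · exact (IntermediateField.mem_fixedField_iff _ _).1 hy _ ((hK _).2
      ⟨⟨pow_mem hσU n, by rw [hc.pow hσU, hQ]⟩, pow_mem hσ.1 n⟩)
  · have hg : g * τ * g⁻¹ ∈ U := mul_mem (mul_mem h.mem hU) (inv_mem h.mem)
    have h1 := (IntermediateField.mem_fixedField_iff _ _).1 hy (τ⁻¹ * (g * τ * g⁻¹)) ((hK _).2
      ⟨⟨mul_mem (inv_mem hU) hg, by
          rw [hc.add _ (inv_mem hU) _ hg, hc.conj h.mem hU, hc.inv hU, neg_add_cancel]⟩,
        mul_mem (inv_mem hτ.1) (II_normal h.frob.1 hτ).1⟩)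
    have h2 : tc (g * τ * g⁻¹) y = tc τ y := by
      have h3 := congrArg τ h1
      rw [← AlgEquiv.mul_apply, mul_inv_cancel_left] at h3
      rw [tc, h3, tc]
    have h3 := tame_trans (tc_conj hτ h.frob.1 h0) (h.frob.2 _ (tame_mem hτ.1 h0))
    rw [h2, ← Nat.sub_add_cancel hN, pow_succ'] at h3
    exact tame_trans (tc_pow hτ h0 _) (tame_cancel (tc_val hτ.1 h0) (tame_symm h3))

theorem tc_root (hE : RC E) {τ : Gal(E/F)} (h : τ ∈ II F A) {y : E} (hy : y ≠ 0) {N : ℕ}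
    (hN : (τ ^ 2 ^ N) y = y) : ∃ z : E, z ^ 2 ^ N = 1 ∧ tc τ y - z ∈ A.nonunits := by
  have h1 := tame_symm (tc_pow h hy (2 ^ N))
  have h0 : 0 < 2 ^ N := by positivity
  obtain ⟨ζ, hζ⟩ := hE.prim _ h0
  rw [tc, tc, hN, div_self hy, ← tc, ← one_pow (2 ^ N), hζ.pow_sub_pow_eq_prod_sub_mul _ _ h0,
    ValuationSubring.mem_nonunits_iff, map_prod] at h1
  by_contra hne
  refine h1.not_ge (Finset.one_le_prod' fun z hz => not_lt.1 fun h2 => hne ⟨z, ?_, ?_⟩)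
  · exact (Polynomial.mem_nthRootsFinset h0 1).1 hz
  · rwa [mul_one, ← ValuationSubring.mem_nonunits_iff] at h2

theorem rel2 (hE : RC E) (hp : p.Prime) (h2 : p ≠ 2) (hA : Ov A p) (W : OpenNormalSubgroup Gal(E/F)) :
    ∃ N0 : ℕ, ∀ (J : Subgroup Gal(E/F)), J ≤ II F A → (∀ τ ∈ J, Pro2 τ) → ∀ τ ∈ J, ∀ τ' ∈ J,
      ∀ g ∈ DD F A, ∀ ρ ∈ II F A, ρ * τ' * ρ⁻¹ = g * τ * g⁻¹ →
      ∀ c : ℕ, (∀ z : E, z ^ 2 ^ N0 = 1 → g z = z ^ c) → (τ ^ c)⁻¹ * τ' ∈ W := by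
  have : Finite (Gal(E/F) ⧸ W.toSubgroup) := W.toSubgroup.quotient_finite_of_isOpen W.isOpen
  refine ⟨Nat.card (Gal(E/F) ⧸ W.toSubgroup), fun J hJ h τ hτ τ' hτ' g hg ρ hρ e c hc => ?_⟩
  have hW : τ ^ 2 ^ Nat.card (Gal(E/F) ⧸ W.toSubgroup) ∈ W := by
    obtain ⟨k, hk⟩ := h τ hτ W
    have h1 : ∀ n : ℕ, τ ^ n ∈ W ↔ orderOf (τ : Gal(E/F) ⧸ W.toSubgroup) ∣ n := fun n => by
      rw [orderOf_dvd_iff_pow_eq_one, ← QuotientGroup.mk_pow, QuotientGroup.eq_one_iff]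
      rfl
    obtain ⟨j, -, hj⟩ := (Nat.dvd_prime_pow Nat.prime_two).1 ((h1 _).1 hk)
    have h3 := orderOf_le_card (x := (τ : Gal(E/F) ⧸ W.toSubgroup))
    rw [hj] at h3
    rw [h1, hj]
    exact pow_dvd_pow 2 (Nat.lt_two_pow_self.le.trans h3)
  have hσ := mul_mem (inv_mem (pow_mem hτ c)) hτ'
  refine tame_triv hp h2 hA (hJ hσ) (h _ hσ) W fun y hy h0 =>
    tame_quot (hJ (pow_mem hτ c)) (hJ hτ') h0 ?_
  obtain ⟨z, hz, hz'⟩ := tc_root hE (hJ hτ) h0 (mem_Fx.1 hy _ hW)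
  have h3 := (DD_nonunits hg).2 hz'
  rw [map_sub, hc z hz] at h3
  have h4 := tc_conj (hJ hτ') hρ.1 h0
  rw [e] at h4
  exact tame_trans (tame_symm (tame_trans h4 (hρ.2 _ (tame_mem (hJ hτ').1 h0))))
    (tame_trans (tame_trans (tc_conj (hJ hτ) hg h0) h3) (tame_symm
      (tame_trans (tc_pow (hJ hτ) h0 c) (tame_cpow hz' (tame_mem (hJ hτ).1 h0) c))))

theorem tc_order (hE : RC E) (hp : p.Prime) (h2 : p ≠ 2) (hA : Ov A p) {σ : Gal(E/F)}
    (h : σ ∈ II F A) (hσ : Pro2 σ) (hf : ¬IsOfFinOrder σ) (m : ℕ) :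
    ∃ (y z : E) (N : ℕ), y ≠ 0 ∧ m ≤ N ∧ IsPrimitiveRoot z (2 ^ N) ∧ tc σ y - z ∈ A.nonunits := by
  by_contra hne
  refine hf (isOfFinOrder_iff_pow_eq_one.2 ⟨2 ^ m, by positivity, eq_one_of_forall_mem fun W =>
    tame_triv hp h2 hA (pow_mem h _) (hσ.pow _) W fun y _ h0 => ?_⟩)
  obtain ⟨k, hk⟩ := hσ.mem_open (stab y)
  obtain ⟨z, hz, hz'⟩ := tc_root hE h h0 (mem_stab.1 (hk k le_rfl))
  obtain ⟨j, -, hj⟩ := (Nat.dvd_prime_pow Nat.prime_two).1 (orderOf_dvd_of_pow_eq_one hz)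
  have h1 : j ≤ m := not_lt.1 fun hl =>
    hne ⟨y, z, j, h0, hl.le, hj ▸ IsPrimitiveRoot.orderOf z, hz'⟩
  have h3 : z ^ 2 ^ m = 1 := orderOf_dvd_iff_pow_eq_one.1 (hj ▸ pow_dvd_pow 2 h1)
  have h4 := tame_cpow hz' (tame_mem h.1 h0) (2 ^ m)
  rw [h3] at h4
  exact tame_trans (tc_pow h h0 _) h4

theorem II_pro2_comm (hp : p.Prime) (h2 : p ≠ 2) (hA : Ov A p) {J : Subgroup Gal(E/F)}
    (hJ : J ≤ II F A) (h : ∀ τ ∈ J, Pro2 τ) {τ ρ : Gal(E/F)} (hτ : τ ∈ J) (hρ : ρ ∈ J) :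
    τ * ρ = ρ * τ := by
  have hσ := mul_mem (inv_mem (mul_mem hρ hτ)) (mul_mem hτ hρ)
  refine (inv_mul_eq_one.1 (eq_one_of_forall_mem fun W =>
    tame_triv hp h2 hA (hJ hσ) (h _ hσ) W fun y _ h0 =>
      tame_quot (hJ (mul_mem hρ hτ)) (hJ (mul_mem hτ hρ)) h0 ?_)).symm
  have h1 := tc_mul (hJ hρ) (hJ hτ) h0
  rw [mul_comm (tc ρ y)] at h1
  exact tame_trans (tc_mul (hJ hτ) (hJ hρ) h0) (tame_symm h1)

end Vale.Agent.P024
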