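import Vale.Agent.P024.LocD
import Vale.Agent.P024.FinC
import Vale.Agent.P024.Selm

/-! # P024 Vg (TASK; helper lemma names start with `vg_` or are private)
Almost all primes of `E` come from primes of `Qb`.  PLAN.  Otherwise `S = {Q | ¬∃ A B, Good α A B ∧ Lies B (inc T) Q}` is infinite (`prime_mem_unique`).  `x n` from `infinite_classes`, `χ n g = sg (α g) (x n)` is a character of `α.pre T` (`isCh_sg`, `IsCh.pre`), unramified outside `2` by `sg_II_good`.
`fin_ch rc_Qb (α.pre T) 2` and the pigeonhole principle give `n ≠ n'` with `χ n = χ n'` on `α.pre T`; `sg_mul_right`, `isSquare_iff_sg`. -/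

namespace Vale.Agent.P024

open NumberField IsDedekindDomain Filter
open scoped Pointwise Topology

set_option linter.unusedSectionVars false

variable {F E : Type*} [Field F] [NumberField F] [Field E] [CharZero E] [Algebra F E] [IsGalois F E]

theorem vg (hE : RC E) (α : OH G1 Gal(E/F)) {T : OpenSubgroup Gal(E/F)}
    (hT : ∀ t ∈ T, FixI t ∧ ∃ g ∈ α.V, α.f g = t) :
    {q : ℕ | q.Prime ∧ ∃ Q : HeightOneSpectrum (𝓞 (Fx T)), (q : 𝓞 (Fx T)) ∈ Q.asIdeal ∧
      ¬∃ A B, Good α A B ∧ Lies B (inc T) Q}.Finite := by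
  classical
  by_contra hinf
  set S : Set (HeightOneSpectrum (𝓞 (Fx T))) :=
    {Q | ¬∃ A B, Good α A B ∧ Lies B (inc T) Q} with hSdef
  have hS : S.Infinite := by
    intro hfin
    apply hinf
    have h1 : ∀ Q : HeightOneSpectrum (𝓞 (Fx T)),
        {q : ℕ | q.Prime ∧ (q : 𝓞 (Fx T)) ∈ Q.asIdeal}.Finite := fun Q =>
      Set.Subsingleton.finite fun p hp q hq => prime_mem_unique hp.1 hq.1 hp.2 hq.2
    refine (hfin.biUnion fun Q _ => h1 Q).subset ?_
    rintro q ⟨hq, Q, hQ, hn⟩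
    exact Set.mem_biUnion (x := Q) hn ⟨hq, hQ⟩
  obtain ⟨x, hx0, hx⟩ := infinite_classes S hS
  obtain ⟨K, hK⟩ := fin_ch (F := ℚ) rc_Qb (α.pre T) 2 Nat.prime_two
  have hch : ∀ n, ∃ t ∈ K, ∀ g ∈ α.pre T, sg (α.f g) ((x n : Fx T) : E) = t g := by
    intro n
    refine hK (fun g => sg (α.f g) ((x n : Fx T) : E))
      (IsCh.pre α (isCh_sg hE (mem_Fx.1 (x n : Fx T).2))) ?_
    intro A p hp h2 hA g hg hI
    refine sg_II_good hE (fun t ht => (hT t ht).1) hp h2 hA (x n : Fx T) ?_ hg hI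
    intro B Q hG hL
    have hQ : Q ∉ S := fun h => h ⟨A, B, hG, hL⟩
    rw [hx0 n Q hQ]
    exact ⟨0, rfl⟩
  choose t ht hte using hch
  obtain ⟨n, n', hne, he⟩ := Finite.exists_ne_map_eq_of_infinite fun n => (⟨t n, ht n⟩ : K)
  have he' : t n = t n' := congrArg Subtype.val he
  refine hx n n' hne ((isSquare_iff_sg hE _).2 fun g hg => ?_)
  obtain ⟨k, hk, rfl⟩ := (hT g hg).2
  have hk' : k ∈ α.pre T := ⟨hk, hg⟩
  have h0 : ∀ m, ((x m : Fx T) : E) ≠ 0 := fun m h => (x m).ne_zero (Subtype.ext h)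
  have e : (((x n : Fx T) * (x n' : Fx T) : Fx T) : E) = ((x n : Fx T) : E) * ((x n' : Fx T) : E) :=
    rfl
  rw [e, sg_mul_right hE (h0 n) (h0 n') (mem_Fx.1 (x n : Fx T).2 _ hg)
    (mem_Fx.1 (x n' : Fx T).2 _ hg), hte n k hk', hte n' k hk', he']
  exact CharTwo.add_self_eq_zero _

end Vale.Agent.P024
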