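import Vale.Agent.P024.ZeB

/-! # P024 Ze (TASK; helper lemma names start with `ze_` or are private)
The zero estimate on a torus (Masser).  PLAN.  `D = card J`, `pt b = fun j => ∏ i, γ i j ^ b i`.  For `k ≤ D` call a prime `𝔭` admissible at level `k` if it avoids the variables and contains `scl (pt b) P` for all `b ≤ k B`.
`δ k` = the largest `card T` with `Ind 𝔭 T`, `𝔭` admissible at level `k` (the kernel of `eval 1` is admissible at all levels `≤ D`, with `T = ∅`; `Nat.findGreatest` or `sSup`).  `δ` is antitone, `δ 0 ≤ D - 1` since `P ≠ 0` (so `D ≥ 1` because `P` vanishes somewhere);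
so `δ k = δ (k+1)` for some `k < D`.  Take `𝔭`, `T` realising `δ (k+1)`, `c = D - δ`.  For `b ≤ B` the prime `comap (scl (pt b)) 𝔭` is admissible at level `k` with `Ind _ T` (`support_scl`).
`H` = the subgroup of all `h` with `comap (scl h) 𝔭 = 𝔭`; `zeA` gives `lam`.  For `S` as in the statement the map `b ↦ comap (scl (pt b)) 𝔭` is injective on `b : S → Fin (B+1)` (the quotient of two points lies in `H`); `zeB` with the degree bound `D L + D + 1`. -/

namespace Vale.Agent.P024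

open NumberField IsDedekindDomain Filter
open scoped Pointwise Topology

section aux

variable {K : Type*} [Field K] {I J : Type*}

theorem ze_ind_empty {𝔭 : Ideal (MvPolynomial J K)} (hp : 𝔭.IsPrime) : Ind 𝔭 ∅ := by
  classical
  intro Q hQ h
  have h1 : Q = MvPolynomial.C (Q.coeff 0) := by
    ext e
    rw [MvPolynomial.coeff_C]
    split_ifs with he
    · rw [he]
    · by_contra hne
      refine he (Finsupp.ext fun j => ?_)
      by_contra hj
      exact Finset.notMem_empty j (h e (MvPolynomial.mem_support_iff.2 hne) j fun h0 => hj h0.symm)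
  by_contra h0
  have h2 : Q.coeff 0 ≠ 0 := fun h3 => h0 (by rw [h1, h3, map_zero])
  exact hp.ne_top (Ideal.eq_top_of_isUnit_mem _ hQ (by rw [h1]; exact (Ne.isUnit h2).map _))

theorem ze_scl_zero {h : J → Kˣ} {Q : MvPolynomial J K} (h0 : scl h Q = 0) : Q = 0 := by
  rw [← MvPolynomial.support_eq_empty, ← support_scl h, h0, MvPolynomial.support_zero]

theorem ze_ind_comap {𝔭 : Ideal (MvPolynomial J K)} {T : Finset J} (hT : Ind 𝔭 T) (h : J → Kˣ) :
    Ind (𝔭.comap (scl h)) T := fun Q hQ hs =>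
  ze_scl_zero (hT (scl h Q) hQ (by rw [support_scl]; exact hs))

theorem ze_X_comap {𝔭 : Ideal (MvPolynomial J K)} (hX : ∀ j, MvPolynomial.X j ∉ 𝔭) (h : J → Kˣ)
    (j : J) : MvPolynomial.X j ∉ 𝔭.comap (scl h) := by
  intro hj
  rw [Ideal.mem_comap, scl, MvPolynomial.aeval_X,
    Ideal.unit_mul_mem_iff_mem _ ((h j).isUnit.map MvPolynomial.C)] at hj
  exact hX j hj

theorem ze_deg [Fintype J] {P : MvPolynomial J K} {L : ℕ} (hL : ∀ j, P.degreeOf j ≤ L) :
    P.totalDegree ≤ Fintype.card J * L := by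
  refine Finset.sup_le fun e he => ?_
  rw [Finsupp.sum_fintype _ _ fun _ => rfl]
  refine (Finset.sum_le_card_nsmul _ _ L fun j _ =>
    (MvPolynomial.monomial_le_degreeOf j he).trans (hL j)).trans ?_
  rw [Finset.card_univ, smul_eq_mul]

/-- the stabiliser of an ideal -/
def ze_stab (𝔭 : Ideal (MvPolynomial J K)) : Subgroup (J → Kˣ) where
  carrier := {h | ∀ Q, scl h Q ∈ 𝔭 ↔ Q ∈ 𝔭}
  one_mem' := fun Q => by rw [scl_one]
  mul_mem' := fun {a b} ha hb Q => by rw [scl_mul, ha, hb]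
  inv_mem' := fun {a} ha Q => by rw [← ha, ← scl_mul, mul_inv_cancel, scl_one]

theorem ze_mem_stab {𝔭 : Ideal (MvPolynomial J K)} {a b : J → Kˣ}
    (h : 𝔭.comap (scl a) = 𝔭.comap (scl b)) : a * b⁻¹ ∈ ze_stab 𝔭 := by
  intro Q
  rw [scl_mul, ← Ideal.mem_comap, h, Ideal.mem_comap, ← scl_mul, mul_inv_cancel, scl_one]

variable [Fintype I]

/-- the points -/
def ze_pt (γ : I → J → Kˣ) (b : I → ℕ) : J → Kˣ := fun j => ∏ i, γ i j ^ b i

theorem ze_pt_add (γ : I → J → Kˣ) (a b : I → ℕ) : ze_pt γ (a + b) = ze_pt γ a * ze_pt γ b := by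
  funext j
  simp only [ze_pt, Pi.add_apply, pow_add, Finset.prod_mul_distrib, Pi.mul_apply]

theorem ze_pt_div [Fintype J] (γ : I → J → Kˣ) (a b : I → ℕ) (l : J → ℤ) :
    ∏ i, ∏ j, γ i j ^ (((a i : ℤ) - b i) * l j) = ∏ j, (ze_pt γ a * (ze_pt γ b)⁻¹) j ^ l j := by
  rw [Finset.prod_comm]
  refine Finset.prod_congr rfl fun j _ => ?_
  rw [Pi.mul_apply, Pi.inv_apply, ze_pt, ze_pt, ← Finset.prod_inv_distrib,
    ← Finset.prod_mul_distrib, ← Finset.prod_zpow]
  refine Finset.prod_congr rfl fun i _ => ?_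
  rw [zpow_mul, zpow_sub, zpow_natCast, zpow_natCast]

/-- admissible primes -/
def ze_Adm (γ : I → J → Kˣ) (P : MvPolynomial J K) (N : ℕ) (𝔭 : Ideal (MvPolynomial J K)) : Prop :=
  𝔭.IsPrime ∧ (∀ j, MvPolynomial.X j ∉ 𝔭) ∧
    ∀ b : I → ℕ, (∀ i, b i ≤ N) → scl (ze_pt γ b) P ∈ 𝔭

theorem ze_adm_mono {γ : I → J → Kˣ} {P : MvPolynomial J K} {N N' : ℕ} (h : N ≤ N')
    {𝔭 : Ideal (MvPolynomial J K)} (hp : ze_Adm γ P N' 𝔭) : ze_Adm γ P N 𝔭 :=
  ⟨hp.1, hp.2.1, fun b hb => hp.2.2 b fun i => (hb i).trans h⟩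

theorem ze_adm_comap {γ : I → J → Kˣ} {P : MvPolynomial J K} {N B : ℕ}
    {𝔭 : Ideal (MvPolynomial J K)} (hp : ze_Adm γ P (N + B) 𝔭) {b : I → ℕ} (hb : ∀ i, b i ≤ B) :
    ze_Adm γ P N (𝔭.comap (scl (ze_pt γ b))) := by
  have := hp.1
  refine ⟨Ideal.comap_isPrime _ _, ze_X_comap hp.2.1 _, fun a ha => ?_⟩
  rw [Ideal.mem_comap, ← scl_mul, ← ze_pt_add]
  refine hp.2.2 _ fun i => ?_
  have h1 := ha i
  have h2 := hb i
  rw [Pi.add_apply]
  omega

theorem ze_card_lt [Fintype J] {γ : I → J → Kˣ} {P : MvPolynomial J K} (hP : P ≠ 0) {N : ℕ}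
    {𝔭 : Ideal (MvPolynomial J K)} (hp : ze_Adm γ P N 𝔭) {T : Finset J} (hT : Ind 𝔭 T) :
    T.card < Fintype.card J := by
  refine (Finset.card_lt_iff_ne_univ T).2 fun h => hP ?_
  exact ze_scl_zero (hT _ (hp.2.2 0 fun _ => Nat.zero_le _) fun _ _ j _ => by
    rw [h]
    exact Finset.mem_univ j)

theorem ze_level [Fintype J] (γ : I → J → Kˣ) (P : MvPolynomial J K) (hP : P ≠ 0) {B : ℕ}
    (hv : ∀ b : I → ℕ, (∀ i, b i ≤ Fintype.card J * B) →
      MvPolynomial.eval (fun j => ∏ i, (γ i j : K) ^ b i) P = 0) :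
    ∃ (N : ℕ) (𝔭 : Ideal (MvPolynomial J K)) (T : Finset J), ze_Adm γ P (N + B) 𝔭 ∧ Ind 𝔭 T ∧
      ∀ 𝔮 T', ze_Adm γ P N 𝔮 → Ind 𝔮 T' → T'.card ≤ T.card := by
  classical
  have h0 : ze_Adm γ P (Fintype.card J * B)
      (RingHom.ker (MvPolynomial.eval fun _ : J => (1 : K))) := by
    refine ⟨RingHom.ker_isPrime _, fun j hj => ?_, fun b hb => ?_⟩
    · rw [RingHom.mem_ker, MvPolynomial.eval_X] at hj
      exact one_ne_zero hj
    · rw [RingHom.mem_ker, eval_scl, ← hv b hb]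
      simp only [ze_pt, mul_one, Units.coe_prod, Units.val_pow_eq_pow_val]
  by_contra hne
  push Not at hne
  have key : ∀ k ≤ Fintype.card J, ∃ (𝔭 : Ideal (MvPolynomial J K)) (T : Finset J),
      ze_Adm γ P ((Fintype.card J - k) * B) 𝔭 ∧ Ind 𝔭 T ∧ k ≤ T.card := by
    intro k
    induction k with
    | zero => exact fun _ => ⟨_, ∅, h0, ze_ind_empty h0.1, Nat.zero_le _⟩
    | succ k ih =>
      intro hk
      obtain ⟨𝔭, T, h1, h2, h3⟩ := ih (by omega)
      have e1 : (Fintype.card J - k) * B = (Fintype.card J - (k + 1)) * B + B := by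
        rw [← Nat.succ_mul]
        congr 1
        omega
      rw [e1] at h1
      obtain ⟨𝔮, T', h4, h5, h6⟩ := hne _ 𝔭 T h1 h2
      exact ⟨𝔮, T', h4, h5, by omega⟩
  obtain ⟨𝔭, T, h1, h2, h3⟩ := key _ le_rfl
  exact absurd (ze_card_lt hP h1 h2) (by omega)

end aux

theorem zero_est {K : Type*} [Field K] {I J : Type*} [Fintype I] [Fintype J] (γ : I → J → Kˣ)
    (P : MvPolynomial J K) (hP : P ≠ 0) {L B : ℕ} (hL : ∀ j, P.degreeOf j ≤ L)
    (hv : ∀ b : I → ℕ, (∀ i, b i ≤ Fintype.card J * B) →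
      MvPolynomial.eval (fun j => ∏ i, (γ i j : K) ^ b i) P = 0) :
    ∃ c : ℕ, 1 ≤ c ∧ c ≤ Fintype.card J ∧ ∃ lam : Fin c → J → ℤ, LinearIndependent ℤ lam ∧
      ∀ S : Finset I, (∀ b : I → ℤ, (∀ i ∉ S, b i = 0) →
          (∀ t, ∏ i, ∏ j, γ i j ^ (b i * lam t j) = 1) → b = 0) →
        (B + 1) ^ S.card ≤
          ((Fintype.card J + 1) * (Fintype.card J * L + Fintype.card J + 1)) ^ (c + 1) := by
  classical
  obtain ⟨N, 𝔭, T, hp, hT, hmax⟩ := ze_level γ P hP hv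
  have hlt := ze_card_lt hP hp hT
  obtain ⟨lam, hli, hlam⟩ := zeA (ze_stab 𝔭) 𝔭 hp.1 hp.2.1 (fun h hh Q hQ => (hh Q).2 hQ)
    (δ := T.card) fun T' hT' => hmax 𝔭 T' (ze_adm_mono (Nat.le_add_right _ _) hp) hT'
  refine ⟨Fintype.card J - T.card, by omega, Nat.sub_le _ _, lam, hli, fun S hS => ?_⟩
  let ex : (S → Fin (B + 1)) → I → ℕ := fun β i => if h : i ∈ S then β ⟨i, h⟩ else 0
  have hex : ∀ β i, ex β i ≤ B := by
    intro β i
    simp only [ex]
    split_ifs with h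
    · exact Nat.lt_succ_iff.1 (β ⟨i, h⟩).2
    · exact Nat.zero_le _
  have hinj : Function.Injective fun β => 𝔭.comap (scl (ze_pt γ (ex β))) := by
    intro β β' h
    have h1 := hS (fun i => (ex β i : ℤ) - ex β' i) (fun i hi => by simp [ex, hi]) fun t => by
      rw [ze_pt_div]
      exact hlam _ (ze_mem_stab h) t
    funext i
    have h2 := congrFun h1 i
    simp only [ex, dif_pos i.2, Pi.zero_apply, Subtype.coe_eta] at h2
    exact Fin.ext (by omega)
  have hB := zeB (ι := I → Fin (N + 1)) (fun β => scl (ze_pt γ fun i => β i) P)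
    (L := Fintype.card J * L + Fintype.card J + 1)
    (fun β => by
      rw [totalDegree_scl]
      have := ze_deg hL
      omega) T (by omega)
    (fun 𝔮 h1 h2 h3 _ j hj h4 => by
      have h5 := hmax 𝔮 _ ⟨h1, h3, fun b hb => h2 fun i => ⟨b i, Nat.lt_succ_of_le (hb i)⟩⟩ h4
      rw [Finset.card_insert_of_notMem hj] at h5
      omega)
    (Finset.univ.image fun β => 𝔭.comap (scl (ze_pt γ (ex β))))
    (fun 𝔮 h𝔮 => by
      obtain ⟨β, -, rfl⟩ := Finset.mem_image.1 h𝔮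
      have h1 := ze_adm_comap hp (hex β)
      exact ⟨h1.1, fun a => h1.2.2 _ fun i => Nat.lt_succ_iff.1 (a i).2, h1.2.1,
        ze_ind_comap hT _⟩)
  rw [Finset.card_image_of_injective _ hinj, Finset.card_univ, Fintype.card_fun, Fintype.card_fin,
    Fintype.card_coe] at hB
  exact hB.trans (Nat.pow_le_pow_left (Nat.mul_le_mul_right _ (by omega)) _)

end Vale.Agent.P024
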