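import Vale.Agent.P024.AuxP
import Vale.Agent.P024.Liou
import Vale.Agent.P024.Ze

/-! # P024 Wald
The `l`-adic rank theorem of Waldschmidt.  PLAN.  `D = card J`, `d = finrank ℚ M`; nothing to prove if `D ≤ n0`; let `κ = D - n0 ≥ 1`.  `C` from `liouville`.  Parameters for a large natural `t`:
`L + 1 = C5 t^n0`, `B' = t^κ`, `B = D B'`, `h = C4 t^D`, `R = 2 h`, where `C4 = C3 C5`, `C3 = D (C + 1)` (so that `(L+1)^D C^(L B) < 2^h ≤ l^h`: use `(L+1)^D ≤ 2^(L D)`, `C ≤ 2^C`) and `C5 = 2 d (2 C3)^n0 + 1` (so that `R d R^n0 < h (L+1)^D`, using `C5^D ≥ C5^n0 C5`).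
Take `u` from `hdep R`; `aux_poly` gives `p`; for `b ≤ B`, `∏ i, γ i j ^ b i ≡ ∏ k, u k j ^ (∑ i, b i * z i k)`, so `liouville` gives the vanishing; `P = ∑ e, monomial e (p e)` is nonzero with `degreeOf j ≤ L`.
`zero_est` gives `c`, `lam`; `hμ` gives `S`; so `(B'+1)^(μ c) ≤ X^(c+1) ≤ X^(2c)` with `X = (D+1)(D L + D + 1) ≤ C6 t^n0`, hence `t^(κ μ) ≤ C6² t^(2 n0)` (`Nat.pow_le_pow_iff_left`), false for `t > C6²` if `κ μ > 2 n0`. -/

namespace Vale.Agent.P024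

open NumberField IsDedekindDomain Filter
open scoped Pointwise Topology

theorem wald_num (n0 κ μ d C l : ℕ) (hκ : 0 < κ) (hμ : 2 * n0 < μ * κ) (hl : 2 ≤ l) :
    ∃ L B h R : ℕ, R * d * R ^ n0 < h * (L + 1) ^ (n0 + κ) ∧
      (L + 1) ^ (n0 + κ) * l ^ h * C ^ (L * ((n0 + κ) * B)) < l ^ R ∧
      ∀ c s : ℕ, 1 ≤ c → μ * c ≤ s →
        ¬(B + 1) ^ s ≤ ((n0 + κ + 1) * ((n0 + κ) * L + (n0 + κ) + 1)) ^ (c + 1) := by
  obtain ⟨D, hD⟩ : ∃ D, D = n0 + κ := ⟨_, rfl⟩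
  obtain ⟨C3, hC3⟩ : ∃ C3, C3 = D * (C + 1) := ⟨_, rfl⟩
  obtain ⟨C5, hC5⟩ : ∃ C5, C5 = 2 * d * (2 * C3) ^ n0 + 1 := ⟨_, rfl⟩
  obtain ⟨t, ht⟩ : ∃ t, t = ((D + 1) ^ 2 * C5) ^ 2 + 1 := ⟨_, rfl⟩
  have hD0 : 0 < D := by omega
  have h30 : 0 < C3 := by rw [hC3]; positivity
  have h50 : 0 < C5 := by omega
  have ht0 : 0 < t := by omega
  obtain ⟨L, hL⟩ : ∃ L, L + 1 = C5 * t ^ n0 :=
    ⟨_, Nat.succ_pred_eq_of_pos (by positivity)⟩
  obtain ⟨B, hB⟩ : ∃ B, B = t ^ κ := ⟨_, rfl⟩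
  have hB0 : 0 < B := by rw [hB]; positivity
  obtain ⟨h, hh⟩ : ∃ h, h = (L + 1) * (C3 * B) := ⟨_, rfl⟩
  have hh0 : 0 < h := by rw [hh]; positivity
  refine ⟨L, B, h, h + h, ?_, ?_, fun c s hc hs hle => ?_⟩
  · have h1 : 2 * d * (2 * C3) ^ n0 * B ^ n0 < (L + 1) ^ κ := by
      rw [hL, mul_pow C5, hB, ← pow_mul, ← pow_mul, mul_comm κ]
      exact Nat.mul_lt_mul_of_lt_of_le (lt_of_lt_of_le (by omega) (Nat.le_self_pow hκ.ne' C5))
        le_rfl (by positivity)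
    calc (h + h) * d * (h + h) ^ n0
        = h * ((L + 1) ^ n0 * (2 * d * (2 * C3) ^ n0 * B ^ n0)) := by
          have : h + h = (L + 1) * (2 * C3) * B := by rw [hh]; ring
          conv_lhs => rw [← two_mul h]; rhs; rw [two_mul, this, mul_pow, mul_pow]
          ring
      _ < _ := by
          rw [pow_add]
          gcongr
  · rw [← hD, pow_add, mul_right_comm]
    refine Nat.mul_lt_mul_of_lt_of_le ?_ le_rfl (by positivity)
    calc (L + 1) ^ D * C ^ (L * (D * B)) ≤ (2 ^ L) ^ (D * B) * (2 ^ C) ^ (L * (D * B)) :=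
          Nat.mul_le_mul ((Nat.pow_le_pow_left Nat.lt_two_pow_self _).trans
            (Nat.pow_le_pow_right (by positivity) (Nat.le_mul_of_pos_right _ hB0)))
            (Nat.pow_le_pow_left Nat.lt_two_pow_self.le _)
      _ = 2 ^ (L * (C3 * B)) := by
          rw [← pow_mul, ← pow_mul, ← pow_add, hC3]
          congr 1
          ring
      _ < 2 ^ h := by
          rw [hh]
          exact Nat.pow_lt_pow_right (by norm_num)
            (Nat.mul_lt_mul_of_lt_of_le (by omega) le_rfl (by positivity))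
      _ ≤ l ^ h := Nat.pow_le_pow_left hl _
  · rw [← hD] at hle
    have hX : (D + 1) * (D * L + D + 1) ≤ (D + 1) ^ 2 * C5 * t ^ n0 := by
      rw [mul_assoc, ← hL]
      nlinarith [Nat.zero_le (D * L), Nat.zero_le L]
    have h1 : (t ^ (2 * n0 + 1)) ^ c ≤ (((D + 1) ^ 2 * C5 * t ^ n0) ^ 2) ^ c :=
      calc (t ^ (2 * n0 + 1)) ^ c ≤ (t ^ (κ * μ)) ^ c :=
            Nat.pow_le_pow_left (Nat.pow_le_pow_right ht0 (by rw [mul_comm κ]; omega)) _
        _ = B ^ (μ * c) := by rw [hB, ← pow_mul, ← pow_mul, mul_assoc]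
        _ ≤ (B + 1) ^ s := (Nat.pow_le_pow_right hB0 hs).trans (Nat.pow_le_pow_left (by omega) _)
        _ ≤ _ := hle
        _ ≤ ((D + 1) ^ 2 * C5 * t ^ n0) ^ (c + 1) := Nat.pow_le_pow_left hX _
        _ ≤ _ := by
            rw [← pow_mul]
            exact Nat.pow_le_pow_right (by positivity) (by omega)
    rw [Nat.pow_le_pow_iff_left (by omega), mul_pow, ← pow_mul, mul_comm n0, pow_succ'] at h1
    have := Nat.le_of_mul_le_mul_right h1 (by positivity)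
    omega

theorem wald_poly {K : Type*} [Field K] [CharZero K] {J : Type*} [Fintype J] [DecidableEq J]
    {L : ℕ} {p : (J → Fin (L + 1)) → ℤ} (hp : p ≠ 0) :
    ∃ P : MvPolynomial J K, P ≠ 0 ∧ (∀ j, P.degreeOf j ≤ L) ∧
      ∀ x : J → K, MvPolynomial.eval x P = ∑ e, (p e : K) * ∏ j, x j ^ (e j : ℕ) := by
  let f : (J → Fin (L + 1)) → J →₀ ℕ := fun e => Finsupp.equivFunOnFinite.symm fun j => e j
  have hf : Function.Injective f := fun a b hab => funext fun j =>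
    Fin.ext (congrFun (Finsupp.equivFunOnFinite.symm.injective hab) j)
  refine ⟨∑ e, MvPolynomial.monomial (f e) (p e : K), fun h0 => hp (funext fun e => ?_),
    fun j => MvPolynomial.degreeOf_le_iff.2 fun m hm => ?_, fun x => ?_⟩
  · have := congrArg (MvPolynomial.coeff (f e)) h0
    simpa [MvPolynomial.coeff_sum, MvPolynomial.coeff_monomial, hf.eq_iff] using this
  · rw [MvPolynomial.mem_support_iff, MvPolynomial.coeff_sum] at hm
    obtain ⟨e, -, he⟩ := Finset.exists_ne_zero_of_sum_ne_zero hm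
    rw [MvPolynomial.coeff_monomial] at he
    rw [← (ite_ne_right_iff.1 he).1]
    exact Nat.lt_succ_iff.1 (e j).2
  · simp [MvPolynomial.eval_monomial, Finsupp.prod_fintype, f]

theorem wald {M : Type*} [Field M] [NumberField M] {l : ℕ} [Fact l.Prime] {I J : Type*}
    [Fintype I] [Fintype J] (γ : I → J → Mˣ) (hγ : ∀ i j, Cg l 1 (γ i j : M) 1) {n0 μ : ℕ}
    (hdep : ∀ R : ℕ, ∃ u : Fin n0 → J → M, (∀ k j, Cg l 1 (u k j) 1) ∧
      ∀ i, ∃ z : Fin n0 → ℕ, ∀ j, Cg l R (γ i j : M) (∏ k, u k j ^ z k))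
    (hμ : ∀ (c : ℕ) (lam : Fin c → J → ℤ), LinearIndependent ℤ lam →
      ∃ S : Finset I, μ * c ≤ S.card ∧ ∀ b : I → ℤ, (∀ i ∉ S, b i = 0) →
        (∀ t, ∏ i, ∏ j, γ i j ^ (b i * lam t j) = 1) → b = 0) :
    μ * (Fintype.card J - n0) ≤ 2 * n0 := by
  classical
  by_contra hlt
  obtain ⟨κ, hκ⟩ : ∃ κ, κ = Fintype.card J - n0 := ⟨_, rfl⟩
  rw [← hκ, not_le] at hlt
  have hκ0 : 0 < κ := Nat.pos_of_ne_zero fun h0 => by simp [h0] at hlt
  have hD : n0 + κ = Fintype.card J := by omega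
  have hm : ∀ i j, (γ i j : M) ∈ LI M l := fun i j => (hγ i j).mem (one_mem _)
  obtain ⟨C, -, hC⟩ := liouville (fun i j => (γ i j : M)) hm
  obtain ⟨L, B, h, R, h1, h2, h3⟩ := wald_num n0 κ μ (Module.finrank ℚ M) C l hκ0 hlt
    (Fact.out : l.Prime).two_le
  rw [hD] at h1 h2 h3
  obtain ⟨u, hu, hz⟩ := hdep R
  choose z hz using hz
  have hum : ∀ k j, u k j ∈ LI M l := fun k j => (hu k j).mem (one_mem _)
  obtain ⟨p, hp0, hpb, hp⟩ := aux_poly u hu h1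
  obtain ⟨P, hP0, hPd, hPe⟩ := wald_poly (K := M) hp0
  obtain ⟨c, hc, -, lam, hlam, hS⟩ := zero_est γ P hP0 hPd (B := B) fun b hb => by
    rw [hPe]
    refine hC L _ h R p b hb hpb (Cg.trans (cg_sum _ fun e _ => Cg.mul_left
      (cg_prod _ (fun j _ => Cg.pow ?_ ?_ _) fun j _ => pow_mem ?_ _) (intCast_mem _ _))
      (hp fun k => ∑ i, z i k * b i)) h2
    · have : ∏ k, u k j ^ ∑ i, z i k * b i = ∏ i, (∏ k, u k j ^ z i k) ^ b i := by
        simp only [← Finset.prod_pow, ← pow_mul, ← Finset.prod_pow_eq_pow_sum]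
        exact Finset.prod_comm
      rw [this]
      exact cg_prod _ (fun i _ => (hz i j).pow (prod_mem fun k _ => pow_mem (hum k j) _) _)
        fun i _ => pow_mem (prod_mem fun k _ => pow_mem (hum k j) _) _
    all_goals exact prod_mem fun k _ => pow_mem (hum k j) _
  obtain ⟨S, hS1, hS2⟩ := hμ c lam hlam
  exact h3 c _ hc hS1 (hS S hS2)

end Vale.Agent.P024
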