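import Vale.Agent.P024.Defs

/-! # P024 ZeA (TASK; helper lemma names start with `zeA_` or are private)
Stabilisers of prime ideals under the torus.  PLAN.  `scl h` is an algebra endomorphism, `scl h (monomial e c) = monomial e (c ∏ h j ^ e j)`, `scl (h h') = scl h ∘ scl h'`.
`zeA`: let `Λ` be the subgroup of `λ : J → ℤ` with `∏ h j ^ λ j = 1` for all `h ∈ H`.  Key: if `Q ∈ 𝔭` and the characters `χ_e : H → K` (`χ_e h = ∏ h j ^ e j`) of the exponents `e` in the support of `Q` are pairwise different, then `Q = 0`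
(apply a linear form on `A ⧸ 𝔭` and `linearIndependent_monoidHom`, or induct on the support with `scl h Q - C (χ_e h) Q`; a monomial in `𝔭` forces a variable in `𝔭`).
Take `T'` maximal among the finsets with `Λ ∩ ℤ^T' = 0` (no nonzero `λ ∈ Λ` supported in `T'`).  Then `Ind 𝔭 T'`, so `card T' ≤ δ`.  For `j ∉ T'` maximality gives `λ_j ∈ Λ` supported in `insert j T'` with `λ_j j ≠ 0`;
these are linearly independent (look at the coordinate `j`), and there are at least `card J - δ` of them. -/

namespace Vale.Agent.P024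

open NumberField IsDedekindDomain Filter
open scoped Pointwise Topology

variable {K : Type*} [Field K] {J : Type*}

/-- the variables in `T` are algebraically independent modulo `𝔭` -/
def Ind (𝔭 : Ideal (MvPolynomial J K)) (T : Finset J) : Prop :=
  ∀ Q ∈ 𝔭, (∀ e ∈ Q.support, ∀ j, e j ≠ 0 → j ∈ T) → Q = 0

/-- scaling the variables -/
noncomputable def scl (h : J → Kˣ) : MvPolynomial J K →ₐ[K] MvPolynomial J K :=
  MvPolynomial.aeval fun j => MvPolynomial.C (h j : K) * MvPolynomial.X j

/-- the character of an exponent -/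
noncomputable def zeA_chi (h : J → Kˣ) (e : J →₀ ℕ) : Kˣ := e.prod fun j k => h j ^ k

theorem zeA_monomial (h : J → Kˣ) (e : J →₀ ℕ) (c : K) :
    scl h (MvPolynomial.monomial e c) = MvPolynomial.monomial e (c * zeA_chi h e) := by
  rw [scl, MvPolynomial.aeval_monomial, MvPolynomial.monomial_eq, zeA_chi]
  simp only [mul_pow, Finsupp.prod, Finset.prod_mul_distrib, map_mul, Units.coe_prod,
    Units.val_pow_eq_pow_val, map_prod, map_pow, MvPolynomial.algebraMap_eq, mul_assoc]

theorem zeA_coeff (h : J → Kˣ) (Q : MvPolynomial J K) (e : J →₀ ℕ) :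
    (scl h Q).coeff e = Q.coeff e * zeA_chi h e := by
  classical
  induction Q using MvPolynomial.induction_on' with
  | monomial u a =>
    rw [zeA_monomial, MvPolynomial.coeff_monomial, MvPolynomial.coeff_monomial]
    split_ifs with hu
    · rw [hu]
    · rw [zero_mul]
  | add p q hp hq => rw [map_add, MvPolynomial.coeff_add, MvPolynomial.coeff_add, hp, hq, add_mul]

theorem scl_mul (h h' : J → Kˣ) (Q : MvPolynomial J K) : scl (h * h') Q = scl h (scl h' Q) := by
  have : scl (K := K) (h * h') = (scl h).comp (scl h') := by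
    refine MvPolynomial.algHom_ext fun j => ?_
    simp [scl, mul_left_comm, mul_assoc]
  rw [this]
  rfl

theorem scl_one (Q : MvPolynomial J K) : scl (1 : J → Kˣ) Q = Q := by
  have : scl (K := K) (1 : J → Kˣ) = AlgHom.id K _ := by
    refine MvPolynomial.algHom_ext fun j => ?_
    simp [scl]
  rw [this]
  rfl

theorem eval_scl (h : J → Kˣ) (x : J → K) (Q : MvPolynomial J K) :
    MvPolynomial.eval x (scl h Q) = MvPolynomial.eval (fun j => (h j : K) * x j) Q := by
  induction Q using MvPolynomial.induction_on with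
  | C a => simp [scl]
  | add p q hp hq => rw [map_add, map_add, map_add, hp, hq]
  | mul_X p j hp =>
    rw [map_mul, map_mul, map_mul, hp]
    simp [scl]

theorem support_scl (h : J → Kˣ) (Q : MvPolynomial J K) : (scl h Q).support = Q.support := by
  ext e
  simp [MvPolynomial.mem_support_iff, zeA_coeff]

theorem totalDegree_scl (h : J → Kˣ) (Q : MvPolynomial J K) :
    (scl h Q).totalDegree = Q.totalDegree := by
  rw [MvPolynomial.totalDegree, MvPolynomial.totalDegree, support_scl]

theorem zeA_key (H : Subgroup (J → Kˣ)) (𝔭 : Ideal (MvPolynomial J K)) (hp : 𝔭.IsPrime)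
    (hX : ∀ j, MvPolynomial.X j ∉ 𝔭) (hH : ∀ h ∈ H, ∀ Q ∈ 𝔭, scl h Q ∈ 𝔭) (N : ℕ) :
    ∀ Q ∈ 𝔭, Q.support.card = N → (∀ e ∈ Q.support, ∀ e' ∈ Q.support,
      (∀ h ∈ H, zeA_chi h e = zeA_chi h e') → e = e') → Q = 0 := by
  classical
  induction N using Nat.strong_induction_on with
  | _ N ih =>
  intro Q hQ hN hd
  by_contra h0
  obtain ⟨e, he⟩ := MvPolynomial.support_nonempty.2 h0
  by_cases h1 : ∀ e' ∈ Q.support, e' = e
  · have h2 : Q = MvPolynomial.monomial e (Q.coeff e) := by
      conv_lhs => rw [Q.as_sum]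
      exact Finset.sum_eq_single_of_mem e he fun b hb hne => absurd (h1 b hb) hne
    rw [h2, MvPolynomial.monomial_eq] at hQ
    rcases hp.mem_or_mem hQ with h3 | h3
    · exact hp.ne_top (Ideal.eq_top_of_isUnit_mem _ h3
        ((isUnit_iff_ne_zero.2 (MvPolynomial.mem_support_iff.1 he)).map MvPolynomial.C))
    · obtain ⟨j, -, hj⟩ := (Ideal.IsPrime.prod_mem_iff (hp := hp)).1 h3
      exact hX j (hp.mem_of_pow_mem _ hj)
  · push Not at h1
    obtain ⟨e', he', hne⟩ := h1
    have h3 : ∃ h ∈ H, zeA_chi h e' ≠ zeA_chi h e := by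
      by_contra hc
      push Not at hc
      exact hne (hd e' he' e he hc)
    obtain ⟨h, hh, hc⟩ := h3
    set Q' := scl h Q - MvPolynomial.C (zeA_chi h e : K) * Q with hQ'
    have hco : ∀ u, Q'.coeff u = Q.coeff u * (zeA_chi h u - zeA_chi h e) := fun u => by
      rw [hQ', MvPolynomial.coeff_sub, zeA_coeff, MvPolynomial.coeff_C_mul]
      ring
    have hsub : Q'.support ⊆ Q.support.erase e := fun u hu => by
      rw [MvPolynomial.mem_support_iff, hco] at hu
      refine Finset.mem_erase.2 ⟨?_, MvPolynomial.mem_support_iff.2 (left_ne_zero_of_mul hu)⟩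
      rintro rfl
      simp at hu
    have h4 : Q' = 0 := by
      refine ih _ ?_ Q' (𝔭.sub_mem (hH h hh Q hQ) (𝔭.mul_mem_left _ hQ)) rfl fun u hu v hv => ?_
      · rw [← hN]
        exact (Finset.card_le_card hsub).trans_lt (Finset.card_erase_lt_of_mem he)
      · exact hd u (Finset.mem_of_mem_erase (hsub hu)) v (Finset.mem_of_mem_erase (hsub hv))
    have h5 := hco e'
    rw [h4, MvPolynomial.coeff_zero] at h5
    rcases mul_eq_zero.1 h5.symm with h6 | h6
    · exact MvPolynomial.mem_support_iff.1 he' h6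
    · exact hc (Units.ext (sub_eq_zero.1 h6))

theorem zeA [Fintype J] (H : Subgroup (J → Kˣ)) (𝔭 : Ideal (MvPolynomial J K)) (hp : 𝔭.IsPrime)
    (hX : ∀ j, MvPolynomial.X j ∉ 𝔭) (hH : ∀ h ∈ H, ∀ Q ∈ 𝔭, scl h Q ∈ 𝔭) {δ : ℕ}
    (hδ : ∀ T, Ind 𝔭 T → T.card ≤ δ) :
    ∃ lam : Fin (Fintype.card J - δ) → J → ℤ, LinearIndependent ℤ lam ∧
      ∀ h ∈ H, ∀ t, ∏ j, h j ^ lam t j = 1 := by
  classical
  let P : Finset J → Prop := fun T => ∀ l : J → ℤ, (∀ h ∈ H, ∏ j, h j ^ l j = 1) →
    (∀ j, l j ≠ 0 → j ∈ T) → l = 0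
  have hP0 : P ∅ := fun l _ hl => funext fun j => by
    by_contra h
    exact Finset.notMem_empty j (hl j h)
  obtain ⟨T, hT, hmax⟩ := Finset.exists_max_image (Finset.univ.filter P) Finset.card
    ⟨∅, Finset.mem_filter.2 ⟨Finset.mem_univ _, hP0⟩⟩
  have hT' : P T := (Finset.mem_filter.1 hT).2
  have hchi : ∀ (h : J → Kˣ) (e : J →₀ ℕ), zeA_chi h e = ∏ j, h j ^ e j := fun h e =>
    Finsupp.prod_fintype _ _ fun _ => pow_zero _
  have hInd : Ind 𝔭 T := by
    intro Q hQ hs
    refine zeA_key H 𝔭 hp hX hH _ Q hQ rfl fun e he e' he' hc => ?_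
    have := hT' (fun j => (e j : ℤ) - e' j) (fun h hh => ?_) fun j hj => ?_
    · ext j
      have := congrFun this j
      simp only [Pi.zero_apply] at this
      omega
    · have := hc h hh
      rw [hchi, hchi] at this
      simp only [zpow_sub, zpow_natCast, Finset.prod_mul_distrib, Finset.prod_inv_distrib, this,
        mul_inv_cancel]
    · by_cases h : e j = 0
      · refine hs e' he' j fun h' => hj ?_
        simp [h, h']
      · exact hs e he j h
  have hex : ∀ j : {j // j ∉ T}, ∃ l : J → ℤ, (∀ h ∈ H, ∏ j, h j ^ l j = 1) ∧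
      (∀ i, l i ≠ 0 → i = j ∨ i ∈ T) ∧ l j ≠ 0 := by
    rintro ⟨j, hj⟩
    have h1 : ¬ P (insert j T) := fun h => by
      have := hmax _ (Finset.mem_filter.2 ⟨Finset.mem_univ _, h⟩)
      rw [Finset.card_insert_of_notMem hj] at this
      omega
    simp only [P, not_forall] at h1
    obtain ⟨l, h2, h3, h4⟩ := h1
    refine ⟨l, h2, fun i hi => Finset.mem_insert.1 (h3 i hi), fun h5 => h4 (hT' l h2 fun i hi => ?_)⟩
    rcases Finset.mem_insert.1 (h3 i hi) with rfl | h
    · exact absurd h5 hi
    · exact h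
  choose l hl1 hl2 hl3 using hex
  have hcard : Fintype.card (Fin (Fintype.card J - δ)) ≤ Fintype.card {j // j ∉ T} := by
    have := hδ T hInd
    rw [Fintype.card_fin, Fintype.card_subtype_compl, Fintype.card_coe]
    omega
  obtain ⟨f⟩ := Function.Embedding.nonempty_of_card_le hcard
  refine ⟨fun t => l (f t), Fintype.linearIndependent_iff.2 fun g hg t => ?_,
    fun h hh t => hl1 _ h hh⟩
  have h1 := congrFun hg (f t)
  rw [Finset.sum_apply, Finset.sum_eq_single t, Pi.smul_apply, smul_eq_mul, Pi.zero_apply] at h1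
  · exact (mul_eq_zero.1 h1).resolve_right (hl3 _)
  · intro b _ hb
    rw [Pi.smul_apply, smul_eq_mul]
    refine mul_eq_zero_of_right _ ?_
    by_contra h
    rcases hl2 _ _ h with h2 | h2
    · exact hb (f.injective (Subtype.ext h2)).symm
    · exact (f t).2 h2
  · intro h
    exact absurd (Finset.mem_univ t) h

end Vale.Agent.P024
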