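import Vale.Agent.P024.ZeA
import Vale.Agent.P024.Bez

/-! # P024 ZeB (TASK; helper lemma names start with `zeB_` or are private)
Counting primes with prescribed independent variables.  PLAN.  `c = card J - card T`, `K' = FractionRing (MvPolynomial T K)`, `Ω = AlgebraicClosure K'`, `t j ∈ Ω` the image of the variable `j ∈ T`.
Variables `Fin (c+1)`: the `j ∉ T` (fix `e : {j // j ∉ T} ≃ Fin c`) and one more variable `z`.  `φ : MvPolynomial J K →ₐ[K] MvPolynomial (Fin (c+1)) Ω`, `X j ↦ C (t j)` or the new variable; it does not increase the total degree.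
Equations: `φ (g i)` and `z ∏ y - 1`.  Their zero set `Z` in `Ω^(c+1)` is finite: for a prime `𝔫` containing the equations, `𝔮 = comap φ 𝔫` satisfies the hypotheses of `hmax`, so each `y_j` is algebraic over `Ω` modulo `𝔫`
(a nonzero `Q ∈ 𝔮` in the variables `insert j T` gives a nonzero one-variable polynomial over `Ω`), hence congruent to a constant, and so is `z`; so `𝔫` is the kernel of an evaluation, all primes over the ideal `I` of the equations are maximal, hence minimal over `I`,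
and there are finitely many (`Ideal.finite_minimalPrimes_of_isNoetherianRing`); points give distinct primes.
Each `𝔭 ∈ Ps` is the kernel of `eval pt ∘ φ` for a point of `Z`: `A ⧸ 𝔭` is a domain, algebraic over `MvPolynomial T K` (which injects by `Ind`), `IsAlgClosed.lift` embeds it in `Ω` over `MvPolynomial T K`.  So `card Ps ≤ ncard Z`; `bezout`. -/

namespace Vale.Agent.P024

open NumberField IsDedekindDomain Filter
open scoped Pointwise Topology

section aux

variable {K : Type*} [Field K] {J : Type*}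

theorem zeB_vars {Q : MvPolynomial J K} {T : Finset J} :
    (∀ e ∈ Q.support, ∀ j, e j ≠ 0 → j ∈ T) ↔ ∀ j ∈ Q.vars, j ∈ T := by
  constructor
  · intro h j hj
    obtain ⟨d, hd, hj⟩ := (MvPolynomial.mem_vars_iff_mem_support j).1 hj
    exact h d hd j (Finsupp.mem_support_iff.1 hj)
  · intro h e he j hj
    exact h j ((MvPolynomial.mem_vars_iff_mem_support j).2 ⟨e, he, Finsupp.mem_support_iff.2 hj⟩)

theorem zeB_ind_iff {𝔭 : Ideal (MvPolynomial J K)} {T : Finset J} :
    Ind 𝔭 T ↔ ∀ Q : MvPolynomial T K, MvPolynomial.rename Subtype.val Q ∈ 𝔭 → Q = 0 := by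
  constructor
  · intro h Q hQ
    have := h _ hQ (zeB_vars.2 fun j hj => by
      obtain ⟨i, -, rfl⟩ := MvPolynomial.mem_vars_rename _ _ hj
      exact i.2)
    exact MvPolynomial.rename_injective _ Subtype.val_injective (by rw [this, map_zero])
  · intro h Q hQ hs
    obtain ⟨Q', rfl⟩ := MvPolynomial.exists_rename_eq_of_vars_subset_range Q
      (Subtype.val : T → J) Subtype.val_injective fun j hj => ⟨⟨j, zeB_vars.1 hs j hj⟩, rfl⟩
    rw [h Q' hQ, map_zero]

theorem zeB_poly [DecidableEq J] {𝔭 : Ideal (MvPolynomial J K)} {T : Finset J} {j : J} (hj : j ∉ T)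
    (h : ¬Ind 𝔭 (insert j T)) : ∃ q : Polynomial (MvPolynomial T K), q ≠ 0 ∧
      q.eval₂ (MvPolynomial.rename Subtype.val : MvPolynomial T K →ₐ[K] MvPolynomial J K).toRingHom
        (MvPolynomial.X j) ∈ 𝔭 := by
  unfold Ind at h
  push Not at h
  obtain ⟨Q, hQ, hs, hQ0⟩ := h
  let f : Option T → J := fun o => o.elim j Subtype.val
  have hf : Function.Injective f := by
    rintro (_ | a) (_ | b) e
    · rfl
    · have e' : j = b.1 := e
      exact absurd (e' ▸ b.2) hj
    · have e' : a.1 = j := e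
      exact absurd (e' ▸ a.2) hj
    · have e' : a.1 = b.1 := e
      rw [Subtype.ext e']
  obtain ⟨Q', rfl⟩ := MvPolynomial.exists_rename_eq_of_vars_subset_range Q f hf fun k hk => by
    rcases Finset.mem_insert.1 (zeB_vars.1 hs k hk) with rfl | hk'
    · exact ⟨none, rfl⟩
    · exact ⟨some ⟨k, hk'⟩, rfl⟩
  refine ⟨MvPolynomial.optionEquivLeft K T Q', fun h0 => hQ0 ?_, ?_⟩
  · rw [(map_eq_zero_iff _ (MvPolynomial.optionEquivLeft K T).injective).1 h0, map_zero]
  · have key : ∀ R : MvPolynomial (Option T) K, (MvPolynomial.optionEquivLeft K T R).eval₂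
        (MvPolynomial.rename Subtype.val : MvPolynomial T K →ₐ[K] MvPolynomial J K).toRingHom
        (MvPolynomial.X j) = MvPolynomial.rename f R := by
      intro R
      induction R using MvPolynomial.induction_on with
      | C a => simp [MvPolynomial.optionEquivLeft_C]
      | add p q hp hq => rw [map_add, Polynomial.eval₂_add, hp, hq, map_add]
      | mul_X p o hp =>
        rw [map_mul, Polynomial.eval₂_mul, hp, map_mul]
        congr 1
        rcases o with _ | a
        · simp [MvPolynomial.optionEquivLeft_X_none, f]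
        · simp [MvPolynomial.optionEquivLeft_X_some, f]
    rw [key]
    exact hQ

theorem zeB_deg {S : Type*} [CommRing S] [Algebra K S] {σ : Type*} (v : J → MvPolynomial σ S)
    (hv : ∀ j, (v j).totalDegree ≤ 1) (Q : MvPolynomial J K) :
    (MvPolynomial.aeval v Q).totalDegree ≤ Q.totalDegree := by
  rw [MvPolynomial.aeval_def, MvPolynomial.eval₂_eq]
  refine MvPolynomial.totalDegree_finsetSum_le fun d hd => ?_
  refine (MvPolynomial.totalDegree_mul _ _).trans ?_
  rw [MvPolynomial.algebraMap_apply, MvPolynomial.totalDegree_C, zero_add]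
  refine (MvPolynomial.totalDegree_finsetProd _ _).trans (le_trans ?_ (MvPolynomial.le_totalDegree hd))
  refine Finset.sum_le_sum fun i _ => (MvPolynomial.totalDegree_pow _ _).trans ?_
  simpa using Nat.mul_le_mul_left (d i) (hv i)

variable {T : Finset J} {Ω : Type*} [Field Ω] [Algebra K Ω] [Algebra (MvPolynomial T K) Ω]
  [IsScalarTower K (MvPolynomial T K) Ω]

theorem zeB_comp {y : J → Ω}
    (hy : ∀ k : T, y k = algebraMap (MvPolynomial T K) Ω (MvPolynomial.X k)) :
    (MvPolynomial.aeval y : MvPolynomial J K →ₐ[K] Ω).toRingHom.comp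
      (MvPolynomial.rename Subtype.val : MvPolynomial T K →ₐ[K] MvPolynomial J K).toRingHom =
      algebraMap (MvPolynomial T K) Ω := by
  refine MvPolynomial.ringHom_ext (fun a => ?_) fun k => ?_
  · simp [IsScalarTower.algebraMap_apply K (MvPolynomial T K) Ω]
  · simp [hy]

theorem zeB_fin [Finite J] [DecidableEq J] [FaithfulSMul (MvPolynomial T K) Ω] {ι : Type*}
    (g : ι → MvPolynomial J K)
    (hmax : ∀ 𝔮 : Ideal (MvPolynomial J K), 𝔮.IsPrime → (∀ i, g i ∈ 𝔮) →
      (∀ j, MvPolynomial.X j ∉ 𝔮) → Ind 𝔮 T → ∀ j ∉ T, ¬Ind 𝔮 (insert j T)) :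
    {y : J → Ω | (∀ k : T, y k = algebraMap (MvPolynomial T K) Ω (MvPolynomial.X k)) ∧
      (∀ j, y j ≠ 0) ∧ ∀ i, MvPolynomial.aeval y (g i) = 0}.Finite := by
  have hinj := FaithfulSMul.algebraMap_injective (MvPolynomial T K) Ω
  have hm := Ideal.finite_minimalPrimes_of_isNoetherianRing (MvPolynomial J K)
    (Ideal.span (Set.range g))
  have hfin : ∀ 𝔪 ∈ (Ideal.span (Set.range g)).minimalPrimes,
      {y : J → Ω | (∀ k : T, y k = algebraMap (MvPolynomial T K) Ω (MvPolynomial.X k)) ∧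
        (∀ j, y j ≠ 0) ∧ ∀ Q ∈ 𝔪, MvPolynomial.aeval y Q = 0}.Finite := by
    intro 𝔪 h𝔪
    rcases Set.eq_empty_or_nonempty
      {y : J → Ω | (∀ k : T, y k = algebraMap (MvPolynomial T K) Ω (MvPolynomial.X k)) ∧
        (∀ j, y j ≠ 0) ∧ ∀ Q ∈ 𝔪, MvPolynomial.aeval y Q = 0} with h0 | ⟨y₀, h1, h2, h3⟩
    · rw [h0]
      exact Set.finite_empty
    have hI : Ind 𝔪 T := by
      refine zeB_ind_iff.2 fun Q hQ => hinj ?_
      rw [map_zero, ← zeB_comp h1]
      exact h3 _ hQ
    have hx := hmax 𝔪 h𝔪.1.1 (fun i => h𝔪.1.2 (Ideal.subset_span ⟨i, rfl⟩))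
      (fun j hj => h2 j (by simpa using h3 _ hj)) hI
    have hs : ∀ j : J, ∃ s : Set Ω, s.Finite ∧ ∀ y : J → Ω,
        (∀ k : T, y k = algebraMap (MvPolynomial T K) Ω (MvPolynomial.X k)) →
        (∀ Q ∈ 𝔪, MvPolynomial.aeval y Q = 0) → y j ∈ s := by
      intro j
      by_cases hj : j ∈ T
      · exact ⟨{algebraMap (MvPolynomial T K) Ω (MvPolynomial.X ⟨j, hj⟩)}, Set.finite_singleton _,
          fun y hy _ => hy ⟨j, hj⟩⟩
      · obtain ⟨q, hq0, hq⟩ := zeB_poly hj (hx j hj)
        refine ⟨q.rootSet Ω, q.rootSet_finite Ω, fun y hy hy' => ?_⟩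
        rw [Polynomial.mem_rootSet']
        refine ⟨(Polynomial.map_ne_zero_iff hinj).2 hq0, ?_⟩
        have e := Polynomial.hom_eval₂ q
          (MvPolynomial.rename Subtype.val : MvPolynomial T K →ₐ[K] MvPolynomial J K).toRingHom
          (MvPolynomial.aeval y : MvPolynomial J K →ₐ[K] Ω).toRingHom (MvPolynomial.X j)
        rw [zeB_comp hy] at e
        have e2 : (MvPolynomial.aeval y : MvPolynomial J K →ₐ[K] Ω).toRingHom
            (MvPolynomial.X j) = y j := by simp
        rw [e2] at e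
        rw [Polynomial.aeval_def, ← e]
        exact hy' _ hq
    choose s hs hs' using hs
    exact (Set.Finite.pi' hs).subset fun y hy j => hs' j y hy.1 hy.2.2
  refine (hm.biUnion hfin).subset fun y hy => ?_
  have hp : (RingHom.ker (MvPolynomial.aeval y : MvPolynomial J K →ₐ[K] Ω)).IsPrime :=
    RingHom.ker_isPrime _
  have hle : Ideal.span (Set.range g) ≤
      RingHom.ker (MvPolynomial.aeval y : MvPolynomial J K →ₐ[K] Ω) := by
    rw [Ideal.span_le]
    rintro _ ⟨i, rfl⟩
    exact hy.2.2 i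
  obtain ⟨𝔪, h𝔪, hle'⟩ := Ideal.exists_minimalPrimes_le hle
  exact Set.mem_biUnion h𝔪 ⟨hy.1, hy.2.1, fun Q hQ => hle' hQ⟩

theorem zeB_pt [DecidableEq J] [FaithfulSMul (MvPolynomial T K) Ω] [IsAlgClosed Ω]
    {𝔭 : Ideal (MvPolynomial J K)} (hp : 𝔭.IsPrime) (hI : Ind 𝔭 T)
    (hx : ∀ j ∉ T, ¬Ind 𝔭 (insert j T)) :
    ∃ y : J → Ω, (∀ k : T, y k = algebraMap (MvPolynomial T K) Ω (MvPolynomial.X k)) ∧
      ∀ Q, MvPolynomial.aeval y Q = 0 ↔ Q ∈ 𝔭 := by
  have hinj := FaithfulSMul.algebraMap_injective (MvPolynomial T K) Ω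
  let θ : MvPolynomial T K →+* MvPolynomial J K ⧸ 𝔭 := (Ideal.Quotient.mk 𝔭).comp
    (MvPolynomial.rename Subtype.val : MvPolynomial T K →ₐ[K] MvPolynomial J K).toRingHom
  let : Algebra (MvPolynomial T K) (MvPolynomial J K ⧸ 𝔭) := θ.toAlgebra
  have hθ : ∀ R : MvPolynomial T K, algebraMap (MvPolynomial T K) (MvPolynomial J K ⧸ 𝔭) R =
      Ideal.Quotient.mk 𝔭 (MvPolynomial.rename Subtype.val R) := fun _ => rfl
  have hθi : Function.Injective (algebraMap (MvPolynomial T K) (MvPolynomial J K ⧸ 𝔭)) := by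
    rw [injective_iff_map_eq_zero]
    intro R hR
    rw [hθ, Ideal.Quotient.eq_zero_iff_mem] at hR
    exact zeB_ind_iff.1 hI R hR
  have : FaithfulSMul (MvPolynomial T K) (MvPolynomial J K ⧸ 𝔭) :=
    (faithfulSMul_iff_algebraMap_injective _ _).2 hθi
  have hX : ∀ j, IsAlgebraic (MvPolynomial T K) (Ideal.Quotient.mk 𝔭 (MvPolynomial.X j)) := by
    intro j
    by_cases hj : j ∈ T
    · have : Ideal.Quotient.mk 𝔭 (MvPolynomial.X j) =
          algebraMap (MvPolynomial T K) (MvPolynomial J K ⧸ 𝔭) (MvPolynomial.X ⟨j, hj⟩) := by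
        rw [hθ, MvPolynomial.rename_X]
      rw [this]
      exact isAlgebraic_algebraMap _
    · obtain ⟨q, hq0, hq⟩ := zeB_poly hj (hx j hj)
      refine ⟨q, hq0, ?_⟩
      have e := Polynomial.hom_eval₂ q
        (MvPolynomial.rename Subtype.val : MvPolynomial T K →ₐ[K] MvPolynomial J K).toRingHom
        (Ideal.Quotient.mk 𝔭) (MvPolynomial.X j)
      rw [Ideal.Quotient.eq_zero_iff_mem.2 hq] at e
      exact e.symm
  have : Algebra.IsAlgebraic (MvPolynomial T K) (MvPolynomial J K ⧸ 𝔭) := by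
    refine ⟨fun s => ?_⟩
    obtain ⟨Q, rfl⟩ := Ideal.Quotient.mk_surjective s
    induction Q using MvPolynomial.induction_on with
    | C a =>
      have : Ideal.Quotient.mk 𝔭 (MvPolynomial.C a) =
          algebraMap (MvPolynomial T K) (MvPolynomial J K ⧸ 𝔭) (MvPolynomial.C a) := by
        rw [hθ, MvPolynomial.rename_C]
      rw [this]
      exact isAlgebraic_algebraMap _
    | add p q hp hq =>
      rw [map_add]
      exact hp.add hq
    | mul_X p j hp =>
      rw [map_mul]
      exact hp.mul (hX j)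
  let ψ : (MvPolynomial J K ⧸ 𝔭) →ₐ[MvPolynomial T K] Ω := IsAlgClosed.lift
  have hψ : ∀ s, ψ s = 0 → s = 0 := by
    intro s hs
    by_contra h0
    obtain ⟨r, hr, u, hu⟩ := (Algebra.IsAlgebraic.isAlgebraic (R := MvPolynomial T K)
      s).exists_nonzero_dvd (mem_nonZeroDivisors_of_ne_zero h0)
    have := congrArg ψ hu
    rw [map_mul, hs, zero_mul, AlgHom.commutes] at this
    exact hr (hinj (by rw [this, map_zero]))
  refine ⟨fun j => ψ (Ideal.Quotient.mk 𝔭 (MvPolynomial.X j)), fun k => ?_, fun Q => ?_⟩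
  · rw [← ψ.commutes, hθ, MvPolynomial.rename_X]
  · have e : MvPolynomial.aeval (fun j => ψ (Ideal.Quotient.mk 𝔭 (MvPolynomial.X j))) Q =
        ψ (Ideal.Quotient.mk 𝔭 Q) := by
      induction Q using MvPolynomial.induction_on with
      | C a =>
        rw [MvPolynomial.aeval_C, IsScalarTower.algebraMap_apply K (MvPolynomial T K) Ω,
          ← ψ.commutes, hθ, MvPolynomial.algebraMap_eq, MvPolynomial.rename_C]
      | add p q hp hq => rw [map_add, hp, hq, map_add, map_add]
      | mul_X p j hp => rw [map_mul, hp, MvPolynomial.aeval_X, map_mul, map_mul]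
    rw [e, ← Ideal.Quotient.eq_zero_iff_mem]
    exact ⟨hψ _, fun h => by rw [h, map_zero]⟩

end aux

theorem zeB_main {K : Type*} [Field K] {J : Type*} [Fintype J] [DecidableEq J] {ι : Type*}
    [Finite ι] (g : ι → MvPolynomial J K) {L : ℕ} (hL : ∀ i, (g i).totalDegree ≤ L) (T : Finset J)
    {c : ℕ} (e : {j // j ∉ T} ≃ Fin c) (hT : c + 1 ≤ L)
    (hmax : ∀ 𝔮 : Ideal (MvPolynomial J K), 𝔮.IsPrime → (∀ i, g i ∈ 𝔮) →
      (∀ j, MvPolynomial.X j ∉ 𝔮) → Ind 𝔮 T → ∀ j ∉ T, ¬Ind 𝔮 (insert j T))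
    (Ps : Finset (Ideal (MvPolynomial J K)))
    (hPs : ∀ 𝔭 ∈ Ps, 𝔭.IsPrime ∧ (∀ i, g i ∈ 𝔭) ∧ (∀ j, MvPolynomial.X j ∉ 𝔭) ∧ Ind 𝔭 T)
    (Ω : Type*) [Field Ω] [Algebra K Ω] [Algebra (MvPolynomial T K) Ω]
    [IsScalarTower K (MvPolynomial T K) Ω] [FaithfulSMul (MvPolynomial T K) Ω] [IsAlgClosed Ω] :
    Ps.card ≤ ((c + 1) * L) ^ (c + 1) := by
  have hinj := FaithfulSMul.algebraMap_injective (MvPolynomial T K) Ω
  let v : J → MvPolynomial (Fin (c + 1)) Ω := fun j =>
    if h : j ∈ T then MvPolynomial.C (algebraMap (MvPolynomial T K) Ω (MvPolynomial.X ⟨j, h⟩))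
    else MvPolynomial.X (e ⟨j, h⟩).succ
  have hv : ∀ j, (v j).totalDegree ≤ 1 := by
    intro j
    by_cases h : j ∈ T
    · simp [v, h]
    · simp [v, h]
  let f : Option ι → MvPolynomial (Fin (c + 1)) Ω := fun o =>
    o.elim (∏ k, MvPolynomial.X k - MvPolynomial.C 1) fun i => MvPolynomial.aeval v (g i)
  have hf : ∀ o, (f o).totalDegree ≤ L := by
    rintro (_ | i)
    · refine (MvPolynomial.totalDegree_sub_C_le _ _).trans
        ((MvPolynomial.totalDegree_finsetProd _ _).trans ?_)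
      simpa using hT
    · exact (zeB_deg v hv _).trans (hL i)
  let Y : (Fin (c + 1) → Ω) → J → Ω := fun x j => MvPolynomial.eval x (v j)
  have hY : ∀ x Q, MvPolynomial.eval x (MvPolynomial.aeval v Q) =
      MvPolynomial.aeval (R := K) (Y x) Q := by
    intro x Q
    induction Q using MvPolynomial.induction_on with
    | C a => simp [MvPolynomial.algebraMap_apply]
    | add p q hp hq => rw [map_add, map_add, hp, hq, map_add]
    | mul_X p j hp => rw [map_mul, map_mul, hp, map_mul, MvPolynomial.aeval_X, MvPolynomial.aeval_X]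
  have hY1 : ∀ x (k : T), Y x k = algebraMap (MvPolynomial T K) Ω (MvPolynomial.X k) := by
    intro x k
    simp [Y, v, k.2]
  have hY2 : ∀ x (k : Fin c), Y x (e.symm k) = x k.succ := by
    intro x k
    simp [Y, v, (e.symm k).2]
  have hn : ∀ x, MvPolynomial.eval x (f none) = 0 ↔ x 0 * ∏ k : Fin c, x k.succ = 1 := by
    intro x
    simp [f, sub_eq_zero, Fin.prod_univ_succ]
  have hZ : {x : Fin (c + 1) → Ω | ∀ o, MvPolynomial.eval x (f o) = 0}.Finite := by
    refine Set.Finite.of_finite_image (f := Y) ((zeB_fin (Ω := Ω) g hmax).subset ?_) ?_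
    · rintro _ ⟨x, hx, rfl⟩
      refine ⟨hY1 x, fun j => ?_, fun i => ?_⟩
      · by_cases h : j ∈ T
        · rw [hY1 x ⟨j, h⟩]
          exact fun h0 => MvPolynomial.X_ne_zero _ (hinj (h0.trans (map_zero _).symm))
        · have h1 := hY2 x (e ⟨j, h⟩)
          rw [Equiv.symm_apply_apply] at h1
          have h2 := right_ne_zero_of_mul_eq_one ((hn x).1 (hx none))
          exact h1 ▸ Finset.prod_ne_zero_iff.1 h2 _ (Finset.mem_univ _)
      · rw [← hY]
        exact hx (some i)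
    · intro x hx x' hx' h
      have h1 : ∀ k : Fin c, x k.succ = x' k.succ := fun k => by rw [← hY2 x, ← hY2 x', h]
      have h2 := (hn x).1 (hx none)
      have h3 := (hn x').1 (hx' none)
      simp only [← h1] at h3
      funext k
      refine Fin.cases ?_ h1 k
      exact mul_right_cancel₀ (right_ne_zero_of_mul_eq_one h2) (h2.trans h3.symm)
  refine le_trans ?_ (bezout f hf hZ)
  rw [← Set.ncard_coe_finset]
  refine le_trans (Set.ncard_le_ncard ?_ (hZ.image fun x =>
    RingHom.ker (MvPolynomial.aeval (Y x) : MvPolynomial J K →ₐ[K] Ω))) (Set.ncard_image_le hZ)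
  intro 𝔭 h𝔭
  obtain ⟨hp, hg, hX, hI⟩ := hPs 𝔭 h𝔭
  obtain ⟨y, hy1, hy2⟩ := zeB_pt (Ω := Ω) hp hI (hmax 𝔭 hp hg hX hI)
  have hy0 : ∀ j, y j ≠ 0 := fun j h => hX j ((hy2 _).1 (by simpa using h))
  let x : Fin (c + 1) → Ω := Fin.cons (∏ k : Fin c, y (e.symm k))⁻¹ fun k => y (e.symm k)
  have hxy : Y x = y := by
    funext j
    by_cases h : j ∈ T
    · rw [hY1 x ⟨j, h⟩, ← hy1]
    · have h1 := hY2 x (e ⟨j, h⟩)
      rw [Equiv.symm_apply_apply] at h1
      rw [h1]
      simp [x]
  refine ⟨x, ?_, ?_⟩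
  · rintro (_ | i)
    · rw [hn]
      simp only [x, Fin.cons_zero, Fin.cons_succ]
      exact inv_mul_cancel₀ (Finset.prod_ne_zero_iff.2 fun k _ => hy0 _)
    · show MvPolynomial.eval x (MvPolynomial.aeval v (g i)) = 0
      rw [hY, hxy, hy2]
      exact hg i
  · ext Q
    simp only [hxy, RingHom.mem_ker]
    exact hy2 Q

theorem zeB {K : Type*} [Field K] {J : Type*} [Fintype J] [DecidableEq J] {ι : Type*} [Finite ι]
    (g : ι → MvPolynomial J K) {L : ℕ} (hL : ∀ i, (g i).totalDegree ≤ L) (T : Finset J)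
    (hT : Fintype.card J - T.card + 1 ≤ L)
    (hmax : ∀ 𝔮 : Ideal (MvPolynomial J K), 𝔮.IsPrime → (∀ i, g i ∈ 𝔮) →
      (∀ j, MvPolynomial.X j ∉ 𝔮) → Ind 𝔮 T → ∀ j ∉ T, ¬Ind 𝔮 (insert j T))
    (Ps : Finset (Ideal (MvPolynomial J K)))
    (hPs : ∀ 𝔭 ∈ Ps, 𝔭.IsPrime ∧ (∀ i, g i ∈ 𝔭) ∧ (∀ j, MvPolynomial.X j ∉ 𝔭) ∧ Ind 𝔭 T) :
    Ps.card ≤ ((Fintype.card J - T.card + 1) * L) ^ (Fintype.card J - T.card + 1) := by
  have hc : Fintype.card {j // j ∉ T} = Fintype.card J - T.card := by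
    rw [Fintype.card_subtype_compl]
    simp
  have : FaithfulSMul (MvPolynomial T K) (AlgebraicClosure (FractionRing (MvPolynomial T K))) := by
    rw [faithfulSMul_iff_algebraMap_injective, IsScalarTower.algebraMap_eq (MvPolynomial T K)
      (FractionRing (MvPolynomial T K)) (AlgebraicClosure (FractionRing (MvPolynomial T K)))]
    rw [RingHom.coe_comp]
    exact (algebraMap (FractionRing (MvPolynomial T K)) _).injective.comp
      (IsFractionRing.injective (MvPolynomial T K) (FractionRing (MvPolynomial T K)))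
  exact zeB_main g hL T (Fintype.equivFinOfCardEq hc) hT hmax Ps hPs
    (AlgebraicClosure (FractionRing (MvPolynomial T K)))

end Vale.Agent.P024
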