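import Vale.Agent.P024.Cyc
import Vale.Agent.P024.KumH
import Vale.Agent.P024.PrD
import Vale.Agent.P024.Tame
import Vale.Agent.P024.RedZ

/-! # P024 ZlA (TASK; helper lemma names start with `zlA_` or are private)
Eigencharacters.  PLAN.  `zl_char`: `T3 = T2 ⊓ {cyc = 1}` (`exists_cycK`) is normalised by `T` and contains the commutators of `T`; `κ` from `exists_kum_ch` on `T3`.  For `g ∈ T`, `x ∈ T3`: `g y = ρ y^u w` with `ρ^(l^K) = 1`; apply `x' = g x g⁻¹` to both sides: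
`cyc g * κ x = u * κ x'`, and `u` is a unit, so `κ x' = ξ g * κ x` (in particular `κ` is invariant under `T2`).  `c h = (ξ g0 - 1)⁻¹ * κ (g0 h g0⁻¹ h⁻¹)`; `[g0, h h'] = [g0, h] * h [g0, h'] h⁻¹`; on `T3`, `c = κ`; open kernel: `IsCh.of_le` with `T3 ⊓ stab y`.
Eigen: `[g0, g h g⁻¹] = g [g0 x, h] g⁻¹` with `x = g0⁻¹ g⁻¹ g0 g ∈ T3`, `[g0 x, h] = g0 [x, h] g0⁻¹ * [g0, h]`, `κ [x, h] = 0`.  Unramified: `cyc_II`, `II_root_unit` (`mem_of_isIntegral`), `pow_val_inj`.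
`Eig.kill`: `comm_mem_II`.  `unr_pull`: Frobenius element of `α.pre T2` at `A` with norm `N > 1`, `K = k + padicValNat l (N - 1)`, `ch_II` for the lift; `(N-1) • x = 0` in `ZMod (l^K)` forces `x ≡ 0 mod l^k` (`red_eq_zero`). -/

namespace Vale.Agent.P024

open NumberField IsDedekindDomain Filter
open scoped Pointwise Topology

set_option linter.unusedSectionVars false

variable {F E : Type*} [Field F] [NumberField F] [Field E] [CharZero E] [Algebra F E] [IsGalois F E]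

/-- the data for an eigenspace -/
structure ZD (l : ℕ) [Fact l.Prime] (T T2 : OpenSubgroup Gal(E/F)) (ξ : Gal(E/F) → ℤ_[l]) : Prop where
  odd : l ≠ 2
  le : T2 ≤ T
  comm : ∀ g ∈ T, ∀ h ∈ T, g * h * g⁻¹ * h⁻¹ ∈ T2
  ord : ∃ n : ℕ, ¬l ∣ n ∧ ∀ g ∈ T, g ^ n ∈ T2
  mul : ∀ g ∈ T, ∀ h ∈ T, ξ (g * h) = ξ g * ξ h
  one : ∀ h ∈ T2, ξ h = 1
  ex : ∃ g ∈ T, IsUnit (ξ g - 1)
  mu : ∀ g ∈ T, ∀ z : E, z ^ 8 = 1 → g z = z

/-- `c` is a character of `T2` modulo `l ^ k`, unramified outside `l`, in the `ξ`-eigenspace -/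
structure Eig (l : ℕ) [Fact l.Prime] (T T2 : OpenSubgroup Gal(E/F)) (ξ : Gal(E/F) → ℤ_[l]) (k : ℕ)
    (c : Gal(E/F) → ZMod (l ^ k)) : Prop where
  ch : IsCh T2 c
  unr : Unr l T2 c
  eig : ∀ g ∈ T, ∀ h ∈ T2, c (g * h * g⁻¹) = PadicInt.toZModPow k (ξ g) * c h

variable {l : ℕ} [Fact l.Prime] {T T2 : OpenSubgroup Gal(E/F)} {ξ : Gal(E/F) → ℤ_[l]}

theorem ZD.normIn (h : ZD l T T2 ξ) : NormIn T2 T := by
  intro g hg n hn
  simpa using T2.mul_mem (h.comm g hg n (h.le hn)) hn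

theorem ZD.isUnit (h : ZD l T T2 ξ) {g : Gal(E/F)} (hg : g ∈ T) : IsUnit (ξ g) := by
  refine IsUnit.of_mul_eq_one (ξ g⁻¹) ?_
  rw [← h.mul g hg _ (T.inv_mem hg), mul_inv_cancel, h.one 1 T2.one_mem]

theorem zlA_abs {G R : Type*} [Group G] [TopologicalSpace G] [IsTopologicalGroup G] [CommRing R]
    {T T2 T3 : OpenSubgroup G} {κ χ : G → R} (hκ : IsCh T3 κ) (h2 : T2 ≤ T) (h3 : T3 ≤ T)
    (hc : ∀ g ∈ T, ∀ h ∈ T, g * h * g⁻¹ * h⁻¹ ∈ T3)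
    (he : ∀ g ∈ T, ∀ x ∈ T3, κ (g * x * g⁻¹) = χ g * κ x) (h1 : ∀ h ∈ T2, χ h = 1)
    {g0 : G} (hg0 : g0 ∈ T) (hu : IsUnit (χ g0 - 1)) :
    ∃ c : G → R, IsCh T2 c ∧ (∀ x ∈ T3, c x = κ x) ∧
      ∀ g ∈ T, ∀ h ∈ T2, c (g * h * g⁻¹) = χ g * c h := by
  obtain ⟨v, hv⟩ := hu.exists_left_inv
  have hn : ∀ g ∈ T, ∀ x ∈ T3, g * x * g⁻¹ ∈ T3 := fun g hg x hx => by
    simpa using T3.mul_mem (hc g hg x (h3 hx)) hx
  have hb : ∀ x ∈ T3, v * κ (g0 * x * g0⁻¹ * x⁻¹) = κ x := fun x hx => by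
    rw [hκ.add _ (hn _ hg0 x hx) _ (T3.inv_mem hx), he _ hg0 x hx, hκ.inv hx]
    linear_combination κ x * hv
  refine ⟨fun h => v * κ (g0 * h * g0⁻¹ * h⁻¹), IsCh.of_le (fun a ha b hb => ?_) hκ.ker
    fun x _ hx => (hb x hx.1).trans hx.2, hb, fun g hg h hh => ?_⟩
  · have e : g0 * (a * b) * g0⁻¹ * (a * b)⁻¹ =
        g0 * a * g0⁻¹ * a⁻¹ * (a * (g0 * b * g0⁻¹ * b⁻¹) * a⁻¹) := by group
    have hb' := hc _ hg0 _ (h2 hb)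
    rw [e, hκ.add _ (hc _ hg0 _ (h2 ha)) _ (hn _ (h2 ha) _ hb'), he _ (h2 ha) _ hb', h1 a ha]
    ring
  · obtain ⟨x, hx⟩ : ∃ x, x = g0⁻¹ * g⁻¹ * g0⁻¹⁻¹ * g⁻¹⁻¹ := ⟨_, rfl⟩
    have hx3 : x ∈ T3 := hx ▸ hc _ (T.inv_mem hg0) _ (T.inv_mem hg)
    have e : g0 * (g * h * g⁻¹) * g0⁻¹ * (g * h * g⁻¹)⁻¹ =
        g * (g0 * (x * (h * x⁻¹ * h⁻¹)) * g0⁻¹ * (g0 * h * g0⁻¹ * h⁻¹)) * g⁻¹ := by
      rw [hx]; group
    have a1 := hn _ (h2 hh) _ (T3.inv_mem hx3)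
    have a2 := T3.mul_mem hx3 a1
    have a3 := hc _ hg0 _ (h2 hh)
    have a4 := hn _ hg0 _ a2
    simp only []
    rw [e, he _ hg _ (T3.mul_mem a4 a3), hκ.add _ a4 _ a3, he _ hg0 _ a2, hκ.add _ hx3 _ a1,
      he _ (h2 hh) _ (T3.inv_mem hx3), hκ.inv hx3, h1 h hh]
    ring

theorem zlA_ndvd {p : ℕ} (hp : p.Prime) (hl : p ≠ l) (K : ℕ) : ¬p ∣ l ^ K := fun h =>
  hl ((Nat.prime_dvd_prime_iff_eq hp Fact.out).1 (hp.dvd_of_dvd_pow h))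

theorem zl_char (hE : RC E) (h : ZD l T T2 ξ) {K : ℕ} {z y : E} (hz : IsPrimitiveRoot z (l ^ K))
    (hy : y ≠ 0) (hi : IsIntegral ℤ y) (hi' : IsIntegral ℤ y⁻¹)
    (hf : ∀ x ∈ T2, cyc (l ^ K) x = 1 → x (y ^ l ^ K) = y ^ l ^ K)
    (he : ∀ g ∈ T, ∃ (u : ℕ) (w : E), (∀ x ∈ T2, cyc (l ^ K) x = 1 → x w = w) ∧
      g (y ^ l ^ K) = (y ^ l ^ K) ^ u * w ^ l ^ K ∧
      (u : ZMod (l ^ K)) * PadicInt.toZModPow K (ξ g) = cyc (l ^ K) g) :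
    ∃ c, Eig l T T2 ξ K c ∧ ∀ x ∈ T2, cyc (l ^ K) x = 1 → x y = z ^ (c x).val * y := by
  have := alg_rat F E
  obtain ⟨W, hW⟩ := exists_cycK (F := F) hE (l ^ K)
  obtain ⟨T3, h3⟩ : ∃ T3 : OpenSubgroup Gal(E/F), ∀ x, x ∈ T3 ↔ x ∈ T2 ∧ cyc (l ^ K) x = 1 :=
    ⟨T2 ⊓ W.toOpenSubgroup, fun x => and_congr_right fun _ => hW x⟩
  have hz1 := hz.pow_eq_one
  obtain ⟨κ, hκ, hκy⟩ := exists_kum_ch (U := T3) hz
    (fun g hg => (cyc_eq_one_iff hE).1 ((h3 g).1 hg).2 z hz1) hy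
    fun g hg => hf g ((h3 g).1 hg).1 ((h3 g).1 hg).2
  have hc : ∀ g ∈ T, ∀ x ∈ T, g * x * g⁻¹ * x⁻¹ ∈ T3 := fun g hg x hx =>
    (h3 _).2 ⟨h.comm g hg x hx, by
      rw [cyc_mul hE, cyc_conj hE, ← cyc_mul hE, mul_inv_cancel, cyc_one hE]⟩
  obtain ⟨g0, hg0, hu⟩ := h.ex
  obtain ⟨c, c1, c2, c3⟩ := zlA_abs (χ := fun g => PadicInt.toZModPow K (ξ g)) hκ h.le
    (fun x hx => h.le ((h3 x).1 hx).1) hc (fun g hg x hx => by
      obtain ⟨u, w, w1, w2, w3⟩ := he g hg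
      have hx' : g * x * g⁻¹ ∈ T3 := (h3 _).2 ⟨h.normIn g hg x ((h3 x).1 hx).1, by
        rw [cyc_conj hE, ((h3 x).1 hx).2]⟩
      have hgy : g y ≠ 0 := (map_ne_zero g).2 hy
      have w4 : g y ^ l ^ K = (y ^ u * w) ^ l ^ K := by
        rw [← map_pow, w2, mul_pow, pow_right_comm]
      have w5 : y ^ u * w ≠ 0 := fun e => pow_ne_zero (l ^ K) hgy (by
        rw [w4, e, zero_pow (NeZero.ne _)])
      have w6 := (cyc_eq_one_iff hE).1 ((h3 _).1 hx').2 (g y / (y ^ u * w)) (by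
        rw [div_pow, w4, div_self (pow_ne_zero _ w5)])
      rw [map_div₀, map_mul, map_pow, w1 _ ((h3 _).1 hx').1 ((h3 _).1 hx').2, hκy _ hx', uq_conj,
        hκy _ hx, map_mul, map_pow, cyc_spec hE g hz1, ← pow_val_mul hz1, mul_pow,
        ← pow_val_natCast (z := z ^ _) (m := l ^ K) (by rw [pow_right_comm, hz1, one_pow]) u,
        ← pow_val_mul hz1, mul_assoc, mul_div_mul_comm, mul_eq_right₀ (div_ne_zero hgy w5),
        div_eq_one_iff_eq (pow_ne_zero _ (hz.ne_zero (NeZero.ne _)))] at w6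
      have hu : IsUnit (u : ZMod (l ^ K)) :=
        isUnit_of_mul_isUnit_left (w3 ▸ isUnit_cyc hE g :)
      refine hu.mul_left_cancel ?_
      rw [← mul_assoc, w3, pow_val_inj hz w6, mul_comm])
    (fun x hx => by simp only [h.one x hx, map_one]) hg0
    (by simpa using hu.map (PadicInt.toZModPow K))
  refine ⟨c, ⟨c1, fun A p hp hl hA g hg hI => ?_, c3⟩, fun x hx hx' => ?_⟩
  · have h1 := cyc_II hE hp hA (zlA_ndvd hp hl K) hI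
    have h2 := (h3 g).2 ⟨hg, h1⟩
    have h4 : A.valuation y = 1 := by
      refine le_antisymm ((A.valuation_le_one_iff y).2 (mem_of_isIntegral A hi)) ?_
      have h5 := (A.valuation_le_one_iff _).2 (mem_of_isIntegral A hi')
      rwa [map_inv₀, inv_le_one₀ (zero_lt_iff.2 ((map_ne_zero _).2 hy))] at h5
    have h5 := II_root_unit hA hp (zlA_ndvd hp hl K) hI h4 (hf g hg h1)
    rw [hκy g h2, mul_eq_right₀ hy] at h5
    rw [c2 g h2]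
    exact pow_val_inj hz (by rw [h5, ZMod.val_zero, pow_zero])
  · rw [c2 x ((h3 x).2 ⟨hx, hx'⟩), hκy x ((h3 x).2 ⟨hx, hx'⟩)]

theorem Eig.kill (h : ZD l T T2 ξ) {k : ℕ} {c : Gal(E/F) → ZMod (l ^ k)} (hc : Eig l T T2 ξ k c)
    {B : ValuationSubring E} {p : ℕ} (hp : p.Prime) (hl : p ≠ l) (hB : Ov B p) {δ : Gal(E/F)}
    (hδ : δ ∈ T) (hD : δ ∈ DD F B) (hu : IsUnit (ξ δ - 1)) :
    ∀ u ∈ T2, u ∈ DD F B → c u = 0 := by
  intro u hu2 huD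
  have h1 := hc.unr B p hp hl hB _ (h.comm δ hδ u (h.le hu2)) (comm_mem_II hp hB hD huD)
  rw [hc.ch.add _ (h.normIn δ hδ u hu2) _ (T2.inv_mem hu2), hc.eig δ hδ u hu2,
    hc.ch.inv hu2] at h1
  refine (hu.map (PadicInt.toZModPow k)).mul_right_eq_zero.1 ?_
  rw [map_sub, map_one]
  linear_combination h1

theorem unr_pull (α : OH G1 Gal(E/F)) {k : ℕ} {c : Gal(E/F) → ZMod (l ^ k)}
    (h : ∀ (K : ℕ) (hK : k ≤ K), ∃ c' : Gal(E/F) → ZMod (l ^ K), IsCh T2 c' ∧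
      ∀ u ∈ T2, ZMod.castHom (pow_dvd_pow l hK) (ZMod (l ^ k)) (c' u) = c u) :
    Unr l (α.pre T2) fun g => c (α.f g) := by
  intro A p hp hl hA τ hτ hI
  obtain ⟨P, hP⟩ := exists_lies hA hp (inc (α.pre T2))
  obtain ⟨g, hg⟩ := exists_frobU hP
  obtain ⟨q, f, hq, -, hf, hN⟩ := hg.pw
  have h1 : nrm P - 1 ≠ 0 := Nat.sub_ne_zero_of_lt (hN ▸ Nat.one_lt_pow hf.ne' hq.one_lt)
  obtain ⟨c', hc, e⟩ := h (k + padicValNat l (nrm P - 1)) (Nat.le_add_right _ _)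
  have h2 := ch_II hg hp hA (hc.pre α) (zlA_ndvd hp hl _)
    (fun y => by rw [nsmul_eq_mul, ZMod.natCast_self, zero_mul]) hτ hI
  exact (e _ hτ.2).symm.trans (red_eq_zero Fact.out h1 (pow_add l _ _).symm.dvd _ h2)

end Vale.Agent.P024
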