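import Vale.Agent.P024.ZlB1
import Vale.Agent.P024.Tow
import Vale.Agent.P024.Mink
import Vale.Agent.P024.Lat
import Vale.Agent.P024.Hun

/-! # P024 ZlB (TASK; helper lemma names start with `zlB_` or are private)
Many eigencharacters.  PLAN.  Data from `zl_data`; `M = Fx N` over `K0 = Fx T` (`tow_spec`, `letI := (incl h).toAlgebra`), `γ = sig (res g1)`, `γ^s = 1` (`sig_pow_card`), `Gal(M/K0) = {res g1 ^ i | i < s}` with `s` elements, so `i ↦ res g1 ^ i` is a bijection from `Fin s`.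
`e` from `exists_free_unit` (`isTotallyComplex_Fx`, `two_le_places` with a primitive eighth root from `hE.prim`), `S` from `lat_count` with `A = (UU M).toAddSubgroup` (`uu_fg`, `mink_map_mem`), `N0 = T2.relIndex N`.
For `a ∈ S` let `ν a = ∑ u^(s-1-i) • γ^i a`; `γ (ν a) = u • ν a - (l^K w) • a` (telescoping, `γ^s = 1`), so by induction `γ^i (ν a) = u^i • ν a + l^K • b` with `b ∈ Additive Mˣ`.  `y a` a root with `y a ^ l^K = ν a` (`hE.root`), `c a` from `zl_char`.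
If `c a = c a'` on `T2` then `y a / y a'` is fixed by `N ⊓ T2`, `exists_norm N T2` gives `b ∈ M`, a unit (`IsIntegral.of_pow`), with `N0 • ν (a - a') = l^K • b`, so `a = a'`.  Take the image of `S`. -/

namespace Vale.Agent.P024

open NumberField IsDedekindDomain Filter
open scoped Pointwise Topology

set_option linter.unusedSectionVars false

variable {F E : Type*} [Field F] [NumberField F] [Field E] [CharZero E] [Algebra F E] [IsGalois F E]

variable {l : ℕ} [Fact l.Prime] {T T2 : OpenSubgroup Gal(E/F)} {ξ : Gal(E/F) → ℤ_[l]}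

private theorem zlB_tel {X : Type*} [AddCommGroup X] (γ : AddMonoid.End X) {s : ℕ}
    (hγ : γ ^ s = 1) {u L w : ℕ} (hu : u ^ s = L * w + 1) (a : X) :
    γ (∑ i ∈ Finset.range s, u ^ (s - 1 - i) • (γ ^ i) a)
      = u • (∑ i ∈ Finset.range s, u ^ (s - 1 - i) • (γ ^ i) a) - L • w • a := by
  have h1 := Finset.sum_range_sub' (fun i => u ^ (s - i) • (γ ^ i) a) s
  rw [hγ, Nat.sub_self, Nat.sub_zero, pow_zero, pow_zero, hu, AddMonoid.End.one_apply, one_nsmul,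
    add_nsmul, one_nsmul, add_sub_cancel_right, mul_nsmul'] at h1
  rw [← h1, map_sum, Finset.smul_sum, ← Finset.sum_sub_distrib]
  refine Finset.sum_congr rfl fun i hi => ?_
  have hi' := Finset.mem_range.1 hi
  rw [smul_smul, ← pow_succ', show s - 1 - i + 1 = s - i by omega, hun_succ, map_nsmul,
    show s - (i + 1) = s - 1 - i by omega, sub_sub_cancel]

private theorem zlB_pow {X : Type*} [AddCommGroup X] (γ : AddMonoid.End X) {u L : ℕ} {v c : X}
    (h : γ v = u • v - L • c) (i : ℕ) : ∃ b, (γ ^ i) v = u ^ i • v + L • b := by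
  induction i with
  | zero => exact ⟨0, by simp⟩
  | succ i ih =>
    obtain ⟨b, hb⟩ := ih
    refine ⟨γ b - u ^ i • c, ?_⟩
    rw [hun_succ, hb, map_add, map_nsmul, map_nsmul, h, pow_succ, mul_smul, smul_sub, smul_sub,
      smul_comm L (u ^ i) c]
    abel

private theorem zlB_units (hE : RC E) {N : OpenSubgroup Gal(E/F)} (hNT : N ≤ T) (hn : NormIn N T)
    (hmu : ∀ g ∈ T, ∀ z : E, z ^ 8 = 1 → g z = z) {g1 : Gal(E/F)} (hg1 : g1 ∈ T) {s : ℕ}
    (hs : 0 < s) (hi : N.toSubgroup.relIndex T.toSubgroup = s)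
    (hgen : ∀ g ∈ T, ∃ i < s, (g1 ^ i)⁻¹ * g ∈ N) {K u w N0 : ℕ}
    (hu : u ^ s = l ^ K * w + 1) (hw : w.Coprime l) (hN : N0.Coprime l) :
    ∃ (S : Finset (Additive (Fx N)ˣ)) (v : Additive (Fx N)ˣ → E), l ^ K ≤ S.card ∧
      (∀ a ∈ S, v a ≠ 0 ∧ IsIntegral ℤ (v a) ∧ IsIntegral ℤ (v a)⁻¹ ∧ (∀ g ∈ N, g (v a) = v a) ∧
        ∀ i : ℕ, ∃ b : E, (∀ g ∈ N, g b = b) ∧ (g1 ^ i) (v a) = v a ^ u ^ i * b ^ l ^ K) ∧
      ∀ a ∈ S, ∀ a' ∈ S, ∀ b : E, (∀ g ∈ N, g b = b) → b ^ l ^ K = (v a / v a') ^ N0 →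
        a = a' := by
  have hl : l.Prime := Fact.out
  have hlK : 0 < l ^ K := pow_pos hl.pos K
  let _ := (incl hNT).toAlgebra
  obtain ⟨hG, hcard, res, r1, r2, -, -, -⟩ := tow_spec hNT hn
  obtain ⟨z, hz⟩ := hE.prim 8 (by norm_num)
  have hz' : ∀ g ∈ T, g z = z := fun g hg => hmu g hg z hz.pow_eq_one
  have := isTotallyComplex_Fx hz (by norm_num) hz'
  obtain ⟨e, he, hfree⟩ := exists_free_unit (K := Fx T) (M := Fx N) (two_le_places hz hz')
  obtain ⟨g, hg⟩ : ∃ g, g = res g1 := ⟨_, rfl⟩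
  have hp : ∀ (i : ℕ) (x : Fx N), ((g ^ i) x : E) = (g1 ^ i) (x : E) := by
    intro i x
    induction i with
    | zero => rfl
    | succ i ih => rw [pow_succ', pow_succ', AlgEquiv.mul_apply, AlgEquiv.mul_apply, ← ih, hg,
        r1 g1 hg1]
  have hsurj : Function.Surjective fun i : Fin s => g ^ (i : ℕ) := by
    intro σ
    obtain ⟨t, ht, rfl⟩ := r2 σ
    obtain ⟨i, hi, hm⟩ := hgen t ht
    refine ⟨⟨i, hi⟩, AlgEquiv.ext fun x => Subtype.ext ?_⟩
    rw [hp, r1 t ht, ← mul_inv_cancel_left (g1 ^ i) t, AlgEquiv.mul_apply, mem_Fx.1 x.2 _ hm]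
  have hbij := hsurj.bijective_of_nat_card_le (by rw [hcard, hi, Nat.card_eq_fintype_card,
    Fintype.card_fin])
  obtain ⟨γ, hγ⟩ : ∃ γ, γ = sig (g : Fx N →+* Fx N) := ⟨_, rfl⟩
  have hγs : γ ^ s = 1 := hγ ▸ sig_pow_card g (hcard.trans hi)
  have hγA : ∀ a ∈ (UU (Fx N)).toAddSubgroup, γ a ∈ (UU (Fx N)).toAddSubgroup :=
    fun a ha => hγ ▸ mink_map_mem g (x := a.toMul) ha
  have hind : ∀ a : Fin s → ℤ,
      IsOfFinAddOrder (∑ i, a i • (γ ^ (i : ℕ)) (Additive.ofMul e)) → a = 0 := by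
    intro a ha
    have h1 : ∏ σ : Gal(Fx N/Fx T), Units.map (σ : Fx N →* Fx N) e ^
        a ((Equiv.ofBijective _ hbij).symm σ)
        = (∑ i, a i • (γ ^ (i : ℕ)) (Additive.ofMul e)).toMul := by
      rw [← Equiv.prod_comp (Equiv.ofBijective _ hbij), toMul_sum]
      refine Finset.prod_congr rfl fun i _ => ?_
      rw [Equiv.symm_apply_apply, toMul_zsmul]
      congr 1
      exact Units.ext (hγ ▸ (sig_pow_apply g i e).symm)
    have h2 := hfree (fun σ => a ((Equiv.ofBijective _ hbij).symm σ))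
      (by rw [h1]; exact isOfFinAddOrder_ofMul_iff.1 ha)
    funext i
    simpa using congrFun h2 (Equiv.ofBijective _ hbij i)
  obtain ⟨S, hS, hSA, hinj⟩ := lat_count (UU (Fx N)).toAddSubgroup
    ((Subgroup.fg_iff_add_fg _).1 uu_fg) γ hγA hs hγs (e := Additive.ofMul e) he hind hl hu hw hN
  let ι : Additive (Fx N)ˣ → E := fun a => ((a.toMul : Fx N) : E)
  have i0 : ∀ a, ι a ≠ 0 := fun a h => a.toMul.ne_zero (Subtype.ext h)
  have i1 : ∀ a b, ι (a + b) = ι a * ι b := fun a b => rfl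
  have i2 : ∀ (n : ℕ) a, ι (n • a) = ι a ^ n := fun n a => by simp [ι]
  have i3 : ∀ a b, ι (a - b) = ι a / ι b := fun a b => by
    rw [eq_div_iff (i0 b), ← i1, sub_add_cancel]
  have i4 : ∀ a, ∀ g ∈ N, g (ι a) = ι a := fun a => mem_Fx.1 (a.toMul : Fx N).2
  have i5 : ∀ (i : ℕ) a, ι ((γ ^ i) a) = (g1 ^ i) (ι a) := fun i a => by
    rw [← hp, hγ, ← hun_sig]
  have i6 : ∀ a, a ∈ (UU (Fx N)).toAddSubgroup ↔ IsIntegral ℤ (ι a) ∧ IsIntegral ℤ (ι a)⁻¹ := by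
    intro a
    have e1 : (ι a)⁻¹ = (inc N).toIntAlgHom ((a.toMul⁻¹ : (Fx N)ˣ) : Fx N) := by simp [ι]
    rw [e1, isIntegral_algHom_iff _ (inc N).injective]
    exact and_congr_left' (isIntegral_algHom_iff (inc N).toIntAlgHom (inc N).injective).symm
  have i7 : Function.Injective ι := fun a b h =>
    Additive.toMul.injective (Units.ext (Subtype.ext h))
  have hν : ∀ a ∈ (UU (Fx N)).toAddSubgroup,
      ∑ i ∈ Finset.range s, u ^ (s - 1 - i) • (γ ^ i) a ∈ (UU (Fx N)).toAddSubgroup := by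
    intro a ha
    have h1 : ∀ i : ℕ, (γ ^ i) a ∈ (UU (Fx N)).toAddSubgroup := by
      intro i
      induction i with
      | zero => exact ha
      | succ i ih => rw [hun_succ]; exact hγA _ ih
    exact sum_mem fun i _ => nsmul_mem (h1 i) _
  refine ⟨S, fun a => ι (∑ i ∈ Finset.range s, u ^ (s - 1 - i) • (γ ^ i) a), hS,
    fun a ha => ⟨i0 _, ((i6 _).1 (hν a (hSA a ha))).1, ((i6 _).1 (hν a (hSA a ha))).2, i4 _,
      fun i => ?_⟩, fun a ha a' ha' b hb hbe => ?_⟩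
  · obtain ⟨b, hb⟩ := zlB_pow γ (zlB_tel γ hγs hu a) i
    exact ⟨ι b, i4 b, by rw [← i5, hb, i1, i2, i2]⟩
  · have e1 : ∑ i ∈ Finset.range s, u ^ (s - 1 - i) • (γ ^ i) (a - a')
        = ∑ i ∈ Finset.range s, u ^ (s - 1 - i) • (γ ^ i) a
          - ∑ i ∈ Finset.range s, u ^ (s - 1 - i) • (γ ^ i) a' := by
      simp only [map_sub, nsmul_sub, Finset.sum_sub_distrib]
    beta_reduce at hbe
    rw [← i3, ← e1, ← i2] at hbe
    have hb0 : b ≠ 0 := fun h => i0 _ (by rw [← hbe, h, zero_pow hlK.ne'])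
    have hm := (i6 _).1 (nsmul_mem (hν _ (sub_mem (hSA a ha) (hSA a' ha'))) N0)
    rw [← hbe, ← inv_pow] at hm
    let β : Additive (Fx N)ˣ :=
      Additive.ofMul (Units.mk0 ⟨b, mem_Fx.2 hb⟩ fun h => hb0 (congrArg Subtype.val h))
    exact hinj a ha a' ha' β ((i6 β).2 ⟨hm.1.of_pow hlK, hm.2.of_pow hlK⟩)
      (i7 (by rw [← hbe, i2]; rfl))

theorem zl_many (hE : RC E) (h : ZD l T T2 ξ) {K : ℕ} (hK : 0 < K) :
    ∃ S : Finset (Gal(E/F) → ZMod (l ^ K)), l ^ K ≤ S.card ∧ (∀ c ∈ S, Eig l T T2 ξ K c) ∧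
      ∀ c ∈ S, ∀ c' ∈ S, (∀ x ∈ T2, c x = c' x) → c = c' := by
  classical
  have hl : l.Prime := Fact.out
  have hlK : 0 < l ^ K := pow_pos hl.pos K
  obtain ⟨N, g1, s, u, w, hNT, hn, hg1, hs, hi, -, hgen, hu, hw, hc, hN⟩ := zl_data hE h hK
  obtain ⟨S, v, hS, hv, hinj⟩ := zlB_units hE hNT hn h.mu hg1 hs hi
    (fun g hg => (hgen g hg).imp fun i hi => ⟨hi.1, hi.2.1⟩) hu hw hN
  obtain ⟨z, hz⟩ := hE.prim (l ^ K) hlK
  choose y hy using fun a => hE.root (l ^ K) (v a) hlK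
  have hy0 : ∀ a ∈ S, y a ≠ 0 := fun a ha h0 =>
    (hv a ha).1 (by rw [← hy, h0, zero_pow hlK.ne'])
  have hex : ∀ a ∈ S, ∃ c, Eig l T T2 ξ K c ∧
      ∀ x ∈ T2, cyc (l ^ K) x = 1 → x (y a) = z ^ (c x).val * y a := by
    intro a ha
    obtain ⟨-, h2, h3, h4, h5⟩ := hv a ha
    refine zl_char hE h hz (hy0 a ha) (IsIntegral.of_pow hlK (by rw [hy]; exact h2))
      (IsIntegral.of_pow hlK (by rw [inv_pow, hy]; exact h3))
      (fun x hx hx' => by rw [hy]; exact h4 x ((hc x hx).1 hx')) fun g hg => ?_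
    obtain ⟨i, -, h6, h7⟩ := hgen g hg
    obtain ⟨b, hb, h8⟩ := h5 i
    refine ⟨u ^ i, b, fun x hx hx' => hb x ((hc x hx).1 hx'), ?_, h7⟩
    rw [hy, ← h8, ← mul_inv_cancel_left (g1 ^ i) g, AlgEquiv.mul_apply, h4 _ h6]
  choose! c hc1 hc2 using hex
  have key : ∀ a ∈ S, ∀ a' ∈ S, (∀ x ∈ T2, c a x = c a' x) → a = a' := by
    intro a ha a' ha' he
    have hz0 : z ≠ 0 := hz.ne_zero hlK.ne'
    obtain ⟨b, hb, hb'⟩ := exists_norm N T2 (z := y a / y a') (m := l ^ K)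
      (fun g hg hg' => by
        rw [map_div₀, hc2 a ha g hg' ((hc g hg').2 hg), hc2 a' ha' g hg' ((hc g hg').2 hg),
          he g hg', mul_div_mul_left _ _ (pow_ne_zero _ hz0)])
      (fun g hg => by rw [div_pow, hy, hy, map_div₀, (hv a ha).2.2.2.1 g hg,
        (hv a' ha').2.2.2.1 g hg])
    rw [div_pow, hy, hy] at hb'
    exact hinj a ha a' ha' b hb hb'
  refine ⟨S.image c, ?_, ?_, ?_⟩
  · rw [Finset.card_image_of_injOn fun a ha a' ha' e => key a ha a' ha' fun x _ => by rw [e]]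
    exact hS
  · intro d hd
    obtain ⟨a, ha, rfl⟩ := Finset.mem_image.1 hd
    exact hc1 a ha
  · intro d hd d' hd' he
    obtain ⟨a, ha, rfl⟩ := Finset.mem_image.1 hd
    obtain ⟨a', ha', rfl⟩ := Finset.mem_image.1 hd'
    rw [key a ha a' ha' he]

end Vale.Agent.P024
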