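import Vale.Agent.P024.ZlA

/-! # P024 ZlB1 (TASK; helper lemma names start with `zlB1_` or are private)
The cyclic extension attached to an eigenspace.  PLAN.  `zl_arith`: `s = orderOf x`, `u0 = x.val`.  If `l ∤ s` then `u0` or `u0 + l^K` works (binomial expansion modulo `l^(K+1)`, `Nat.add_pow_le...`/`dvd_sub_pow_of_dvd_sub`, `sq_dvd_add_pow_sub_sub`).
If `s = l s1` then `u0^s1 ≡ 1 mod l` (Fermat), `l^K ∤ u0^s1 - 1`, and `padicValNat.pow_sub_pow` / `Nat.emultiplicity_pow_sub_pow` shows that the valuation of `u0^s - 1` is at most `K`.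
`exists_norm`: `b = ∏` over the cosets `N ⧸ N'.subgroupOf N` of `h z` (`finprod` or `Fintype.ofFinite`; `Quotient.out`); left multiplication permutes the cosets.
`zl_data`: `ψ : T →* (ZMod (l^K))ˣ`, `ψ g = cyc g * (ξ g)⁻¹`; its range is cyclic (`ZMod.isCyclic_units_of_prime_pow`), generated by `ψ g1`; `N = ker ψ` is open (contains `T2 ⊓ {cyc = 1}`), `s = orderOf (ψ g1)`.
`N ⧸ (N ⊓ T2)` is a finite group killed by `n`; Cauchy (`exists_prime_orderOf_dvd_card'`). -/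

namespace Vale.Agent.P024

open NumberField IsDedekindDomain Filter
open scoped Pointwise Topology

set_option linter.unusedSectionVars false

variable {F E : Type*} [Field F] [NumberField F] [Field E] [CharZero E] [Algebra F E] [IsGalois F E]

theorem zl_arith {l K : ℕ} (hl : l.Prime) (h2 : l ≠ 2) (hK : 0 < K) (x : (ZMod (l ^ K))ˣ) :
    ∃ u w : ℕ, (u : ZMod (l ^ K)) = x ∧ u ^ orderOf x = l ^ K * w + 1 ∧ w.Coprime l := by
  have := Fact.mk hl
  have hs : 0 < orderOf x := orderOf_pos x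
  have hp : Prime (l : ℤ) := Nat.prime_iff_prime_int.1 hl
  have h0 : ∀ u i : ℕ, (u : ZMod (l ^ K)) = x → ((l : ℤ) ^ K ∣ (u : ℤ) ^ i - 1 ↔ x ^ i = 1) :=
    fun u i hu => by
      rw [← Nat.cast_pow, ← ZMod.intCast_zmod_eq_zero_iff_dvd, Units.ext_iff]
      push_cast
      rw [hu, sub_eq_zero]
  have h1 : ∀ (u : ℤ) {i : ℕ}, i ≠ 0 → (l : ℤ) ∣ u ^ i - 1 → ¬ (l : ℤ) ∣ u := fun u i hi h h' =>
    hp.not_dvd_one (by simpa using dvd_sub (dvd_pow h' hi) h)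
  have key : ∃ u : ℕ, (u : ZMod (l ^ K)) = x ∧ ¬ (l : ℤ) ^ (K + 1) ∣ (u : ℤ) ^ orderOf x - 1 := by
    by_contra hn
    push Not at hn
    obtain ⟨u, hu⟩ := ZMod.natCast_zmod_surjective (x : ZMod (l ^ K))
    have a1 := hn u hu
    have a2 := hn (u + l ^ K) (by rw [Nat.cast_add, ZMod.natCast_self, add_zero, hu])
    have a3 : (l : ℤ) ∣ (u : ℤ) ^ orderOf x - 1 := (dvd_pow_self _ K.succ_ne_zero).trans a1
    by_cases hd : l ∣ orderOf x
    · obtain ⟨t, ht⟩ := hd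
      rw [ht, mul_comm, pow_mul] at a1 a3
      have ht0 : 0 < t := Nat.pos_of_mul_pos_left (ht ▸ hs)
      have a4 : (l : ℤ) ∣ (u : ℤ) ^ t - 1 := by
        rw [← ZMod.intCast_zmod_eq_zero_iff_dvd] at a3 ⊢
        push_cast at a3 ⊢
        rwa [ZMod.pow_card] at a3
      have a5 := emultiplicity_pow_prime_sub_pow_prime hp (hl.odd_of_ne_two h2) a4
        (h1 _ hl.ne_zero a3)
      rw [one_pow] at a5
      rw [pow_dvd_iff_le_emultiplicity, a5, Nat.cast_succ,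
        ENat.add_le_add_iff_right ENat.one_ne_top, ← pow_dvd_iff_le_emultiplicity, h0 u t hu] at a1
      have := Nat.le_of_dvd ht0 (orderOf_dvd_of_pow_eq_one a1)
      have := hl.two_le
      nlinarith
    · have a4 := (show (l : ℤ) ^ (K + 1) ∣ ((l : ℤ) ^ K) ^ 2 by
        rw [← pow_mul]
        exact pow_dvd_pow _ (by omega)).trans (sq_dvd_add_pow_sub_sub ((l : ℤ) ^ K) u (orderOf x))
      push_cast at a2
      have a5 : (l : ℤ) ^ K * l ∣ (l : ℤ) ^ K * (u ^ (orderOf x - 1) * orderOf x) := by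
        have := dvd_sub (dvd_sub a2 a1) a4
        rw [← pow_succ]
        refine this.trans (dvd_of_eq ?_)
        ring
      rcases hp.dvd_or_dvd ((mul_dvd_mul_iff_left (pow_ne_zero K hp.ne_zero)).1 a5) with a6 | a6
      · exact h1 _ hs.ne' a3 (hp.dvd_of_dvd_pow a6)
      · exact hd (Int.natCast_dvd_natCast.1 a6)
  obtain ⟨u, hu, hn⟩ := key
  have h3 := (h0 u _ hu).2 (pow_orderOf_eq_one x)
  have h4 : 1 ≤ u ^ orderOf x := Nat.one_le_pow _ _ (Nat.pos_of_ne_zero fun e =>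
    h1 u hs.ne' ((dvd_pow_self _ hK.ne').trans h3) (by simp [e]))
  obtain ⟨w, hw⟩ : l ^ K ∣ u ^ orderOf x - 1 := by
    rw [← Int.natCast_dvd_natCast]
    push_cast [h4]
    exact h3
  have h5 : u ^ orderOf x = l ^ K * w + 1 := by omega
  refine ⟨u, w, hu, h5, ((Nat.Prime.coprime_iff_not_dvd hl).2 fun h6 => hn ?_).symm⟩
  rw [← Nat.cast_pow, ← Nat.cast_pow, h5, Nat.cast_succ, add_sub_cancel_right,
    Int.natCast_dvd_natCast, pow_succ]
  exact mul_dvd_mul_left _ h6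

theorem exists_norm (N N' : OpenSubgroup Gal(E/F)) {z : E} (hz : ∀ g ∈ N, g ∈ N' → g z = z) {m : ℕ}
    (hm : ∀ g ∈ N, g (z ^ m) = z ^ m) :
    ∃ b : E, (∀ g ∈ N, g b = b) ∧ b ^ m = (z ^ m) ^ N'.toSubgroup.relIndex N.toSubgroup := by
  let Q := N.toSubgroup ⧸ N'.toSubgroup.subgroupOf N.toSubgroup
  have := Fintype.ofFinite Q
  let f : Q → E := fun q => (q.out : Gal(E/F)) z
  have h1 : ∀ g : N.toSubgroup, f (g : Q) = (g : Gal(E/F)) z := fun g => by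
    obtain ⟨h, e⟩ := QuotientGroup.mk_out_eq_mul (N'.toSubgroup.subgroupOf N.toSubgroup) g
    simp only [f]
    rw [e, Subgroup.coe_mul, AlgEquiv.mul_apply, hz _ h.1.2 h.2]
  refine ⟨∏ q, f q, fun g hg => ?_, ?_⟩
  · rw [map_prod, ← Equiv.prod_comp (MulAction.toPerm (⟨g, hg⟩ : N.toSubgroup)) f]
    refine Finset.prod_congr rfl fun q _ => ?_
    obtain ⟨a, rfl⟩ := QuotientGroup.mk_surjective q
    rw [h1]
    exact (h1 (⟨g, hg⟩ * a)).symm
  · rw [← Finset.prod_pow, Finset.prod_congr rfl fun q _ => (map_pow _ z m).symm.trans (hm _ q.out.2),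
      Finset.prod_const, Finset.card_univ, ← Nat.card_eq_fintype_card]
    rfl

variable {l : ℕ} [Fact l.Prime] {T T2 : OpenSubgroup Gal(E/F)} {ξ : Gal(E/F) → ℤ_[l]}

theorem zl_data (hE : RC E) (h : ZD l T T2 ξ) {K : ℕ} (hK : 0 < K) :
    ∃ (N : OpenSubgroup Gal(E/F)) (g1 : Gal(E/F)) (s u w : ℕ), N ≤ T ∧ NormIn N T ∧ g1 ∈ T ∧ 0 < s ∧
      N.toSubgroup.relIndex T.toSubgroup = s ∧ g1 ^ s ∈ N ∧
      (∀ g ∈ T, ∃ i < s, (g1 ^ i)⁻¹ * g ∈ N ∧
        ((u ^ i : ℕ) : ZMod (l ^ K)) * PadicInt.toZModPow K (ξ g) = cyc (l ^ K) g) ∧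
      u ^ s = l ^ K * w + 1 ∧ w.Coprime l ∧ (∀ x ∈ T2, cyc (l ^ K) x = 1 ↔ x ∈ N) ∧
      (T2.toSubgroup.relIndex N.toSubgroup).Coprime l := by
  have hl : l.Prime := Fact.out
  have : NeZero (l ^ K) := ⟨pow_ne_zero K hl.ne_zero⟩
  have := ZMod.isCyclic_units_of_prime_pow l hl h.odd K
  let χ : T.toSubgroup →* ZMod (l ^ K) :=
    { toFun := fun g => PadicInt.toZModPow K (ξ g)
      map_one' := by rw [Subgroup.coe_one, h.one 1 T2.one_mem, map_one]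
      map_mul' := fun a b => by rw [Subgroup.coe_mul, h.mul a a.2 b b.2, map_mul] }
  let ψ : T.toSubgroup →* (ZMod (l ^ K))ˣ :=
    ((cyc_hom hE (l ^ K)).comp T.toSubgroup.subtype).toHomUnits / χ.toHomUnits
  have hψ : ∀ g : T.toSubgroup,
      (ψ g : ZMod (l ^ K)) * PadicInt.toZModPow K (ξ g) = cyc (l ^ K) (g : Gal(E/F)) := fun g =>
    congrArg Units.val (div_mul_cancel
      (((cyc_hom hE (l ^ K)).comp T.toSubgroup.subtype).toHomUnits g) (χ.toHomUnits g))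
  clear_value ψ
  have h2 : ∀ x (hx : x ∈ T2), cyc (l ^ K) x = 1 ↔ ψ ⟨x, h.le hx⟩ = 1 := fun x hx => by
    have := hψ ⟨x, h.le hx⟩
    rw [h.one _ hx, map_one, mul_one] at this
    rw [Units.ext_iff, this, Units.val_one]
  have hm : ∀ g : T.toSubgroup, (g : Gal(E/F)) ∈ ψ.ker.map T.toSubgroup.subtype ↔ ψ g = 1 :=
    fun g => Subgroup.mem_map_iff_mem T.toSubgroup.subtype_injective
  obtain ⟨W, hW⟩ := exists_cycK (F := F) hE (l ^ K)
  let N : OpenSubgroup Gal(E/F) := ⟨ψ.ker.map T.toSubgroup.subtype,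
    Subgroup.isOpen_mono (H₁ := (T2 ⊓ W.toOpenSubgroup).toSubgroup)
      (fun x hx => (hm ⟨x, h.le hx.1⟩).2 ((h2 x hx.1).1 ((hW x).1 hx.2)))
      (T2 ⊓ W.toOpenSubgroup).isOpen⟩
  have hN : ∀ g : T.toSubgroup, (g : Gal(E/F)) ∈ N ↔ ψ g = 1 := hm
  have hle : N ≤ T := Subgroup.map_subtype_le ψ.ker
  obtain ⟨x, hx⟩ := (Subgroup.isCyclic_iff_exists_zpowers_eq_top ψ.range).1 inferInstance
  obtain ⟨g1, rfl⟩ : x ∈ ψ.range := hx ▸ Subgroup.mem_zpowers x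
  obtain ⟨u, w, hu, h3, h4⟩ := zl_arith hl h.odd hK (ψ g1)
  refine ⟨N, g1, _, u, w, hle, fun g hg n hn => ?_, g1.2, orderOf_pos _, ?_, ?_, fun g hg => ?_,
    h3, h4, fun x hx => (h2 x hx).trans (hN ⟨x, h.le hx⟩).symm, ?_⟩
  · have := (hN (⟨g, hg⟩ * ⟨n, hle hn⟩ * (⟨g, hg⟩ : T.toSubgroup)⁻¹)).2 (by
      rw [map_mul, map_mul, (hN ⟨n, hle hn⟩).1 hn, mul_one, map_inv, mul_inv_cancel])
    exact this
  · rw [← Nat.card_zpowers, hx, ← Subgroup.index_ker]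
    exact congrArg Subgroup.index
      (Subgroup.comap_map_eq_self_of_injective T.toSubgroup.subtype_injective ψ.ker)
  · rw [← Subgroup.coe_pow, hN, map_pow, pow_orderOf_eq_one]
  · have : ψ ⟨g, hg⟩ ∈ Subgroup.zpowers (ψ g1) := hx ▸ ⟨_, rfl⟩
    obtain ⟨i, hi, e⟩ := Finset.mem_image.1 (mem_zpowers_iff_mem_range_orderOf.1 this)
    refine ⟨i, Finset.mem_range.1 hi, (hN ((g1 ^ i)⁻¹ * ⟨g, hg⟩)).2 ?_, ?_⟩
    · rw [map_mul, map_inv, map_pow, e, inv_mul_cancel]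
    · rw [Nat.cast_pow, hu, ← Units.val_pow_eq_pow_val, e]
      exact hψ ⟨g, hg⟩
  · obtain ⟨n, hn, h5⟩ := h.ord
    have : (T2.toSubgroup.subgroupOf N.toSubgroup).Normal :=
      ⟨fun a ha g => h.normIn g (hle g.2) a ha⟩
    refine ((Nat.Prime.coprime_iff_not_dvd hl).2 fun h6 => hn ?_).symm
    obtain ⟨q, hq⟩ := exists_prime_orderOf_dvd_card'
      (G := N.toSubgroup ⧸ T2.toSubgroup.subgroupOf N.toSubgroup) l h6
    obtain ⟨a, rfl⟩ := QuotientGroup.mk_surjective q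
    rw [← hq, orderOf_dvd_iff_pow_eq_one, ← QuotientGroup.mk_pow, QuotientGroup.eq_one_iff]
    exact h5 a (hle a.2)

end Vale.Agent.P024
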